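import Crest.Agent.S0109.BrenierA

/-!
Row 82 (S0109) job APPROX-LIMIT. Statement FROZEN; one owner.
-/

set_option autoImplicit false
open MeasureTheory Filter
open scoped ENNReal NNReal Topology
open Crest.AnalysisR.OT

namespace Crest.Agent.S0109

variable {d : ℕ}

/-- `uniformProbOn K` is a probability measure for a compact set with nonempty interior. -/
private theorem al_isProb (K : Set (EuclideanSpace ℝ (Fin d))) (hKc : IsCompact K)
    (hKi : (interior K).Nonempty) : IsProbabilityMeasure (uniformProbOn K) := by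
  have h0 : volume K ≠ 0 := by
    have h : 0 < volume (interior K) := isOpen_interior.measure_pos volume hKi
    exact (h.trans_le (measure_mono interior_subset)).ne'
  have h1 : volume K ≠ ∞ := hKc.measure_lt_top.ne
  constructor
  simp [uniformProbOn, ENNReal.inv_mul_cancel h0 h1]

/-- `uniformProbOn K` is carried by `K`. -/
private theorem al_ae_mem (K : Set (EuclideanSpace ℝ (Fin d))) (hKc : IsCompact K) :
    ∀ᵐ x ∂(uniformProbOn K), x ∈ K := by
  unfold uniformProbOn
  exact Measure.ae_smul_measure (ae_restrict_mem hKc.measurableSet) _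

/-- A function with a bounded global subgradient selection is Lipschitz. -/
private theorem al_lip (Ry : ℝ) (T : EuclideanSpace ℝ (Fin d) → EuclideanSpace ℝ (Fin d))
    (φ : EuclideanSpace ℝ (Fin d) → ℝ) (hTb : ∀ x, ‖T x‖ ≤ Ry)
    (hsub : ∀ x x', φ x + inner ℝ (T x) (x' - x) ≤ φ x') (x x' : EuclideanSpace ℝ (Fin d)) :
    |φ x - φ x'| ≤ Ry * ‖x - x'‖ := by
  have h1 := hsub x x'
  have h2 := hsub x' x
  have h3 : |inner ℝ (T x) (x' - x)| ≤ Ry * ‖x - x'‖ := by
    calc |inner ℝ (T x) (x' - x)| ≤ ‖T x‖ * ‖x' - x‖ := abs_real_inner_le_norm _ _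
      _ ≤ Ry * ‖x - x'‖ := by
        rw [norm_sub_rev]; exact mul_le_mul_of_nonneg_right (hTb x) (norm_nonneg _)
  have h4 : |inner ℝ (T x') (x - x')| ≤ Ry * ‖x - x'‖ := by
    calc |inner ℝ (T x') (x - x')| ≤ ‖T x'‖ * ‖x - x'‖ := abs_real_inner_le_norm _ _
      _ ≤ Ry * ‖x - x'‖ := mul_le_mul_of_nonneg_right (hTb x') (norm_nonneg _)
  rw [abs_le]
  constructor <;> linarith [abs_le.mp h3, abs_le.mp h4]

/-- Compactness and identification of the limit (job APPROX-LIMIT).  Normalise `φ N x₀ = 0`; the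
`φ N` are `Ry`-Lipschitz (from `hsub`, `hTb`); Arzelà–Ascoli on `K` gives a uniformly convergent
subsequence with limit `φ'` (`Ry`-Lipschitz on `K`, a.e. differentiable: `brenier_ae_diff`).
At a.e. `x ∈ interior K`, every cluster point `v` of the bounded sequence `T (ns j) x` satisfies
`φ' x + ⟪v, x' - x⟫ ≤ φ' x'` on `K`, so it is the unique subgradient (`brenier_subgrad_unique`):
the sequence converges.  `S` := measurable a.e.-limit (`measurable_limit_of_tendsto_metrizable_ae`).
`ρ.map S = μ` by testing against bounded continuous functions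
(`ext_of_forall_integral_eq_of_IsFiniteMeasure`, dominated convergence twice: `T (ns j) → S` a.e.
and `q N y → y`). -/
theorem approx_limit (K : Set (EuclideanSpace ℝ (Fin d))) (hKc : IsCompact K)
    (hKv : Convex ℝ K) (hKi : (interior K).Nonempty)
    (μ : Measure (EuclideanSpace ℝ (Fin d))) [IsProbabilityMeasure μ] (Ry : ℝ) (hRy : 0 ≤ Ry)
    (T : ℕ → EuclideanSpace ℝ (Fin d) → EuclideanSpace ℝ (Fin d))
    (φ : ℕ → EuclideanSpace ℝ (Fin d) → ℝ)
    (q : ℕ → EuclideanSpace ℝ (Fin d) → EuclideanSpace ℝ (Fin d)) (δ : ℕ → ℝ)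
    (hδ : Tendsto δ atTop (𝓝 0))
    (hTm : ∀ N, Measurable (T N)) (hTb : ∀ N x, ‖T N x‖ ≤ Ry)
    (hsub : ∀ N x x', φ N x + inner ℝ (T N x) (x' - x) ≤ φ N x')
    (hqm : ∀ N, Measurable (q N)) (hqc : ∀ N x, ‖q N x - x‖ ≤ δ N)
    (hpush : ∀ N, (uniformProbOn K).map (T N) = μ.map (q N)) :
    ∃ (S : EuclideanSpace ℝ (Fin d) → EuclideanSpace ℝ (Fin d))
      (φ' : EuclideanSpace ℝ (Fin d) → ℝ) (ns : ℕ → ℕ),
      StrictMono ns ∧ Measurable S ∧ (uniformProbOn K).map S = μ ∧
      LipschitzOnWith (Real.toNNReal Ry) φ' K ∧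
      (∀ᵐ x ∂(uniformProbOn K), ‖S x‖ ≤ Ry ∧
        ∀ x' ∈ K, φ' x + inner ℝ (S x) (x' - x) ≤ φ' x') ∧
      ∀ᵐ x ∂(uniformProbOn K), Tendsto (fun j => T (ns j) x) atTop (𝓝 (S x)) := by
  classical
  have : IsProbabilityMeasure (uniformProbOn K) := al_isProb K hKc hKi
  obtain ⟨x₀, hx₀i⟩ := hKi
  have hx₀ : x₀ ∈ K := interior_subset hx₀i
  -- normalised potentials
  set ψ : ℕ → EuclideanSpace ℝ (Fin d) → ℝ := fun N x => φ N x - φ N x₀ with hψ
  have hψsub : ∀ N x x', ψ N x + inner ℝ (T N x) (x' - x) ≤ ψ N x' := by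
    intro N x x'
    simp only [hψ]
    linarith [hsub N x x']
  have hψlip : ∀ N x x', |ψ N x - ψ N x'| ≤ Ry * ‖x - x'‖ := fun N x x' =>
    al_lip Ry (T N) (ψ N) (hTb N) (hψsub N) x x'
  have hψ0 : ∀ N, ψ N x₀ = 0 := by
    intro N
    simp [hψ]
  have : CompactSpace K := isCompact_iff_compactSpace.mp hKc
  obtain ⟨D, hD⟩ : ∃ D : ℝ, ∀ x ∈ K, ‖x - x₀‖ ≤ D := by
    obtain ⟨D, hD⟩ := hKc.isBounded.subset_closedBall x₀
    exact ⟨D, fun x hx => by simpa [dist_eq_norm] using hD hx⟩
  have hψcont : ∀ N, Continuous (ψ N) := by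
    intro N
    have hL : LipschitzWith (Real.toNNReal Ry) (ψ N) := by
      refine LipschitzWith.of_dist_le_mul (fun x x' => ?_)
      rw [Real.dist_eq, dist_eq_norm, Real.coe_toNNReal Ry hRy]
      exact hψlip N x x'
    exact hL.continuous
  -- the sequence as bounded continuous functions on the compact space `K`
  let F : ℕ → BoundedContinuousFunction K ℝ := fun N =>
    BoundedContinuousFunction.mkOfCompact
      ⟨fun x : K => ψ N x, (hψcont N).comp continuous_subtype_val⟩
  have hFapp : ∀ N (x : K), F N x = ψ N x := fun N x => rfl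
  have hcomp : IsCompact (closure (Set.range F)) := by
    refine BoundedContinuousFunction.arzela_ascoli (Metric.closedBall (0 : ℝ) (Ry * D))
      (isCompact_closedBall _ _) (Set.range F) ?_ ?_
    · rintro f x ⟨N, rfl⟩
      rw [mem_closedBall_zero_iff, hFapp, Real.norm_eq_abs]
      have h := hψlip N x x₀
      rw [hψ0 N, sub_zero] at h
      exact h.trans (mul_le_mul_of_nonneg_left (hD x x.2) hRy)
    · refine Metric.equicontinuous_of_continuity_modulus (fun r => Ry * r) ?_ _ ?_
      · have h : Tendsto (fun r : ℝ => Ry * r) (𝓝 0) (𝓝 (Ry * 0)) :=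
          tendsto_id.const_mul Ry
        simpa using h
      · rintro x y ⟨f, N, rfl⟩
        show dist (F N x) (F N y) ≤ Ry * dist x y
        rw [hFapp, hFapp, Real.dist_eq, Subtype.dist_eq, dist_eq_norm]
        exact hψlip N x y
  obtain ⟨F', -, ns, hns, hlim⟩ :=
    hcomp.tendsto_subseq (x := F) (fun N => subset_closure ⟨N, rfl⟩)
  let φ' : EuclideanSpace ℝ (Fin d) → ℝ := fun x => if hx : x ∈ K then F' ⟨x, hx⟩ else 0
  have hpt : ∀ x ∈ K, Tendsto (fun j => ψ (ns j) x) atTop (𝓝 (φ' x)) := by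
    intro x hx
    have h := ((continuous_eval_const (⟨x, hx⟩ : K)).tendsto F').comp hlim
    have h2 : φ' x = F' ⟨x, hx⟩ := by simp [φ', hx]
    rw [h2]
    exact h
  have hφ'lip : LipschitzOnWith (Real.toNNReal Ry) φ' K := by
    refine LipschitzOnWith.of_dist_le_mul (fun x hx y hy => ?_)
    rw [Real.dist_eq, dist_eq_norm, Real.coe_toNNReal Ry hRy]
    have h : Tendsto (fun j => |ψ (ns j) x - ψ (ns j) y|) atTop (𝓝 |φ' x - φ' y|) :=
      ((hpt x hx).sub (hpt y hy)).abs
    exact le_of_tendsto' h (fun j => hψlip (ns j) x y)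
  have hdiff := brenier_ae_diff K hKc hKv φ' (Real.toNNReal Ry) hφ'lip
  have hmemK := al_ae_mem K hKc
  -- convergence of `T (ns j) x` at every interior point of differentiability
  have hkey : ∀ x, x ∈ interior K → DifferentiableWithinAt ℝ φ' K x →
      ∃ l, Tendsto (fun j => T (ns j) x) atTop (𝓝 l) := by
    intro x hxi hxd
    have hxK : x ∈ K := interior_subset hxi
    have hcb : IsCompact (Metric.closedBall (0 : EuclideanSpace ℝ (Fin d)) Ry) :=
      isCompact_closedBall _ _
    have hmem : ∀ j, T (ns j) x ∈ Metric.closedBall (0 : EuclideanSpace ℝ (Fin d)) Ry :=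
      fun j => by simpa using hTb (ns j) x
    have hclus : ∀ v, MapClusterPt v atTop (fun j => T (ns j) x) →
        ∀ x' ∈ K, φ' x + inner ℝ v (x' - x) ≤ φ' x' := by
      intro v hv x' hx'
      obtain ⟨ψs, hψs, hψlim⟩ := hv.tendsto_subseq
      have h1 : Tendsto (fun k => ψ (ns (ψs k)) x + inner ℝ (T (ns (ψs k)) x) (x' - x)) atTop
          (𝓝 (φ' x + inner ℝ v (x' - x))) :=
        ((hpt x hxK).comp hψs.tendsto_atTop).add (hψlim.inner tendsto_const_nhds)
      have h2 : Tendsto (fun k => ψ (ns (ψs k)) x') atTop (𝓝 (φ' x')) :=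
        (hpt x' hx').comp hψs.tendsto_atTop
      exact le_of_tendsto_of_tendsto' h1 h2 (fun k => hψsub _ x x')
    obtain ⟨v₀, -, hv₀⟩ := hcb.exists_mapClusterPt_of_frequently (l := atTop)
      (f := fun j => T (ns j) x) (Frequently.of_forall hmem)
    refine ⟨v₀, hcb.tendsto_nhds_of_unique_mapClusterPt (Eventually.of_forall hmem) ?_⟩
    intro v _ hv
    exact brenier_subgrad_unique K φ' x hxi hxd v v₀ (hclus v hv) (hclus v₀ hv₀)
  have hex : ∀ᵐ x ∂(uniformProbOn K), ∃ l, Tendsto (fun j => T (ns j) x) atTop (𝓝 l) := by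
    filter_upwards [hdiff] with x hx using hkey x hx.1 hx.2
  obtain ⟨S, hSm, hSlim⟩ := measurable_limit_of_tendsto_metrizable_ae
    (μ := uniformProbOn K) (f := fun j => T (ns j)) (L := atTop)
    (fun j => (hTm (ns j)).aemeasurable) hex
  have hae : ∀ᵐ x ∂(uniformProbOn K), ‖S x‖ ≤ Ry ∧
      ∀ x' ∈ K, φ' x + inner ℝ (S x) (x' - x) ≤ φ' x' := by
    filter_upwards [hSlim, hmemK] with x hx hxK
    refine ⟨le_of_tendsto' hx.norm (fun j => hTb (ns j) x), fun x' hx' => ?_⟩
    exact le_of_tendsto_of_tendsto' ((hpt x hxK).add (hx.inner tendsto_const_nhds)) (hpt x' hx')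
      (fun j => hψsub (ns j) x x')
  have hmap : (uniformProbOn K).map S = μ := by
    have : IsProbabilityMeasure ((uniformProbOn K).map S) :=
      Measure.isProbabilityMeasure_map hSm.aemeasurable
    refine ext_of_forall_integral_eq_of_IsFiniteMeasure (fun f => ?_)
    rw [integral_map hSm.aemeasurable f.continuous.aestronglyMeasurable]
    have L1 : Tendsto (fun j => ∫ x, f (T (ns j) x) ∂(uniformProbOn K)) atTop
        (𝓝 (∫ x, f (S x) ∂(uniformProbOn K))) := by
      refine tendsto_integral_of_dominated_convergence (fun _ => ‖f‖) ?_ (integrable_const _) ?_ ?_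
      · intro j
        exact (f.continuous.measurable.comp (hTm (ns j))).aestronglyMeasurable
      · intro j
        exact Eventually.of_forall (fun x => f.norm_coe_le_norm _)
      · filter_upwards [hSlim] with x hx
        exact (f.continuous.tendsto _).comp hx
    have L2 : Tendsto (fun j => ∫ y, f (q (ns j) y) ∂μ) atTop (𝓝 (∫ y, f y ∂μ)) := by
      refine tendsto_integral_of_dominated_convergence (fun _ => ‖f‖) ?_ (integrable_const _) ?_ ?_
      · intro j
        exact (f.continuous.measurable.comp (hqm (ns j))).aestronglyMeasurable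
      · intro j
        exact Eventually.of_forall (fun x => f.norm_coe_le_norm _)
      · refine Eventually.of_forall (fun y => (f.continuous.tendsto _).comp ?_)
        exact tendsto_iff_norm_sub_tendsto_zero.mpr
          (squeeze_zero (fun _ => norm_nonneg _) (fun j => hqc (ns j) y)
            (hδ.comp hns.tendsto_atTop))
    have heq : ∀ j, ∫ x, f (T (ns j) x) ∂(uniformProbOn K) = ∫ y, f (q (ns j) y) ∂μ := by
      intro j
      rw [← integral_map (hTm (ns j)).aemeasurable f.continuous.aestronglyMeasurable,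
        hpush (ns j), integral_map (hqm (ns j)).aemeasurable f.continuous.aestronglyMeasurable]
    have L2' : Tendsto (fun j => ∫ x, f (T (ns j) x) ∂(uniformProbOn K)) atTop
        (𝓝 (∫ y, f y ∂μ)) := by
      simpa only [heq] using L2
    exact tendsto_nhds_unique L1 L2'
  exact ⟨S, φ', ns, hns, hSm, hmap, hφ'lip, hae, hSlim⟩

end Crest.Agent.S0109
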