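import Crest.Agent.S0109.ApproxDisc
import Crest.Agent.S0109.ApproxLimit

/-!
Row 82 (S0109) job APPROX-MAIN. Statement FROZEN; one owner.
-/

set_option autoImplicit false
open MeasureTheory Filter
open scoped ENNReal NNReal Topology
open Crest.AnalysisR.OT

namespace Crest.Agent.S0109

variable {d : ℕ}

/-- `uniformProbOn K` is a probability measure for a compact set with nonempty interior
(private copy, so that this file does not depend on the module `Cells`). -/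
private lemma approx_main_isProb (K : Set (EuclideanSpace ℝ (Fin d))) (hKc : IsCompact K)
    (hKi : (interior K).Nonempty) : IsProbabilityMeasure (uniformProbOn K) := by
  have h0 : volume K ≠ 0 := by
    have h : 0 < volume (interior K) := isOpen_interior.measure_pos volume hKi
    exact (lt_of_lt_of_le h (measure_mono interior_subset)).ne'
  have h1 : volume K ≠ ∞ := hKc.measure_lt_top.ne
  constructor
  simp [uniformProbOn, ENNReal.inv_mul_cancel h0 h1]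

/-- General targets (job APPROX-MAIN): Brenier maps `Sμ`, `Sν` with the stability estimate.
`approx_discrete` for every `N`, `approx_limit` for `μ`, then for `ν` along the subsequence,
dominated convergence (`‖·‖ ≤ 2 Ry`) and continuity of the right-hand side in `N`;
`quadCost π < ∞` because `π` is carried by `Y ×ˢ Y`. -/
theorem approx_main (K : Set (EuclideanSpace ℝ (Fin d))) (hKc : IsCompact K)
    (hKv : Convex ℝ K) (hKi : (interior K).Nonempty) (Y : Set (EuclideanSpace ℝ (Fin d)))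
    (hYc : IsCompact Y) (hYn : Y.Nonempty) :
    ∃ (C : ℝ≥0) (Ry : ℝ), ∀ (μ ν : Measure (EuclideanSpace ℝ (Fin d))),
      IsProbabilityOn Y μ → IsProbabilityOn Y ν →
      ∀ π : Measure (EuclideanSpace ℝ (Fin d) × EuclideanSpace ℝ (Fin d)),
      IsPairCoupling μ ν π →
      ∃ (Sμ Sν : EuclideanSpace ℝ (Fin d) → EuclideanSpace ℝ (Fin d))
        (φμ φν : EuclideanSpace ℝ (Fin d) → ℝ),
        Measurable Sμ ∧ Measurable Sν ∧
        (uniformProbOn K).map Sμ = μ ∧ (uniformProbOn K).map Sν = ν ∧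
        LipschitzOnWith (Real.toNNReal Ry) φμ K ∧ LipschitzOnWith (Real.toNNReal Ry) φν K ∧
        (∀ᵐ x ∂(uniformProbOn K), ‖Sμ x‖ ≤ Ry ∧
          ∀ x' ∈ K, φμ x + inner ℝ (Sμ x) (x' - x) ≤ φμ x') ∧
        (∀ᵐ x ∂(uniformProbOn K), ‖Sν x‖ ≤ Ry ∧
          ∀ x' ∈ K, φν x + inner ℝ (Sν x) (x' - x) ≤ φν x') ∧
        ∫⁻ x, ‖Sμ x - Sν x‖ₑ ^ 2 ∂(uniformProbOn K) ≤ C * quadCost π ^ (1 / 3 : ℝ) := by
  obtain ⟨C₀, Ry, hC₀, hRy, H⟩ := approx_discrete K hKc hKv hKi Y hYc hYn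
  refine ⟨Real.toNNReal C₀ + 1, Ry, ?_⟩
  intro μ ν hμ hν π hπ
  have : IsProbabilityMeasure (uniformProbOn K) := approx_main_isProb K hKc hKi
  have : IsProbabilityMeasure μ := hμ.1
  have : IsProbabilityMeasure ν := hν.1
  choose Tμ Tν q φμ φν hTμm hTνm hqm hTμb hTνb hsubμ hsubν hqc hpushμ hpushν hest
    using H μ ν hμ hν π hπ
  have hδ : Tendsto (fun N : ℕ => 1 / ((N : ℝ) + 1)) atTop (𝓝 0) :=
    tendsto_one_div_add_atTop_nhds_zero_nat
  obtain ⟨Sμ, φμ', ns₁, hns₁, hSμm, hSμpush, hφμL, hSμsub, hSμlim⟩ :=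
    approx_limit K hKc hKv hKi μ Ry hRy Tμ φμ q (fun N => 1 / ((N : ℝ) + 1)) hδ
      hTμm hTμb hsubμ hqm hqc hpushμ
  obtain ⟨Sν, φν', ns₂, hns₂, hSνm, hSνpush, hφνL, hSνsub, hSνlim⟩ :=
    approx_limit K hKc hKv hKi ν Ry hRy (fun j => Tν (ns₁ j)) (fun j => φν (ns₁ j))
      (fun j => q (ns₁ j)) (fun j => 1 / ((ns₁ j : ℝ) + 1)) (hδ.comp hns₁.tendsto_atTop)
      (fun j => hTνm _) (fun j => hTνb _) (fun j => hsubν _) (fun j => hqm _)
      (fun j => hqc _) (fun j => hpushν _)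
  refine ⟨Sμ, Sν, φμ', φν', hSμm, hSνm, hSμpush, hSνpush, hφμL, hφνL, hSμsub, hSνsub, ?_⟩
  by_cases htop : quadCost π = ⊤
  · have h3 : (⊤ : ℝ≥0∞) ^ (1 / 3 : ℝ) = ⊤ := ENNReal.top_rpow_of_pos (by norm_num)
    have hC : ((Real.toNNReal C₀ + 1 : ℝ≥0) : ℝ≥0∞) ≠ 0 := by
      simp
    rw [htop, h3, ENNReal.mul_top hC]
    exact le_top
  · have hc0 : 0 ≤ (quadCost π).toReal := ENNReal.toReal_nonneg
    have hnmono : StrictMono (fun j => ns₁ (ns₂ j)) := hns₁.comp hns₂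
    have hlimμ : ∀ᵐ x ∂(uniformProbOn K),
        Tendsto (fun j => Tμ (ns₁ (ns₂ j)) x) atTop (𝓝 (Sμ x)) := by
      filter_upwards [hSμlim] with x hx
      exact hx.comp hns₂.tendsto_atTop
    have hF : Tendsto
        (fun j => ∫ x, ‖Tμ (ns₁ (ns₂ j)) x - Tν (ns₁ (ns₂ j)) x‖ ^ 2 ∂(uniformProbOn K)) atTop
        (𝓝 (∫ x, ‖Sμ x - Sν x‖ ^ 2 ∂(uniformProbOn K))) := by
      refine tendsto_integral_of_dominated_convergence (fun _ => (2 * Ry) ^ 2) ?_ ?_ ?_ ?_
      · intro j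
        exact (((hTμm (ns₁ (ns₂ j))).sub (hTνm (ns₁ (ns₂ j)))).norm.pow_const
          2).aestronglyMeasurable
      · exact integrable_const _
      · intro j
        refine Eventually.of_forall (fun x => ?_)
        rw [Real.norm_eq_abs, abs_of_nonneg (by positivity)]
        have h1 : ‖Tμ (ns₁ (ns₂ j)) x - Tν (ns₁ (ns₂ j)) x‖ ≤ 2 * Ry := by
          calc ‖Tμ (ns₁ (ns₂ j)) x - Tν (ns₁ (ns₂ j)) x‖
              ≤ ‖Tμ (ns₁ (ns₂ j)) x‖ + ‖Tν (ns₁ (ns₂ j)) x‖ := norm_sub_le _ _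
            _ ≤ Ry + Ry := add_le_add (hTμb _ _) (hTνb _ _)
            _ = 2 * Ry := by ring
        exact pow_le_pow_left₀ (norm_nonneg _) h1 2
      · filter_upwards [hlimμ, hSνlim] with x hx1 hx2
        exact ((hx1.sub hx2).norm).pow 2
    have hG : Tendsto
        (fun j : ℕ => C₀ * ((Real.sqrt (quadCost π).toReal +
          2 / (((ns₁ (ns₂ j) : ℕ) : ℝ) + 1)) ^ 2) ^ (1 / 3 : ℝ)) atTop
        (𝓝 (C₀ * ((Real.sqrt (quadCost π).toReal + 0) ^ 2) ^ (1 / 3 : ℝ))) := by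
      have h2 : Tendsto (fun j : ℕ => 2 / (((ns₁ (ns₂ j) : ℕ) : ℝ) + 1)) atTop (𝓝 0) := by
        have h := (hδ.comp hnmono.tendsto_atTop).const_mul 2
        rw [mul_zero] at h
        refine h.congr (fun j => ?_)
        simp only [Function.comp]
        ring
      have h3 : Tendsto (fun j : ℕ => (Real.sqrt (quadCost π).toReal +
          2 / (((ns₁ (ns₂ j) : ℕ) : ℝ) + 1)) ^ 2) atTop
          (𝓝 ((Real.sqrt (quadCost π).toReal + 0) ^ 2)) :=
        (tendsto_const_nhds.add h2).pow 2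
      exact (h3.rpow_const (Or.inr (by norm_num))).const_mul C₀
    have hle : ∫ x, ‖Sμ x - Sν x‖ ^ 2 ∂(uniformProbOn K) ≤
        C₀ * ((Real.sqrt (quadCost π).toReal + 0) ^ 2) ^ (1 / 3 : ℝ) :=
      le_of_tendsto_of_tendsto' hF hG (fun j => hest (ns₁ (ns₂ j)))
    have hle' : ∫ x, ‖Sμ x - Sν x‖ ^ 2 ∂(uniformProbOn K) ≤
        C₀ * (quadCost π).toReal ^ (1 / 3 : ℝ) := by
      rw [add_zero, Real.sq_sqrt hc0] at hle
      exact hle
    have hint : Integrable (fun x => ‖Sμ x - Sν x‖ ^ 2) (uniformProbOn K) := by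
      refine Integrable.mono' (integrable_const ((2 * Ry) ^ 2))
        ((hSμm.sub hSνm).norm.pow_const 2).aestronglyMeasurable ?_
      filter_upwards [hSμsub, hSνsub] with x hx1 hx2
      rw [Real.norm_eq_abs, abs_of_nonneg (by positivity)]
      have h1 : ‖Sμ x - Sν x‖ ≤ 2 * Ry := by
        calc ‖Sμ x - Sν x‖ ≤ ‖Sμ x‖ + ‖Sν x‖ := norm_sub_le _ _
          _ ≤ Ry + Ry := add_le_add hx1.1 hx2.1
          _ = 2 * Ry := by ring
      exact pow_le_pow_left₀ (norm_nonneg _) h1 2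
    have hconv : ∫⁻ x, ‖Sμ x - Sν x‖ₑ ^ 2 ∂(uniformProbOn K) =
        ENNReal.ofReal (∫ x, ‖Sμ x - Sν x‖ ^ 2 ∂(uniformProbOn K)) := by
      rw [ofReal_integral_eq_lintegral_ofReal hint
        (Eventually.of_forall (fun x => by positivity))]
      refine lintegral_congr (fun x => ?_)
      rw [ENNReal.ofReal_pow (norm_nonneg _), ofReal_norm]
    rw [hconv]
    calc ENNReal.ofReal (∫ x, ‖Sμ x - Sν x‖ ^ 2 ∂(uniformProbOn K))
        ≤ ENNReal.ofReal (C₀ * (quadCost π).toReal ^ (1 / 3 : ℝ)) :=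
          ENNReal.ofReal_le_ofReal hle'
      _ = ENNReal.ofReal C₀ * ENNReal.ofReal ((quadCost π).toReal ^ (1 / 3 : ℝ)) :=
          ENNReal.ofReal_mul hC₀
      _ = ENNReal.ofReal C₀ * quadCost π ^ (1 / 3 : ℝ) := by
          rw [← ENNReal.ofReal_rpow_of_nonneg hc0 (by norm_num), ENNReal.ofReal_toReal htop]
      _ ≤ ((Real.toNNReal C₀ + 1 : ℝ≥0) : ℝ≥0∞) * quadCost π ^ (1 / 3 : ℝ) := by
          gcongr
          rw [ENNReal.ofReal]
          exact_mod_cast le_self_add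

end Crest.Agent.S0109
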