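import Mathlib
import Crest.Prelude.Def_QuadraticTransport

/-!
# Row 82 (S0109 / S0110): the Fenchel lemma for Monge-optimal maps

`ρ = uniformProbOn K` for a compact `K` of positive volume, `μ` a probability measure carried by a
compact `Y`, `φ` continuous on `K`.

* `IsSubgradOn K φ x y` : `y` is a subgradient of `φ` at `x` relative to `K`.
* `isOptimalMap_of_subgrad` : a measurable map `S` with `S#ρ = μ` which is a.e. a subgradient
  selection of `φ` is an optimal map in the sense of the Prelude.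
* `ae_subgrad_of_isOptimalMap` : if such an `S` exists, then *every* optimal map `T` from `ρ` to
  `μ` is a.e. a subgradient selection of `φ`.
* `subgrad_unique_of_affine_near` : if `φ` is affine with slope `y₀` near `x ∈ interior K`, then
  the only subgradient at `x` is `y₀`.
-/

set_option autoImplicit false

open MeasureTheory Set Filter
open scoped ENNReal NNReal Topology RealInnerProductSpace
open Crest.AnalysisR.OT

namespace Crest.Agent.S0109.Fenchel

variable {d : ℕ}

local notation "E" d => EuclideanSpace ℝ (Fin d)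

/-- `y` is a subgradient of `φ` at `x` relative to the set `K`. -/
def IsSubgradOn (K : Set (E d)) (φ : (E d) → ℝ) (x y : E d) : Prop :=
  ∀ x' ∈ K, φ x + ⟪y, x' - x⟫ ≤ φ x'

/-- The conjugate of `φ` relative to `K`. -/
noncomputable def conj (K : Set (E d)) (φ : (E d) → ℝ) (y : E d) : ℝ :=
  ⨆ x' : K, (⟪(x' : E d), y⟫ - φ x')

section basic

variable {K : Set (E d)} {φ : (E d) → ℝ}

lemma uniformProbOn_isProb (hK : volume K ≠ 0) (hK' : volume K ≠ ∞) :
    IsProbabilityMeasure (uniformProbOn K) := by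
  constructor
  simp [uniformProbOn, ENNReal.inv_mul_cancel hK hK']

lemma ae_mem_uniformProbOn (hKm : MeasurableSet K) : ∀ᵐ x ∂(uniformProbOn K), x ∈ K := by
  unfold uniformProbOn
  apply Measure.ae_smul_measure
  exact ae_restrict_mem hKm

lemma ae_map_mem {ρ μ : Measure (E d)} {T : (E d) → (E d)} (hT : Measurable T)
    (hTμ : ρ.map T = μ) {Y : Set (E d)} (hYm : MeasurableSet Y) (hμY : μ Yᶜ = 0) : ∀ᵐ x ∂ρ, T x ∈ Y := by
  rw [← hTμ, Measure.map_apply hT hYm.compl] at hμY
  rw [ae_iff]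
  exact measure_mono_null (fun x hx => hx) hμY

lemma conj_bdd (hKc : IsCompact K) (hφ : ContinuousOn φ K) (y : E d) :
    BddAbove (Set.range fun x' : K => (⟪(x' : E d), y⟫ - φ x')) := by
  have hc : ContinuousOn (fun x' : (E d) => ⟪x', y⟫ - φ x') K := by
    apply ContinuousOn.sub _ hφ
    fun_prop
  have h := hKc.bddAbove_image hc
  rwa [Set.image_eq_range] at h

lemma le_conj (hKc : IsCompact K) (hφ : ContinuousOn φ K) {x : E d} (hx : x ∈ K) (y : E d) :
    ⟪x, y⟫ - φ x ≤ conj K φ y :=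
  le_ciSup (conj_bdd hKc hφ y) ⟨x, hx⟩

lemma conj_eq_of_subgrad (hKc : IsCompact K) (hφ : ContinuousOn φ K) {x y : E d} (hx : x ∈ K)
    (h : IsSubgradOn K φ x y) : conj K φ y = ⟪x, y⟫ - φ x := by
  apply le_antisymm
  · have : Nonempty K := ⟨⟨x, hx⟩⟩
    apply ciSup_le
    rintro ⟨x', hx'⟩
    have := h x' hx'
    simp only [inner_sub_right] at this
    rw [real_inner_comm x' y, real_inner_comm x y] at this
    simp only
    linarith
  · exact le_conj hKc hφ hx y

lemma subgrad_of_conj_le (hKc : IsCompact K) (hφ : ContinuousOn φ K) {x y : E d}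
    (h : φ x + conj K φ y ≤ ⟪x, y⟫) : IsSubgradOn K φ x y := by
  intro x' hx'
  have := le_conj hKc hφ hx' y
  simp only [inner_sub_right]
  rw [real_inner_comm x' y, real_inner_comm x y]
  linarith

lemma conj_lsc (hKc : IsCompact K) (hφ : ContinuousOn φ K) : LowerSemicontinuous (conj K φ) := by
  unfold conj
  apply lowerSemicontinuous_ciSup (fun y => conj_bdd hKc hφ y)
  intro x'
  apply Continuous.lowerSemicontinuous
  fun_prop

lemma conj_measurable (hKc : IsCompact K) (hφ : ContinuousOn φ K) : Measurable (conj K φ) :=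
  (conj_lsc hKc hφ).measurable

end basic

section main

variable {K Y : Set (E d)} {φ : (E d) → ℝ} {μ : Measure (E d)}

/-- The Fenchel gap `φ x + φ*(T x) - ⟪x, T x⟫` of a map `T`. -/
noncomputable def gap (K : Set (E d)) (φ : (E d) → ℝ) (T : (E d) → (E d)) (x : E d) : ℝ :=
  φ x + conj K φ (T x) - ⟪x, T x⟫

lemma gap_nonneg (hKc : IsCompact K) (hφ : ContinuousOn φ K) (T : (E d) → (E d)) {x : E d}
    (hx : x ∈ K) : 0 ≤ gap K φ T x := by
  have := le_conj hKc hφ hx (T x)
  unfold gap
  linarith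

/-- Decomposition of the quadratic cost of a transport map `T` from `uniformProbOn K` to `μ`:
a part depending only on `(K, φ)`, a part depending only on `μ`, and twice the integral of the
Fenchel gap of `T`. -/
lemma cost_decomp (hKc : IsCompact K) (hKv : volume K ≠ 0) (hφ : ContinuousOn φ K)
    (hYc : IsCompact Y) (hμ : IsProbabilityOn Y μ) {T : (E d) → (E d)} (hT : Measurable T)
    (hTμ : (uniformProbOn K).map T = μ) :
    Integrable (gap K φ T) (uniformProbOn K) ∧
    ∫⁻ x, ‖x - T x‖ₑ ^ 2 ∂(uniformProbOn K) =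
      ENNReal.ofReal ((∫ x, (‖x‖ ^ 2 - 2 * φ x) ∂(uniformProbOn K))
        + (∫ y, (‖y‖ ^ 2 - 2 * conj K φ y) ∂μ)
        + 2 * ∫ x, gap K φ T x ∂(uniformProbOn K)) ∧
    0 ≤ (∫ x, (‖x‖ ^ 2 - 2 * φ x) ∂(uniformProbOn K))
        + (∫ y, (‖y‖ ^ 2 - 2 * conj K φ y) ∂μ)
        + 2 * ∫ x, gap K φ T x ∂(uniformProbOn K) := by
  set ρ := uniformProbOn K with hρ
  have hKm : MeasurableSet K := hKc.measurableSet
  have hYm : MeasurableSet Y := hYc.measurableSet
  have : IsProbabilityMeasure ρ := uniformProbOn_isProb hKv hKc.measure_lt_top.ne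
  have : IsProbabilityMeasure μ := hμ.1
  obtain ⟨RK, hRK⟩ := hKc.isBounded.exists_norm_le
  obtain ⟨RY, hRY⟩ := hYc.isBounded.exists_norm_le
  obtain ⟨M, hM⟩ := hKc.exists_bound_of_continuousOn hφ
  have hxK : ∀ᵐ x ∂ρ, x ∈ K := ae_mem_uniformProbOn hKm
  have hTY : ∀ᵐ x ∂ρ, T x ∈ Y := ae_map_mem hT hTμ hYm hμ.2
  have hyY : ∀ᵐ y ∂μ, y ∈ Y := by
    rw [ae_iff]
    exact hμ.2
  obtain ⟨x0, hx0⟩ : K.Nonempty := nonempty_of_measure_ne_zero hKv
  have hRK0 : 0 ≤ RK := (norm_nonneg x0).trans (hRK x0 hx0)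
  have hM' : ∀ x ∈ K, |φ x| ≤ M := fun x hx => by
    have := hM x hx
    rwa [Real.norm_eq_abs] at this
  -- bounds on the conjugate
  have hconj_bd : ∀ y, |conj K φ y| ≤ RK * ‖y‖ + M := by
    intro y
    rw [abs_le]
    constructor
    · have h1 := le_conj hKc hφ hx0 y
      have h2 : |⟪x0, y⟫| ≤ ‖x0‖ * ‖y‖ := abs_real_inner_le_norm x0 y
      have h3 := hM' x0 hx0
      have h4 : ‖x0‖ * ‖y‖ ≤ RK * ‖y‖ :=
        mul_le_mul_of_nonneg_right (hRK x0 hx0) (norm_nonneg y)
      have h5 := abs_le.mp h2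
      have h6 := abs_le.mp h3
      linarith
    · have : Nonempty K := ⟨⟨x0, hx0⟩⟩
      apply ciSup_le
      rintro ⟨x', hx'⟩
      have h2 : |⟪x', y⟫| ≤ ‖x'‖ * ‖y‖ := abs_real_inner_le_norm x' y
      have h3 := hM' x' hx'
      have h4 : ‖x'‖ * ‖y‖ ≤ RK * ‖y‖ :=
        mul_le_mul_of_nonneg_right (hRK x' hx') (norm_nonneg y)
      have h5 := abs_le.mp h2
      have h6 := abs_le.mp h3
      simp only
      linarith
  -- measurability
  have hφm : AEStronglyMeasurable φ ρ := by
    rw [hρ]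
    unfold uniformProbOn
    exact (hφ.aestronglyMeasurable hKm).smul_measure _
  have hcm : Measurable (conj K φ) := conj_measurable hKc hφ
  have hnm : Measurable (fun x : E d => ‖x‖ ^ 2) := by fun_prop
  -- integrability of the three pieces
  have ha : Integrable (fun x => ‖x‖ ^ 2 - 2 * φ x) ρ := by
    refine Integrable.of_bound (hnm.aestronglyMeasurable.sub (hφm.const_mul 2))
      (RK ^ 2 + 2 * M) ?_
    · filter_upwards [hxK] with x hx
      have h3 := abs_le.mp (hM' x hx)
      have h1 := hRK x hx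
      have h2 : ‖x‖ ^ 2 ≤ RK ^ 2 := pow_le_pow_left₀ (norm_nonneg x) h1 2
      rw [Real.norm_eq_abs, abs_le]
      constructor <;> nlinarith [sq_nonneg ‖x‖]
  have hb : Integrable (fun y => ‖y‖ ^ 2 - 2 * conj K φ y) μ := by
    refine Integrable.of_bound (hnm.sub (hcm.const_mul 2)).aestronglyMeasurable
      (RY ^ 2 + 2 * (RK * RY + M)) ?_
    · filter_upwards [hyY] with y hy
      have h3 := abs_le.mp (hconj_bd y)
      have h1 := hRY y hy
      have h2 : ‖y‖ ^ 2 ≤ RY ^ 2 := pow_le_pow_left₀ (norm_nonneg y) h1 2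
      have h4 : RK * ‖y‖ ≤ RK * RY := mul_le_mul_of_nonneg_left h1 hRK0
      rw [Real.norm_eq_abs, abs_le]
      constructor <;> nlinarith [sq_nonneg ‖y‖]
  have hg : Integrable (gap K φ T) ρ := by
    have hgm : AEStronglyMeasurable (gap K φ T) ρ := by
      unfold gap
      refine (hφm.add (hcm.comp hT).aestronglyMeasurable).sub ?_
      exact (measurable_id.inner hT).aestronglyMeasurable
    refine Integrable.of_bound hgm (M + (RK * RY + M) + RK * RY) ?_
    · filter_upwards [hxK, hTY] with x hx hy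
      have h3 := abs_le.mp (hconj_bd (T x))
      have h1 := hRY (T x) hy
      have h1' := hRK x hx
      have h4 : RK * ‖T x‖ ≤ RK * RY := mul_le_mul_of_nonneg_left h1 hRK0
      have h5 := abs_le.mp (hM' x hx)
      have h6 := abs_le.mp (abs_real_inner_le_norm x (T x))
      have h7 : ‖x‖ * ‖T x‖ ≤ RK * RY :=
        mul_le_mul h1' h1 (norm_nonneg _) hRK0
      unfold gap
      rw [Real.norm_eq_abs, abs_le]
      constructor <;> linarith
  -- pointwise identity
  have hpt : ∀ x, ‖x - T x‖ ^ 2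
      = (‖x‖ ^ 2 - 2 * φ x) + (‖T x‖ ^ 2 - 2 * conj K φ (T x)) + 2 * gap K φ T x := by
    intro x
    unfold gap
    rw [norm_sub_sq_real]
    ring
  have hbm : AEStronglyMeasurable (fun y => ‖y‖ ^ 2 - 2 * conj K φ y) (Measure.map T ρ) :=
    (hnm.sub (hcm.const_mul 2)).aestronglyMeasurable
  have hbT : Integrable (fun x => ‖T x‖ ^ 2 - 2 * conj K φ (T x)) ρ := by
    have h := hb
    rw [← hTμ] at h
    exact (integrable_map_measure hbm hT.aemeasurable).mp h
  have hmap : ∫ x, (‖T x‖ ^ 2 - 2 * conj K φ (T x)) ∂ρ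
      = ∫ y, (‖y‖ ^ 2 - 2 * conj K φ y) ∂μ := by
    rw [← hTμ, integral_map hT.aemeasurable hbm]
  have hint : ∫ x, ‖x - T x‖ ^ 2 ∂ρ
      = (∫ x, (‖x‖ ^ 2 - 2 * φ x) ∂ρ) + (∫ y, (‖y‖ ^ 2 - 2 * conj K φ y) ∂μ)
        + 2 * ∫ x, gap K φ T x ∂ρ := by
    simp_rw [hpt]
    have e1 := integral_add (ha.add hbT) (hg.const_mul 2)
    have e2 := integral_add ha hbT
    simp only [Pi.add_apply] at e1 e2
    rw [e1, e2, integral_const_mul, hmap]
  have hcost : Integrable (fun x => ‖x - T x‖ ^ 2) ρ := by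
    simp_rw [hpt]
    exact (ha.add hbT).add (hg.const_mul 2)
  refine ⟨hg, ?_, ?_⟩
  · rw [← hint, ofReal_integral_eq_lintegral_ofReal hcost
      (Eventually.of_forall fun x => by positivity)]
    congr 1 with x
    rw [ENNReal.ofReal_pow (norm_nonneg _), ofReal_norm]
  · rw [← hint]
    exact integral_nonneg (fun x => by positivity)

/-- **Fenchel lemma, sufficiency.** A measurable map pushing `uniformProbOn K` to `μ` which is
a.e. a subgradient selection of a function `φ` continuous on `K` is an optimal map. -/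
theorem isOptimalMap_of_subgrad (hKc : IsCompact K) (hKv : volume K ≠ 0)
    (hφ : ContinuousOn φ K) (hYc : IsCompact Y) (hμ : IsProbabilityOn Y μ)
    {S : (E d) → (E d)} (hS : Measurable S) (hSμ : (uniformProbOn K).map S = μ)
    (hsub : ∀ᵐ x ∂(uniformProbOn K), IsSubgradOn K φ x (S x)) :
    IsOptimalMap (uniformProbOn K) μ S := by
  refine ⟨hS, hSμ, fun S' hS' hS'μ => ?_⟩
  obtain ⟨-, h1, -⟩ := cost_decomp hKc hKv hφ hYc hμ hS hSμ
  obtain ⟨-, h1', -⟩ := cost_decomp hKc hKv hφ hYc hμ hS' hS'μ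
  rw [h1, h1']
  apply ENNReal.ofReal_le_ofReal
  have hxK : ∀ᵐ x ∂(uniformProbOn K), x ∈ K := ae_mem_uniformProbOn hKc.measurableSet
  have hgS : ∫ x, gap K φ S x ∂(uniformProbOn K) = 0 := by
    apply integral_eq_zero_of_ae
    filter_upwards [hsub, hxK] with x hx hxK
    unfold gap
    rw [conj_eq_of_subgrad hKc hφ hxK hx]
    simp
  have hgS' : 0 ≤ ∫ x, gap K φ S' x ∂(uniformProbOn K) :=
    integral_nonneg_of_ae (by
      filter_upwards [hxK] with x hx using gap_nonneg hKc hφ S' hx)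
  linarith

/-- **Fenchel lemma, necessity.** If some measurable a.e. subgradient selection `S` of `φ` pushes
`uniformProbOn K` to `μ`, then every optimal map from `uniformProbOn K` to `μ` is a.e. a
subgradient selection of `φ`. -/
theorem ae_subgrad_of_isOptimalMap (hKc : IsCompact K) (hKv : volume K ≠ 0)
    (hφ : ContinuousOn φ K) (hYc : IsCompact Y) (hμ : IsProbabilityOn Y μ)
    {S : (E d) → (E d)} (hS : Measurable S) (hSμ : (uniformProbOn K).map S = μ)
    (hsub : ∀ᵐ x ∂(uniformProbOn K), IsSubgradOn K φ x (S x))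
    {T : (E d) → (E d)} (hT : IsOptimalMap (uniformProbOn K) μ T) :
    ∀ᵐ x ∂(uniformProbOn K), IsSubgradOn K φ x (T x) := by
  obtain ⟨hTm, hTμ, hopt⟩ := hT
  have hle := hopt S hS hSμ
  obtain ⟨-, h1, h0⟩ := cost_decomp hKc hKv hφ hYc hμ hS hSμ
  obtain ⟨hg', h1', -⟩ := cost_decomp hKc hKv hφ hYc hμ hTm hTμ
  rw [h1, h1', ENNReal.ofReal_le_ofReal_iff h0] at hle
  have hxK : ∀ᵐ x ∂(uniformProbOn K), x ∈ K := ae_mem_uniformProbOn hKc.measurableSet
  have hgS : ∫ x, gap K φ S x ∂(uniformProbOn K) = 0 := by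
    apply integral_eq_zero_of_ae
    filter_upwards [hsub, hxK] with x hx hxK
    unfold gap
    rw [conj_eq_of_subgrad hKc hφ hxK hx]
    simp
  have hnn : 0 ≤ᵐ[uniformProbOn K] gap K φ T := by
    filter_upwards [hxK] with x hx using gap_nonneg hKc hφ T hx
  have hgT : ∫ x, gap K φ T x ∂(uniformProbOn K) = 0 :=
    le_antisymm (by linarith) (integral_nonneg_of_ae hnn)
  have hz := (integral_eq_zero_iff_of_nonneg_ae hnn hg').mp hgT
  filter_upwards [hz, hxK] with x hx hxK
  apply subgrad_of_conj_le hKc hφ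
  unfold gap at hx
  simp only [Pi.zero_apply] at hx
  linarith

end main

section unique

variable {K : Set (E d)} {φ : (E d) → ℝ}

/-- If `φ` coincides near `x ∈ interior K` with an affine function of slope `y₀`, then the only
subgradient of `φ` at `x` relative to `K` is `y₀`. -/
theorem subgrad_unique_of_affine_near {x y y₀ : E d} {c : ℝ}
    (hx : x ∈ interior K) (haff : ∀ᶠ x' in 𝓝 x, φ x' = ⟪x', y₀⟫ - c)
    (h : IsSubgradOn K φ x y) : y = y₀ := by
  have hK : ∀ᶠ x' in 𝓝 x, x' ∈ K := mem_interior_iff_mem_nhds.mp hx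
  have hx0 : φ x = ⟪x, y₀⟫ - c := haff.self_of_nhds
  have hcont : Tendsto (fun t : ℝ => x + t • (y - y₀)) (𝓝[>] 0) (𝓝 x) := by
    have h0 : Tendsto (fun t : ℝ => x + t • (y - y₀)) (𝓝 0) (𝓝 (x + (0 : ℝ) • (y - y₀))) := by
      apply Continuous.tendsto
      fun_prop
    simp only [zero_smul, add_zero] at h0
    exact h0.mono_left nhdsWithin_le_nhds
  have hev := hcont.eventually (haff.and hK)
  have hpos : ∀ᶠ t : ℝ in 𝓝[>] 0, 0 < t := eventually_mem_nhdsWithin
  obtain ⟨t, ⟨hφt, hKt⟩, ht⟩ := (hev.and hpos).exists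
  have h1 := h _ hKt
  rw [hφt, hx0] at h1
  simp only [add_sub_cancel_left, inner_add_left, inner_smul_left, inner_smul_right,
    inner_sub_left, inner_sub_right, RCLike.conj_to_real] at h1
  have h2 : t * ‖y - y₀‖ ^ 2 ≤ 0 := by
    rw [← real_inner_self_eq_norm_sq]
    simp only [inner_sub_left, inner_sub_right]
    rw [real_inner_comm y y₀]
    nlinarith
  have h3 : ‖y - y₀‖ ^ 2 ≤ 0 := by nlinarith [sq_nonneg ‖y - y₀‖]
  have h4 : ‖y - y₀‖ = 0 := by nlinarith [norm_nonneg (y - y₀)]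
  exact sub_eq_zero.mp (norm_eq_zero.mp h4)

/-- If `φ` is differentiable at `x ∈ interior K`, every subgradient of `φ` at `x` relative to `K`
represents the derivative. -/
theorem subgrad_eq_of_hasFDerivAt {x y : E d} {φ' : (E d) →L[ℝ] ℝ}
    (hx : x ∈ interior K) (hd : HasFDerivAt φ φ' x) (h : IsSubgradOn K φ x y) :
    φ' = innerSL ℝ y := by
  have hK : ∀ᶠ x' in 𝓝 x, x' ∈ K := mem_interior_iff_mem_nhds.mp hx
  have hmin : IsLocalMin (fun x' => φ x' - (innerSL ℝ y) (x' - x)) x := by
    filter_upwards [hK] with x' hx'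
    have := h x' hx'
    simp only [sub_self, map_zero, sub_zero, innerSL_apply_apply]
    linarith
  have hder : HasFDerivAt (fun x' => φ x' - (innerSL ℝ y) (x' - x)) (φ' - innerSL ℝ y) x := by
    apply hd.sub
    exact ((innerSL ℝ y).hasFDerivAt).comp x ((hasFDerivAt_id x).sub_const x)
  have := hmin.hasFDerivAt_eq_zero hder
  exact sub_eq_zero.mp this

/-- Two subgradients at a point of differentiability in the interior of `K` coincide. -/
theorem subgrad_unique_of_differentiableAt {x y y' : E d}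
    (hx : x ∈ interior K) (hd : DifferentiableAt ℝ φ x) (h : IsSubgradOn K φ x y)
    (h' : IsSubgradOn K φ x y') : y = y' := by
  have e1 := subgrad_eq_of_hasFDerivAt hx hd.hasFDerivAt h
  have e2 := subgrad_eq_of_hasFDerivAt hx hd.hasFDerivAt h'
  have e3 : innerSL ℝ y = innerSL ℝ y' := e1.symm.trans e2
  have e4 : ∀ v : E d, ⟪y, v⟫ = ⟪y', v⟫ := fun v => by
    have := congrArg (fun L : (E d) →L[ℝ] ℝ => L v) e3
    simpa using this
  exact ext_inner_right ℝ e4

/-- **Rademacher step.** Two a.e. subgradient selections of a function which is Lipschitz on the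
compact convex set `K` agree almost everywhere. -/
theorem ae_eq_of_ae_subgrad (hKc : IsCompact K) (hKconv : Convex ℝ K) {C : ℝ≥0}
    (hφ : LipschitzOnWith C φ K) {T S : (E d) → (E d)}
    (hT : ∀ᵐ x ∂(uniformProbOn K), IsSubgradOn K φ x (T x))
    (hS : ∀ᵐ x ∂(uniformProbOn K), IsSubgradOn K φ x (S x)) :
    T =ᵐ[uniformProbOn K] S := by
  have hc : (volume K)⁻¹ ≠ 0 := ENNReal.inv_ne_zero.mpr hKc.measure_lt_top.ne
  unfold uniformProbOn at hT hS ⊢
  rw [Measure.ae_ennreal_smul_measure_iff hc] at hT hS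
  refine Measure.ae_smul_measure ?_ _
  have hfr : volume (frontier K) = 0 := hKconv.addHaar_frontier volume
  have hint : ∀ᵐ x ∂(volume.restrict K), x ∈ interior K := by
    have h1 : ∀ᵐ x ∂(volume : Measure (E d)), x ∉ frontier K := by
      rw [ae_iff]
      simpa using hfr
    filter_upwards [ae_restrict_of_ae h1, ae_restrict_mem hKc.measurableSet] with x hx hxK
    by_contra hni
    exact hx (by rw [hKc.isClosed.frontier_eq]; exact ⟨hxK, hni⟩)
  have hdiff : ∀ᵐ x ∂(volume.restrict K), x ∈ K → DifferentiableWithinAt ℝ φ K x :=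
    ae_restrict_of_ae (hφ.ae_differentiableWithinAt_of_mem (μ := volume))
  filter_upwards [hT, hS, hint, hdiff] with x hTx hSx hxi hdx
  have hd : DifferentiableAt ℝ φ x :=
    (hdx (interior_subset hxi)).differentiableAt (mem_interior_iff_mem_nhds.mp hxi)
  exact subgrad_unique_of_differentiableAt hxi hd hTx hSx

/-- **Brenier uniqueness from a certificate.** If `φ` is Lipschitz on the compact convex `K` and
`S` is a measurable a.e. subgradient selection of `φ` with `S#ρ = μ` (`ρ = uniformProbOn K`, `μ`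
carried by a compact set), then every optimal map from `ρ` to `μ` equals `S` almost everywhere. -/
theorem optimalMap_ae_eq {Y : Set (E d)} {μ : Measure (E d)} (hKc : IsCompact K)
    (hKconv : Convex ℝ K) (hKv : volume K ≠ 0) {C : ℝ≥0} (hφ : LipschitzOnWith C φ K)
    (hYc : IsCompact Y) (hμ : IsProbabilityOn Y μ)
    {S : (E d) → (E d)} (hS : Measurable S) (hSμ : (uniformProbOn K).map S = μ)
    (hsub : ∀ᵐ x ∂(uniformProbOn K), IsSubgradOn K φ x (S x))
    {T : (E d) → (E d)} (hT : IsOptimalMap (uniformProbOn K) μ T) :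
    T =ᵐ[uniformProbOn K] S :=
  ae_eq_of_ae_subgrad hKc hKconv hφ
    (ae_subgrad_of_isOptimalMap hKc hKv hφ.continuousOn hYc hμ hS hSμ hsub hT) hsub

end unique

end Crest.Agent.S0109.Fenchel
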