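import Crest.Agent.S0109.BrenierA
import Crest.Agent.S0109.Fenchel

/-!
Row 82 (S0109) job BRENIER-B. Statement FROZEN; one owner.
-/

set_option autoImplicit false
open MeasureTheory Filter
open scoped ENNReal NNReal Topology
open Crest.AnalysisR.OT

namespace Crest.Agent.S0109

variable {d : ℕ}

/-- Brenier uniqueness (job BRENIER-B): if `S` pushes `uniformProbOn K` to `μ` and is a.e. a
bounded subgradient selection of a Lipschitz `φ` on `K`, then every Monge-optimal map `T` equals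
`S` a.e.
Proof: `ψ y := sup_{x ∈ K} (⟪x,y⟫ - φ x)`; `⟪x,y⟫ ≤ φ x + ψ y` on `K`, equality at `y = S x` a.e.;
`T` optimal and `S` admissible give `∫ ⟪x,T x⟫ ≥ ∫ ⟪x,S x⟫` (both second moments equal `∫ ‖y‖² dμ`,
all finite since `S` is bounded and the cost of `T` is at most that of `S`);
`∫ ψ ∘ T = ∫ ψ dμ = ∫ ψ ∘ S`; hence `φ x + ψ (T x) = ⟪x, T x⟫` a.e., i.e. `T x` is a subgradient of
`φ` at `x` on `K`; conclude with `brenier_ae_diff` and `brenier_subgrad_unique`. -/
theorem brenier_unique (K : Set (EuclideanSpace ℝ (Fin d))) (hKc : IsCompact K)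
    (hKv : Convex ℝ K) (hKi : (interior K).Nonempty)
    (μ : Measure (EuclideanSpace ℝ (Fin d)))
    (S : EuclideanSpace ℝ (Fin d) → EuclideanSpace ℝ (Fin d)) (hSm : Measurable S)
    (hSμ : (uniformProbOn K).map S = μ) (Ry : ℝ)
    (φ : EuclideanSpace ℝ (Fin d) → ℝ) (C : ℝ≥0) (hφL : LipschitzOnWith C φ K)
    (hS : ∀ᵐ x ∂(uniformProbOn K), ‖S x‖ ≤ Ry ∧
      ∀ x' ∈ K, φ x + inner ℝ (S x) (x' - x) ≤ φ x')
    (T : EuclideanSpace ℝ (Fin d) → EuclideanSpace ℝ (Fin d))
    (hT : IsOptimalMap (uniformProbOn K) μ T) :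
    T =ᵐ[uniformProbOn K] S := by
  have hKpos : volume K ≠ 0 := by
    have h1 : 0 < volume (interior K) := isOpen_interior.measure_pos volume hKi
    exact (lt_of_lt_of_le h1 (measure_mono interior_subset)).ne'
  have hKtop : volume K ≠ ∞ := hKc.measure_lt_top.ne
  have hprob : IsProbabilityMeasure (uniformProbOn K) :=
    Fenchel.uniformProbOn_isProb hKpos hKtop
  have hμprob : IsProbabilityMeasure μ := by
    rw [← hSμ]
    exact Measure.isProbabilityMeasure_map hSm.aemeasurable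
  have hYc : IsCompact (Metric.closedBall (0 : EuclideanSpace ℝ (Fin d)) Ry) :=
    isCompact_closedBall 0 Ry
  have hμY : μ (Metric.closedBall (0 : EuclideanSpace ℝ (Fin d)) Ry)ᶜ = 0 := by
    rw [← hSμ, Measure.map_apply hSm Metric.isClosed_closedBall.measurableSet.compl]
    have h1 : ∀ᵐ x ∂(uniformProbOn K), x ∉ S ⁻¹' (Metric.closedBall (0 : EuclideanSpace ℝ (Fin d)) Ry)ᶜ := by
      filter_upwards [hS] with x hx
      simp only [Set.mem_preimage, Set.mem_compl_iff, Metric.mem_closedBall, dist_zero_right,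
        not_not]
      exact hx.1
    exact ae_iff.1 (by simpa using h1)
  have hsub : ∀ᵐ x ∂(uniformProbOn K), Fenchel.IsSubgradOn K φ x (S x) := by
    filter_upwards [hS] with x hx
    exact hx.2
  exact Fenchel.optimalMap_ae_eq hKc hKv hKpos hφL hYc ⟨hμprob, hμY⟩ hSm hSμ hsub hT

end Crest.Agent.S0109
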