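import Mathlib

/-!
# Row 82, module Ident: identifying a map with the limit of subgradient selections

Abstract "gap + monotone along lines" lemma.  Let `φ` be a function on a Euclidean space with a
subgradient selection `T` (`φ x + ⟪T x, x' - x⟫ ≤ φ x'` for all `x x'`).  If `y`, `cy` satisfy
`⟪x', y⟫ - cy ≤ φ x'` for all `x'`, then the gap `e = φ x + cy - ⟪x, y⟫ ≥ 0` controls
`⟪y - T x, u⟫` up to the increment of `⟪T ·, u⟫` along the line through `x` in direction `u`.
Integrating over a bounded set and using translation invariance gives an `L¹` bound, and a limit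
statement (`Ident.limit`) identifies a map `Tμ` with the limit `G` of the selections.

No differentiability, no Rademacher, no conjugate functions.
-/

set_option autoImplicit false
open MeasureTheory Filter Topology Metric
open scoped ENNReal NNReal RealInnerProductSpace

namespace Crest.Agent.S0109.Ident

section pointwise

variable {E : Type*} [NormedAddCommGroup E] [InnerProductSpace ℝ E]

/-- Monotonicity of a subgradient selection along a line. -/
theorem mono_line (φ : E → ℝ) (T : E → E)
    (hT : ∀ x x', φ x + ⟪T x, x' - x⟫ ≤ φ x') (x u : E) (s : ℝ) (hs : 0 < s) :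
    ⟪T x, u⟫ ≤ ⟪T (x + s • u), u⟫ := by
  have h1 := hT x (x + s • u)
  have h2 := hT (x + s • u) x
  have e1 : x + s • u - x = s • u := by abel
  have e2 : x - (x + s • u) = -(s • u) := by abel
  rw [e1, inner_smul_right] at h1
  rw [e2, inner_neg_right, inner_smul_right] at h2
  nlinarith

/-- The key pointwise lemma. -/
theorem pointwise (φ : E → ℝ) (T : E → E)
    (hT : ∀ x x', φ x + ⟪T x, x' - x⟫ ≤ φ x') (y : E) (cy : ℝ)
    (hy : ∀ x', ⟪x', y⟫ - cy ≤ φ x') (x u : E) (s : ℝ) (hs : 0 < s) :
    |⟪y - T x, u⟫| ≤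
      (φ x + cy - ⟪x, y⟫) / s + ⟪T (x + s • u) - T (x - s • u), u⟫ := by
  have A := hT (x - s • u) x
  have A' := hy (x - s • u)
  have B := hT (x + s • u) x
  have B' := hy (x + s • u)
  have M1 : ⟪T (x - s • u), u⟫ ≤ ⟪T x, u⟫ := by
    have := mono_line φ T hT (x - s • u) u s hs
    simpa using this
  have M2 := mono_line φ T hT x u s hs
  have e1 : x - (x - s • u) = s • u := by abel
  have e2 : x - (x + s • u) = -(s • u) := by abel
  rw [e1, inner_smul_right] at A
  rw [e2, inner_neg_right, inner_smul_right] at B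
  rw [inner_sub_left, inner_smul_left] at A'
  rw [inner_add_left, inner_smul_left] at B'
  simp only [RCLike.conj_to_real] at A' B'
  rw [inner_sub_left, inner_sub_left]
  have huy : ⟪u, y⟫ = ⟪y, u⟫ := real_inner_comm _ _
  rw [huy] at A' B'
  set e := φ x + cy - ⟪x, y⟫ with he
  set p := ⟪T (x - s • u), u⟫
  set q := ⟪T (x + s • u), u⟫
  set r := ⟪T x, u⟫
  set w := ⟪y, u⟫
  have h1 : p - w ≤ e / s := by
    rw [le_div_iff₀ hs]; nlinarith
  have h2 : w - q ≤ e / s := by
    rw [le_div_iff₀ hs]; nlinarith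
  rw [abs_le]
  constructor <;> linarith

end pointwise

section integrated

variable {E : Type*} [NormedAddCommGroup E] [InnerProductSpace ℝ E] [FiniteDimensional ℝ E]
  [MeasurableSpace E] [BorelSpace E]

/-- Integral over a ball of a translate = integral over the translated ball. -/
theorem setIntegral_closedBall_add (f : E → ℝ) (x₀ v : E) (R : ℝ) :
    ∫ x in closedBall x₀ R, f (x + v) = ∫ x in closedBall (x₀ + v) R, f x := by
  rw [← integral_indicator measurableSet_closedBall, ← integral_indicator measurableSet_closedBall]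
  rw [← integral_add_right_eq_self (fun x => (closedBall (x₀ + v) R).indicator f x) v]
  congr 1
  funext x
  by_cases hx : x ∈ closedBall x₀ R
  · have hx' : x + v ∈ closedBall (x₀ + v) R := by
      rw [mem_closedBall, dist_add_right]; exact hx
    rw [Set.indicator_of_mem hx, Set.indicator_of_mem hx']
  · have hx' : x + v ∉ closedBall (x₀ + v) R := by
      rw [mem_closedBall, dist_add_right]; exact hx
    rw [Set.indicator_of_notMem hx, Set.indicator_of_notMem hx']

/-- For a bounded measurable `f`, integrals over a translated ball are close to the integral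
over a slightly smaller centred ball. -/
theorem setIntegral_translate_le (f : E → ℝ) (hf : Measurable f) (M : ℝ)
    (hM : ∀ x, |f x| ≤ M) (x₀ v : E) (R : ℝ) :
    |(∫ x in closedBall (x₀ + v) R, f x) - ∫ x in closedBall x₀ (R - ‖v‖), f x| ≤
      M * ((volume : Measure E).real (closedBall x₀ R)
        - (volume : Measure E).real (closedBall x₀ (R - ‖v‖))) := by
  have hsub : closedBall x₀ (R - ‖v‖) ⊆ closedBall (x₀ + v) R := by
    intro z hz
    rw [mem_closedBall] at hz ⊢
    calc dist z (x₀ + v) ≤ dist z x₀ + dist x₀ (x₀ + v) := dist_triangle _ _ _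
      _ ≤ (R - ‖v‖) + ‖v‖ := by
          gcongr
          rw [dist_eq_norm]; simp
      _ = R := by ring
  have hfin : (volume : Measure E) (closedBall (x₀ + v) R) ≠ ∞ := measure_closedBall_lt_top.ne
  have hint : IntegrableOn f (closedBall (x₀ + v) R) volume :=
    Measure.integrableOn_of_bounded (M := M) hfin hf.aestronglyMeasurable
      (Eventually.of_forall fun x => by simpa using hM x)
  have h1 := setIntegral_sdiff (μ := (volume : Measure E)) measurableSet_closedBall hint hsub
  have h2 : ‖∫ x in closedBall (x₀ + v) R \ closedBall x₀ (R - ‖v‖), f x‖ ≤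
      M * (volume : Measure E).real (closedBall (x₀ + v) R \ closedBall x₀ (R - ‖v‖)) :=
    norm_setIntegral_le_of_norm_le_const
      (lt_of_le_of_lt (measure_mono Set.sdiff_subset) measure_closedBall_lt_top)
      (fun x _ => by simpa using hM x)
  have h3 : (volume : Measure E).real (closedBall (x₀ + v) R \ closedBall x₀ (R - ‖v‖)) =
      (volume : Measure E).real (closedBall x₀ R)
        - (volume : Measure E).real (closedBall x₀ (R - ‖v‖)) := by
    rw [measureReal_sdiff hsub measurableSet_closedBall hfin]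
    congr 1
    simp only [measureReal_def]
    rw [Measure.addHaar_closedBall_center volume (x₀ + v) R,
      Measure.addHaar_closedBall_center volume x₀ R]
  rw [← h1, ← h3, ← Real.norm_eq_abs]
  exact h2

/-- Translation bound: for bounded measurable `f`, the integral over a ball of
`f (x + v) - f (x - v)` is small. -/
theorem shift_bound (f : E → ℝ) (hf : Measurable f) (M : ℝ) (hM : ∀ x, |f x| ≤ M)
    (x₀ v : E) (R : ℝ) :
    ∫ x in closedBall x₀ R, (f (x + v) - f (x - v)) ≤
      2 * M * ((volume : Measure E).real (closedBall x₀ R)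
        - (volume : Measure E).real (closedBall x₀ (R - ‖v‖))) := by
  have hfin : (volume : Measure E) (closedBall x₀ R) ≠ ∞ := measure_closedBall_lt_top.ne
  have hi1 : IntegrableOn (fun x => f (x + v)) (closedBall x₀ R) volume :=
    Measure.integrableOn_of_bounded (M := M) hfin
      (hf.comp (measurable_id.add_const v)).aestronglyMeasurable
      (Eventually.of_forall fun x => by simpa using hM (x + v))
  have hi2 : IntegrableOn (fun x => f (x - v)) (closedBall x₀ R) volume :=
    Measure.integrableOn_of_bounded (M := M) hfin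
      (hf.comp (measurable_id.sub_const v)).aestronglyMeasurable
      (Eventually.of_forall fun x => by simpa using hM (x - v))
  rw [integral_sub hi1 hi2]
  have e1 := setIntegral_closedBall_add f x₀ v R
  have e2 := setIntegral_closedBall_add f x₀ (-v) R
  simp only [← sub_eq_add_neg] at e2
  rw [e1, e2]
  have b1 := setIntegral_translate_le f hf M hM x₀ v R
  have b2 := setIntegral_translate_le f hf M hM x₀ (-v) R
  rw [norm_neg, ← sub_eq_add_neg] at b2
  have c1 := abs_le.mp b1
  have c2 := abs_le.mp b2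
  linarith [c1.1, c1.2, c2.1, c2.2]

/-- Integrated form of the pointwise lemma. -/
theorem integrated (K : Set E) (x₀ : E) (R : ℝ) (hK : K ⊆ closedBall x₀ R)
    (φ : E → ℝ) (T : E → E) (hT : ∀ x x', φ x + ⟪T x, x' - x⟫ ≤ φ x')
    (hTm : Measurable T) (L : ℝ) (hTb : ∀ x, ‖T x‖ ≤ L)
    (S : E → E) (c : E → ℝ)
    (hgap : ∀ᵐ x ∂((volume : Measure E).restrict K), ∀ x', ⟪x', S x⟫ - c (S x) ≤ φ x')
    (u : E) (s : ℝ) (hs : 0 < s) :
    ∫⁻ x in K, ‖⟪S x - T x, u⟫‖ₑ ≤
      ENNReal.ofReal (1 / s) * (∫⁻ x in K, ENNReal.ofReal (φ x + c (S x) - ⟪x, S x⟫))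
      + ENNReal.ofReal (2 * (L * ‖u‖) *
          ((volume : Measure E).real (closedBall x₀ R)
            - (volume : Measure E).real (closedBall x₀ (R - ‖s • u‖)))) := by
  set f : E → ℝ := fun x => ⟪T x, u⟫ with hf
  set g : E → ℝ := fun x => f (x + s • u) - f (x - s • u) with hg
  have hf_meas : Measurable f := hTm.inner measurable_const
  have hf_bd : ∀ x, |f x| ≤ L * ‖u‖ := fun x =>
    (abs_real_inner_le_norm _ _).trans (by gcongr; exact hTb x)
  have hg_nonneg : ∀ x, 0 ≤ g x := by
    intro x
    have h1 := mono_line φ T hT x u s hs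
    have h2 := mono_line φ T hT (x - s • u) u s hs
    simp only [sub_add_cancel] at h2
    simp only [hg, hf]
    linarith
  have hg_meas : Measurable g :=
    (hf_meas.comp (measurable_id.add_const _)).sub (hf_meas.comp (measurable_id.sub_const _))
  have hfinB : (volume : Measure E) (closedBall x₀ R) ≠ ∞ := measure_closedBall_lt_top.ne
  have hg_int : IntegrableOn g (closedBall x₀ R) volume :=
    Measure.integrableOn_of_bounded (M := 2 * (L * ‖u‖)) hfinB hg_meas.aestronglyMeasurable
      (Eventually.of_forall fun x => by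
        have h1 := abs_le.mp (hf_bd (x + s • u))
        have h2 := abs_le.mp (hf_bd (x - s • u))
        rw [Real.norm_eq_abs, abs_le]
        simp only [hg]
        constructor <;> linarith [h1.1, h1.2, h2.1, h2.2])
  calc ∫⁻ x in K, ‖⟪S x - T x, u⟫‖ₑ
      ≤ ∫⁻ x in K, (ENNReal.ofReal (1 / s) * ENNReal.ofReal (φ x + c (S x) - ⟪x, S x⟫)
          + ENNReal.ofReal (g x)) := by
        apply lintegral_mono_ae
        filter_upwards [hgap] with x hx
        have hp := pointwise φ T hT (S x) (c (S x)) hx x u s hs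
        have he0 : 0 ≤ φ x + c (S x) - ⟪x, S x⟫ := by linarith [hx x]
        rw [Real.enorm_eq_ofReal_abs, ← ENNReal.ofReal_mul (by positivity),
          ← ENNReal.ofReal_add (by positivity) (hg_nonneg x)]
        apply ENNReal.ofReal_le_ofReal
        have e : ⟪T (x + s • u) - T (x - s • u), u⟫ = g x := by
          simp only [hg, hf, inner_sub_left]
        rw [e] at hp
        calc |⟪S x - T x, u⟫| ≤ (φ x + c (S x) - ⟪x, S x⟫) / s + g x := hp
          _ = 1 / s * (φ x + c (S x) - ⟪x, S x⟫) + g x := by ring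
    _ = ENNReal.ofReal (1 / s) * (∫⁻ x in K, ENNReal.ofReal (φ x + c (S x) - ⟪x, S x⟫))
          + ∫⁻ x in K, ENNReal.ofReal (g x) := by
        rw [lintegral_add_right _ hg_meas.ennreal_ofReal,
          lintegral_const_mul' _ _ ENNReal.ofReal_ne_top]
    _ ≤ _ := by
        gcongr
        calc ∫⁻ x in K, ENNReal.ofReal (g x)
            ≤ ∫⁻ x in closedBall x₀ R, ENNReal.ofReal (g x) := lintegral_mono_set hK
          _ = ENNReal.ofReal (∫ x in closedBall x₀ R, g x) := by
              rw [ofReal_integral_eq_lintegral_ofReal hg_int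
                (Eventually.of_forall hg_nonneg)]
          _ ≤ _ := by
              apply ENNReal.ofReal_le_ofReal
              exact shift_bound f hf_meas (L * ‖u‖) hf_bd x₀ (s • u) R

end integrated

section limit

variable {E : Type*} [NormedAddCommGroup E] [InnerProductSpace ℝ E] [FiniteDimensional ℝ E]
  [MeasurableSpace E] [BorelSpace E]

omit [FiniteDimensional ℝ E] [MeasurableSpace E] [BorelSpace E] in
theorem enorm_inner_le (a u : E) : ‖⟪a, u⟫‖ₑ ≤ ‖a‖ₑ * ‖u‖ₑ := by
  rw [Real.enorm_eq_ofReal_abs, ← ofReal_norm, ← ofReal_norm,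
    ← ENNReal.ofReal_mul (norm_nonneg _)]
  exact ENNReal.ofReal_le_ofReal (abs_real_inner_le_norm _ _)

/-- The volume of the shell between two concentric balls tends to zero. -/
theorem tendsto_ball_gap (x₀ : E) (R : ℝ) (hR : 0 < R) (a : ℝ) (ha : 0 ≤ a) (M : ℝ) :
    Tendsto (fun s : ℝ => ENNReal.ofReal (M * ((volume : Measure E).real (closedBall x₀ R)
      - (volume : Measure E).real (closedBall x₀ (R - s * a))))) (𝓝[>] 0) (𝓝 0) := by
  set n := Module.finrank ℝ E
  set ω := (volume : Measure E).real (ball (0 : E) 1)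
  have hcont : Continuous (fun s : ℝ => M * (R ^ n * ω - (R - s * a) ^ n * ω)) := by fun_prop
  have h0 : Tendsto (fun s : ℝ => M * (R ^ n * ω - (R - s * a) ^ n * ω)) (𝓝[>] 0) (𝓝 0) := by
    have := hcont.tendsto 0
    simp only [zero_mul, sub_zero, sub_self, mul_zero] at this
    exact this.mono_left nhdsWithin_le_nhds
  have h1 : Tendsto (fun s : ℝ => ENNReal.ofReal (M * (R ^ n * ω - (R - s * a) ^ n * ω)))
      (𝓝[>] 0) (𝓝 0) := by
    have := (ENNReal.continuous_ofReal.tendsto 0).comp h0
    simp only [ENNReal.ofReal_zero] at this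
    exact this
  refine h1.congr' ?_
  have hev : ∀ᶠ s : ℝ in 𝓝[>] 0, s < R / (a + 1) :=
    nhdsWithin_le_nhds (Iio_mem_nhds (by positivity : (0 : ℝ) < R / (a + 1)))
  filter_upwards [hev, self_mem_nhdsWithin] with s hs hs0
  have hs0' : (0 : ℝ) < s := hs0
  have hsa : s * a ≤ R := by
    have h1 : s * (a + 1) < R := by rwa [lt_div_iff₀ (by positivity)] at hs
    nlinarith
  rw [Measure.addHaar_real_closedBall volume x₀ hR.le,
    Measure.addHaar_real_closedBall volume x₀ (sub_nonneg.mpr hsa)]

/-- **Identification lemma.**  `φ N` with subgradient selections `T N` (bounded by `L`),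
maps `S N` with `⟪x', S N x⟫ - c N (S N x) ≤ φ N x'` (a.e. `x ∈ K`, all `x'`).  If the gaps
`φ N x + c N (S N x) - ⟪x, S N x⟫` tend to zero in `L¹(K)`, `S N → Tμ` and `T N → G` in `L¹(K)`,
then `Tμ = G` a.e. on `K`. -/
theorem limit (K : Set E) (hKb : Bornology.IsBounded K)
    (φ : ℕ → E → ℝ) (T : ℕ → E → E) (S : ℕ → E → E) (c : ℕ → E → ℝ) (L : ℝ)
    (hT : ∀ N x x', φ N x + ⟪T N x, x' - x⟫ ≤ φ N x')
    (hTm : ∀ N, Measurable (T N)) (hTb : ∀ N x, ‖T N x‖ ≤ L)
    (hSm : ∀ N, Measurable (S N))
    (hgap : ∀ N, ∀ᵐ x ∂((volume : Measure E).restrict K),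
      ∀ x', ⟪x', S N x⟫ - c N (S N x) ≤ φ N x')
    (Tμ G : E → E) (hTμ : Measurable Tμ)
    (hG : AEMeasurable G ((volume : Measure E).restrict K))
    (he : Tendsto (fun N => ∫⁻ x in K, ENNReal.ofReal (φ N x + c N (S N x) - ⟪x, S N x⟫))
      atTop (𝓝 0))
    (hS : Tendsto (fun N => ∫⁻ x in K, ‖S N x - Tμ x‖ₑ) atTop (𝓝 0))
    (hTG : Tendsto (fun N => ∫⁻ x in K, ‖T N x - G x‖ₑ) atTop (𝓝 0)) :
    ∀ᵐ x ∂((volume : Measure E).restrict K), Tμ x = G x := by
  obtain ⟨R, hR, hKR⟩ := hKb.subset_closedBall_lt 0 (0 : E)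
  have key : ∀ u : E, ∫⁻ x in K, ‖⟪Tμ x - G x, u⟫‖ₑ = 0 := by
    intro u
    have step : ∀ s : ℝ, 0 < s → ∫⁻ x in K, ‖⟪Tμ x - G x, u⟫‖ₑ ≤
        ENNReal.ofReal (2 * (L * ‖u‖) * ((volume : Measure E).real (closedBall (0 : E) R)
            - (volume : Measure E).real (closedBall (0 : E) (R - s * ‖u‖)))) := by
      intro s hs
      have hnorm : ‖s • u‖ = s * ‖u‖ := by rw [norm_smul, Real.norm_of_nonneg hs.le]
      have bound : ∀ N, ∫⁻ x in K, ‖⟪Tμ x - G x, u⟫‖ₑ ≤
          (∫⁻ x in K, ‖S N x - Tμ x‖ₑ) * ‖u‖ₑ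
          + (ENNReal.ofReal (1 / s) *
                (∫⁻ x in K, ENNReal.ofReal (φ N x + c N (S N x) - ⟪x, S N x⟫))
              + ENNReal.ofReal (2 * (L * ‖u‖) *
                ((volume : Measure E).real (closedBall (0 : E) R)
                  - (volume : Measure E).real (closedBall (0 : E) (R - s * ‖u‖)))))
          + (∫⁻ x in K, ‖T N x - G x‖ₑ) * ‖u‖ₑ := by
        intro N
        have hI := integrated K 0 R hKR (φ N) (T N) (hT N) (hTm N) L (hTb N) (S N) (c N)
          (hgap N) u s hs
        rw [hnorm] at hI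
        have hA : Measurable (fun x => ‖S N x - Tμ x‖ₑ * ‖u‖ₑ) :=
          ((hSm N).sub hTμ).enorm.mul_const _
        have hB : Measurable (fun x => ‖⟪S N x - T N x, u⟫‖ₑ) :=
          (((hSm N).sub (hTm N)).inner measurable_const).enorm
        have hAB : Measurable (fun x => ‖S N x - Tμ x‖ₑ * ‖u‖ₑ + ‖⟪S N x - T N x, u⟫‖ₑ) :=
          hA.add hB
        calc ∫⁻ x in K, ‖⟪Tμ x - G x, u⟫‖ₑ
            ≤ ∫⁻ x in K, ((‖S N x - Tμ x‖ₑ * ‖u‖ₑ + ‖⟪S N x - T N x, u⟫‖ₑ)
                + ‖T N x - G x‖ₑ * ‖u‖ₑ) := by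
              apply lintegral_mono
              intro x
              beta_reduce
              have e : Tμ x - G x = (Tμ x - S N x) + (S N x - T N x) + (T N x - G x) := by abel
              have e' : ⟪Tμ x - G x, u⟫ =
                  ⟪Tμ x - S N x, u⟫ + ⟪S N x - T N x, u⟫ + ⟪T N x - G x, u⟫ := by
                rw [e, inner_add_left, inner_add_left]
              rw [e']
              calc ‖⟪Tμ x - S N x, u⟫ + ⟪S N x - T N x, u⟫ + ⟪T N x - G x, u⟫‖ₑ
                  ≤ ‖⟪Tμ x - S N x, u⟫ + ⟪S N x - T N x, u⟫‖ₑ + ‖⟪T N x - G x, u⟫‖ₑ :=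
                    enorm_add_le _ _
                _ ≤ (‖⟪Tμ x - S N x, u⟫‖ₑ + ‖⟪S N x - T N x, u⟫‖ₑ) + ‖⟪T N x - G x, u⟫‖ₑ := by
                    gcongr; exact enorm_add_le _ _
                _ ≤ _ := by
                    gcongr
                    · rw [enorm_sub_rev (S N x) (Tμ x)]; exact enorm_inner_le _ _
                    · exact enorm_inner_le _ _
          _ = (∫⁻ x in K, ‖S N x - Tμ x‖ₑ) * ‖u‖ₑ + (∫⁻ x in K, ‖⟪S N x - T N x, u⟫‖ₑ)
                + (∫⁻ x in K, ‖T N x - G x‖ₑ) * ‖u‖ₑ := by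
              rw [lintegral_add_left hAB, lintegral_add_left hA,
                lintegral_mul_const' _ _ enorm_ne_top, lintegral_mul_const' _ _ enorm_ne_top]
          _ ≤ _ := by gcongr
      -- pass to the limit N → ∞
      have hlim : Tendsto (fun N => (∫⁻ x in K, ‖S N x - Tμ x‖ₑ) * ‖u‖ₑ
          + (ENNReal.ofReal (1 / s) *
                (∫⁻ x in K, ENNReal.ofReal (φ N x + c N (S N x) - ⟪x, S N x⟫))
              + ENNReal.ofReal (2 * (L * ‖u‖) *
                ((volume : Measure E).real (closedBall (0 : E) R)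
                  - (volume : Measure E).real (closedBall (0 : E) (R - s * ‖u‖)))))
          + (∫⁻ x in K, ‖T N x - G x‖ₑ) * ‖u‖ₑ) atTop
          (𝓝 (0 * ‖u‖ₑ + (ENNReal.ofReal (1 / s) * 0
              + ENNReal.ofReal (2 * (L * ‖u‖) *
                ((volume : Measure E).real (closedBall (0 : E) R)
                  - (volume : Measure E).real (closedBall (0 : E) (R - s * ‖u‖)))))
              + 0 * ‖u‖ₑ)) := by
        refine Tendsto.add (Tendsto.add ?_ (Tendsto.add ?_ tendsto_const_nhds)) ?_
        · exact ENNReal.Tendsto.mul_const hS (Or.inr enorm_ne_top)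
        · exact ENNReal.Tendsto.const_mul he (Or.inr ENNReal.ofReal_ne_top)
        · exact ENNReal.Tendsto.mul_const hTG (Or.inr enorm_ne_top)
      have := ge_of_tendsto' hlim bound
      simpa using this
    have hδ := tendsto_ball_gap (E := E) 0 R hR ‖u‖ (norm_nonneg _) (2 * (L * ‖u‖))
    have hle : ∫⁻ x in K, ‖⟪Tμ x - G x, u⟫‖ₑ ≤ 0 :=
      ge_of_tendsto hδ (by
        filter_upwards [self_mem_nhdsWithin] with s hs
        exact step s hs)
    exact le_antisymm hle zero_le
  -- conclude coordinatewise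
  set b := stdOrthonormalBasis ℝ E
  have hall : ∀ᵐ x ∂((volume : Measure E).restrict K), ∀ i, ⟪Tμ x - G x, b i⟫ = 0 := by
    rw [ae_all_iff]
    intro i
    have hmeas : AEMeasurable (fun x => ‖⟪Tμ x - G x, b i⟫‖ₑ)
        ((volume : Measure E).restrict K) :=
      ((hTμ.aemeasurable.sub hG).inner aemeasurable_const).enorm
    have := (lintegral_eq_zero_iff' hmeas).mp (key (b i))
    filter_upwards [this] with x hx
    simpa using hx
  filter_upwards [hall] with x hx
  have h0 : Tμ x - G x = 0 := by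
    rw [← inner_self_eq_zero (𝕜 := ℝ), ← OrthonormalBasis.sum_inner_mul_inner b]
    apply Finset.sum_eq_zero
    intro i _
    rw [hx i, zero_mul]
  exact sub_eq_zero.mp h0

end limit

end Crest.Agent.S0109.Ident
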