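import Mathlib
import Crest.Prelude.Def_QuadraticTransport
import Crest.Agent.S0109.Ident

/-!
# Row 82, module AP: passage from finitely supported targets to arbitrary targets

Abstract interface: a predicate `P F m T` ("`T` is a discrete optimal selection for the sites `F`
with weights `m`") with existence (h1), structure (h2) and the discrete main inequality (h3).
Conclusion: the inequality of S0109 for all probability measures on a compact set, all
Monge-optimal maps and all couplings.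
-/

set_option autoImplicit false
set_option linter.unusedSectionVars false
open MeasureTheory Filter Topology Metric
open scoped ENNReal NNReal RealInnerProductSpace
open Crest.AnalysisR.OT

namespace Crest.Agent.S0109.AP

section quantizer

variable {E : Type*} [PseudoMetricSpace E] [MeasurableSpace E] [OpensMeasurableSpace E]

/-- First point of the list within distance `< ε` of `y`, else the default point. -/
noncomputable def qList (ε : ℝ) (p0 : E) : List E → E → E
  | [], _ => p0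
  | p :: l, y => if dist y p < ε then p else qList ε p0 l y

theorem measurable_qList (ε : ℝ) (p0 : E) (l : List E) : Measurable (qList ε p0 l) := by
  induction l with
  | nil => exact measurable_const
  | cons p l ih =>
    have h : qList ε p0 (p :: l) = fun y => if dist y p < ε then p else qList ε p0 l y := by
      funext y; rfl
    rw [h]
    exact Measurable.ite (isOpen_ball (x := p) (ε := ε)).measurableSet measurable_const ih

theorem qList_mem (ε : ℝ) (p0 : E) (l : List E) (y : E) :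
    qList ε p0 l y = p0 ∨ qList ε p0 l y ∈ l := by
  induction l with
  | nil => left; rfl
  | cons p l ih =>
    by_cases h : dist y p < ε
    · right
      have : qList ε p0 (p :: l) y = p := by simp [qList, h]
      rw [this]; exact List.mem_cons_self
    · have : qList ε p0 (p :: l) y = qList ε p0 l y := by simp [qList, h]
      rw [this]
      rcases ih with h1 | h1
      · left; exact h1
      · right; exact List.mem_cons_of_mem _ h1

theorem qList_dist (ε : ℝ) (p0 : E) (l : List E) (y : E) (h : ∃ p ∈ l, dist y p < ε) :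
    dist y (qList ε p0 l y) < ε := by
  induction l with
  | nil => obtain ⟨p, hp, _⟩ := h; simp at hp
  | cons p l ih =>
    by_cases hd : dist y p < ε
    · have : qList ε p0 (p :: l) y = p := by simp [qList, hd]
      rw [this]; exact hd
    · have : qList ε p0 (p :: l) y = qList ε p0 l y := by simp [qList, hd]
      rw [this]
      apply ih
      obtain ⟨p', hp', hd'⟩ := h
      rcases List.mem_cons.mp hp' with rfl | hp''
      · exact absurd hd' hd
      · exact ⟨p', hp'', hd'⟩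

/-- A measurable quantizer with finite range in a compact set. -/
theorem exists_quantizer (Y : Set E) (hY : IsCompact Y) (hYn : Y.Nonempty) (ε : ℝ) (hε : 0 < ε) :
    ∃ q : E → E, Measurable q ∧ (Set.range q).Finite ∧ (∀ y, q y ∈ Y) ∧
      ∀ y ∈ Y, dist y (q y) < ε := by
  obtain ⟨t, htY, htfin, hcov⟩ := hY.finite_cover_balls hε
  obtain ⟨p0, hp0⟩ := hYn
  have hmemt : ∀ p, p ∈ htfin.toFinset.toList ↔ p ∈ t := by
    intro p; simp
  refine ⟨qList ε p0 htfin.toFinset.toList, measurable_qList _ _ _, ?_, ?_, ?_⟩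
  · apply Set.Finite.subset ((Set.finite_singleton p0).union htfin)
    rintro _ ⟨y, rfl⟩
    rcases qList_mem ε p0 htfin.toFinset.toList y with h | h
    · left; exact h
    · right; exact (hmemt _).mp h
  · intro y
    rcases qList_mem ε p0 htfin.toFinset.toList y with h | h
    · rw [h]; exact hp0
    · exact htY ((hmemt _).mp h)
  · intro y hy
    apply qList_dist
    have := hcov hy
    simp only [Set.mem_iUnion, mem_ball, exists_prop] at this
    obtain ⟨p, hp, hd⟩ := this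
    exact ⟨p, (hmemt p).mpr hp, hd⟩

end quantizer

section finrange

variable {E : Type*} [MeasurableSpace E] [MeasurableSingletonClass E]

open Classical in
/-- The image of a probability measure under a measurable map with finite range is a finite
sum of Dirac masses with positive weights summing to one. -/
theorem map_finite_range (μ : Measure E) [IsProbabilityMeasure μ] (q : E → E) (hq : Measurable q)
    (hfin : (Set.range q).Finite) :
    ∃ (F : Finset E) (m : E → ℝ), (∀ p ∈ F, 0 < m p) ∧ ∑ p ∈ F, m p = 1 ∧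
      (∀ p ∈ F, p ∈ Set.range q) ∧
      μ.map q = ∑ p ∈ F, ENNReal.ofReal (m p) • Measure.dirac p := by
  set R := hfin.toFinset with hR
  set F := R.filter (fun p => μ (q ⁻¹' {p}) ≠ 0) with hF
  set m : E → ℝ := fun p => (μ (q ⁻¹' {p})).toReal with hm
  have hofm : ∀ p, ENNReal.ofReal (m p) = μ (q ⁻¹' {p}) := fun p =>
    ENNReal.ofReal_toReal (measure_ne_top _ _)
  have hkey : μ.map q = ∑ p ∈ F, ENNReal.ofReal (m p) • Measure.dirac p := by
    ext s hs
    rw [Measure.map_apply hq hs]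
    have hpre : q ⁻¹' s = ⋃ p ∈ R.filter (· ∈ s), q ⁻¹' {p} := by
      ext y
      simp only [Set.mem_preimage, Set.mem_iUnion, Finset.mem_filter, Set.mem_singleton_iff,
        exists_prop, hR, Set.Finite.mem_toFinset, Set.mem_range]
      constructor
      · intro h; exact ⟨q y, ⟨⟨y, rfl⟩, h⟩, rfl⟩
      · rintro ⟨p, ⟨_, hp⟩, rfl⟩; exact hp
    rw [hpre, measure_biUnion_finset]
    · rw [Measure.coe_finsetSum, Finset.sum_apply]
      simp only [Measure.smul_apply, Measure.dirac_apply' _ hs, smul_eq_mul, hofm]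
      have e1 : ∑ p ∈ F, μ (q ⁻¹' {p}) * s.indicator 1 p
          = ∑ p ∈ F.filter (· ∈ s), μ (q ⁻¹' {p}) := by
        rw [Finset.sum_filter (fun p => p ∈ s)]
        apply Finset.sum_congr rfl
        intro p _
        by_cases hp : p ∈ s <;> simp [hp]
      rw [e1, hF, Finset.filter_comm, Finset.sum_filter_ne_zero]
    · intro a _ b _ hab
      simp only [Function.onFun]
      rw [Set.disjoint_left]
      intro y hya hyb
      simp only [Set.mem_preimage, Set.mem_singleton_iff] at hya hyb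
      exact hab (hya ▸ hyb)
    · intro b _
      exact hq (measurableSet_singleton b)
  refine ⟨F, m, ?_, ?_, ?_, hkey⟩
  · intro p hp
    rw [hF, Finset.mem_filter] at hp
    exact ENNReal.toReal_pos hp.2 (measure_ne_top _ _)
  · have h1 := congrArg (fun ν : Measure E => ν Set.univ) hkey
    simp only [Measure.coe_finsetSum, Finset.sum_apply, Measure.smul_apply, measure_univ,
      smul_eq_mul, mul_one] at h1
    have hmap : (μ.map q) Set.univ = 1 := by
      rw [Measure.map_apply hq MeasurableSet.univ]; simp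
    rw [hmap, ← ENNReal.ofReal_sum_of_nonneg (fun p _ => ENNReal.toReal_nonneg)] at h1
    exact (ENNReal.ofReal_eq_one.mp h1.symm)
  · intro p hp
    rw [hF, Finset.mem_filter, hR, Set.Finite.mem_toFinset] at hp
    exact hp.1

end finrange

section rho

variable {d : ℕ}

local notation "E" => EuclideanSpace ℝ (Fin d)

theorem volK_pos (K : Set E) (hKi : (interior K).Nonempty) : 0 < (volume : Measure E) K :=
  lt_of_lt_of_le (isOpen_interior.measure_pos volume hKi) (measure_mono interior_subset)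

theorem volK_ne_top (K : Set E) (hKc : IsCompact K) : (volume : Measure E) K ≠ ∞ :=
  hKc.measure_lt_top.ne

theorem isProb_rho (K : Set E) (hKc : IsCompact K) (hKi : (interior K).Nonempty) :
    IsProbabilityMeasure (uniformProbOn K) := by
  constructor
  simp only [uniformProbOn, Measure.smul_apply, Measure.restrict_apply MeasurableSet.univ,
    Set.univ_inter, smul_eq_mul]
  exact ENNReal.inv_mul_cancel (volK_pos K hKi).ne' (volK_ne_top K hKc)

theorem ae_rho_iff (K : Set E) (hKc : IsCompact K) (p : E → Prop) :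
    (∀ᵐ x ∂(uniformProbOn K), p x) ↔ ∀ᵐ x ∂((volume : Measure E).restrict K), p x := by
  unfold uniformProbOn
  exact Measure.ae_ennreal_smul_measure_iff (ENNReal.inv_ne_zero.mpr (volK_ne_top K hKc))

theorem ae_mem_K (K : Set E) (hKc : IsCompact K) : ∀ᵐ x ∂(uniformProbOn K), x ∈ K := by
  rw [ae_rho_iff K hKc]
  exact ae_restrict_mem hKc.measurableSet

theorem lintegral_K_eq (K : Set E) (hKc : IsCompact K) (hKi : (interior K).Nonempty)
    (f : E → ℝ≥0∞) :
    ∫⁻ x in K, f x = (volume : Measure E) K * ∫⁻ x, f x ∂(uniformProbOn K) := by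
  unfold uniformProbOn
  rw [lintegral_smul_measure, smul_eq_mul, ← mul_assoc,
    ENNReal.mul_inv_cancel (volK_pos K hKi).ne' (volK_ne_top K hKc), one_mul]

/-- squared `L²` seminorm as a `lintegral` of the squared `enorm` (natural power). -/
theorem eLpNorm_two_sq {α : Type*} [MeasurableSpace α] (μ : Measure α) (f : α → E) :
    (eLpNorm f 2 μ) ^ 2 = ∫⁻ x, ‖f x‖ₑ ^ 2 ∂μ := by
  rw [eLpNorm_eq_lintegral_rpow_enorm_toReal (by norm_num) (by norm_num)]
  simp only [ENNReal.toReal_ofNat]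
  rw [← ENNReal.rpow_natCast, ← ENNReal.rpow_mul]
  norm_num

theorem eLpNorm_two_eq {α : Type*} [MeasurableSpace α] (μ : Measure α) (f : α → E) :
    eLpNorm f 2 μ = (∫⁻ x, ‖f x‖ₑ ^ 2 ∂μ) ^ (1 / 2 : ℝ) := by
  rw [eLpNorm_eq_lintegral_rpow_enorm_toReal (by norm_num) (by norm_num)]
  simp only [ENNReal.toReal_ofNat]
  congr 2
  funext x
  rw [← ENNReal.rpow_natCast]
  norm_num

end rho

section maplimit

variable {d : ℕ}

local notation "E" => EuclideanSpace ℝ (Fin d)

/-- If `T N → G` in `L²(ρ)` and `(T N)#ρ = (q N)#μ` with `q N → id` uniformly on a set of full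
`μ`-measure, then `G#ρ = μ`. -/
theorem map_limit (ρ μ : Measure E) [IsProbabilityMeasure ρ] [IsProbabilityMeasure μ]
    (Y : Set E) (hμY : ∀ᵐ y ∂μ, y ∈ Y)
    (q : ℕ → E → E) (hq : ∀ N, Measurable (q N)) (ε : ℕ → ℝ) (hε : Tendsto ε atTop (𝓝 0))
    (hqε : ∀ N, ∀ y ∈ Y, dist y (q N y) ≤ ε N)
    (T : ℕ → E → E) (hT : ∀ N, Measurable (T N)) (hmap : ∀ N, ρ.map (T N) = μ.map (q N))
    (G : E → E) (hG : Measurable G)
    (hlim : Tendsto (fun N => eLpNorm (fun x => T N x - G x) 2 ρ) atTop (𝓝 0)) :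
    ρ.map G = μ := by
  have : IsFiniteMeasure (ρ.map G) := by infer_instance
  apply ext_of_forall_lintegral_eq_of_IsFiniteMeasure
  intro f
  have hfm : Measurable (fun y : E => (f y : ℝ≥0∞)) :=
    measurable_coe_nnreal_ennreal.comp f.continuous.measurable
  rw [lintegral_map hfm hG]
  -- a.e. convergent subsequence
  have hmeas : TendstoInMeasure ρ (fun N => T N) atTop G :=
    tendstoInMeasure_of_tendsto_eLpNorm (p := 2) (by norm_num)
      (fun N => (hT N).aestronglyMeasurable) hG.aestronglyMeasurable hlim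
  obtain ⟨ns, hns, hae⟩ := hmeas.exists_seq_tendsto_ae
  have hbound : ∀ y : E, (f y : ℝ≥0∞) ≤ (nndist f 0 : ℝ≥0∞) := fun y =>
    ENNReal.coe_le_coe.mpr (BoundedContinuousFunction.NNReal.upper_bound f y)
  have hfc : Continuous (fun y : E => (f y : ℝ≥0∞)) :=
    ENNReal.continuous_coe.comp f.continuous
  -- limit on the ρ side
  have h1 : Tendsto (fun i => ∫⁻ x, (f (T (ns i) x) : ℝ≥0∞) ∂ρ) atTop
      (𝓝 (∫⁻ x, (f (G x) : ℝ≥0∞) ∂ρ)) := by
    apply tendsto_lintegral_of_dominated_convergence (fun _ => (nndist f 0 : ℝ≥0∞))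
    · intro i; exact hfm.comp (hT (ns i))
    · intro i; exact Eventually.of_forall fun x => hbound _
    · simp
    · filter_upwards [hae] with x hx
      exact (hfc.tendsto (G x)).comp hx
  -- limit on the μ side
  have h2 : Tendsto (fun i => ∫⁻ y, (f (q (ns i) y) : ℝ≥0∞) ∂μ) atTop
      (𝓝 (∫⁻ y, (f y : ℝ≥0∞) ∂μ)) := by
    apply tendsto_lintegral_of_dominated_convergence (fun _ => (nndist f 0 : ℝ≥0∞))
    · intro i; exact hfm.comp (hq (ns i))
    · intro i; exact Eventually.of_forall fun x => hbound _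
    · simp
    · filter_upwards [hμY] with y hy
      have hqy : Tendsto (fun i => q (ns i) y) atTop (𝓝 y) := by
        rw [tendsto_iff_dist_tendsto_zero]
        have hεns : Tendsto (fun i => ε (ns i)) atTop (𝓝 0) :=
          hε.comp hns.tendsto_atTop
        refine squeeze_zero (fun i => dist_nonneg) (fun i => ?_) hεns
        rw [dist_comm]; exact hqε (ns i) y hy
      exact (hfc.tendsto y).comp hqy
  have h3 : ∀ i, ∫⁻ x, (f (T (ns i) x) : ℝ≥0∞) ∂ρ = ∫⁻ y, (f (q (ns i) y) : ℝ≥0∞) ∂μ := by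
    intro i
    rw [← lintegral_map hfm (hT (ns i)), ← lintegral_map hfm (hq (ns i)), hmap]
  simp only [h3] at h1
  exact tendsto_nhds_unique h1 h2

end maplimit

section l2limit

variable {d : ℕ}

local notation "E" => EuclideanSpace ℝ (Fin d)

/-- A sequence of uniformly bounded measurable maps which is geometrically Cauchy in `L²` has a
measurable `L²` limit. -/
theorem l2_limit (ρ : Measure E) [IsProbabilityMeasure ρ] (T : ℕ → E → E)
    (hT : ∀ N, Measurable (T N)) (L : ℝ) (hTb : ∀ N x, ‖T N x‖ ≤ L) (A : ℝ) (hA : 0 ≤ A)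
    (hcau : ∀ N n k, N ≤ n → N ≤ k →
      ∫⁻ x, ‖T n x - T k x‖ₑ ^ 2 ∂ρ ≤ ENNReal.ofReal ((A * (1 / 2 : ℝ) ^ N) ^ 2)) :
    ∃ G : E → E, Measurable G ∧
      Tendsto (fun N => eLpNorm (fun x => T N x - G x) 2 ρ) atTop (𝓝 0) := by
  set B : ℕ → ℝ≥0∞ := fun N => ENNReal.ofReal ((A + 1) * (1 / 2 : ℝ) ^ N) with hB
  have hBsum : ∑' i, B i ≠ ∞ := by
    have hs : Summable (fun N : ℕ => (A + 1) * (1 / 2 : ℝ) ^ N) :=
      summable_geometric_two.mul_left _
    rw [hB, ← ENNReal.ofReal_tsum_of_nonneg (fun n => by positivity) hs]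
    exact ENNReal.ofReal_ne_top
  have hmem : ∀ N, MemLp (T N) 2 ρ := fun N =>
    MemLp.of_bound (hT N).aestronglyMeasurable L (Eventually.of_forall (hTb N))
  have hc : ∀ N n k : ℕ, N ≤ n → N ≤ k → eLpNorm (T n - T k) 2 ρ < B N := by
    intro N n k hn hk
    have h1 : eLpNorm (T n - T k) 2 ρ ≤ ENNReal.ofReal (A * (1 / 2 : ℝ) ^ N) := by
      rw [← ENNReal.pow_le_pow_left_iff (n := 2) (by norm_num), eLpNorm_two_sq,
        ← ENNReal.ofReal_pow (by positivity)]
      exact hcau N n k hn hk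
    refine lt_of_le_of_lt h1 ?_
    rw [hB]
    apply (ENNReal.ofReal_lt_ofReal_iff (by positivity)).mpr
    have : (0 : ℝ) < (1 / 2 : ℝ) ^ N := by positivity
    nlinarith
  obtain ⟨G₀, hG₀, hlim⟩ := Lp.cauchy_complete_eLpNorm (p := 2) (by norm_num) hmem hBsum hc
  refine ⟨hG₀.1.mk G₀, hG₀.1.stronglyMeasurable_mk.measurable, ?_⟩
  have heq : ∀ N, eLpNorm (fun x => T N x - hG₀.1.mk G₀ x) 2 ρ = eLpNorm (T N - G₀) 2 ρ := by
    intro N
    apply eLpNorm_congr_ae
    filter_upwards [hG₀.1.ae_eq_mk] with x hx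
    simp [hx]
  simp only [heq]
  exact hlim

end l2limit

section ident

variable {d : ℕ}

local notation "E" => EuclideanSpace ℝ (Fin d)

/-- The finitely supported measure with sites `F` and weights `m`. -/
noncomputable def dMeas (F : Finset E) (m : E → ℝ) : Measure E :=
  ∑ p ∈ F, ENNReal.ofReal (m p) • Measure.dirac p

theorem dMeas_compl (F : Finset E) (m : E → ℝ) : dMeas F m (↑F : Set E)ᶜ = 0 := by
  unfold dMeas
  rw [Measure.coe_finsetSum, Finset.sum_apply]
  apply Finset.sum_eq_zero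
  intro p hp
  rw [Measure.smul_apply, Measure.dirac_apply' _ F.measurableSet.compl]
  simp [hp]

theorem ae_mem_of_map_eq {α : Type*} [MeasurableSpace α] (ρ : Measure α) (μ : Measure E)
    (f : α → E) (hf : Measurable f) (hmap : ρ.map f = μ)
    (S : Set E) (hS : MeasurableSet S) (h : μ Sᶜ = 0) : ∀ᵐ x ∂ρ, f x ∈ S := by
  rw [ae_iff]
  have e : {x | ¬ f x ∈ S} = f ⁻¹' Sᶜ := rfl
  rw [e, ← Measure.map_apply hf hS.compl, hmap]
  exact h

/-- Identification of a Monge-optimal map with the `L²` limit of discrete optimal selections. -/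
theorem ident_ae (K : Set E) (hKc : IsCompact K) (hKi : (interior K).Nonempty)
    (Y : Set E) (hYc : IsCompact Y) (L : ℝ) (hYL : ∀ y ∈ Y, ‖y‖ ≤ L)
    (q : ℕ → E → E) (hq : ∀ N, Measurable (q N)) (hqY : ∀ N y, q N y ∈ Y)
    (hqε : ∀ N, ∀ y ∈ Y, dist y (q N y) ≤ (1 / 8 : ℝ) ^ N)
    (μ : Measure E) (hμ : IsProbabilityOn Y μ) (Tμ : E → E)
    (hTμ : IsOptimalMap (uniformProbOn K) μ Tμ)
    (F : ℕ → Finset E) (m : ℕ → E → ℝ) (T : ℕ → E → E)
    (hTm : ∀ N, Measurable (T N)) (hTb : ∀ N x, ‖T N x‖ ≤ L)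
    (hTmap : ∀ N, (uniformProbOn K).map (T N) = dMeas (F N) (m N))
    (hμF : ∀ N, μ.map (q N) = dMeas (F N) (m N))
    (φ : ℕ → E → ℝ) (c : ℕ → E → ℝ)
    (hsub : ∀ N x x', φ N x + ⟪T N x, x' - x⟫ ≤ φ N x')
    (hc : ∀ N, ∀ p ∈ F N, ∀ x', ⟪x', p⟫ - c N p ≤ φ N x')
    (hφ : ∀ N, ∀ᵐ x ∂(uniformProbOn K), φ N x = ⟪x, T N x⟫ - c N (T N x))
    (G : E → E) (hGm : Measurable G) (hGmap : (uniformProbOn K).map G = μ)
    (hGlim : Tendsto (fun N => eLpNorm (fun x => T N x - G x) 2 (uniformProbOn K))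
      atTop (𝓝 0)) :
    ∀ᵐ x ∂(uniformProbOn K), Tμ x = G x := by
  set ρ := uniformProbOn K with hρ
  have : IsProbabilityMeasure ρ := isProb_rho K hKc hKi
  have : IsProbabilityMeasure μ := hμ.1
  obtain ⟨hTμm, hTμmap, hTμopt⟩ := hTμ
  have hYm : MeasurableSet Y := hYc.measurableSet
  obtain ⟨RK, hRK⟩ := hKc.isBounded.exists_norm_le
  have hxK : ∀ᵐ x ∂ρ, ‖x‖ ≤ RK := (ae_mem_K K hKc).mono fun x hx => hRK x hx
  have hRK0 : 0 ≤ RK := by
    obtain ⟨x0, hx0⟩ := hKi
    exact (norm_nonneg _).trans (hRK x0 (interior_subset hx0))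
  have hL0 : 0 ≤ L := (norm_nonneg _).trans (hTb 0 0)
  have hTμY : ∀ᵐ x ∂ρ, Tμ x ∈ Y := ae_mem_of_map_eq ρ μ Tμ hTμm hTμmap Y hYm hμ.2
  have hGY : ∀ᵐ x ∂ρ, G x ∈ Y := ae_mem_of_map_eq ρ μ G hGm hGmap Y hYm hμ.2
  have hTμL : ∀ᵐ x ∂ρ, ‖Tμ x‖ ≤ L := hTμY.mono fun x hx => hYL _ hx
  have hGL : ∀ᵐ x ∂ρ, ‖G x‖ ≤ L := hGY.mono fun x hx => hYL _ hx
  -- the competitor maps `S N = q N ∘ Tμ`
  set S : ℕ → E → E := fun N x => q N (Tμ x) with hS
  have hSm : ∀ N, Measurable (S N) := fun N => (hq N).comp hTμm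
  have hSmap : ∀ N, ρ.map (S N) = dMeas (F N) (m N) := by
    intro N
    rw [← hμF N, ← hTμmap, Measure.map_map (hq N) hTμm]
    rfl
  have hSL : ∀ N x, ‖S N x‖ ≤ L := fun N x => hYL _ (hqY N _)
  have hSTμ : ∀ N, ∀ᵐ x ∂ρ, ‖S N x - Tμ x‖ ≤ (1 / 8 : ℝ) ^ N := by
    intro N
    filter_upwards [hTμY] with x hx
    have := hqε N _ hx
    rwa [dist_comm, dist_eq_norm] at this
  -- integrability helper
  have hint : ∀ f : E → E, Measurable f → (∀ᵐ x ∂ρ, ‖f x‖ ≤ L) →
      Integrable (fun x => ⟪x, f x⟫) ρ := by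
    intro f hf hfb
    refine Integrable.of_bound (measurable_id.inner hf).aestronglyMeasurable (RK * L) ?_
    filter_upwards [hxK, hfb] with x hx hfx
    rw [Real.norm_eq_abs]
    exact (abs_real_inner_le_norm _ _).trans (mul_le_mul hx hfx (norm_nonneg _) hRK0)
  -- cost expansion
  have hi1 : Integrable (fun x : E => ‖x‖ ^ 2) ρ :=
    Integrable.of_bound (measurable_norm.pow_const 2).aestronglyMeasurable (RK ^ 2) (by
      filter_upwards [hxK] with x hx
      rw [Real.norm_eq_abs, abs_of_nonneg (by positivity)]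
      exact pow_le_pow_left₀ (norm_nonneg _) hx 2)
  have hcost : ∀ f : E → E, Measurable f → ρ.map f = μ → (∀ᵐ x ∂ρ, ‖f x‖ ≤ L) →
      (∫⁻ x, ‖x - f x‖ₑ ^ 2 ∂ρ = ENNReal.ofReal (∫ x, ‖x - f x‖ ^ 2 ∂ρ)) ∧
      (∫ x, ‖x - f x‖ ^ 2 ∂ρ =
        (∫ x, ‖x‖ ^ 2 ∂ρ) - 2 * (∫ x, ⟪x, f x⟫ ∂ρ) + ∫ y, ‖y‖ ^ 2 ∂μ) := by
    intro f hf hfmap hfb
    have h1 : ∀ x, ‖x - f x‖ₑ ^ 2 = ENNReal.ofReal (‖x - f x‖ ^ 2) := fun x => by
      rw [← ofReal_norm, ENNReal.ofReal_pow (norm_nonneg _)]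
    have hi2 := hint f hf hfb
    have hi3 : Integrable (fun x : E => ‖f x‖ ^ 2) ρ :=
      Integrable.of_bound (hf.norm.pow_const 2).aestronglyMeasurable (L ^ 2) (by
        filter_upwards [hfb] with x hx
        rw [Real.norm_eq_abs, abs_of_nonneg (by positivity)]
        exact pow_le_pow_left₀ (norm_nonneg _) hx 2)
    have hexp : ∀ x, ‖x - f x‖ ^ 2 = ‖x‖ ^ 2 - 2 * ⟪x, f x⟫ + ‖f x‖ ^ 2 := fun x =>
      norm_sub_sq_real x (f x)
    have hi2' : Integrable (fun x => 2 * ⟪x, f x⟫) ρ := hi2.const_mul 2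
    have hi12 : Integrable (fun x => ‖x‖ ^ 2 - 2 * ⟪x, f x⟫) ρ := hi1.sub hi2'
    have hi : Integrable (fun x => ‖x - f x‖ ^ 2) ρ := by
      simp only [hexp]
      exact hi12.add hi3
    constructor
    · simp only [h1]
      rw [← ofReal_integral_eq_lintegral_ofReal hi (Eventually.of_forall fun x => by positivity)]
    · simp only [hexp]
      rw [integral_add hi12 hi3, integral_sub hi1 hi2', integral_const_mul]
      congr 1
      rw [← hfmap, integral_map hf.aemeasurable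
        (measurable_norm.pow_const 2).aestronglyMeasurable]
  have hD : ∫ x, ⟪x, G x⟫ ∂ρ ≤ ∫ x, ⟪x, Tμ x⟫ ∂ρ := by
    have h := hTμopt G hGm hGmap
    obtain ⟨hT1, hT2⟩ := hcost Tμ hTμm hTμmap hTμL
    obtain ⟨hG1, hG2⟩ := hcost G hGm hGmap hGL
    rw [hT1, hG1] at h
    have h' := (ENNReal.ofReal_le_ofReal_iff
      (integral_nonneg fun x => by positivity)).mp h
    rw [hT2, hG2] at h'
    linarith
  -- measurable version of the weights
  set ct : ℕ → E → ℝ := fun N y => ∑ p ∈ F N, Set.indicator ({p} : Set E) (fun _ => c N p) y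
    with hct
  have hctm : ∀ N, Measurable (ct N) := fun N =>
    Finset.measurable_sum _ fun p _ => measurable_const.indicator (measurableSet_singleton p)
  have hctF : ∀ N, ∀ p ∈ F N, ct N p = c N p := by
    intro N p hp
    simp only [hct]
    rw [Finset.sum_eq_single_of_mem p hp]
    · simp
    · intro p' _ hne
      rw [Set.indicator_of_notMem]
      simpa using hne.symm
  have hctb : ∀ N y, ‖ct N y‖ ≤ ∑ p ∈ F N, |c N p| := by
    intro N y
    simp only [hct]
    rw [Real.norm_eq_abs]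
    refine (Finset.abs_sum_le_sum_abs _ _).trans (Finset.sum_le_sum fun p _ => ?_)
    by_cases hy : y ∈ ({p} : Set E)
    · rw [Set.indicator_of_mem hy]
    · rw [Set.indicator_of_notMem hy]; simp
  have hTF : ∀ N, ∀ᵐ x ∂ρ, T N x ∈ F N := fun N =>
    ae_mem_of_map_eq ρ _ (T N) (hTm N) (hTmap N) (↑(F N)) (F N).measurableSet (dMeas_compl _ _)
  have hSF : ∀ N, ∀ᵐ x ∂ρ, S N x ∈ F N := fun N =>
    ae_mem_of_map_eq ρ _ (S N) (hSm N) (hSmap N) (↑(F N)) (F N).measurableSet (dMeas_compl _ _)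
  -- the gap
  set e : ℕ → E → ℝ := fun N x => φ N x + ct N (S N x) - ⟪x, S N x⟫ with he
  have he_ae : ∀ N, ∀ᵐ x ∂ρ,
      e N x = ⟪x, T N x⟫ - ct N (T N x) + ct N (S N x) - ⟪x, S N x⟫ := by
    intro N
    filter_upwards [hφ N, hTF N] with x h1 h2
    simp only [he]
    rw [h1, hctF N _ h2]
  have he_nonneg : ∀ N, ∀ᵐ x ∂ρ, 0 ≤ e N x := by
    intro N
    filter_upwards [hSF N] with x hx
    have h := hc N _ hx x
    rw [← hctF N _ hx] at h
    simp only [he]
    linarith
  have hiT : ∀ N, Integrable (fun x => ⟪x, T N x⟫) ρ := fun N =>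
    hint _ (hTm N) (Eventually.of_forall (hTb N))
  have hiS : ∀ N, Integrable (fun x => ⟪x, S N x⟫) ρ := fun N =>
    hint _ (hSm N) (Eventually.of_forall (hSL N))
  have hicT : ∀ N, Integrable (fun x => ct N (T N x)) ρ := fun N =>
    Integrable.of_bound ((hctm N).comp (hTm N)).aestronglyMeasurable _
      (Eventually.of_forall fun x => hctb N _)
  have hicS : ∀ N, Integrable (fun x => ct N (S N x)) ρ := fun N =>
    Integrable.of_bound ((hctm N).comp (hSm N)).aestronglyMeasurable _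
      (Eventually.of_forall fun x => hctb N _)
  have hI1 : ∀ N, Integrable (fun x => ⟪x, T N x⟫ - ct N (T N x)) ρ := fun N =>
    (hiT N).sub (hicT N)
  have hI2 : ∀ N, Integrable (fun x => ⟪x, T N x⟫ - ct N (T N x) + ct N (S N x)) ρ := fun N =>
    (hI1 N).add (hicS N)
  have hI3 : ∀ N, Integrable
      (fun x => ⟪x, T N x⟫ - ct N (T N x) + ct N (S N x) - ⟪x, S N x⟫) ρ := fun N =>
    (hI2 N).sub (hiS N)
  have hie : ∀ N, Integrable (e N) ρ := fun N =>
    (hI3 N).congr (by filter_upwards [he_ae N] with x hx; exact hx.symm)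
  have he_int : ∀ N, ∫ x, e N x ∂ρ = (∫ x, ⟪x, T N x⟫ ∂ρ) - ∫ x, ⟪x, S N x⟫ ∂ρ := by
    intro N
    rw [integral_congr_ae (he_ae N)]
    rw [integral_sub (hI2 N) (hiS N), integral_add (hI1 N) (hicS N),
      integral_sub (hiT N) (hicT N)]
    have e1 : ∫ x, ct N (T N x) ∂ρ = ∫ y, ct N y ∂(ρ.map (T N)) :=
      (integral_map (hTm N).aemeasurable (hctm N).aestronglyMeasurable).symm
    have e2 : ∫ x, ct N (S N x) ∂ρ = ∫ y, ct N y ∂(ρ.map (S N)) :=
      (integral_map (hSm N).aemeasurable (hctm N).aestronglyMeasurable).symm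
    rw [e1, e2, hTmap N, hSmap N]
    ring
  -- convergence of the two correlation integrals
  have hmemTG : ∀ N, MemLp (fun x => T N x - G x) 2 ρ := fun N =>
    MemLp.of_bound ((hTm N).sub hGm).aestronglyMeasurable (L + L) (by
      filter_upwards [hGL] with x hx
      exact (norm_sub_le _ _).trans (add_le_add (hTb N x) hx))
  have hL1 : ∀ N, ∫⁻ x, ‖T N x - G x‖ₑ ∂ρ ≤ eLpNorm (fun x => T N x - G x) 2 ρ := by
    intro N
    rw [← eLpNorm_one_eq_lintegral_enorm]
    exact eLpNorm_le_eLpNorm_of_exponent_le (by norm_num)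
      ((hTm N).sub hGm).aestronglyMeasurable
  have hlim0 : Tendsto (fun N => (eLpNorm (fun x => T N x - G x) 2 ρ).toReal) atTop (𝓝 0) := by
    have := (ENNReal.tendsto_toReal ENNReal.zero_ne_top).comp hGlim
    simp only [ENNReal.toReal_zero] at this
    exact this
  have ha : Tendsto (fun N => ∫ x, ⟪x, T N x⟫ ∂ρ) atTop (𝓝 (∫ x, ⟪x, G x⟫ ∂ρ)) := by
    rw [tendsto_iff_norm_sub_tendsto_zero]
    have hlim1 : Tendsto (fun N => RK * (eLpNorm (fun x => T N x - G x) 2 ρ).toReal)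
        atTop (𝓝 0) := by
      have := hlim0.const_mul RK
      simpa using this
    refine squeeze_zero (fun _ => norm_nonneg _) (fun N => ?_) hlim1
    rw [← integral_sub (hiT N) (hint _ hGm hGL)]
    have hsub' : ∀ x, ⟪x, T N x⟫ - ⟪x, G x⟫ = ⟪x, T N x - G x⟫ := fun x =>
      (inner_sub_right _ _ _).symm
    simp only [hsub']
    have hiN : Integrable (fun x => RK * ‖T N x - G x‖) ρ :=
      ((hmemTG N).integrable (by norm_num)).norm.const_mul RK
    calc ‖∫ x, ⟪x, T N x - G x⟫ ∂ρ‖ ≤ ∫ x, ‖⟪x, T N x - G x⟫‖ ∂ρ :=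
          norm_integral_le_integral_norm _
      _ ≤ ∫ x, RK * ‖T N x - G x‖ ∂ρ := by
          apply integral_mono_of_nonneg (Eventually.of_forall fun x => norm_nonneg _) hiN
          filter_upwards [hxK] with x hx
          rw [Real.norm_eq_abs]
          exact (abs_real_inner_le_norm _ _).trans
            (mul_le_mul_of_nonneg_right hx (norm_nonneg _))
      _ = RK * ∫ x, ‖T N x - G x‖ ∂ρ := integral_const_mul _ _
      _ ≤ RK * (eLpNorm (fun x => T N x - G x) 2 ρ).toReal := by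
          gcongr
          have hsm : AEStronglyMeasurable (fun x => T N x - G x) ρ :=
            ((hTm N).sub hGm).aestronglyMeasurable
          rw [integral_norm_eq_lintegral_enorm hsm]
          exact ENNReal.toReal_mono (hmemTG N).2.ne (hL1 N)
  have hb : Tendsto (fun N => ∫ x, ⟪x, S N x⟫ ∂ρ) atTop (𝓝 (∫ x, ⟪x, Tμ x⟫ ∂ρ)) := by
    rw [tendsto_iff_norm_sub_tendsto_zero]
    have hlim1 : Tendsto (fun N : ℕ => RK * (1 / 8 : ℝ) ^ N) atTop (𝓝 0) := by
      have := (tendsto_pow_atTop_nhds_zero_of_lt_one (by norm_num : (0 : ℝ) ≤ 1 / 8)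
        (by norm_num : (1 / 8 : ℝ) < 1)).const_mul RK
      simpa using this
    refine squeeze_zero (fun _ => norm_nonneg _) (fun N => ?_) hlim1
    rw [← integral_sub (hiS N) (hint _ hTμm hTμL)]
    have hsub' : ∀ x, ⟪x, S N x⟫ - ⟪x, Tμ x⟫ = ⟪x, S N x - Tμ x⟫ := fun x =>
      (inner_sub_right _ _ _).symm
    simp only [hsub']
    have hbd : ∀ᵐ x ∂ρ, ‖⟪x, S N x - Tμ x⟫‖ ≤ RK * (1 / 8 : ℝ) ^ N := by
      filter_upwards [hxK, hSTμ N] with x hx hx'
      rw [Real.norm_eq_abs]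
      exact (abs_real_inner_le_norm _ _).trans (mul_le_mul hx hx' (norm_nonneg _) hRK0)
    have := norm_integral_le_of_norm_le_const hbd
    simpa using this
  have hgap0 : Tendsto (fun N => ∫ x, e N x ∂ρ) atTop (𝓝 0) := by
    have h1 := ha.sub hb
    have h2 : 0 ≤ (∫ x, ⟪x, G x⟫ ∂ρ) - ∫ x, ⟪x, Tμ x⟫ ∂ρ :=
      ge_of_tendsto' h1 fun N => by
        rw [← he_int N]; exact integral_nonneg_of_ae (he_nonneg N)
    have h3 : (∫ x, ⟪x, G x⟫ ∂ρ) - ∫ x, ⟪x, Tμ x⟫ ∂ρ = 0 := le_antisymm (by linarith) h2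
    rw [h3] at h1
    simpa only [he_int] using h1
  -- hypotheses of `Ident.limit`
  have hgap' : ∀ N, ∀ᵐ x ∂((volume : Measure E).restrict K),
      ∀ x', ⟪x', S N x⟫ - ct N (S N x) ≤ φ N x' := fun N =>
    (ae_rho_iff K hKc _).mp (by
      filter_upwards [hSF N] with x hx x'
      rw [hctF N _ hx]
      exact hc N _ hx x')
  have he' : Tendsto (fun N => ∫⁻ x in K, ENNReal.ofReal (φ N x + ct N (S N x) - ⟪x, S N x⟫))
      atTop (𝓝 0) := by
    have hEq : ∀ N, ∫⁻ x in K, ENNReal.ofReal (φ N x + ct N (S N x) - ⟪x, S N x⟫)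
        = volume K * ENNReal.ofReal (∫ x, e N x ∂ρ) := fun N => by
      rw [lintegral_K_eq K hKc hKi, ofReal_integral_eq_lintegral_ofReal (hie N) (he_nonneg N)]
    simp only [hEq]
    have := ENNReal.Tendsto.const_mul (a := volume K)
      ((ENNReal.continuous_ofReal.tendsto 0).comp hgap0) (Or.inr (volK_ne_top K hKc))
    simpa using this
  have hS' : Tendsto (fun N => ∫⁻ x in K, ‖S N x - Tμ x‖ₑ) atTop (𝓝 0) := by
    have hup : Tendsto (fun N : ℕ => volume K * ENNReal.ofReal ((1 / 8 : ℝ) ^ N))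
        atTop (𝓝 0) := by
      have h0 := tendsto_pow_atTop_nhds_zero_of_lt_one (by norm_num : (0 : ℝ) ≤ 1 / 8)
        (by norm_num : (1 / 8 : ℝ) < 1)
      have := ENNReal.Tendsto.const_mul (a := volume K)
        ((ENNReal.continuous_ofReal.tendsto 0).comp h0) (Or.inr (volK_ne_top K hKc))
      simpa using this
    refine tendsto_of_tendsto_of_tendsto_of_le_of_le tendsto_const_nhds hup
      (fun N => zero_le) (fun N => ?_)
    rw [lintegral_K_eq K hKc hKi]
    gcongr
    calc ∫⁻ x, ‖S N x - Tμ x‖ₑ ∂ρ ≤ ∫⁻ _x, ENNReal.ofReal ((1 / 8 : ℝ) ^ N) ∂ρ := by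
          apply lintegral_mono_ae
          filter_upwards [hSTμ N] with x hx
          rw [← ofReal_norm]
          exact ENNReal.ofReal_le_ofReal hx
      _ = ENNReal.ofReal ((1 / 8 : ℝ) ^ N) := by simp
  have hTG' : Tendsto (fun N => ∫⁻ x in K, ‖T N x - G x‖ₑ) atTop (𝓝 0) := by
    have hup : Tendsto (fun N : ℕ => volume K * eLpNorm (fun x => T N x - G x) 2 ρ)
        atTop (𝓝 0) := by
      have := ENNReal.Tendsto.const_mul (a := volume K) hGlim (Or.inr (volK_ne_top K hKc))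
      simpa using this
    refine tendsto_of_tendsto_of_tendsto_of_le_of_le tendsto_const_nhds hup
      (fun N => zero_le) (fun N => ?_)
    rw [lintegral_K_eq K hKc hKi]
    gcongr
    exact hL1 N
  have := Ident.limit K hKc.isBounded φ T S ct L hsub hTm hTb hSm hgap' Tμ G hTμm
    hGm.aemeasurable he' hS' hTG'
  exact (ae_rho_iff K hKc _).mpr this

end ident

section final

variable {d : ℕ}

local notation "E" => EuclideanSpace ℝ (Fin d)

/-- Abstract interface to the discrete theory: `P F m T` means "`T` is a discrete optimal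
selection for the sites `F` with weights `m`". -/
structure Interface (K : Set E) (L : ℝ) (C : ℝ≥0)
    (P : Finset E → (E → ℝ) → (E → E) → Prop) : Prop where
  h1 : ∀ (F : Finset E) (m : E → ℝ), (∀ p ∈ F, ‖p‖ ≤ L) → (∀ p ∈ F, 0 < m p) →
    ∑ p ∈ F, m p = 1 → ∃ T, P F m T
  h2 : ∀ (F : Finset E) (m : E → ℝ) (T : E → E), P F m T →
    Measurable T ∧ (∀ x, ‖T x‖ ≤ L) ∧ (uniformProbOn K).map T = dMeas F m ∧
      ∃ (φ : E → ℝ) (c : E → ℝ), (∀ x x', φ x + ⟪T x, x' - x⟫ ≤ φ x') ∧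
        (∀ p ∈ F, ∀ x', ⟪x', p⟫ - c p ≤ φ x') ∧
        (∀ᵐ x ∂(uniformProbOn K), φ x = ⟪x, T x⟫ - c (T x))
  h3 : ∀ (F : Finset E) (m : E → ℝ) (T : E → E) (F' : Finset E) (m' : E → ℝ) (T' : E → E),
    P F m T → P F' m' T' → ∀ π : Measure (E × E), IsPairCoupling (dMeas F m) (dMeas F' m') π →
      ∫⁻ x, ‖T x - T' x‖ₑ ^ 2 ∂(uniformProbOn K) ≤ C * quadCost π ^ (1 / 3 : ℝ)

/-- Discrete optimal selections for the quantised measures converge in `L²` to any
Monge-optimal map. -/
theorem approx (K : Set E) (hKc : IsCompact K) (hKi : (interior K).Nonempty)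
    (Y : Set E) (hYc : IsCompact Y) (L : ℝ) (hYL : ∀ y ∈ Y, ‖y‖ ≤ L) (C : ℝ≥0)
    (P : Finset E → (E → ℝ) → (E → E) → Prop) (I : Interface K L C P)
    (q : ℕ → E → E) (hq : ∀ N, Measurable (q N)) (hqY : ∀ N y, q N y ∈ Y)
    (hqε : ∀ N, ∀ y ∈ Y, dist y (q N y) ≤ (1 / 8 : ℝ) ^ N)
    (μ : Measure E) (hμ : IsProbabilityOn Y μ) (Tμ : E → E)
    (hTμ : IsOptimalMap (uniformProbOn K) μ Tμ)
    (F : ℕ → Finset E) (m : ℕ → E → ℝ) (T : ℕ → E → E)
    (hP : ∀ N, P (F N) (m N) (T N)) (hμF : ∀ N, μ.map (q N) = dMeas (F N) (m N)) :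
    Tendsto (fun N => eLpNorm (fun x => T N x - Tμ x) 2 (uniformProbOn K)) atTop (𝓝 0) := by
  set ρ := uniformProbOn K with hρ
  have : IsProbabilityMeasure ρ := isProb_rho K hKc hKi
  have : IsProbabilityMeasure μ := hμ.1
  have hμY : ∀ᵐ y ∂μ, y ∈ Y := by
    rw [ae_iff]; exact hμ.2
  have H2 := fun N => I.h2 (F N) (m N) (T N) (hP N)
  choose hTm hTb hTmap φ c hsub hc hφ using H2
  -- Cauchy property from the discrete inequality
  have hcau : ∀ N n k, N ≤ n → N ≤ k → ∫⁻ x, ‖T n x - T k x‖ₑ ^ 2 ∂ρ ≤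
      ENNReal.ofReal ((Real.sqrt (2 * C) * (1 / 2 : ℝ) ^ N) ^ 2) := by
    intro N n k hn hk
    set π := μ.map (fun y => (q n y, q k y)) with hπ
    have hpm : Measurable (fun y => (q n y, q k y)) := (hq n).prodMk (hq k)
    have hcoup : IsPairCoupling (dMeas (F n) (m n)) (dMeas (F k) (m k)) π := by
      constructor
      · rw [← hμF n, hπ, Measure.map_map measurable_fst hpm]; rfl
      · rw [← hμF k, hπ, Measure.map_map measurable_snd hpm]; rfl
    have hQ : quadCost π ≤ ENNReal.ofReal ((2 * (1 / 8 : ℝ) ^ N) ^ 2) := by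
      unfold quadCost
      have hmeas : Measurable (fun p : E × E => ‖p.1 - p.2‖ₑ ^ 2) := by fun_prop
      rw [hπ, lintegral_map hmeas hpm]
      calc ∫⁻ y, ‖q n y - q k y‖ₑ ^ 2 ∂μ
          ≤ ∫⁻ _y, ENNReal.ofReal ((2 * (1 / 8 : ℝ) ^ N) ^ 2) ∂μ := by
            apply lintegral_mono_ae
            filter_upwards [hμY] with y hy
            rw [← ofReal_norm, ← ENNReal.ofReal_pow (norm_nonneg _)]
            apply ENNReal.ofReal_le_ofReal
            apply pow_le_pow_left₀ (norm_nonneg _)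
            have h1 := hqε n y hy
            have h2 := hqε k y hy
            have h3 : (1 / 8 : ℝ) ^ n ≤ (1 / 8) ^ N :=
              pow_le_pow_of_le_one (by norm_num) (by norm_num) hn
            have h4 : (1 / 8 : ℝ) ^ k ≤ (1 / 8) ^ N :=
              pow_le_pow_of_le_one (by norm_num) (by norm_num) hk
            calc ‖q n y - q k y‖ = dist (q n y) (q k y) := (dist_eq_norm _ _).symm
              _ ≤ dist (q n y) y + dist y (q k y) := dist_triangle _ _ _
              _ ≤ (1 / 8) ^ N + (1 / 8) ^ N := by rw [dist_comm (q n y) y]; linarith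
              _ = 2 * (1 / 8) ^ N := by ring
        _ = _ := by simp
    calc ∫⁻ x, ‖T n x - T k x‖ₑ ^ 2 ∂ρ ≤ C * quadCost π ^ (1 / 3 : ℝ) :=
          I.h3 _ _ _ _ _ _ (hP n) (hP k) π hcoup
      _ ≤ C * (ENNReal.ofReal ((2 * (1 / 8 : ℝ) ^ N) ^ 2)) ^ (1 / 3 : ℝ) := by gcongr
      _ ≤ ENNReal.ofReal ((Real.sqrt (2 * C) * (1 / 2 : ℝ) ^ N) ^ 2) := by
          rw [ENNReal.ofReal_rpow_of_nonneg (by positivity) (by norm_num),
            ← ENNReal.ofReal_coe_nnreal, ← ENNReal.ofReal_mul (NNReal.coe_nonneg C)]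
          apply ENNReal.ofReal_le_ofReal
          have hx : ((2 * (1 / 8 : ℝ) ^ N) ^ 2) ^ (1 / 3 : ℝ) ≤ 2 * (1 / 4 : ℝ) ^ N := by
            have e1 : (2 * (1 / 8 : ℝ) ^ N) ^ 2 ≤ (2 * (1 / 4 : ℝ) ^ N) ^ 3 := by
              have a1 : ((1 / 8 : ℝ) ^ N) ^ 2 = (1 / 64 : ℝ) ^ N := by
                rw [← pow_mul, mul_comm, pow_mul]; norm_num
              have a2 : ((1 / 4 : ℝ) ^ N) ^ 3 = (1 / 64 : ℝ) ^ N := by
                rw [← pow_mul, mul_comm, pow_mul]; norm_num
              rw [mul_pow, mul_pow, a1, a2]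
              have : (0 : ℝ) ≤ (1 / 64) ^ N := by positivity
              nlinarith
            calc ((2 * (1 / 8 : ℝ) ^ N) ^ 2) ^ (1 / 3 : ℝ)
                ≤ ((2 * (1 / 4 : ℝ) ^ N) ^ 3) ^ (1 / 3 : ℝ) :=
                  Real.rpow_le_rpow (by positivity) e1 (by norm_num)
              _ = 2 * (1 / 4 : ℝ) ^ N := by
                  rw [← Real.rpow_natCast, ← Real.rpow_mul (by positivity)]; norm_num
          calc (C : ℝ) * ((2 * (1 / 8 : ℝ) ^ N) ^ 2) ^ (1 / 3 : ℝ) ≤ C * (2 * (1 / 4 : ℝ) ^ N) := by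
                gcongr
            _ = (Real.sqrt (2 * C) * (1 / 2 : ℝ) ^ N) ^ 2 := by
                rw [mul_pow, Real.sq_sqrt (by positivity), ← pow_mul, mul_comm N 2, pow_mul]
                norm_num; ring
  obtain ⟨G, hGm, hGlim⟩ :=
    l2_limit ρ T hTm L hTb (Real.sqrt (2 * C)) (Real.sqrt_nonneg _) hcau
  have hGmap : ρ.map G = μ :=
    map_limit ρ μ Y hμY q hq (fun N => (1 / 8 : ℝ) ^ N)
      (tendsto_pow_atTop_nhds_zero_of_lt_one (by norm_num) (by norm_num)) hqε T hTm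
      (fun N => (hTmap N).trans (hμF N).symm) G hGm hGlim
  have hid := ident_ae K hKc hKi Y hYc L hYL q hq hqY hqε μ hμ Tμ hTμ F m T hTm hTb hTmap hμF
    φ c hsub hc hφ G hGm hGmap hGlim
  have heq : ∀ N, eLpNorm (fun x => T N x - Tμ x) 2 ρ = eLpNorm (fun x => T N x - G x) 2 ρ :=
    fun N => eLpNorm_congr_ae (by filter_upwards [hid] with x hx; rw [hx])
  simp only [heq]
  exact hGlim

/-- **Limit passage.**  If the discrete theory provides the interface `Interface K L C P`, then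
the inequality of S0109 holds with the same constant `C` for all probability measures on `Y`,
all Monge-optimal maps and all couplings. -/
theorem ap_main (K : Set E) (hKc : IsCompact K) (hKi : (interior K).Nonempty)
    (Y : Set E) (hYc : IsCompact Y) (hYn : Y.Nonempty) (L : ℝ) (hYL : ∀ y ∈ Y, ‖y‖ ≤ L)
    (C : ℝ≥0) (P : Finset E → (E → ℝ) → (E → E) → Prop) (I : Interface K L C P) :
    ∀ μ ν : Measure E, IsProbabilityOn Y μ → IsProbabilityOn Y ν →
      ∀ Tμ Tν : E → E, IsOptimalMap (uniformProbOn K) μ Tμ →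
        IsOptimalMap (uniformProbOn K) ν Tν →
        ∀ π : Measure (E × E), IsPairCoupling μ ν π →
          ∫⁻ x, ‖Tμ x - Tν x‖ₑ ^ 2 ∂(uniformProbOn K) ≤ C * quadCost π ^ (1 / 3 : ℝ) := by
  intro μ ν hμ hν Tμ Tν hTμ hTν π hπ
  set ρ := uniformProbOn K with hρ
  have : IsProbabilityMeasure ρ := isProb_rho K hKc hKi
  have hμp : IsProbabilityMeasure μ := hμ.1
  have hνp : IsProbabilityMeasure ν := hν.1
  have hYm : MeasurableSet Y := hYc.measurableSet
  -- quantisers
  have hex := fun N : ℕ => exists_quantizer Y hYc hYn ((1 / 8 : ℝ) ^ N) (by positivity)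
  choose q hq hqfin hqY hqd using hex
  have hqε : ∀ N, ∀ y ∈ Y, dist y (q N y) ≤ (1 / 8 : ℝ) ^ N := fun N y hy => (hqd N y hy).le
  -- discrete data for a measure
  have hdata : ∀ (σ : Measure E), IsProbabilityOn Y σ →
      ∃ (F : ℕ → Finset E) (m : ℕ → E → ℝ) (T : ℕ → E → E),
        (∀ N, P (F N) (m N) (T N)) ∧ ∀ N, σ.map (q N) = dMeas (F N) (m N) := by
    intro σ hσ
    have hσp : IsProbabilityMeasure σ := hσ.1
    have hN : ∀ N, ∃ (F : Finset E) (m : E → ℝ) (T : E → E),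
        P F m T ∧ σ.map (q N) = dMeas F m := by
      intro N
      obtain ⟨F, m, hm0, hm1, hFr, hmap⟩ := map_finite_range σ (q N) (hq N) (hqfin N)
      have hFL : ∀ p ∈ F, ‖p‖ ≤ L := fun p hp => by
        obtain ⟨y, rfl⟩ := hFr p hp
        exact hYL _ (hqY N y)
      obtain ⟨T, hT⟩ := I.h1 F m hFL hm0 hm1
      exact ⟨F, m, T, hT, hmap⟩
    choose F m T hP hmap using hN
    exact ⟨F, m, T, hP, hmap⟩
  obtain ⟨F, m, T, hP, hμF⟩ := hdata μ hμ
  obtain ⟨F', m', T', hP', hνF⟩ := hdata ν hν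
  have hA := approx K hKc hKi Y hYc L hYL C P I q hq hqY hqε μ hμ Tμ hTμ F m T hP hμF
  have hB := approx K hKc hKi Y hYc L hYL C P I q hq hqY hqε ν hν Tν hTν F' m' T' hP' hνF
  have hTm : ∀ N, Measurable (T N) := fun N => (I.h2 _ _ _ (hP N)).1
  have hT'm : ∀ N, Measurable (T' N) := fun N => (I.h2 _ _ _ (hP' N)).1
  obtain ⟨hTμm, hTμmap, -⟩ := hTμ
  obtain ⟨hTνm, hTνmap, -⟩ := hTν
  -- the coupling
  have hπp : IsProbabilityMeasure π := by
    constructor
    have h1 : (π.map Prod.fst) Set.univ = 1 := by rw [hπ.1]; exact measure_univ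
    rwa [Measure.map_apply measurable_fst MeasurableSet.univ, Set.preimage_univ] at h1
  have hπ1 : ∀ᵐ p ∂π, p.1 ∈ Y := ae_mem_of_map_eq π μ Prod.fst measurable_fst hπ.1 Y hYm hμ.2
  have hπ2 : ∀ᵐ p ∂π, p.2 ∈ Y := ae_mem_of_map_eq π ν Prod.snd measurable_snd hπ.2 Y hYm hν.2
  set s : ℝ≥0∞ := eLpNorm (fun p : E × E => p.1 - p.2) 2 π with hs
  have hQ : quadCost π = s ^ 2 := by
    rw [hs, eLpNorm_two_sq]; rfl
  set Ψ : ℝ≥0∞ → ℝ≥0∞ := fun t => ((C : ℝ≥0∞) * (t ^ 2) ^ (1 / 3 : ℝ)) ^ (1 / 2 : ℝ) with hΨ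
  have hΨc : Continuous Ψ := by
    have h1 : Continuous fun t : ℝ≥0∞ => (t ^ 2) ^ (1 / 3 : ℝ) :=
      ENNReal.continuous_rpow_const.comp (ENNReal.continuous_pow 2)
    have h2 : Continuous fun t : ℝ≥0∞ => (C : ℝ≥0∞) * (t ^ 2) ^ (1 / 3 : ℝ) :=
      (ENNReal.continuous_const_mul ENNReal.coe_ne_top).comp h1
    exact ENNReal.continuous_rpow_const.comp h2
  -- the discrete inequality for the quantised coupling
  have hmid : ∀ N, eLpNorm (fun x => T N x - T' N x) 2 ρ ≤
      Ψ (s + ENNReal.ofReal (2 * (1 / 8 : ℝ) ^ N)) := by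
    intro N
    set πN := π.map (Prod.map (q N) (q N)) with hπN
    have hpm : Measurable (Prod.map (q N) (q N)) := (hq N).prodMap (hq N)
    have hcoup : IsPairCoupling (dMeas (F N) (m N)) (dMeas (F' N) (m' N)) πN := by
      constructor
      · rw [← hμF N, ← hπ.1, hπN, Measure.map_map measurable_fst hpm,
          Measure.map_map (hq N) measurable_fst]
        rfl
      · rw [← hνF N, ← hπ.2, hπN, Measure.map_map measurable_snd hpm,
          Measure.map_map (hq N) measurable_snd]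
        rfl
    have h3 := I.h3 _ _ _ _ _ _ (hP N) (hP' N) πN hcoup
    have hQN : quadCost πN = (eLpNorm (fun p : E × E => q N p.1 - q N p.2) 2 π) ^ 2 := by
      unfold quadCost
      have hmeas : Measurable (fun p : E × E => ‖p.1 - p.2‖ₑ ^ 2) := by fun_prop
      rw [hπN, lintegral_map hmeas hpm, eLpNorm_two_sq]
      rfl
    have hfN : eLpNorm (fun p : E × E => q N p.1 - q N p.2) 2 π ≤
        s + ENNReal.ofReal (2 * (1 / 8 : ℝ) ^ N) := by
      have hdec : (fun p : E × E => q N p.1 - q N p.2) =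
          (fun p : E × E => p.1 - p.2) + (fun p : E × E => (q N p.1 - p.1) - (q N p.2 - p.2)) := by
        funext p; simp only [Pi.add_apply]; abel
      rw [hdec]
      have hm1 : AEStronglyMeasurable (fun p : E × E => p.1 - p.2) π :=
        (measurable_fst.sub measurable_snd).aestronglyMeasurable
      have hm2 : AEStronglyMeasurable
          (fun p : E × E => (q N p.1 - p.1) - (q N p.2 - p.2)) π :=
        ((((hq N).comp measurable_fst).sub measurable_fst).sub
          (((hq N).comp measurable_snd).sub measurable_snd)).aestronglyMeasurable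
      refine (eLpNorm_add_le hm1 hm2 (by norm_num)).trans ?_
      gcongr
      have hbd : ∀ᵐ p ∂π, ‖(q N p.1 - p.1) - (q N p.2 - p.2)‖ ≤ 2 * (1 / 8 : ℝ) ^ N := by
        filter_upwards [hπ1, hπ2] with p hp1 hp2
        have h1 := hqε N _ hp1
        have h2 := hqε N _ hp2
        rw [dist_comm, dist_eq_norm] at h1 h2
        calc ‖(q N p.1 - p.1) - (q N p.2 - p.2)‖ ≤ ‖q N p.1 - p.1‖ + ‖q N p.2 - p.2‖ :=
              norm_sub_le _ _
          _ ≤ 2 * (1 / 8 : ℝ) ^ N := by linarith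
      have := eLpNorm_le_of_ae_bound (p := 2) hbd
      simpa using this
    rw [eLpNorm_two_eq, hΨ]
    apply ENNReal.rpow_le_rpow _ (by norm_num)
    refine h3.trans ?_
    gcongr
    rw [hQN]
    gcongr
  -- triangle inequality
  have htri : ∀ N, eLpNorm (fun x => Tμ x - Tν x) 2 ρ ≤
      eLpNorm (fun x => T N x - Tμ x) 2 ρ + Ψ (s + ENNReal.ofReal (2 * (1 / 8 : ℝ) ^ N))
        + eLpNorm (fun x => T' N x - Tν x) 2 ρ := by
    intro N
    have hdec : (fun x => Tμ x - Tν x) =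
        ((fun x => -(T N x - Tμ x)) + (fun x => T N x - T' N x)) + (fun x => T' N x - Tν x) := by
      funext x; simp only [Pi.add_apply]; abel
    have m1 : AEStronglyMeasurable (fun x => -(T N x - Tμ x)) ρ :=
      ((hTm N).sub hTμm).neg.aestronglyMeasurable
    have m2 : AEStronglyMeasurable (fun x => T N x - T' N x) ρ :=
      ((hTm N).sub (hT'm N)).aestronglyMeasurable
    have m3 : AEStronglyMeasurable (fun x => T' N x - Tν x) ρ :=
      ((hT'm N).sub hTνm).aestronglyMeasurable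
    rw [hdec]
    refine (eLpNorm_add_le (m1.add m2) m3 (by norm_num)).trans ?_
    gcongr
    refine (eLpNorm_add_le m1 m2 (by norm_num)).trans ?_
    have hneg : eLpNorm (fun x => -(T N x - Tμ x)) 2 ρ = eLpNorm (fun x => T N x - Tμ x) 2 ρ :=
      eLpNorm_neg (fun x => T N x - Tμ x) 2 ρ
    rw [hneg]
    gcongr
    exact hmid N
  -- pass to the limit
  have hlimΨ : Tendsto (fun N : ℕ => Ψ (s + ENNReal.ofReal (2 * (1 / 8 : ℝ) ^ N))) atTop
      (𝓝 (Ψ s)) := by
    have h0 : Tendsto (fun N : ℕ => 2 * (1 / 8 : ℝ) ^ N) atTop (𝓝 0) := by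
      have := (tendsto_pow_atTop_nhds_zero_of_lt_one (by norm_num : (0 : ℝ) ≤ 1 / 8)
        (by norm_num : (1 / 8 : ℝ) < 1)).const_mul 2
      simpa using this
    have h1 : Tendsto (fun N : ℕ => ENNReal.ofReal (2 * (1 / 8 : ℝ) ^ N)) atTop (𝓝 0) := by
      have := (ENNReal.continuous_ofReal.tendsto 0).comp h0
      simp only [ENNReal.ofReal_zero] at this
      exact this
    have h2 : Tendsto (fun N : ℕ => s + ENNReal.ofReal (2 * (1 / 8 : ℝ) ^ N)) atTop (𝓝 s) := by
      have := (tendsto_const_nhds (x := s)).add h1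
      simpa using this
    exact (hΨc.tendsto s).comp h2
  have hlim : Tendsto (fun N : ℕ => eLpNorm (fun x => T N x - Tμ x) 2 ρ
      + Ψ (s + ENNReal.ofReal (2 * (1 / 8 : ℝ) ^ N))
      + eLpNorm (fun x => T' N x - Tν x) 2 ρ) atTop (𝓝 (0 + Ψ s + 0)) :=
    (hA.add hlimΨ).add hB
  have hfin : eLpNorm (fun x => Tμ x - Tν x) 2 ρ ≤ Ψ s := by
    have := ge_of_tendsto' hlim htri
    simpa using this
  calc ∫⁻ x, ‖Tμ x - Tν x‖ₑ ^ 2 ∂ρ = (eLpNorm (fun x => Tμ x - Tν x) 2 ρ) ^ 2 :=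
        (eLpNorm_two_sq ρ _).symm
    _ ≤ (Ψ s) ^ 2 := by gcongr
    _ = C * quadCost π ^ (1 / 3 : ℝ) := by
        rw [hΨ, hQ]
        simp only
        rw [← ENNReal.rpow_natCast, ← ENNReal.rpow_mul]
        norm_num

end final

end Crest.Agent.S0109.AP
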