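import Crest.Agent.S0109.GN

/-!
# Row 82, module GN-FUBINI: the `d`-dimensional Gagliardo–Nirenberg-type inequality

`gn_main_proof` : the statement of `gn_main` (file `GN.lean`), proved from `gn_1d` by Tonelli along
coordinate lines.  All auxiliary names are prefixed `gnd_`.
-/

set_option autoImplicit false
open MeasureTheory
open scoped ENNReal NNReal RealInnerProductSpace

namespace Crest.Agent.S0109

section GNd

variable {n : ℕ}

/-- The coordinate line through `x'` in direction `i`: insert `t` at coordinate `i`. -/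
noncomputable def gnd_line (i : Fin (n + 1)) (x' : Fin n → ℝ) (t : ℝ) :
    EuclideanSpace ℝ (Fin (n + 1)) :=
  WithLp.toLp 2 (Fin.insertNth (α := fun _ => ℝ) i t x')

lemma gnd_line_same (i : Fin (n + 1)) (x' : Fin n → ℝ) (t : ℝ) : gnd_line i x' t i = t := by
  simp [gnd_line]

lemma gnd_line_succAbove (i : Fin (n + 1)) (x' : Fin n → ℝ) (t : ℝ) (j : Fin n) :
    gnd_line i x' t (i.succAbove j) = x' j := by
  simp [gnd_line]

lemma gnd_line_sub_apply (i : Fin (n + 1)) (x' : Fin n → ℝ) (s t : ℝ) (k : Fin (n + 1)) :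
    (gnd_line i x' s - gnd_line i x' t) k = if k = i then s - t else 0 := by
  rcases Fin.eq_self_or_eq_succAbove i k with h | ⟨j, h⟩
  · subst h; simp [gnd_line_same]
  · subst h; simp [gnd_line_succAbove, Fin.succAbove_ne]

lemma gnd_inner_line_sub (i : Fin (n + 1)) (x' : Fin n → ℝ) (s t : ℝ)
    (w : EuclideanSpace ℝ (Fin (n + 1))) :
    inner ℝ w (gnd_line i x' s - gnd_line i x' t) = w i * (s - t) := by
  rw [PiLp.inner_apply]
  simp only [gnd_line_sub_apply]
  simp [mul_comm]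

lemma gnd_continuous_line (i : Fin (n + 1)) (x' : Fin n → ℝ) : Continuous (gnd_line i x') := by
  unfold gnd_line
  refine (PiLp.continuous_toLp 2 _).comp ?_
  refine continuous_pi fun k => ?_
  rcases Fin.eq_self_or_eq_succAbove i k with h | ⟨j, h⟩
  · subst h; simp only [Fin.insertNth_apply_same]; exact continuous_id
  · subst h; simp only [Fin.insertNth_apply_succAbove]; exact continuous_const

lemma gnd_abs_apply_le_norm (x : EuclideanSpace ℝ (Fin (n + 1))) (k : Fin (n + 1)) :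
    |x k| ≤ ‖x‖ := by
  simpa using PiLp.norm_apply_le x k

lemma gnd_line_affine (i : Fin (n + 1)) (x' : Fin n → ℝ) (s t a b : ℝ) (hab : a + b = 1) :
    gnd_line i x' (a • s + b • t) = a • gnd_line i x' s + b • gnd_line i x' t := by
  ext k
  rcases Fin.eq_self_or_eq_succAbove i k with h | ⟨j, h⟩
  · subst h; simp [gnd_line_same]
  · subst h
    simp only [PiLp.add_apply, PiLp.smul_apply, gnd_line_succAbove, smul_eq_mul]
    rw [← add_mul, hab, one_mul]

/-- The measurable equivalence `(t, x') ↦ gnd_line i x' t`. -/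
noncomputable def gnd_equiv (i : Fin (n + 1)) :
    ℝ × (Fin n → ℝ) ≃ᵐ EuclideanSpace ℝ (Fin (n + 1)) :=
  (MeasurableEquiv.piFinSuccAbove (fun _ => ℝ) i).symm.trans
    (MeasurableEquiv.toLp 2 (Fin (n + 1) → ℝ))

lemma gnd_equiv_apply (i : Fin (n + 1)) (p : ℝ × (Fin n → ℝ)) :
    gnd_equiv i p = gnd_line i p.2 p.1 := by
  rfl

lemma gnd_measurePreserving (i : Fin (n + 1)) :
    MeasurePreserving (gnd_equiv i) (volume.prod volume) volume := by
  have h1 : MeasurePreserving (MeasurableEquiv.piFinSuccAbove (fun _ : Fin (n + 1) => ℝ) i).symm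
      (volume.prod volume) volume :=
    (volume_preserving_piFinSuccAbove (fun _ : Fin (n + 1) => ℝ) i).symm
  have h2 := PiLp.volume_preserving_toLp (Fin (n + 1))
  exact h2.comp h1

/-- Tonelli along coordinate `i`. -/
lemma gnd_tonelli (i : Fin (n + 1)) (f : EuclideanSpace ℝ (Fin (n + 1)) → ℝ≥0∞)
    (hf : AEMeasurable f volume) :
    ∫⁻ x, f x = ∫⁻ x' : Fin n → ℝ, ∫⁻ t : ℝ, f (gnd_line i x' t) := by
  rw [← (gnd_measurePreserving i).lintegral_comp_emb (gnd_equiv i).measurableEmbedding f]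
  have h := lintegral_prod_symm (μ := (volume : Measure ℝ)) (ν := (volume : Measure (Fin n → ℝ)))
    (f ∘ (gnd_equiv i))
    (hf.comp_quasiMeasurePreserving (gnd_measurePreserving i).quasiMeasurePreserving)
  exact h

lemma gnd_section (i : Fin (n + 1)) (K : Set (EuclideanSpace ℝ (Fin (n + 1))))
    (hKc : IsCompact K) (hKv : Convex ℝ K) (x' : Fin n → ℝ) :
    {t | gnd_line i x' t ∈ K} = ∅ ∨
      ∃ a b, a ≤ b ∧ {t | gnd_line i x' t ∈ K} = Set.Icc a b := by
  set S : Set ℝ := {t | gnd_line i x' t ∈ K} with hS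
  rcases S.eq_empty_or_nonempty with h | hne
  · exact Or.inl h
  right
  obtain ⟨R, hR⟩ := (isBounded_iff_forall_norm_le.1 hKc.isBounded)
  have hclosed : IsClosed S := hKc.isClosed.preimage (gnd_continuous_line i x')
  have hsub : S ⊆ Set.Icc (-R) R := by
    intro t ht
    have h1 : |gnd_line i x' t i| ≤ R := (gnd_abs_apply_le_norm _ i).trans (hR _ ht)
    rw [gnd_line_same] at h1
    exact abs_le.1 h1
  have hcomp : IsCompact S := IsCompact.of_isClosed_subset isCompact_Icc hclosed hsub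
  have hconv : Convex ℝ S := by
    rw [convex_iff_add_mem]
    intro s hs t ht a b ha hb hab
    show gnd_line i x' (a • s + b • t) ∈ K
    rw [gnd_line_affine i x' s t a b hab]
    exact hKv hs ht ha hb hab
  have hconn : IsConnected S := ⟨hne, hconv.isPreconnected⟩
  have hEq := eq_Icc_of_connected_compact hconn hcomp
  obtain ⟨t₀, ht₀⟩ := hne
  refine ⟨sInf S, sSup S, ?_, hEq⟩
  rw [hEq] at ht₀
  exact ht₀.1.trans ht₀.2

lemma gnd_lintegral_Icc (a b : ℝ) (hab : a ≤ b) (f : ℝ → ℝ)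
    (hf : IntegrableOn f (Set.Icc a b)) (h0 : ∀ t ∈ Set.Icc a b, 0 ≤ f t) :
    ∫⁻ t in Set.Icc a b, ENNReal.ofReal (f t) = ENNReal.ofReal (∫ t in a..b, f t) := by
  rw [intervalIntegral.integral_of_le hab, ← integral_Icc_eq_integral_Ioc]
  rw [ofReal_integral_eq_lintegral_ofReal hf]
  exact (ae_restrict_iff' measurableSet_Icc).2 (Filter.Eventually.of_forall h0)

lemma gnd_continuousOn {E : Type*} [NormedAddCommGroup E] [InnerProductSpace ℝ E]
    (K : Set E) (Ry : ℝ) (hRy : 0 ≤ Ry) (u : E → ℝ) (Tu : E → E)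
    (hTuB : ∀ x ∈ K, ‖Tu x‖ ≤ Ry)
    (hu : ∀ x ∈ K, ∀ x' ∈ K, u x + inner ℝ (Tu x) (x' - x) ≤ u x') : ContinuousOn u K := by
  have hL : LipschitzOnWith ⟨Ry, hRy⟩ u K := by
    refine LipschitzOnWith.of_dist_le_mul fun x hx y hy => ?_
    rw [Real.dist_eq, dist_eq_norm]
    have h1 := hu x hx y hy
    have h2 := hu y hy x hx
    have h3 : |inner ℝ (Tu x) (y - x)| ≤ Ry * ‖y - x‖ :=
      (abs_real_inner_le_norm _ _).trans (mul_le_mul_of_nonneg_right (hTuB x hx) (norm_nonneg _))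
    have h4 : |inner ℝ (Tu y) (x - y)| ≤ Ry * ‖x - y‖ :=
      (abs_real_inner_le_norm _ _).trans (mul_le_mul_of_nonneg_right (hTuB y hy) (norm_nonneg _))
    rw [norm_sub_rev] at h3
    have h3' := abs_le.1 h3
    have h4' := abs_le.1 h4
    show |u x - u y| ≤ Ry * ‖x - y‖
    rw [abs_le]
    constructor <;> linarith
  exact hL.continuousOn

/-- The inequality on one coordinate line. -/
lemma gnd_line_ineq (i : Fin (n + 1)) (K : Set (EuclideanSpace ℝ (Fin (n + 1))))
    (hKc : IsCompact K) (hKv : Convex ℝ K) (Ry : ℝ) (hRy : 0 ≤ Ry) (R : ℝ)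
    (hR : ∀ x ∈ K, ‖x‖ ≤ R)
    (u v : EuclideanSpace ℝ (Fin (n + 1)) → ℝ)
    (Tu Tv : EuclideanSpace ℝ (Fin (n + 1)) → EuclideanSpace ℝ (Fin (n + 1)))
    (hTu : Measurable Tu) (hTv : Measurable Tv)
    (hTuB : ∀ x ∈ K, ‖Tu x‖ ≤ Ry) (hTvB : ∀ x ∈ K, ‖Tv x‖ ≤ Ry)
    (hu : ∀ x ∈ K, ∀ x' ∈ K, u x + inner ℝ (Tu x) (x' - x) ≤ u x')
    (hv : ∀ x ∈ K, ∀ x' ∈ K, v x + inner ℝ (Tv x) (x' - x) ≤ v x')
    (c : ℝ) (x' : Fin n → ℝ) :
    ∫⁻ t, K.indicator (fun x => ENNReal.ofReal ((Tu x i - Tv x i) ^ 2)) (gnd_line i x' t) ≤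
      ENNReal.ofReal (40 * Ry ^ (4 / 3 : ℝ)) *
        ((∫⁻ t, K.indicator (fun x => ENNReal.ofReal ((u x - v x - c) ^ 2)) (gnd_line i x' t))
            ^ (1 / 3 : ℝ) *
          (Set.pi Set.univ fun _ : Fin n => Set.Icc (-R) R).indicator
            (fun _ => (1 : ℝ≥0∞)) x') := by
  rcases gnd_section i K hKc hKv x' with hS | ⟨a, b, hab, hS⟩
  · have hno : ∀ t, gnd_line i x' t ∉ K := fun t ht => by
      have : t ∈ ({t | gnd_line i x' t ∈ K} : Set ℝ) := ht
      rw [hS] at this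
      exact this
    simp [hno]
  · have hmem : ∀ t, gnd_line i x' t ∈ K ↔ t ∈ Set.Icc a b := fun t => by
      rw [← hS]; rfl
    have hbox : x' ∈ Set.pi Set.univ fun _ : Fin n => Set.Icc (-R) R := by
      intro j _
      have ha : gnd_line i x' a ∈ K := (hmem a).2 ⟨le_rfl, hab⟩
      have h1 : |gnd_line i x' a (i.succAbove j)| ≤ R :=
        (gnd_abs_apply_le_norm _ _).trans (hR _ ha)
      rw [gnd_line_succAbove] at h1
      exact abs_le.1 h1
    rw [Set.indicator_of_mem hbox, mul_one]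
    have e1 : ∀ (g : EuclideanSpace ℝ (Fin (n + 1)) → ℝ≥0∞) (t : ℝ),
        K.indicator g (gnd_line i x' t) =
          (Set.Icc a b).indicator (fun t => g (gnd_line i x' t)) t := by
      intro g t
      by_cases ht : t ∈ Set.Icc a b
      · rw [Set.indicator_of_mem ht, Set.indicator_of_mem ((hmem t).2 ht)]
      · rw [Set.indicator_of_notMem ht, Set.indicator_of_notMem (fun h => ht ((hmem t).1 h))]
    simp only [e1]
    rw [lintegral_indicator measurableSet_Icc, lintegral_indicator measurableSet_Icc]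
    -- one-dimensional data
    have hline : ∀ t ∈ Set.Icc a b, gnd_line i x' t ∈ K := fun t ht => (hmem t).2 ht
    have hU : ∀ t ∈ Set.Icc a b, ∀ s ∈ Set.Icc a b,
        u (gnd_line i x' t) + Tu (gnd_line i x' t) i * (s - t) ≤ u (gnd_line i x' s) := by
      intro t ht s hs
      have h := hu _ (hline t ht) _ (hline s hs)
      rwa [gnd_inner_line_sub] at h
    have hV : ∀ t ∈ Set.Icc a b, ∀ s ∈ Set.Icc a b,
        v (gnd_line i x' t) + Tv (gnd_line i x' t) i * (s - t) ≤ v (gnd_line i x' s) := by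
      intro t ht s hs
      have h := hv _ (hline t ht) _ (hline s hs)
      rwa [gnd_inner_line_sub] at h
    have hp : ∀ t ∈ Set.Icc a b, |Tu (gnd_line i x' t) i| ≤ Ry := fun t ht =>
      (gnd_abs_apply_le_norm _ i).trans (hTuB _ (hline t ht))
    have hq : ∀ t ∈ Set.Icc a b, |Tv (gnd_line i x' t) i| ≤ Ry := fun t ht =>
      (gnd_abs_apply_le_norm _ i).trans (hTvB _ (hline t ht))
    have key := gn_1d a b hab Ry hRy (fun t => u (gnd_line i x' t)) (fun t => v (gnd_line i x' t))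
      (fun t => Tu (gnd_line i x' t) i) (fun t => Tv (gnd_line i x' t) i) hU hV hp hq c
    -- integrability
    have hmeasp : Measurable (fun t => Tu (gnd_line i x' t) i) :=
      (EuclideanSpace.proj i).continuous.measurable.comp
        (hTu.comp (gnd_continuous_line i x').measurable)
    have hmeasq : Measurable (fun t => Tv (gnd_line i x' t) i) :=
      (EuclideanSpace.proj i).continuous.measurable.comp
        (hTv.comp (gnd_continuous_line i x').measurable)
    have hint1 : IntegrableOn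
        (fun t => (Tu (gnd_line i x' t) i - Tv (gnd_line i x' t) i) ^ 2) (Set.Icc a b) := by
      refine Measure.integrableOn_of_bounded (M := (2 * Ry) ^ 2)
        (measure_Icc_lt_top).ne ((hmeasp.sub hmeasq).pow_const 2).aestronglyMeasurable ?_
      refine (ae_restrict_iff' measurableSet_Icc).2 (Filter.Eventually.of_forall fun t ht => ?_)
      have h1 := abs_le.1 (hp t ht)
      have h2 := abs_le.1 (hq t ht)
      rw [Real.norm_eq_abs, abs_of_nonneg (sq_nonneg _)]
      nlinarith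
    have hcu := gnd_continuousOn K Ry hRy u Tu hTuB hu
    have hcv := gnd_continuousOn K Ry hRy v Tv hTvB hv
    have hcU : ContinuousOn (fun t => u (gnd_line i x' t)) (Set.Icc a b) :=
      hcu.comp (gnd_continuous_line i x').continuousOn hline
    have hcV : ContinuousOn (fun t => v (gnd_line i x' t)) (Set.Icc a b) :=
      hcv.comp (gnd_continuous_line i x').continuousOn hline
    have hint2 : IntegrableOn
        (fun t => (u (gnd_line i x' t) - v (gnd_line i x' t) - c) ^ 2) (Set.Icc a b) :=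
      (((hcU.sub hcV).sub continuousOn_const).pow 2).integrableOn_Icc
    have hF := gnd_lintegral_Icc a b hab _ hint1 (fun t _ => sq_nonneg _)
    have hG := gnd_lintegral_Icc a b hab _ hint2 (fun t _ => sq_nonneg _)
    rw [hF, hG]
    have hGnn : 0 ≤ ∫ t in a..b, (u (gnd_line i x' t) - v (gnd_line i x' t) - c) ^ 2 :=
      intervalIntegral.integral_nonneg hab (fun t _ => sq_nonneg _)
    rw [ENNReal.ofReal_rpow_of_nonneg hGnn (by norm_num),
      ← ENNReal.ofReal_mul (mul_nonneg (by norm_num) (Real.rpow_nonneg hRy _))]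
    exact ENNReal.ofReal_le_ofReal key

/-- The estimate for one coordinate. -/
lemma gnd_coord (i : Fin (n + 1)) (K : Set (EuclideanSpace ℝ (Fin (n + 1))))
    (hKc : IsCompact K) (hKv : Convex ℝ K) (Ry : ℝ) (hRy : 0 ≤ Ry) (R : ℝ)
    (hR : ∀ x ∈ K, ‖x‖ ≤ R)
    (u v : EuclideanSpace ℝ (Fin (n + 1)) → ℝ)
    (Tu Tv : EuclideanSpace ℝ (Fin (n + 1)) → EuclideanSpace ℝ (Fin (n + 1)))
    (hTu : Measurable Tu) (hTv : Measurable Tv)
    (hTuB : ∀ x ∈ K, ‖Tu x‖ ≤ Ry) (hTvB : ∀ x ∈ K, ‖Tv x‖ ≤ Ry)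
    (hu : ∀ x ∈ K, ∀ x' ∈ K, u x + inner ℝ (Tu x) (x' - x) ≤ u x')
    (hv : ∀ x ∈ K, ∀ x' ∈ K, v x + inner ℝ (Tv x) (x' - x) ≤ v x')
    (c : ℝ) :
    ∫ x in K, (Tu x i - Tv x i) ^ 2 ≤
      40 * Ry ^ (4 / 3 : ℝ) *
        ((∫ x in K, (u x - v x - c) ^ 2) ^ (1 / 3 : ℝ) *
          (volume (Set.pi Set.univ fun _ : Fin n => Set.Icc (-R) R)).toReal ^ (2 / 3 : ℝ)) := by
  have hKm : MeasurableSet K := hKc.isClosed.measurableSet
  set box : Set (Fin n → ℝ) := Set.pi Set.univ fun _ : Fin n => Set.Icc (-R) R with hbox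
  have hboxfin : volume box ≠ ⊤ :=
    ((isCompact_univ_pi fun _ : Fin n => isCompact_Icc).measure_lt_top).ne
  set F : EuclideanSpace ℝ (Fin (n + 1)) → ℝ := fun x => (Tu x i - Tv x i) ^ 2 with hF
  set G : EuclideanSpace ℝ (Fin (n + 1)) → ℝ := fun x => (u x - v x - c) ^ 2 with hG
  have hFmeas : Measurable F :=
    (((EuclideanSpace.proj i).continuous.measurable.comp hTu).sub
      ((EuclideanSpace.proj i).continuous.measurable.comp hTv)).pow_const 2
  have hcu := gnd_continuousOn K Ry hRy u Tu hTuB hu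
  have hcv := gnd_continuousOn K Ry hRy v Tv hTvB hv
  have hGcont : ContinuousOn G K := ((hcu.sub hcv).sub continuousOn_const).pow 2
  have hGint : IntegrableOn G K := hGcont.integrableOn_compact hKc
  have hGnn : 0 ≤ ∫ x in K, G x := integral_nonneg (fun x => sq_nonneg _)
  set FF : EuclideanSpace ℝ (Fin (n + 1)) → ℝ≥0∞ := K.indicator (fun x => ENNReal.ofReal (F x))
    with hFF
  set GG : EuclideanSpace ℝ (Fin (n + 1)) → ℝ≥0∞ := K.indicator (fun x => ENNReal.ofReal (G x))
    with hGG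
  have hFFm : AEMeasurable FF volume := (hFmeas.ennreal_ofReal.indicator hKm).aemeasurable
  have hGGm : AEMeasurable GG volume :=
    (aemeasurable_indicator_iff hKm).2 (hGcont.aemeasurable hKm).ennreal_ofReal
  -- Step A: the left side as a lintegral
  have hA : ∫ x in K, F x = (∫⁻ x, FF x).toReal := by
    rw [integral_eq_lintegral_of_nonneg_ae (Filter.Eventually.of_forall fun x => sq_nonneg _)
      hFmeas.aestronglyMeasurable, hFF, lintegral_indicator hKm]
  -- Step F: the right side as a lintegral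
  have hFG : ∫⁻ x, GG x = ENNReal.ofReal (∫ x in K, G x) := by
    rw [hGG, lintegral_indicator hKm,
      ofReal_integral_eq_lintegral_ofReal hGint (Filter.Eventually.of_forall fun x => sq_nonneg _)]
  set J : (Fin n → ℝ) → ℝ≥0∞ := fun x' => ∫⁻ t, GG (gnd_line i x' t) with hJ
  have hJm : AEMeasurable J volume := by
    have h := AEMeasurable.lintegral_prod_left' (μ := (volume : Measure ℝ))
      (ν := (volume : Measure (Fin n → ℝ))) (f := GG ∘ (gnd_equiv i))
      (hGGm.comp_quasiMeasurePreserving (gnd_measurePreserving i).quasiMeasurePreserving)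
    exact h
  have hJint : ∫⁻ x', J x' = ENNReal.ofReal (∫ x in K, G x) := by
    rw [← hFG, gnd_tonelli i GG hGGm]
  -- main chain
  have hC0 : (0 : ℝ) ≤ 40 * Ry ^ (4 / 3 : ℝ) := mul_nonneg (by norm_num) (Real.rpow_nonneg hRy _)
  have hpq : Real.HolderConjugate 3 (3 / 2) := by
    rw [Real.holderConjugate_iff]; norm_num
  have hmain : ∫⁻ x, FF x ≤ ENNReal.ofReal (40 * Ry ^ (4 / 3 : ℝ)) *
      (ENNReal.ofReal (∫ x in K, G x) ^ (1 / 3 : ℝ) * volume box ^ (2 / 3 : ℝ)) := by
    rw [gnd_tonelli i FF hFFm]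
    calc ∫⁻ x' : Fin n → ℝ, ∫⁻ t : ℝ, FF (gnd_line i x' t)
        ≤ ∫⁻ x' : Fin n → ℝ, ENNReal.ofReal (40 * Ry ^ (4 / 3 : ℝ)) *
            (J x' ^ (1 / 3 : ℝ) * box.indicator (fun _ => (1 : ℝ≥0∞)) x') :=
          lintegral_mono fun x' =>
            gnd_line_ineq i K hKc hKv Ry hRy R hR u v Tu Tv hTu hTv hTuB hTvB hu hv c x'
      _ = ENNReal.ofReal (40 * Ry ^ (4 / 3 : ℝ)) *
            ∫⁻ x' : Fin n → ℝ, J x' ^ (1 / 3 : ℝ) * box.indicator (fun _ => (1 : ℝ≥0∞)) x' :=
          lintegral_const_mul' _ _ ENNReal.ofReal_ne_top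
      _ ≤ ENNReal.ofReal (40 * Ry ^ (4 / 3 : ℝ)) *
            (ENNReal.ofReal (∫ x in K, G x) ^ (1 / 3 : ℝ) * volume box ^ (2 / 3 : ℝ)) := by
          gcongr
          have hH := ENNReal.lintegral_mul_le_Lp_mul_Lq (volume : Measure (Fin n → ℝ)) hpq
            (f := fun x' => J x' ^ (1 / 3 : ℝ)) (g := box.indicator (fun _ => (1 : ℝ≥0∞)))
            (hJm.pow_const _)
            ((measurable_const.indicator
              (MeasurableSet.univ_pi fun _ => measurableSet_Icc)).aemeasurable)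
          have e1 : ∀ x' : Fin n → ℝ, (J x' ^ (1 / 3 : ℝ)) ^ (3 : ℝ) = J x' := by
            intro x'
            rw [← ENNReal.rpow_mul]
            norm_num
          have e2 : ∀ x' : Fin n → ℝ,
              (box.indicator (fun _ => (1 : ℝ≥0∞)) x') ^ (3 / 2 : ℝ) =
                box.indicator (fun _ => (1 : ℝ≥0∞)) x' := by
            intro x'
            by_cases hx : x' ∈ box
            · simp [Set.indicator_of_mem hx]
            · rw [Set.indicator_of_notMem hx]
              exact ENNReal.zero_rpow_of_pos (by norm_num)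
          have e3 : ∫⁻ x' : Fin n → ℝ, box.indicator (fun _ => (1 : ℝ≥0∞)) x' ≤ volume box :=
            lintegral_indicator_one_le box
          simp only [e1, e2, hJint] at hH
          refine hH.trans ?_
          have e4 : (1 / (3 / 2) : ℝ) = 2 / 3 := by norm_num
          rw [e4]
          gcongr
  have hfin : ENNReal.ofReal (40 * Ry ^ (4 / 3 : ℝ)) *
      (ENNReal.ofReal (∫ x in K, G x) ^ (1 / 3 : ℝ) * volume box ^ (2 / 3 : ℝ)) ≠ ⊤ :=
    ENNReal.mul_ne_top ENNReal.ofReal_ne_top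
      (ENNReal.mul_ne_top (ENNReal.rpow_ne_top_of_nonneg (by norm_num) ENNReal.ofReal_ne_top)
        (ENNReal.rpow_ne_top_of_nonneg (by norm_num) hboxfin))
  have hreal := ENNReal.toReal_mono hfin hmain
  rw [ENNReal.toReal_mul, ENNReal.toReal_mul, ENNReal.toReal_ofReal hC0, ← ENNReal.toReal_rpow,
    ← ENNReal.toReal_rpow, ENNReal.toReal_ofReal hGnn] at hreal
  rw [hA]
  exact hreal

end GNd

/-- The statement of `gn_main` (file `GN.lean`), proved from `gn_1d`. -/
theorem gn_main_proof (d : ℕ) (K : Set (EuclideanSpace ℝ (Fin d))) (hKc : IsCompact K)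
    (hKv : Convex ℝ K) (Ry : ℝ) (hRy : 0 ≤ Ry) :
    ∃ C : ℝ, 0 ≤ C ∧ ∀ (u v : EuclideanSpace ℝ (Fin d) → ℝ)
      (Tu Tv : EuclideanSpace ℝ (Fin d) → EuclideanSpace ℝ (Fin d)),
      Measurable Tu → Measurable Tv →
      (∀ x ∈ K, ‖Tu x‖ ≤ Ry) → (∀ x ∈ K, ‖Tv x‖ ≤ Ry) →
      (∀ x ∈ K, ∀ x' ∈ K, u x + inner ℝ (Tu x) (x' - x) ≤ u x') →
      (∀ x ∈ K, ∀ x' ∈ K, v x + inner ℝ (Tv x) (x' - x) ≤ v x') →
      ∀ c : ℝ, ∫ x in K, ‖Tu x - Tv x‖ ^ 2 ≤
        C * (∫ x in K, (u x - v x - c) ^ 2) ^ (1 / 3 : ℝ) := by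
  cases d with
  | zero =>
    refine ⟨0, le_rfl, ?_⟩
    intro u v Tu Tv _ _ _ _ _ _ c
    have h0 : ∀ x, ‖Tu x - Tv x‖ ^ 2 = 0 := fun x => by
      have : Tu x - Tv x = 0 := by
        ext k
        exact Fin.elim0 k
      simp [this]
    simp [h0]
  | succ n =>
    obtain ⟨R, hR⟩ := isBounded_iff_forall_norm_le.1 hKc.isBounded
    set B : ℝ :=
      (volume (Set.pi Set.univ fun _ : Fin n => Set.Icc (-R) R)).toReal ^ (2 / 3 : ℝ) with hB
    have hB0 : 0 ≤ B := Real.rpow_nonneg ENNReal.toReal_nonneg _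
    have hC0 : (0 : ℝ) ≤ 40 * Ry ^ (4 / 3 : ℝ) :=
      mul_nonneg (by norm_num) (Real.rpow_nonneg hRy _)
    refine ⟨(n + 1) * (40 * Ry ^ (4 / 3 : ℝ) * B), by positivity, ?_⟩
    intro u v Tu Tv hTu hTv hTuB hTvB hu hv c
    have hKm : MeasurableSet K := hKc.isClosed.measurableSet
    have hsum : ∀ x, ‖Tu x - Tv x‖ ^ 2 = ∑ i, (Tu x i - Tv x i) ^ 2 := fun x => by
      rw [EuclideanSpace.real_norm_sq_eq]
      rfl
    simp only [hsum]
    have hint : ∀ i ∈ (Finset.univ : Finset (Fin (n + 1))),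
        Integrable (fun x => (Tu x i - Tv x i) ^ 2) (volume.restrict K) := by
      intro i _
      have hm : Measurable (fun x => (Tu x i - Tv x i) ^ 2) :=
        (((EuclideanSpace.proj i).continuous.measurable.comp hTu).sub
          ((EuclideanSpace.proj i).continuous.measurable.comp hTv)).pow_const 2
      refine Measure.integrableOn_of_bounded (M := (2 * Ry) ^ 2) hKc.measure_lt_top.ne
        hm.aestronglyMeasurable ?_
      refine (ae_restrict_iff' hKm).2 (Filter.Eventually.of_forall fun x hx => ?_)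
      have h1 := abs_le.1 ((gnd_abs_apply_le_norm (Tu x) i).trans (hTuB x hx))
      have h2 := abs_le.1 ((gnd_abs_apply_le_norm (Tv x) i).trans (hTvB x hx))
      rw [Real.norm_eq_abs, abs_of_nonneg (sq_nonneg _)]
      nlinarith
    rw [integral_finsetSum _ hint]
    calc ∑ i : Fin (n + 1), ∫ x in K, (Tu x i - Tv x i) ^ 2
        ≤ ∑ _i : Fin (n + 1), 40 * Ry ^ (4 / 3 : ℝ) *
            ((∫ x in K, (u x - v x - c) ^ 2) ^ (1 / 3 : ℝ) * B) :=
          Finset.sum_le_sum fun i _ =>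
            gnd_coord i K hKc hKv Ry hRy R hR u v Tu Tv hTu hTv hTuB hTvB hu hv c
      _ = (n + 1) * (40 * Ry ^ (4 / 3 : ℝ) * B) *
            (∫ x in K, (u x - v x - c) ^ 2) ^ (1 / 3 : ℝ) := by
          rw [Finset.sum_const, Finset.card_univ, Fintype.card_fin]
          simp only [nsmul_eq_mul]
          push_cast
          ring

end Crest.Agent.S0109
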