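import Crest.Agent.S0109.GlueIprime
import Crest.Agent.S0109.GNd

/-!
# Row 82 (S0109): the discrete main theorem.  Statement FROZEN.  Names prefixed `md_`.
-/

set_option autoImplicit false
open MeasureTheory Filter
open scoped ENNReal NNReal Topology
open Crest.AnalysisR.OT

namespace Crest.Agent.S0109

/-- Discrete main theorem (job MD): stability of Laguerre maps for finitely supported targets.
Proof: `glue_iprime` + `gn_main_proof` (file GNd.lean) with `u = lagPot y ψ`, `Tu = lagMap y ψ` (`lag_map_subgrad`,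
`lag_map_norm_le`, `lag_map_measurable`); `∫ · ∂(uniformProbOn K) = (vol K)⁻¹ ∫ x in K, ·`. -/
theorem md_main (d : ℕ) (K : Set (EuclideanSpace ℝ (Fin d))) (hKc : IsCompact K)
    (hKv : Convex ℝ K) (hKi : (interior K).Nonempty) (Ry : ℝ) (hRy : 0 ≤ Ry) :
    ∃ C : ℝ, 0 ≤ C ∧ ∀ (ι κ : Type) [Fintype ι] [Fintype κ] [Nonempty ι] [Nonempty κ]
      (y : ι → EuclideanSpace ℝ (Fin d)) (m : ι → ℝ) (z : κ → EuclideanSpace ℝ (Fin d))
      (n : κ → ℝ) (P : ι → κ → ℝ) (ψ : ι → ℝ) (χ : κ → ℝ),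
      Function.Injective y → Function.Injective z → (∀ i, ‖y i‖ ≤ Ry) → (∀ k, ‖z k‖ ≤ Ry) →
      (∀ i, 0 < m i) → ∑ i, m i = 1 → (∀ k, 0 < n k) → ∑ k, n k = 1 → IsCoupMat m n P →
      IsLagOpt (uniformProbOn K) y m ψ → IsLagOpt (uniformProbOn K) z n χ →
      ∫ x, ‖lagMap y ψ x - lagMap z χ x‖ ^ 2 ∂(uniformProbOn K) ≤
        C * (matCost y z P) ^ (1 / 3 : ℝ) := by
  obtain ⟨Cg, hCg0, hCg⟩ := gn_main_proof d K hKc hKv Ry hRy
  obtain ⟨R0, hR0⟩ := hKc.isBounded.subset_closedBall (0 : EuclideanSpace ℝ (Fin d))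
  obtain ⟨R, hRdef⟩ : ∃ R : ℝ, R = max R0 1 := ⟨_, rfl⟩
  have hR : 0 < R := by rw [hRdef]; exact lt_of_lt_of_le one_pos (le_max_right _ _)
  have hKR : K ⊆ Metric.closedBall 0 R := by
    rw [hRdef]
    exact hR0.trans (Metric.closedBall_subset_closedBall (le_max_left _ _))
  have hVpos : 0 < volume K := Measure.measure_pos_of_nonempty_interior volume hKi
  have hVfin : volume K ≠ ⊤ := hKc.measure_lt_top.ne
  obtain ⟨V, hVdef⟩ : ∃ V : ℝ, V = (volume K).toReal := ⟨_, rfl⟩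
  have hV : 0 < V := by rw [hVdef]; exact ENNReal.toReal_pos hVpos.ne' hVfin
  have conv : ∀ f : EuclideanSpace ℝ (Fin d) → ℝ,
      ∫ x, f x ∂(uniformProbOn K) = V⁻¹ * ∫ x in K, f x := by
    intro f
    unfold uniformProbOn
    rw [integral_smul_measure, ENNReal.toReal_inv, smul_eq_mul, hVdef]
  refine ⟨V⁻¹ * (Cg * (V * (300 * R ^ 2)) ^ (1 / 3 : ℝ)), by positivity, ?_⟩
  intro ι κ _ _ _ _ y m z n P ψ χ hy hz hyR hzR hm hsum hn hnsum hP hψ hχ
  obtain ⟨c, hc⟩ :=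
    glue_iprime K hKc hKv hKi R hR hKR y hy m hm hsum z hz n hn hnsum P hP ψ χ hψ hχ
  have key := hCg (lagPot y ψ) (lagPot z χ) (lagMap y ψ) (lagMap z χ)
    (lag_map_measurable y ψ) (lag_map_measurable z χ)
    (fun x _ => lag_map_norm_le y ψ Ry hyR x) (fun x _ => lag_map_norm_le z χ Ry hzR x)
    (fun x _ x' _ => lag_map_subgrad y ψ x x') (fun x _ x' _ => lag_map_subgrad z χ x x') c
  rw [conv] at hc ⊢
  have hcost : 0 ≤ matCost y z P := by
    unfold matCost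
    exact Finset.sum_nonneg fun i _ => Finset.sum_nonneg fun k _ =>
      mul_nonneg (hP.nonneg i k) (sq_nonneg _)
  have hI0 : 0 ≤ ∫ x in K, (lagPot y ψ x - lagPot z χ x - c) ^ 2 :=
    integral_nonneg fun x => sq_nonneg _
  have h1 : (∫ x in K, (lagPot y ψ x - lagPot z χ x - c) ^ 2)
      ≤ V * (300 * R ^ 2) * matCost y z P := by
    rw [inv_mul_le_iff₀ hV] at hc
    linarith
  have h2 : (∫ x in K, (lagPot y ψ x - lagPot z χ x - c) ^ 2) ^ (1 / 3 : ℝ)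
      ≤ (V * (300 * R ^ 2)) ^ (1 / 3 : ℝ) * (matCost y z P) ^ (1 / 3 : ℝ) := by
    rw [← Real.mul_rpow (by positivity) hcost]
    exact Real.rpow_le_rpow hI0 h1 (by norm_num)
  calc V⁻¹ * ∫ x in K, ‖lagMap y ψ x - lagMap z χ x‖ ^ 2
      ≤ V⁻¹ * (Cg * (∫ x in K, (lagPot y ψ x - lagPot z χ x - c) ^ 2) ^ (1 / 3 : ℝ)) :=
        mul_le_mul_of_nonneg_left key (inv_nonneg.mpr hV.le)
    _ ≤ V⁻¹ * (Cg * ((V * (300 * R ^ 2)) ^ (1 / 3 : ℝ) * (matCost y z P) ^ (1 / 3 : ℝ))) :=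
        mul_le_mul_of_nonneg_left (mul_le_mul_of_nonneg_left h2 hCg0) (inv_nonneg.mpr hV.le)
    _ = V⁻¹ * (Cg * (V * (300 * R ^ 2)) ^ (1 / 3 : ℝ)) * (matCost y z P) ^ (1 / 3 : ℝ) := by
        ring

end Crest.Agent.S0109
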