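import Crest.Agent.S0109.Cells

/-!
Row 82 (S0109) job SD-EXIST. Statement FROZEN; one owner.
-/

set_option autoImplicit false
open MeasureTheory Filter
open scoped ENNReal NNReal Topology
open Crest.AnalysisR.OT

namespace Crest.Agent.S0109

variable {d : ℕ} {ι : Type} [Fintype ι]

private theorem sdx_ae_mem (ρ' : Measure (EuclideanSpace ℝ (Fin d)))
    (K : Set (EuclideanSpace ℝ (Fin d))) (hK0 : ρ' Kᶜ = 0) : ∀ᵐ x ∂ρ', x ∈ K := by
  rw [ae_iff]; exact hK0

private theorem sdx_integrable (ρ' : Measure (EuclideanSpace ℝ (Fin d)))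
    [IsProbabilityMeasure ρ'] (K : Set (EuclideanSpace ℝ (Fin d))) (hKc : IsCompact K)
    (hK0 : ρ' Kᶜ = 0) (y : ι → EuclideanSpace ℝ (Fin d)) (ψ : ι → ℝ) :
    Integrable (lagPot y ψ) ρ' := by
  obtain ⟨C, hC⟩ := hKc.exists_bound_of_continuousOn (lag_pot_continuous y ψ).continuousOn
  refine Integrable.mono' (integrable_const C) (lag_pot_continuous y ψ).aestronglyMeasurable ?_
  filter_upwards [sdx_ae_mem ρ' K hK0] with x hx using hC x hx

/-- `lagJ` is `2`-Lipschitz for the sup distance. -/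
private theorem sdx_J_dist [Nonempty ι] (ρ' : Measure (EuclideanSpace ℝ (Fin d)))
    [IsProbabilityMeasure ρ'] (K : Set (EuclideanSpace ℝ (Fin d))) (hKc : IsCompact K)
    (hK0 : ρ' Kᶜ = 0) (y : ι → EuclideanSpace ℝ (Fin d)) (m : ι → ℝ) (hm : ∀ i, 0 < m i)
    (hsum : ∑ i, m i = 1) (ψ ψ' : ι → ℝ) (δ : ℝ) (h : ∀ i, |ψ i - ψ' i| ≤ δ) :
    |lagJ ρ' y m ψ - lagJ ρ' y m ψ'| ≤ 2 * δ := by
  have h1 : |∫ x, lagPot y ψ x ∂ρ' - ∫ x, lagPot y ψ' x ∂ρ'| ≤ δ := by
    rw [← integral_sub (sdx_integrable ρ' K hKc hK0 y ψ) (sdx_integrable ρ' K hKc hK0 y ψ')]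
    have := norm_integral_le_of_norm_le_const (μ := ρ')
      (f := fun x => lagPot y ψ x - lagPot y ψ' x) (C := δ)
      (Eventually.of_forall (fun x => by
        simpa [Real.norm_eq_abs] using lag_pot_sub_le y ψ ψ' δ h x))
    simpa [Real.norm_eq_abs] using this
  have h2 : |∑ i, m i * ψ i - ∑ i, m i * ψ' i| ≤ δ := by
    rw [← Finset.sum_sub_distrib]
    calc |∑ i, (m i * ψ i - m i * ψ' i)| ≤ ∑ i, |m i * ψ i - m i * ψ' i| :=
          Finset.abs_sum_le_sum_abs _ _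
      _ ≤ ∑ i, m i * δ := Finset.sum_le_sum (fun i _ => by
          rw [← mul_sub, abs_mul, abs_of_pos (hm i)]
          exact mul_le_mul_of_nonneg_left (h i) (hm i).le)
      _ = δ := by rw [← Finset.sum_mul, hsum, one_mul]
  unfold lagJ
  rw [abs_le] at h1 h2 ⊢
  constructor <;> linarith [h1.1, h1.2, h2.1, h2.2]

/-- Invariance of `lagJ` under addition of constants. -/
private theorem sdx_J_add_const [Nonempty ι] (ρ' : Measure (EuclideanSpace ℝ (Fin d)))
    [IsProbabilityMeasure ρ'] (K : Set (EuclideanSpace ℝ (Fin d))) (hKc : IsCompact K)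
    (hK0 : ρ' Kᶜ = 0) (y : ι → EuclideanSpace ℝ (Fin d)) (m : ι → ℝ)
    (hsum : ∑ i, m i = 1) (ψ : ι → ℝ) (c : ℝ) :
    lagJ ρ' y m (fun i => ψ i + c) = lagJ ρ' y m ψ := by
  unfold lagJ
  have h1 : ∫ x, lagPot y (fun i => ψ i + c) x ∂ρ' = ∫ x, lagPot y ψ x ∂ρ' - c := by
    simp_rw [lag_pot_add_const y ψ c]
    rw [integral_sub (sdx_integrable ρ' K hKc hK0 y ψ) (integrable_const c)]
    simp
  have h2 : ∑ i, m i * (ψ i + c) = ∑ i, m i * ψ i + c := by
    simp_rw [mul_add]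
    rw [Finset.sum_add_distrib, ← Finset.sum_mul, hsum, one_mul]
  rw [h1, h2]; ring

/-- A global minimiser of `lagJ` exists. -/
private theorem sdx_exists_min [Nonempty ι] (ρ' : Measure (EuclideanSpace ℝ (Fin d)))
    [IsProbabilityMeasure ρ'] (K : Set (EuclideanSpace ℝ (Fin d))) (hKc : IsCompact K)
    (hK0 : ρ' Kᶜ = 0) (y : ι → EuclideanSpace ℝ (Fin d)) (m : ι → ℝ) (hm : ∀ i, 0 < m i)
    (hsum : ∑ i, m i = 1) :
    ∃ ψ : ι → ℝ, ∀ ψ' : ι → ℝ, lagJ ρ' y m ψ ≤ lagJ ρ' y m ψ' := by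
  obtain ⟨R, hR0, hR⟩ := hKc.isBounded.exists_pos_norm_le
  set Ry : ℝ := ∑ i, ‖y i‖ with hRy
  have hRy0 : 0 ≤ Ry := Finset.sum_nonneg (fun i _ => norm_nonneg _)
  have hyi : ∀ i, ‖y i‖ ≤ Ry := fun i =>
    Finset.single_le_sum (f := fun i => ‖y i‖) (fun i _ => norm_nonneg _) (Finset.mem_univ i)
  set C0 : ℝ := R * Ry with hC0
  have hC00 : 0 ≤ C0 := mul_nonneg hR0.le hRy0
  have hin : ∀ x ∈ K, ∀ i, |inner ℝ x (y i)| ≤ C0 := fun x hx i =>
    (abs_real_inner_le_norm x (y i)).trans (mul_le_mul (hR x hx) (hyi i) (norm_nonneg _) hR0.le)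
  set B : ℝ := ∑ i, (2 * C0 + 1) / m i with hB
  have hBi : ∀ i, (2 * C0 + 1) / m i ≤ B := fun i =>
    Finset.single_le_sum (f := fun i => (2 * C0 + 1) / m i)
      (fun i _ => div_nonneg (by linarith) (hm i).le) (Finset.mem_univ i)
  have hB0 : 0 ≤ B := Finset.sum_nonneg (fun i _ => div_nonneg (by linarith) (hm i).le)
  let S : Set (ι → ℝ) := Set.univ.pi (fun _ => Set.Icc (0 : ℝ) B)
  have hS : IsCompact S := isCompact_univ_pi (fun _ => isCompact_Icc)
  have h0S : (fun _ => (0 : ℝ)) ∈ S := fun i _ => ⟨le_rfl, hB0⟩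
  have hcont : Continuous (lagJ ρ' y m) := by
    have hL : LipschitzWith 2 (lagJ ρ' y m) := by
      refine LipschitzWith.of_dist_le_mul (fun ψ ψ' => ?_)
      rw [Real.dist_eq]
      have := sdx_J_dist ρ' K hKc hK0 y m hm hsum ψ ψ' (dist ψ ψ') (fun i => by
        rw [← Real.dist_eq]; exact dist_le_pi_dist ψ ψ' i)
      simpa using this
    exact hL.continuous
  obtain ⟨ψs, hψsS, hmin⟩ := hS.exists_isMinOn ⟨_, h0S⟩ hcont.continuousOn
  have hmin' : ∀ ψ ∈ S, lagJ ρ' y m ψs ≤ lagJ ρ' y m ψ := fun ψ hψ => hmin hψ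
  refine ⟨ψs, fun ψ => ?_⟩
  have hJ0 : lagJ ρ' y m (fun _ => (0 : ℝ)) ≤ C0 := by
    unfold lagJ
    have h1 : ∫ x, lagPot y (fun _ => (0 : ℝ)) x ∂ρ' ≤ ∫ _x, C0 ∂ρ' := by
      refine integral_mono_ae (sdx_integrable ρ' K hKc hK0 y _) (integrable_const _) ?_
      filter_upwards [sdx_ae_mem ρ' K hK0] with x hx
      unfold lagPot
      exact ciSup_le (fun i => by
        have := hin x hx i
        rw [abs_le] at this
        linarith [this.2])
    simp at h1 ⊢
    linarith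
  obtain ⟨i1, hi1⟩ := Finite.exists_min ψ
  set ψ' : ι → ℝ := fun i => ψ i + (- ψ i1) with hψ'
  have hJ' : lagJ ρ' y m ψ' = lagJ ρ' y m ψ :=
    sdx_J_add_const ρ' K hKc hK0 y m hsum ψ (- ψ i1)
  have hψ'0 : ∀ i, 0 ≤ ψ' i := fun i => by simp only [hψ']; linarith [hi1 i]
  by_cases hbox : ∀ i, ψ' i ≤ B
  · have hmem : ψ' ∈ S := fun i _ => ⟨hψ'0 i, hbox i⟩
    rw [← hJ']; exact hmin' _ hmem
  · simp only [not_forall, not_le] at hbox
    obtain ⟨i2, hi2⟩ := hbox
    have hlow : -C0 + m i2 * ψ' i2 ≤ lagJ ρ' y m ψ' := by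
      unfold lagJ
      have h1 : ∫ _x, (-C0) ∂ρ' ≤ ∫ x, lagPot y ψ' x ∂ρ' := by
        refine integral_mono_ae (integrable_const _) (sdx_integrable ρ' K hKc hK0 y _) ?_
        filter_upwards [sdx_ae_mem ρ' K hK0] with x hx
        have h3 := lag_le_pot y ψ' x i1
        have h4 := hin x hx i1
        rw [abs_le] at h4
        have h5 : ψ' i1 = 0 := by simp [hψ']
        rw [h5] at h3
        linarith [h4.1]
      have h2 : m i2 * ψ' i2 ≤ ∑ i, m i * ψ' i :=
        Finset.single_le_sum (f := fun i => m i * ψ' i)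
          (fun i _ => mul_nonneg (hm i).le (hψ'0 i)) (Finset.mem_univ i2)
      simp at h1
      linarith
    have h5 : 2 * C0 + 1 < m i2 * ψ' i2 := by
      have h6 := hBi i2
      rw [div_le_iff₀ (hm i2)] at h6
      nlinarith [hm i2]
    have h6 : lagJ ρ' y m ψs ≤ lagJ ρ' y m (fun _ => (0 : ℝ)) := hmin' _ h0S
    rw [← hJ']; linarith

/-- One-sided test at a minimiser: the closed cell of the raised potential has mass `≤ m i`. -/
private theorem sdx_cell_le [Nonempty ι] [DecidableEq ι] (ρ' : Measure (EuclideanSpace ℝ (Fin d)))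
    [IsProbabilityMeasure ρ'] (K : Set (EuclideanSpace ℝ (Fin d))) (hKc : IsCompact K)
    (hK0 : ρ' Kᶜ = 0) (y : ι → EuclideanSpace ℝ (Fin d)) (m : ι → ℝ) (ψ : ι → ℝ)
    (hmin : ∀ ψ' : ι → ℝ, lagJ ρ' y m ψ ≤ lagJ ρ' y m ψ') (i : ι) (s : ℝ) (hs : 0 < s) :
    ρ'.real (lagCell y (fun k => ψ k + (if k = i then s else 0)) i) ≤ m i := by
  set ψs : ι → ℝ := fun k => ψ k + (if k = i then s else 0) with hψs
  set C := lagCell y ψs i with hC
  have hCm : MeasurableSet C := lag_measurableSet_cell y ψs i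
  have hpt : ∀ x, lagPot y ψs x ≤ lagPot y ψ x - C.indicator (fun _ => s) x := by
    intro x
    by_cases hx : x ∈ C
    · rw [Set.indicator_of_mem hx]
      have h1 := (lag_mem_cell_iff y ψs x i).mp hx
      have h2 := lag_le_pot y ψ x i
      have h3 : ψs i = ψ i + s := by simp [hψs]
      rw [h1, h3]; linarith
    · rw [Set.indicator_of_notMem hx, sub_zero]
      unfold lagPot
      refine ciSup_le (fun k => ?_)
      have h2 := lag_le_pot y ψ x k
      have h3 : ψ k ≤ ψs k := by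
        simp only [hψs]; split_ifs <;> linarith
      unfold lagPot at h2; linarith
  have hint : ∫ x, lagPot y ψs x ∂ρ' ≤ ∫ x, lagPot y ψ x ∂ρ' - s * ρ'.real C := by
    have hI : Integrable (fun x => lagPot y ψ x - C.indicator (fun _ => s) x) ρ' :=
      (sdx_integrable ρ' K hKc hK0 y ψ).sub ((integrable_const s).indicator hCm)
    calc ∫ x, lagPot y ψs x ∂ρ' ≤ ∫ x, (lagPot y ψ x - C.indicator (fun _ => s) x) ∂ρ' :=
          integral_mono (sdx_integrable ρ' K hKc hK0 y ψs) hI hpt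
      _ = ∫ x, lagPot y ψ x ∂ρ' - s * ρ'.real C := by
          rw [integral_sub (sdx_integrable ρ' K hKc hK0 y ψ)
            ((integrable_const s).indicator hCm), integral_indicator_const s hCm]
          simp [mul_comm]
  have hsumψ : ∑ k, m k * ψs k = ∑ k, m k * ψ k + s * m i := by
    simp only [hψs, mul_add, Finset.sum_add_distrib]
    simp [mul_comm]
  have h7 := hmin ψs
  unfold lagJ at h7
  rw [hsumψ] at h7
  have h8 : s * ρ'.real C ≤ s * m i := by linarith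
  exact le_of_mul_le_mul_left h8 hs

/-- At a minimiser the strict cell `i` has mass `≤ m i`. -/
private theorem sdx_cellS_le [Nonempty ι] [DecidableEq ι]
    (ρ' : Measure (EuclideanSpace ℝ (Fin d)))
    [IsProbabilityMeasure ρ'] (K : Set (EuclideanSpace ℝ (Fin d))) (hKc : IsCompact K)
    (hK0 : ρ' Kᶜ = 0) (y : ι → EuclideanSpace ℝ (Fin d)) (m : ι → ℝ) (ψ : ι → ℝ)
    (hmin : ∀ ψ' : ι → ℝ, lagJ ρ' y m ψ ≤ lagJ ρ' y m ψ') (i : ι) :
    ρ' (lagCellS y ψ i) ≤ ENNReal.ofReal (m i) := by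
  set Cn : ℕ → Set (EuclideanSpace ℝ (Fin d)) := fun n =>
    lagCell y (fun k => ψ k + (if k = i then (1 / ((n : ℝ) + 1)) else 0)) i with hCn
  have hsub : lagCellS y ψ i ⊆ ⋃ n, Cn n := by
    intro x hx
    obtain ⟨k0, hk0⟩ := Finite.exists_min
      (fun k => if k = i then (1 : ℝ) else (inner ℝ x (y i) - ψ i) - (inner ℝ x (y k) - ψ k))
    set ε : ℝ := (if k0 = i then (1 : ℝ)
      else (inner ℝ x (y i) - ψ i) - (inner ℝ x (y k0) - ψ k0)) with hε
    have hεpos : 0 < ε := by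
      simp only [hε]; split_ifs with h
      · exact one_pos
      · have := hx k0 h; linarith
    obtain ⟨n, hn⟩ := exists_nat_one_div_lt hεpos
    refine Set.mem_iUnion.mpr ⟨n, ?_⟩
    intro k
    by_cases hk : k = i
    · subst hk; exact le_rfl
    · have h1 := hk0 k
      simp only [if_neg hk] at h1
      simp only [if_neg hk, if_true, add_zero]
      linarith
  have hmono : Monotone Cn := by
    intro n n' hnn' x hx k
    have h1 := hx k
    by_cases hk : k = i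
    · subst hk; exact le_rfl
    · simp only [if_neg hk, if_true, add_zero] at h1 ⊢
      have h2 : (1 : ℝ) / ((n' : ℝ) + 1) ≤ 1 / ((n : ℝ) + 1) := by
        apply one_div_le_one_div_of_le (by positivity)
        have : (n : ℝ) ≤ (n' : ℝ) := by exact_mod_cast hnn'
        linarith
      linarith
  calc ρ' (lagCellS y ψ i) ≤ ρ' (⋃ n, Cn n) := measure_mono hsub
    _ = ⨆ n, ρ' (Cn n) := hmono.measure_iUnion
    _ ≤ ENNReal.ofReal (m i) := iSup_le (fun n => by
        have h3 := sdx_cell_le ρ' K hKc hK0 y m ψ hmin i (1 / ((n : ℝ) + 1)) (by positivity)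
        rw [← ENNReal.ofReal_toReal (measure_ne_top ρ' (Cn n))]
        exact ENNReal.ofReal_le_ofReal h3)

/-- Existence of an optimal potential for an abstract source measure. -/
private theorem sdx_main [Nonempty ι] (ρ' : Measure (EuclideanSpace ℝ (Fin d)))
    [IsProbabilityMeasure ρ'] (hac : ρ' ≪ volume) (K : Set (EuclideanSpace ℝ (Fin d)))
    (hKc : IsCompact K) (hK0 : ρ' Kᶜ = 0) (y : ι → EuclideanSpace ℝ (Fin d))
    (hy : Function.Injective y) (m : ι → ℝ) (hm : ∀ i, 0 < m i) (hsum : ∑ i, m i = 1) :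
    ∃ ψ : ι → ℝ, IsLagOpt ρ' y m ψ := by
  classical
  obtain ⟨ψ, hmin⟩ := sdx_exists_min ρ' K hKc hK0 y m hm hsum
  refine ⟨ψ, ?_⟩
  have hle : ∀ i, ρ' (lagCellS y ψ i) ≤ ENNReal.ofReal (m i) := fun i =>
    sdx_cellS_le ρ' K hKc hK0 y m ψ hmin i
  have hmeas : MeasurableSet (⋃ i, lagCellS y ψ i) :=
    MeasurableSet.iUnion (fun i => lag_measurableSet_cellS y ψ i)
  have hU : ρ' (⋃ i, lagCellS y ψ i) = 1 := by
    rw [← prob_compl_eq_zero_iff hmeas]
    have h1 := lag_ae_mem_cellS y hy ψ ρ' hac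
    rw [ae_iff] at h1
    convert h1 using 2
    ext x; simp
  have hsum' : ∑ i, ρ' (lagCellS y ψ i) = 1 := by
    rw [← hU, measure_iUnion (fun i k hik => lag_cellS_disjoint y ψ i k hik)
      (fun i => lag_measurableSet_cellS y ψ i), tsum_fintype]
  have hreal : ∀ i, (ρ' (lagCellS y ψ i)).toReal ≤ m i := fun i =>
    ENNReal.toReal_le_of_le_ofReal (hm i).le (hle i)
  have hsumreal : ∑ i, (ρ' (lagCellS y ψ i)).toReal = 1 := by
    rw [← ENNReal.toReal_sum (fun i _ => measure_ne_top ρ' _), hsum']; simp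
  have hzero : ∀ i ∈ Finset.univ, m i - (ρ' (lagCellS y ψ i)).toReal = 0 := by
    rw [← Finset.sum_eq_zero_iff_of_nonneg (fun i _ => sub_nonneg.mpr (hreal i))]
    rw [Finset.sum_sub_distrib, hsum, hsumreal]; ring
  intro i
  have h2 := hzero i (Finset.mem_univ i)
  rw [← ENNReal.ofReal_toReal (measure_ne_top ρ' (lagCellS y ψ i))]
  congr 1; linarith

/-- Existence of an optimal potential (job SD-EXIST).
Proof: minimise `lagJ (rhoG K g) y m` over `{ψ | ψ i₀ = 0, |ψ i| ≤ 2 R Ry / min m}` (continuous by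
`lag_pot_sub_le`, coercive modulo constants since `J ψ ≥ -R Ry + (min m)(max ψ - min ψ)`).
At a minimiser, for `s > 0`: `0 ≤ J (ψ + s e_i) - J ψ ≤ s (m i - ρ' (lagCell y (ψ + s e_i) i))`, and
`lagCellS y ψ i = ⋃_s lagCell y (ψ + s e_i) i`, so `ρ' (lagCellS y ψ i) ≤ m i` for all `i`;
the strict cells cover a.e. and the masses sum to one, hence equality. -/
theorem sd_exists [Nonempty ι] (K : Set (EuclideanSpace ℝ (Fin d))) (hKc : IsCompact K)
    (hKv : Convex ℝ K) (hKi : (interior K).Nonempty) (g : EuclideanSpace ℝ (Fin d) → ℝ)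
    (hg : IsPert K g) (y : ι → EuclideanSpace ℝ (Fin d)) (hy : Function.Injective y)
    (m : ι → ℝ) (hm : ∀ i, 0 < m i) (hsum : ∑ i, m i = 1) :
    ∃ ψ : ι → ℝ, IsLagOpt (rhoG K g) y m ψ := by
  have := rhoG_isProb K hKc hKi g hg
  have hac : rhoG K g ≪ volume := (rhoG_ac K g).trans (uniformProbOn_ac K)
  have hK0 : rhoG K g Kᶜ = 0 := rhoG_ac K g (uniformProbOn_compl K hKc)
  exact sdx_main (rhoG K g) hac K hKc hK0 y hy m hm hsum

end Crest.Agent.S0109
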