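import Crest.Agent.S0109.ApproxQuant
import Crest.Agent.S0109.MD
import Crest.Agent.S0109.SDExist

/-!
Row 82 (S0109) job APPROX-DISC. Statement FROZEN; one owner.
-/

set_option autoImplicit false
open MeasureTheory Filter
open scoped ENNReal NNReal Topology
open Crest.AnalysisR.OT

namespace Crest.Agent.S0109

variable {d : ℕ}

/-- Discrete approximants with the stability estimate (job APPROX-DISC): `approx_quant` with
`δ = 1/(N+1)`, `sd_exists` (with `g = 0`, `rhoG_zero`), `lag_map_pushforward`, `md_main` with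
`Ry + 1`, `lag_map_*`. -/
theorem approx_discrete (K : Set (EuclideanSpace ℝ (Fin d))) (hKc : IsCompact K)
    (hKv : Convex ℝ K) (hKi : (interior K).Nonempty) (Y : Set (EuclideanSpace ℝ (Fin d)))
    (hYc : IsCompact Y) (hYn : Y.Nonempty) :
    ∃ C Ry : ℝ, 0 ≤ C ∧ 0 ≤ Ry ∧ ∀ (μ ν : Measure (EuclideanSpace ℝ (Fin d))),
      IsProbabilityOn Y μ → IsProbabilityOn Y ν →
      ∀ π : Measure (EuclideanSpace ℝ (Fin d) × EuclideanSpace ℝ (Fin d)),
      IsPairCoupling μ ν π → ∀ N : ℕ,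
      ∃ (Tμ Tν q : EuclideanSpace ℝ (Fin d) → EuclideanSpace ℝ (Fin d))
        (φμ φν : EuclideanSpace ℝ (Fin d) → ℝ),
        Measurable Tμ ∧ Measurable Tν ∧ Measurable q ∧
        (∀ x, ‖Tμ x‖ ≤ Ry) ∧ (∀ x, ‖Tν x‖ ≤ Ry) ∧
        (∀ x x', φμ x + inner ℝ (Tμ x) (x' - x) ≤ φμ x') ∧
        (∀ x x', φν x + inner ℝ (Tν x) (x' - x) ≤ φν x') ∧
        (∀ x, ‖q x - x‖ ≤ 1 / ((N : ℝ) + 1)) ∧
        (uniformProbOn K).map Tμ = μ.map q ∧ (uniformProbOn K).map Tν = ν.map q ∧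
        ∫ x, ‖Tμ x - Tν x‖ ^ 2 ∂(uniformProbOn K) ≤
          C * ((Real.sqrt (quadCost π).toReal + 2 / ((N : ℝ) + 1)) ^ 2) ^ (1 / 3 : ℝ) := by
  -- a radius for `Y`
  obtain ⟨r, hr⟩ := hYc.isBounded.subset_closedBall (0 : EuclideanSpace ℝ (Fin d))
  have hY0 : Y ⊆ Metric.closedBall (0 : EuclideanSpace ℝ (Fin d)) (max r 0) :=
    hr.trans (Metric.closedBall_subset_closedBall (le_max_left _ _))
  have hR0 : (0 : ℝ) ≤ max r 0 := le_max_right _ _
  have hR1 : (0 : ℝ) ≤ max r 0 + 1 := by linarith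
  -- the constant of the discrete main theorem for the radius `max r 0 + 1`
  obtain ⟨C, hC0, hC⟩ := md_main d K hKc hKv hKi (max r 0 + 1) hR1
  refine ⟨C, max r 0 + 1, hC0, hR1, ?_⟩
  intro μ ν hμ hν π hπ N
  have hN : (0 : ℝ) < (N : ℝ) + 1 := by positivity
  have hδ : (0 : ℝ) < 1 / ((N : ℝ) + 1) := by positivity
  have hδ1 : 1 / ((N : ℝ) + 1) ≤ 1 := by
    rw [div_le_one hN]
    have : (0 : ℝ) ≤ (N : ℝ) := Nat.cast_nonneg N
    linarith
  -- quantisation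
  obtain ⟨q, hqm, hqδ, ι, κ, instι, instκ, neι, neκ, y, m, z, n, P, hy, hz, hyb, hzb, hm, hmsum,
    hn, hnsum, hP, hμq, hνq, hcost⟩ :=
    approx_quant Y hYc (max r 0) hY0 μ ν hμ hν π hπ (1 / ((N : ℝ) + 1)) hδ
  -- optimal potentials for the uniform source
  obtain ⟨ψ, hψ'⟩ := sd_exists K hKc hKv hKi (fun _ => (0 : ℝ)) (isPert_zero K) y hy m hm hmsum
  obtain ⟨χ, hχ'⟩ := sd_exists K hKc hKv hKi (fun _ => (0 : ℝ)) (isPert_zero K) z hz n hn hnsum
  have hψ : IsLagOpt (uniformProbOn K) y m ψ := by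
    have h := hψ'
    rw [rhoG_zero] at h
    exact h
  have hχ : IsLagOpt (uniformProbOn K) z n χ := by
    have h := hχ'
    rw [rhoG_zero] at h
    exact h
  have hyb' : ∀ i, ‖y i‖ ≤ max r 0 + 1 := fun i => (hyb i).trans (by linarith)
  have hzb' : ∀ k, ‖z k‖ ≤ max r 0 + 1 := fun k => (hzb k).trans (by linarith)
  have hcost0 : 0 ≤ matCost y z P :=
    Finset.sum_nonneg fun i _ => Finset.sum_nonneg fun k _ =>
      mul_nonneg (hP.nonneg i k) (sq_nonneg _)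
  refine ⟨lagMap y ψ, lagMap z χ, q, lagPot y ψ, lagPot z χ, lag_map_measurable y ψ,
    lag_map_measurable z χ, hqm, lag_map_norm_le y ψ _ hyb', lag_map_norm_le z χ _ hzb',
    lag_map_subgrad y ψ, lag_map_subgrad z χ, hqδ, ?_, ?_, ?_⟩
  · rw [hμq]
    exact lag_map_pushforward y hy m ψ (uniformProbOn K) (uniformProbOn_ac K) hψ
  · rw [hνq]
    exact lag_map_pushforward z hz n χ (uniformProbOn K) (uniformProbOn_ac K) hχ
  · have hmain := hC ι κ y m z n P ψ χ hy hz hyb' hzb' hm hmsum hn hnsum hP hψ hχ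
    refine hmain.trans (mul_le_mul_of_nonneg_left ?_ hC0)
    refine Real.rpow_le_rpow hcost0 ?_ (by norm_num)
    have h2 : (2 : ℝ) / ((N : ℝ) + 1) = 2 * (1 / ((N : ℝ) + 1)) := by ring
    rw [h2]
    exact hcost

end Crest.Agent.S0109
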