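import Crest.Agent.S0109.Defs

/-!
Row 82 (S0109) job APPROX-QUANT. Statement FROZEN; one owner.
-/

set_option autoImplicit false
open MeasureTheory Filter
open scoped ENNReal NNReal Topology
open Crest.AnalysisR.OT

namespace Crest.Agent.S0109

variable {d : ℕ}


/-- First-match quantiser along a list of centres. -/
private noncomputable def aq_q (δ : ℝ) :
    List (EuclideanSpace ℝ (Fin d)) → EuclideanSpace ℝ (Fin d) → EuclideanSpace ℝ (Fin d)
  | [], x => x
  | c :: l, x => if dist x c < δ then c else aq_q δ l x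

private theorem aq_q_measurable (δ : ℝ) (l : List (EuclideanSpace ℝ (Fin d))) :
    Measurable (aq_q δ l) := by
  induction l with
  | nil => exact measurable_id
  | cons c l ih =>
    have hs : MeasurableSet {x : EuclideanSpace ℝ (Fin d) | dist x c < δ} :=
      (Metric.isOpen_ball (x := c) (ε := δ)).measurableSet
    exact Measurable.ite hs measurable_const ih

private theorem aq_q_dist (δ : ℝ) (hδ : 0 ≤ δ) (l : List (EuclideanSpace ℝ (Fin d)))
    (x : EuclideanSpace ℝ (Fin d)) : ‖aq_q δ l x - x‖ ≤ δ := by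
  induction l with
  | nil => simpa [aq_q] using hδ
  | cons c l ih =>
    by_cases h : dist x c < δ
    · have : aq_q δ (c :: l) x = c := by simp [aq_q, h]
      rw [this, ← dist_eq_norm, dist_comm]
      exact h.le
    · have : aq_q δ (c :: l) x = aq_q δ l x := by simp [aq_q, h]
      rw [this]; exact ih

private theorem aq_q_mem (δ : ℝ) (l : List (EuclideanSpace ℝ (Fin d)))
    (x : EuclideanSpace ℝ (Fin d)) (hx : ∃ c ∈ l, dist x c < δ) : aq_q δ l x ∈ l := by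
  induction l with
  | nil => obtain ⟨c, hc, _⟩ := hx; simp at hc
  | cons c l ih =>
    by_cases h : dist x c < δ
    · have : aq_q δ (c :: l) x = c := by simp [aq_q, h]
      rw [this]; exact List.mem_cons_self
    · have : aq_q δ (c :: l) x = aq_q δ l x := by simp [aq_q, h]
      rw [this]
      obtain ⟨c', hc', hd⟩ := hx
      rcases List.mem_cons.1 hc' with rfl | hc''
      · exact absurd hd h
      · exact List.mem_cons_of_mem _ (ih ⟨c', hc'', hd⟩)



open Classical in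
/-- Centres of positive mass. -/
private noncomputable def aq_supp (μ : Measure (EuclideanSpace ℝ (Fin d)))
    (q : EuclideanSpace ℝ (Fin d) → EuclideanSpace ℝ (Fin d))
    (S : Finset (EuclideanSpace ℝ (Fin d))) : Finset (EuclideanSpace ℝ (Fin d)) :=
  S.filter (fun c => μ (q ⁻¹' {c}) ≠ 0)

private theorem aq_mem_supp {μ : Measure (EuclideanSpace ℝ (Fin d))}
    {q : EuclideanSpace ℝ (Fin d) → EuclideanSpace ℝ (Fin d)}
    {S : Finset (EuclideanSpace ℝ (Fin d))} {c : EuclideanSpace ℝ (Fin d)} :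
    c ∈ aq_supp μ q S ↔ c ∈ S ∧ μ (q ⁻¹' {c}) ≠ 0 := by
  classical
  simp [aq_supp]

private theorem aq_conull (μ : Measure (EuclideanSpace ℝ (Fin d)))
    (q : EuclideanSpace ℝ (Fin d) → EuclideanSpace ℝ (Fin d))
    (S : Finset (EuclideanSpace ℝ (Fin d))) (hS : μ {x | q x ∉ S} = 0) :
    μ (q ⁻¹' (↑(aq_supp μ q S) : Set (EuclideanSpace ℝ (Fin d))))ᶜ = 0 := by
  have h2 : μ (⋃ c ∈ ((S : Set (EuclideanSpace ℝ (Fin d))) ∩ {c | μ (q ⁻¹' {c}) = 0}),
      q ⁻¹' {c}) = 0 := by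
    rw [measure_biUnion_null_iff ((S.finite_toSet.inter_of_left _).countable)]
    intro c hc; exact hc.2
  refine measure_mono_null ?_ (measure_union_null hS h2)
  intro x hx
  by_cases hxS : q x ∈ S
  · right
    have h0 : μ (q ⁻¹' {q x}) = 0 := by
      by_contra hne
      exact hx (by
        show q x ∈ (↑(aq_supp μ q S) : Set (EuclideanSpace ℝ (Fin d)))
        exact Finset.mem_coe.2 (aq_mem_supp.2 ⟨hxS, hne⟩))
    exact Set.mem_biUnion (show q x ∈ (S : Set (EuclideanSpace ℝ (Fin d))) ∩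
      {c | μ (q ⁻¹' {c}) = 0} from ⟨Finset.mem_coe.2 hxS, h0⟩) rfl
  · left; exact hxS

private theorem aq_map_eq (μ : Measure (EuclideanSpace ℝ (Fin d)))
    (q : EuclideanSpace ℝ (Fin d) → EuclideanSpace ℝ (Fin d)) (hq : Measurable q)
    (T : Finset (EuclideanSpace ℝ (Fin d)))
    (hT : μ (q ⁻¹' (↑T : Set (EuclideanSpace ℝ (Fin d))))ᶜ = 0) :
    μ.map q = ∑ c ∈ T, μ (q ⁻¹' {c}) • Measure.dirac c := by
  refine Measure.ext fun B hB => ?_
  rw [Measure.map_apply hq hB, Measure.coe_finsetSum, Finset.sum_apply]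
  simp only [Measure.smul_apply, smul_eq_mul, Measure.dirac_apply' _ hB]
  rw [← measure_inter_conull hT]
  have hU : q ⁻¹' B ∩ q ⁻¹' (↑T : Set (EuclideanSpace ℝ (Fin d))) =
      ⋃ c ∈ T, (q ⁻¹' {c} ∩ q ⁻¹' B) := by
    ext x
    simp only [Set.mem_inter_iff, Set.mem_preimage, Finset.mem_coe, Set.mem_iUnion,
      Set.mem_singleton_iff, exists_prop]
    constructor
    · rintro ⟨h1, h2⟩; exact ⟨q x, h2, rfl, h1⟩
    · rintro ⟨c, hc, rfl, h1⟩; exact ⟨h1, hc⟩
  rw [hU, measure_biUnion_finset]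
  · refine Finset.sum_congr rfl fun c _ => ?_
    by_cases hc : c ∈ B
    · have : q ⁻¹' {c} ∩ q ⁻¹' B = q ⁻¹' {c} := by
        apply Set.inter_eq_left.2
        intro x hx
        have hx' : q x = c := hx
        show q x ∈ B
        rw [hx']; exact hc
      rw [this]; simp [hc]
    · have : q ⁻¹' {c} ∩ q ⁻¹' B = ∅ := by
        ext x
        simp only [Set.mem_inter_iff, Set.mem_preimage, Set.mem_singleton_iff,
          Set.mem_empty_iff_false, iff_false, not_and]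
        intro h1 h2; rw [h1] at h2; exact hc h2
      rw [this]; simp [hc]
  · intro c _ c' _ hcc'
    refine Set.disjoint_left.2 ?_
    intro x hx hx'
    have h1 : q x = c := hx.1
    have h2 : q x = c' := hx'.1
    exact hcc' (h1.symm.trans h2)
  · intro c _
    exact (hq (measurableSet_singleton c)).inter (hq hB)

private theorem aq_row (π : Measure (EuclideanSpace ℝ (Fin d) × EuclideanSpace ℝ (Fin d)))
    (q : EuclideanSpace ℝ (Fin d) → EuclideanSpace ℝ (Fin d)) (hq : Measurable q)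
    (T : Finset (EuclideanSpace ℝ (Fin d)))
    (hT : (π.map Prod.snd) (q ⁻¹' (↑T : Set (EuclideanSpace ℝ (Fin d))))ᶜ = 0)
    (A : Set (EuclideanSpace ℝ (Fin d))) (hA : MeasurableSet A) :
    ∑ c ∈ T, π (A ×ˢ (q ⁻¹' {c})) = π (Prod.fst ⁻¹' A) := by
  have hTm : MeasurableSet (q ⁻¹' (↑T : Set (EuclideanSpace ℝ (Fin d)))) :=
    hq T.measurableSet
  rw [Measure.map_apply measurable_snd hTm.compl] at hT
  rw [← measure_biUnion_finset]
  · apply le_antisymm
    · apply measure_mono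
      intro p hp
      simp only [Set.mem_iUnion, Set.mem_prod, exists_prop] at hp
      obtain ⟨c, _, h1, _⟩ := hp
      exact h1
    · calc π (Prod.fst ⁻¹' A)
          ≤ π ((⋃ c ∈ T, A ×ˢ (q ⁻¹' {c})) ∪
              Prod.snd ⁻¹' (q ⁻¹' (↑T : Set (EuclideanSpace ℝ (Fin d))))ᶜ) := by
            apply measure_mono
            intro p hp
            by_cases h : q p.2 ∈ T
            · left
              simp only [Set.mem_iUnion, Set.mem_prod, exists_prop]
              exact ⟨q p.2, h, hp, rfl⟩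
            · right
              exact h
        _ ≤ π (⋃ c ∈ T, A ×ˢ (q ⁻¹' {c})) +
              π (Prod.snd ⁻¹' (q ⁻¹' (↑T : Set (EuclideanSpace ℝ (Fin d))))ᶜ) :=
            measure_union_le _ _
        _ = π (⋃ c ∈ T, A ×ˢ (q ⁻¹' {c})) := by rw [hT, add_zero]
  · intro c _ c' _ hcc'
    refine Set.disjoint_left.2 ?_
    intro p hp hp'
    have h1 : q p.2 = c := hp.2
    have h2 : q p.2 = c' := hp'.2
    exact hcc' (h1.symm.trans h2)
  · intro c _
    exact hA.prod (hq (measurableSet_singleton c))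

private theorem aq_col (π : Measure (EuclideanSpace ℝ (Fin d) × EuclideanSpace ℝ (Fin d)))
    (q : EuclideanSpace ℝ (Fin d) → EuclideanSpace ℝ (Fin d)) (hq : Measurable q)
    (T : Finset (EuclideanSpace ℝ (Fin d)))
    (hT : (π.map Prod.fst) (q ⁻¹' (↑T : Set (EuclideanSpace ℝ (Fin d))))ᶜ = 0)
    (A : Set (EuclideanSpace ℝ (Fin d))) (hA : MeasurableSet A) :
    ∑ c ∈ T, π ((q ⁻¹' {c}) ×ˢ A) = π (Prod.snd ⁻¹' A) := by
  have hTm : MeasurableSet (q ⁻¹' (↑T : Set (EuclideanSpace ℝ (Fin d)))) :=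
    hq T.measurableSet
  rw [Measure.map_apply measurable_fst hTm.compl] at hT
  rw [← measure_biUnion_finset]
  · apply le_antisymm
    · apply measure_mono
      intro p hp
      simp only [Set.mem_iUnion, Set.mem_prod, exists_prop] at hp
      obtain ⟨c, _, _, h1⟩ := hp
      exact h1
    · calc π (Prod.snd ⁻¹' A)
          ≤ π ((⋃ c ∈ T, (q ⁻¹' {c}) ×ˢ A) ∪
              Prod.fst ⁻¹' (q ⁻¹' (↑T : Set (EuclideanSpace ℝ (Fin d))))ᶜ) := by
            apply measure_mono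
            intro p hp
            by_cases h : q p.1 ∈ T
            · left
              simp only [Set.mem_iUnion, Set.mem_prod, exists_prop]
              exact ⟨q p.1, h, rfl, hp⟩
            · right
              exact h
        _ ≤ π (⋃ c ∈ T, (q ⁻¹' {c}) ×ˢ A) +
              π (Prod.fst ⁻¹' (q ⁻¹' (↑T : Set (EuclideanSpace ℝ (Fin d))))ᶜ) :=
            measure_union_le _ _
        _ = π (⋃ c ∈ T, (q ⁻¹' {c}) ×ˢ A) := by rw [hT, add_zero]
  · intro c _ c' _ hcc'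
    refine Set.disjoint_left.2 ?_
    intro p hp hp'
    have h1 : q p.1 = c := hp.1
    have h2 : q p.1 = c' := hp'.1
    exact hcc' (h1.symm.trans h2)
  · intro c _
    exact (hq (measurableSet_singleton c)).prod hA



private theorem aq_sq_le (u w θ : ℝ) (hθ : 0 < θ) :
    (u + w) ^ 2 ≤ (1 + θ) * u ^ 2 + (1 + θ⁻¹) * w ^ 2 := by
  have h : 0 ≤ (θ * u - w) ^ 2 / θ := div_nonneg (sq_nonneg _) hθ.le
  have h2 : (θ * u - w) ^ 2 / θ = θ * u ^ 2 - 2 * u * w + θ⁻¹ * w ^ 2 := by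
    field_simp
    ring
  nlinarith [h, h2]

private theorem aq_cost (π : Measure (EuclideanSpace ℝ (Fin d) × EuclideanSpace ℝ (Fin d)))
    (q : EuclideanSpace ℝ (Fin d) → EuclideanSpace ℝ (Fin d)) (hq : Measurable q)
    (δ : ℝ) (hqd : ∀ x, ‖q x - x‖ ≤ δ) (T T' : Finset (EuclideanSpace ℝ (Fin d)))
    (θ : ℝ) (hθ : 0 < θ) :
    ∑ c ∈ T, ∑ c' ∈ T', π ((q ⁻¹' {c}) ×ˢ (q ⁻¹' {c'})) * ENNReal.ofReal (‖c - c'‖ ^ 2)
      ≤ ENNReal.ofReal (1 + θ) * quadCost π +
        ENNReal.ofReal ((1 + θ⁻¹) * (2 * δ) ^ 2) * π Set.univ := by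
  classical
  have hms : ∀ c c' : EuclideanSpace ℝ (Fin d),
      MeasurableSet ((q ⁻¹' {c}) ×ˢ (q ⁻¹' {c'})) := fun c c' =>
    (hq (measurableSet_singleton c)).prod (hq (measurableSet_singleton c'))
  have h1 : ∀ c c' : EuclideanSpace ℝ (Fin d),
      π ((q ⁻¹' {c}) ×ˢ (q ⁻¹' {c'})) * ENNReal.ofReal (‖c - c'‖ ^ 2) =
      ∫⁻ p, ((q ⁻¹' {c}) ×ˢ (q ⁻¹' {c'})).indicator
        (fun _ => ENNReal.ofReal (‖c - c'‖ ^ 2)) p ∂π := by
    intro c c'
    rw [lintegral_indicator_const (hms c c'), mul_comm]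
  simp only [h1]
  have h2 : ∀ c ∈ T, ∑ c' ∈ T', ∫⁻ p, ((q ⁻¹' {c}) ×ˢ (q ⁻¹' {c'})).indicator
        (fun _ => ENNReal.ofReal (‖c - c'‖ ^ 2)) p ∂π =
      ∫⁻ p, ∑ c' ∈ T', ((q ⁻¹' {c}) ×ˢ (q ⁻¹' {c'})).indicator
        (fun _ => ENNReal.ofReal (‖c - c'‖ ^ 2)) p ∂π := by
    intro c _
    rw [lintegral_finsetSum]
    intro c' _
    exact measurable_const.indicator (hms c c')
  rw [Finset.sum_congr rfl h2, ← lintegral_finsetSum]
  swap
  · intro c _
    refine Finset.measurable_sum _ ?_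
    intro c' _
    exact measurable_const.indicator (hms c c')
  have hmeas : Measurable fun p : EuclideanSpace ℝ (Fin d) × EuclideanSpace ℝ (Fin d) =>
      ‖p.1 - p.2‖ₑ ^ 2 := (measurable_fst.sub measurable_snd).enorm.pow_const _
  have h3 : ENNReal.ofReal (1 + θ) * quadCost π +
        ENNReal.ofReal ((1 + θ⁻¹) * (2 * δ) ^ 2) * π Set.univ =
      ∫⁻ p, (ENNReal.ofReal (1 + θ) * ‖p.1 - p.2‖ₑ ^ 2 +
        ENNReal.ofReal ((1 + θ⁻¹) * (2 * δ) ^ 2)) ∂π := by
    rw [lintegral_add_right _ measurable_const, lintegral_const_mul _ hmeas, lintegral_const]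
    rfl
  rw [h3]
  refine lintegral_mono ?_
  intro p
  show ∑ c ∈ T, ∑ c' ∈ T', ((q ⁻¹' {c}) ×ˢ (q ⁻¹' {c'})).indicator
        (fun _ => ENNReal.ofReal (‖c - c'‖ ^ 2)) p ≤
      ENNReal.ofReal (1 + θ) * ‖p.1 - p.2‖ₑ ^ 2 + ENNReal.ofReal ((1 + θ⁻¹) * (2 * δ) ^ 2)
  have h4 : ∀ c c' : EuclideanSpace ℝ (Fin d),
      ((q ⁻¹' {c}) ×ˢ (q ⁻¹' {c'})).indicator
        (fun _ => ENNReal.ofReal (‖c - c'‖ ^ 2)) p =
      if q p.1 = c then (if q p.2 = c' then ENNReal.ofReal (‖q p.1 - q p.2‖ ^ 2) else 0)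
        else 0 := by
    intro c c'
    by_cases hc : q p.1 = c
    · by_cases hc' : q p.2 = c'
      · have hp : p ∈ (q ⁻¹' {c}) ×ˢ (q ⁻¹' {c'}) := ⟨hc, hc'⟩
        rw [Set.indicator_of_mem hp, if_pos hc, if_pos hc', hc, hc']
      · have hp : p ∉ (q ⁻¹' {c}) ×ˢ (q ⁻¹' {c'}) := fun h => hc' h.2
        rw [Set.indicator_of_notMem hp, if_pos hc, if_neg hc']
    · have hp : p ∉ (q ⁻¹' {c}) ×ˢ (q ⁻¹' {c'}) := fun h => hc h.1
      rw [Set.indicator_of_notMem hp, if_neg hc]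
  simp only [h4]
  have h5 : ∑ c ∈ T, (if q p.1 = c then
        ∑ c' ∈ T', (if q p.2 = c' then ENNReal.ofReal (‖q p.1 - q p.2‖ ^ 2) else 0) else 0)
      ≤ ENNReal.ofReal (‖q p.1 - q p.2‖ ^ 2) := by
    rw [Finset.sum_ite_eq, Finset.sum_ite_eq]
    split_ifs <;> simp
  have h6 : ∑ c ∈ T, ∑ c' ∈ T', (if q p.1 = c then
        (if q p.2 = c' then ENNReal.ofReal (‖q p.1 - q p.2‖ ^ 2) else 0) else 0) =
      ∑ c ∈ T, (if q p.1 = c then
        ∑ c' ∈ T', (if q p.2 = c' then ENNReal.ofReal (‖q p.1 - q p.2‖ ^ 2) else 0) else 0) := by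
    refine Finset.sum_congr rfl fun c _ => ?_
    by_cases hc : q p.1 = c
    · simp [hc]
    · simp [hc]
  rw [h6]
  refine h5.trans ?_
  have hn : ‖q p.1 - q p.2‖ ≤ ‖p.1 - p.2‖ + 2 * δ := by
    have e : q p.1 - q p.2 = (q p.1 - p.1) + (p.1 - p.2) - (q p.2 - p.2) := by abel
    rw [e]
    calc ‖(q p.1 - p.1) + (p.1 - p.2) - (q p.2 - p.2)‖
        ≤ ‖(q p.1 - p.1) + (p.1 - p.2)‖ + ‖q p.2 - p.2‖ := norm_sub_le _ _
      _ ≤ ‖q p.1 - p.1‖ + ‖p.1 - p.2‖ + ‖q p.2 - p.2‖ := by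
          gcongr; exact norm_add_le _ _
      _ ≤ δ + ‖p.1 - p.2‖ + δ := by
          gcongr
          · exact hqd _
          · exact hqd _
      _ = ‖p.1 - p.2‖ + 2 * δ := by ring
  have hr : ‖q p.1 - q p.2‖ ^ 2 ≤ (1 + θ) * ‖p.1 - p.2‖ ^ 2 + (1 + θ⁻¹) * (2 * δ) ^ 2 := by
    calc ‖q p.1 - q p.2‖ ^ 2 ≤ (‖p.1 - p.2‖ + 2 * δ) ^ 2 :=
          pow_le_pow_left₀ (norm_nonneg _) hn 2
      _ ≤ _ := aq_sq_le _ _ θ hθ
  have hθ1 : 0 ≤ 1 + θ := by linarith
  have hθ2 : 0 ≤ 1 + θ⁻¹ := by have := inv_pos.2 hθ; linarith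
  calc ENNReal.ofReal (‖q p.1 - q p.2‖ ^ 2)
      ≤ ENNReal.ofReal ((1 + θ) * ‖p.1 - p.2‖ ^ 2 + (1 + θ⁻¹) * (2 * δ) ^ 2) :=
        ENNReal.ofReal_le_ofReal hr
    _ = ENNReal.ofReal (1 + θ) * ‖p.1 - p.2‖ₑ ^ 2 +
          ENNReal.ofReal ((1 + θ⁻¹) * (2 * δ) ^ 2) := by
        rw [ENNReal.ofReal_add (mul_nonneg hθ1 (sq_nonneg _)) (mul_nonneg hθ2 (sq_nonneg _)),
          ENNReal.ofReal_mul hθ1, ENNReal.ofReal_pow (norm_nonneg _), ofReal_norm]


/-- Quantisation of a coupling (job APPROX-QUANT): a measurable map `q` that moves every point by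
at most `δ` and has finite range on `Y` (e.g. nearest centre of a finite `δ`-net, first match; or
coordinatewise rounding), the images of `μ`, `ν` as weighted families and of `π` as a coupling
matrix `P i k = π (q⁻¹ {y i} ×ˢ q⁻¹ {z k})`; cost by Minkowski in `L²(π)`. -/
theorem approx_quant (Y : Set (EuclideanSpace ℝ (Fin d))) (hYc : IsCompact Y) (Ry : ℝ)
    (hY : Y ⊆ Metric.closedBall 0 Ry) (μ ν : Measure (EuclideanSpace ℝ (Fin d)))
    (hμ : IsProbabilityOn Y μ) (hν : IsProbabilityOn Y ν)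
    (π : Measure (EuclideanSpace ℝ (Fin d) × EuclideanSpace ℝ (Fin d)))
    (hπ : IsPairCoupling μ ν π) (δ : ℝ) (hδ : 0 < δ) :
    ∃ q : EuclideanSpace ℝ (Fin d) → EuclideanSpace ℝ (Fin d), Measurable q ∧
      (∀ x, ‖q x - x‖ ≤ δ) ∧
      ∃ (ι κ : Type) (_ : Fintype ι) (_ : Fintype κ) (_ : Nonempty ι) (_ : Nonempty κ)
        (y : ι → EuclideanSpace ℝ (Fin d)) (m : ι → ℝ) (z : κ → EuclideanSpace ℝ (Fin d))
        (n : κ → ℝ) (P : ι → κ → ℝ),
        Function.Injective y ∧ Function.Injective z ∧ (∀ i, ‖y i‖ ≤ Ry + δ) ∧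
        (∀ k, ‖z k‖ ≤ Ry + δ) ∧ (∀ i, 0 < m i) ∧ ∑ i, m i = 1 ∧ (∀ k, 0 < n k) ∧
        ∑ k, n k = 1 ∧ IsCoupMat m n P ∧
        μ.map q = ∑ i, ENNReal.ofReal (m i) • Measure.dirac (y i) ∧
        ν.map q = ∑ k, ENNReal.ofReal (n k) • Measure.dirac (z k) ∧
        matCost y z P ≤ (Real.sqrt (quadCost π).toReal + 2 * δ) ^ 2 := by
  classical
  obtain ⟨hμp, hμY⟩ := hμ
  obtain ⟨hνp, hνY⟩ := hν
  obtain ⟨hπ1, hπ2⟩ := hπ
  -- the net and the quantiser
  obtain ⟨t, htY, htfin, htcov⟩ := hYc.finite_cover_balls hδ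
  set S : Finset (EuclideanSpace ℝ (Fin d)) := htfin.toFinset with hSdef
  set q : EuclideanSpace ℝ (Fin d) → EuclideanSpace ℝ (Fin d) := aq_q δ S.toList with hqdef
  have hqm : Measurable q := aq_q_measurable δ S.toList
  have hqd : ∀ x, ‖q x - x‖ ≤ δ := aq_q_dist δ hδ.le S.toList
  have hqY : ∀ x ∈ Y, q x ∈ S := by
    intro x hx
    have hx' := htcov hx
    simp only [Set.mem_iUnion, Metric.mem_ball, exists_prop] at hx'
    obtain ⟨c, hc, hd⟩ := hx'
    have hcS : c ∈ S.toList := by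
      rw [Finset.mem_toList, hSdef, Set.Finite.mem_toFinset]; exact hc
    have := aq_q_mem δ S.toList x ⟨c, hcS, hd⟩
    exact Finset.mem_toList.1 this
  have hSY : ∀ c ∈ S, ‖c‖ ≤ Ry := by
    intro c hc
    have hct : c ∈ t := by rw [hSdef, Set.Finite.mem_toFinset] at hc; exact hc
    exact mem_closedBall_zero_iff.1 (hY (htY hct))
  have hsub : {x | q x ∉ S} ⊆ Yᶜ := fun x hx hxY => hx (hqY x hxY)
  have hSμ : μ {x | q x ∉ S} = 0 := measure_mono_null hsub hμY
  have hSν : ν {x | q x ∉ S} = 0 := measure_mono_null hsub hνY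
  set T := aq_supp μ q S with hTdef
  set T' := aq_supp ν q S with hT'def
  have hTn : μ (q ⁻¹' (↑T : Set (EuclideanSpace ℝ (Fin d))))ᶜ = 0 := aq_conull μ q S hSμ
  have hT'n : ν (q ⁻¹' (↑T' : Set (EuclideanSpace ℝ (Fin d))))ᶜ = 0 := aq_conull ν q S hSν
  have hμmap := aq_map_eq μ q hqm T hTn
  have hνmap := aq_map_eq ν q hqm T' hT'n
  -- total masses
  have hsumμ : ∑ c ∈ T, μ (q ⁻¹' {c}) = 1 := by
    have h := congrArg (fun M : Measure (EuclideanSpace ℝ (Fin d)) => M Set.univ) hμmap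
    simp only [Measure.map_apply hqm MeasurableSet.univ, Set.preimage_univ, measure_univ,
      Measure.coe_finsetSum, Finset.sum_apply, Measure.smul_apply, smul_eq_mul, mul_one] at h
    exact h.symm
  have hsumν : ∑ c ∈ T', ν (q ⁻¹' {c}) = 1 := by
    have h := congrArg (fun M : Measure (EuclideanSpace ℝ (Fin d)) => M Set.univ) hνmap
    simp only [Measure.map_apply hqm MeasurableSet.univ, Set.preimage_univ, measure_univ,
      Measure.coe_finsetSum, Finset.sum_apply, Measure.smul_apply, smul_eq_mul, mul_one] at h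
    exact h.symm
  have hTne : T.Nonempty := by
    by_contra h
    rw [Finset.not_nonempty_iff_eq_empty] at h
    rw [h, Finset.sum_empty] at hsumμ
    exact zero_ne_one hsumμ
  have hT'ne : T'.Nonempty := by
    by_contra h
    rw [Finset.not_nonempty_iff_eq_empty] at h
    rw [h, Finset.sum_empty] at hsumν
    exact zero_ne_one hsumν
  -- π is a probability measure
  have hπu : π Set.univ = 1 := by
    have h : (π.map Prod.fst) Set.univ = 1 := by rw [hπ1]; exact measure_univ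
    rwa [Measure.map_apply measurable_fst MeasurableSet.univ, Set.preimage_univ] at h
  have : IsProbabilityMeasure π := ⟨hπu⟩
  -- finiteness of the cost
  have hπY1 : π (Prod.fst ⁻¹' Yᶜ) = 0 := by
    rw [← Measure.map_apply measurable_fst hYc.isClosed.measurableSet.compl, hπ1]; exact hμY
  have hπY2 : π (Prod.snd ⁻¹' Yᶜ) = 0 := by
    rw [← Measure.map_apply measurable_snd hYc.isClosed.measurableSet.compl, hπ2]; exact hνY
  have hQfin : quadCost π ≠ ∞ := by
    have hae : ∀ᵐ p ∂π, ‖p.1 - p.2‖ₑ ^ 2 ≤ ENNReal.ofReal (2 * Ry) ^ 2 := by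
      have h0 : π (Prod.fst ⁻¹' Yᶜ ∪ Prod.snd ⁻¹' Yᶜ) = 0 := measure_union_null hπY1 hπY2
      refine (measure_eq_zero_iff_ae_notMem.1 h0).mono ?_
      intro p hp
      have h1 : p.1 ∈ Y := by
        by_contra h; exact hp (Or.inl h)
      have h2 : p.2 ∈ Y := by
        by_contra h; exact hp (Or.inr h)
      have hn1 : ‖p.1‖ ≤ Ry := mem_closedBall_zero_iff.1 (hY h1)
      have hn2 : ‖p.2‖ ≤ Ry := mem_closedBall_zero_iff.1 (hY h2)
      have hn : ‖p.1 - p.2‖ ≤ 2 * Ry := by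
        calc ‖p.1 - p.2‖ ≤ ‖p.1‖ + ‖p.2‖ := norm_sub_le _ _
          _ ≤ 2 * Ry := by linarith
      have : ‖p.1 - p.2‖ₑ ≤ ENNReal.ofReal (2 * Ry) := by
        rw [← ofReal_norm]; exact ENNReal.ofReal_le_ofReal hn
      exact pow_le_pow_left' this 2
    have hle : quadCost π ≤ ENNReal.ofReal (2 * Ry) ^ 2 := by
      calc quadCost π = ∫⁻ p, ‖p.1 - p.2‖ₑ ^ 2 ∂π := rfl
        _ ≤ ∫⁻ _p, ENNReal.ofReal (2 * Ry) ^ 2 ∂π := lintegral_mono_ae hae
        _ = ENNReal.ofReal (2 * Ry) ^ 2 := by rw [lintegral_const, hπu, mul_one]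
    exact ne_top_of_le_ne_top (ENNReal.pow_ne_top ENNReal.ofReal_ne_top) hle
  -- the witnesses
  have : Nonempty (↥T) := hTne.to_subtype
  have : Nonempty (↥T') := hT'ne.to_subtype
  refine ⟨q, hqm, hqd, ↥T, ↥T', inferInstance, inferInstance, inferInstance, inferInstance,
    fun i => (i : EuclideanSpace ℝ (Fin d)), fun i => (μ (q ⁻¹' {(i : EuclideanSpace ℝ (Fin d))})).toReal,
    fun k => (k : EuclideanSpace ℝ (Fin d)), fun k => (ν (q ⁻¹' {(k : EuclideanSpace ℝ (Fin d))})).toReal,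
    fun i k => (π ((q ⁻¹' {(i : EuclideanSpace ℝ (Fin d))}) ×ˢ
      (q ⁻¹' {(k : EuclideanSpace ℝ (Fin d))}))).toReal,
    Subtype.val_injective, Subtype.val_injective, ?_, ?_, ?_, ?_, ?_, ?_, ?_, ?_, ?_, ?_⟩
  · intro i
    have := hSY i (aq_mem_supp.1 i.2).1
    linarith
  · intro k
    have := hSY k (aq_mem_supp.1 k.2).1
    linarith
  · intro i
    exact ENNReal.toReal_pos (aq_mem_supp.1 i.2).2 (measure_ne_top _ _)
  · rw [Finset.sum_coe_sort T (fun c => (μ (q ⁻¹' {c})).toReal),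
      ← ENNReal.toReal_sum (fun c _ => measure_ne_top _ _), hsumμ, ENNReal.toReal_one]
  · intro k
    exact ENNReal.toReal_pos (aq_mem_supp.1 k.2).2 (measure_ne_top _ _)
  · rw [Finset.sum_coe_sort T' (fun c => (ν (q ⁻¹' {c})).toReal),
      ← ENNReal.toReal_sum (fun c _ => measure_ne_top _ _), hsumν, ENNReal.toReal_one]
  · refine ⟨fun i k => ENNReal.toReal_nonneg, ?_, ?_⟩
    · intro i
      rw [Finset.sum_coe_sort T' (fun c' => (π ((q ⁻¹' {(i : EuclideanSpace ℝ (Fin d))}) ×ˢ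
        (q ⁻¹' {c'}))).toReal), ← ENNReal.toReal_sum (fun c _ => measure_ne_top _ _)]
      have hT'n' : (π.map Prod.snd) (q ⁻¹' (↑T' : Set (EuclideanSpace ℝ (Fin d))))ᶜ = 0 := by
        rw [hπ2]; exact hT'n
      rw [aq_row π q hqm T' hT'n' _ (hqm (measurableSet_singleton _)),
        ← Measure.map_apply measurable_fst (hqm (measurableSet_singleton _)), hπ1]
    · intro k
      rw [Finset.sum_coe_sort T (fun c => (π ((q ⁻¹' {c}) ×ˢ
        (q ⁻¹' {(k : EuclideanSpace ℝ (Fin d))}))).toReal),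
        ← ENNReal.toReal_sum (fun c _ => measure_ne_top _ _)]
      have hTn' : (π.map Prod.fst) (q ⁻¹' (↑T : Set (EuclideanSpace ℝ (Fin d))))ᶜ = 0 := by
        rw [hπ1]; exact hTn
      rw [aq_col π q hqm T hTn' _ (hqm (measurableSet_singleton _)),
        ← Measure.map_apply measurable_snd (hqm (measurableSet_singleton _)), hπ2]
  · rw [hμmap, Finset.sum_coe_sort T (fun c => ENNReal.ofReal (μ (q ⁻¹' {c})).toReal •
      Measure.dirac c)]
    refine Finset.sum_congr rfl fun c _ => ?_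
    rw [ENNReal.ofReal_toReal (measure_ne_top _ _)]
  · rw [hνmap, Finset.sum_coe_sort T' (fun c => ENNReal.ofReal (ν (q ⁻¹' {c})).toReal •
      Measure.dirac c)]
    refine Finset.sum_congr rfl fun c _ => ?_
    rw [ENNReal.ofReal_toReal (measure_ne_top _ _)]
  · -- the cost
    set Q : ℝ := (quadCost π).toReal with hQdef
    have hQ0 : 0 ≤ Q := ENNReal.toReal_nonneg
    set Mc : ℝ := ∑ c ∈ T, ∑ c' ∈ T', (π ((q ⁻¹' {c}) ×ˢ (q ⁻¹' {c'}))).toReal * ‖c - c'‖ ^ 2
      with hMcdef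
    have hMc : matCost (fun i : ↥T => (i : EuclideanSpace ℝ (Fin d)))
        (fun k : ↥T' => (k : EuclideanSpace ℝ (Fin d)))
        (fun i k => (π ((q ⁻¹' {(i : EuclideanSpace ℝ (Fin d))}) ×ˢ
          (q ⁻¹' {(k : EuclideanSpace ℝ (Fin d))}))).toReal) = Mc := by
      unfold matCost
      rw [hMcdef, ← Finset.sum_coe_sort T (fun c => ∑ c' ∈ T',
        (π ((q ⁻¹' {c}) ×ˢ (q ⁻¹' {c'}))).toReal * ‖c - c'‖ ^ 2)]
      refine Finset.sum_congr rfl fun i _ => ?_
      rw [← Finset.sum_coe_sort T' (fun c' =>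
        (π ((q ⁻¹' {(i : EuclideanSpace ℝ (Fin d))}) ×ˢ (q ⁻¹' {c'}))).toReal *
          ‖(i : EuclideanSpace ℝ (Fin d)) - c'‖ ^ 2)]
    rw [hMc]
    have hMc0 : 0 ≤ Mc := by
      rw [hMcdef]
      exact Finset.sum_nonneg fun c _ => Finset.sum_nonneg fun c' _ =>
        mul_nonneg ENNReal.toReal_nonneg (sq_nonneg _)
    have hkey : ∀ θ : ℝ, 0 < θ → Mc ≤ (1 + θ) * Q + (1 + θ⁻¹) * (2 * δ) ^ 2 := by
      intro θ hθ
      have hθ1 : 0 ≤ 1 + θ := by linarith
      have hθ2 : 0 ≤ 1 + θ⁻¹ := by have := inv_pos.2 hθ; linarith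
      have hc := aq_cost π q hqm δ hqd T T' θ hθ
      have hL : ENNReal.ofReal Mc = ∑ c ∈ T, ∑ c' ∈ T',
          π ((q ⁻¹' {c}) ×ˢ (q ⁻¹' {c'})) * ENNReal.ofReal (‖c - c'‖ ^ 2) := by
        rw [hMcdef, ENNReal.ofReal_sum_of_nonneg (fun c _ => Finset.sum_nonneg fun c' _ =>
          mul_nonneg ENNReal.toReal_nonneg (sq_nonneg _))]
        refine Finset.sum_congr rfl fun c _ => ?_
        rw [ENNReal.ofReal_sum_of_nonneg (fun c' _ =>
          mul_nonneg ENNReal.toReal_nonneg (sq_nonneg _))]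
        refine Finset.sum_congr rfl fun c' _ => ?_
        rw [ENNReal.ofReal_mul ENNReal.toReal_nonneg, ENNReal.ofReal_toReal (measure_ne_top _ _)]
      have hR : ENNReal.ofReal (1 + θ) * quadCost π +
          ENNReal.ofReal ((1 + θ⁻¹) * (2 * δ) ^ 2) * π Set.univ =
          ENNReal.ofReal ((1 + θ) * Q + (1 + θ⁻¹) * (2 * δ) ^ 2) := by
        rw [hπu, mul_one, ENNReal.ofReal_add (mul_nonneg hθ1 hQ0)
          (mul_nonneg hθ2 (sq_nonneg _)), ENNReal.ofReal_mul hθ1, hQdef,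
          ENNReal.ofReal_toReal hQfin]
      rw [← hL, hR] at hc
      exact (ENNReal.ofReal_le_ofReal_iff (add_nonneg (mul_nonneg hθ1 hQ0)
        (mul_nonneg hθ2 (sq_nonneg _)))).1 hc
    -- optimise over θ
    set s : ℝ := Real.sqrt Q with hsdef
    have hs0 : 0 ≤ s := Real.sqrt_nonneg _
    have hsQ : s ^ 2 = Q := Real.sq_sqrt hQ0
    rcases hs0.eq_or_lt with hs | hs
    · -- Q = 0
      have hQz : Q = 0 := by rw [← hsQ, ← hs]; ring
      rw [← hs, zero_add]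
      refine le_of_forall_pos_le_add ?_
      intro ε hε
      have hδ2 : 0 < (2 * δ) ^ 2 := by positivity
      have h := hkey ((2 * δ) ^ 2 / ε) (by positivity)
      rw [hQz, mul_zero, zero_add] at h
      have e : (1 + ((2 * δ) ^ 2 / ε)⁻¹) * (2 * δ) ^ 2 = (2 * δ) ^ 2 + ε := by
        field_simp
      rw [e] at h
      exact h
    · have h := hkey (2 * δ / s) (by positivity)
      have e : (1 + 2 * δ / s) * Q + (1 + (2 * δ / s)⁻¹) * (2 * δ) ^ 2 = (s + 2 * δ) ^ 2 := by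
        rw [← hsQ]
        field_simp
        ring
      rw [e] at h
      exact h

end Crest.Agent.S0109
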