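import Crest.Agent.S0109.Defs

/-!
Row 82 (S0109) job BRENIER-A. Statements FROZEN; one owner.
-/

set_option autoImplicit false
open MeasureTheory Filter
open scoped ENNReal NNReal Topology
open Crest.AnalysisR.OT

namespace Crest.Agent.S0109

variable {d : ℕ}

/-- If `w` is a subgradient of `φ` at `x` relative to a neighbourhood `K` of `x` and `φ` is
differentiable at `x`, then the derivative of `φ` at `x` is `⟪w, ·⟫` (first-order condition at the
local minimum of `x' ↦ φ x' - ⟪w, x' - x⟫`). -/
private theorem brenierA_fderiv_eq_inner (K : Set (EuclideanSpace ℝ (Fin d)))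
    (φ : EuclideanSpace ℝ (Fin d) → ℝ) (x : EuclideanSpace ℝ (Fin d)) (hK : K ∈ 𝓝 x)
    (hda : DifferentiableAt ℝ φ x) (w : EuclideanSpace ℝ (Fin d))
    (hw : ∀ x' ∈ K, φ x + inner ℝ w (x' - x) ≤ φ x') (u : EuclideanSpace ℝ (Fin d)) :
    fderiv ℝ φ x u = inner ℝ w u := by
  have hmin : IsLocalMin (fun x' => φ x' - inner ℝ w (x' - x)) x := by
    filter_upwards [hK] with x' hx'
    have := hw x' hx'
    simp only [sub_self, inner_zero_right, sub_zero]
    linarith
  have hg : HasFDerivAt (fun x' => φ x' - inner ℝ w (x' - x))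
      (fderiv ℝ φ x - innerSL ℝ w) x := by
    refine hda.hasFDerivAt.sub ?_
    have h1 : HasFDerivAt (fun x' : EuclideanSpace ℝ (Fin d) => x' - x)
        (ContinuousLinearMap.id ℝ (EuclideanSpace ℝ (Fin d))) x :=
      (hasFDerivAt_id x).sub_const x
    have h2 := (innerSL ℝ w).hasFDerivAt.comp x h1
    simpa [Function.comp_def] using h2
  have h0 := hmin.hasFDerivAt_eq_zero hg
  have h3 := congrArg (fun L : EuclideanSpace ℝ (Fin d) →L[ℝ] ℝ => L u) h0
  simp only [sub_apply, innerSL_apply_apply, zero_apply] at h3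
  linarith

/-- At an interior point of differentiability, a convex-type function has at most one subgradient
(job BRENIER-A). -/
theorem brenier_subgrad_unique (K : Set (EuclideanSpace ℝ (Fin d)))
    (φ : EuclideanSpace ℝ (Fin d) → ℝ) (x : EuclideanSpace ℝ (Fin d)) (hx : x ∈ interior K)
    (hd : DifferentiableWithinAt ℝ φ K x) (v v' : EuclideanSpace ℝ (Fin d))
    (hv : ∀ x' ∈ K, φ x + inner ℝ v (x' - x) ≤ φ x')
    (hv' : ∀ x' ∈ K, φ x + inner ℝ v' (x' - x) ≤ φ x') : v = v' := by
  have hK : K ∈ 𝓝 x := mem_interior_iff_mem_nhds.mp hx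
  have hda : DifferentiableAt ℝ φ x := hd.differentiableAt hK
  have h1 := brenierA_fderiv_eq_inner K φ x hK hda v hv
  have h2 := brenierA_fderiv_eq_inner K φ x hK hda v' hv'
  have h3 : inner ℝ (v - v') (v - v') = (0 : ℝ) := by
    rw [inner_sub_left, ← h1 (v - v'), ← h2 (v - v'), sub_self]
  rwa [inner_self_eq_zero, sub_eq_zero] at h3

/-- A Lipschitz function on a convex body is differentiable at almost every point of it, and
almost every point is interior (Rademacher `LipschitzOnWith.ae_differentiableWithinAt_of_mem`,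
`Convex.addHaar_frontier`; job BRENIER-A). -/
theorem brenier_ae_diff (K : Set (EuclideanSpace ℝ (Fin d))) (hKc : IsCompact K)
    (hKv : Convex ℝ K) (φ : EuclideanSpace ℝ (Fin d) → ℝ) (C : ℝ≥0)
    (hφ : LipschitzOnWith C φ K) :
    ∀ᵐ x ∂(uniformProbOn K), x ∈ interior K ∧ DifferentiableWithinAt ℝ φ K x := by
  unfold uniformProbOn
  refine Measure.ae_smul_measure ?_ _
  rw [ae_restrict_iff' hKc.measurableSet]
  have h1 : ∀ᵐ x ∂(volume : Measure (EuclideanSpace ℝ (Fin d))),
      x ∈ K → DifferentiableWithinAt ℝ φ K x :=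
    hφ.ae_differentiableWithinAt_of_mem
  have h2 : ∀ᵐ x ∂(volume : Measure (EuclideanSpace ℝ (Fin d))), x ∉ frontier K := by
    rw [ae_iff]
    simp only [not_not, Set.ofPred_mem_eq]
    exact hKv.addHaar_frontier volume
  filter_upwards [h1, h2] with x hx1 hx2 hxK
  refine ⟨?_, hx1 hxK⟩
  by_contra hni
  exact hx2 ⟨subset_closure hxK, hni⟩

end Crest.Agent.S0109
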