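import Crest.Agent.S0109.Defs

/-!
Row 82 (S0109) job CELLS-A: pointwise/topological API for Laguerre cells. Statements FROZEN; one owner.
-/

set_option autoImplicit false
open MeasureTheory
open scoped ENNReal NNReal
open Crest.AnalysisR.OT

namespace Crest.Agent.S0109

variable {d : ℕ} {ι : Type} [Fintype ι]

theorem lag_le_pot (y : ι → EuclideanSpace ℝ (Fin d)) (ψ : ι → ℝ) (x : EuclideanSpace ℝ (Fin d))
    (i : ι) : inner ℝ x (y i) - ψ i ≤ lagPot y ψ x := by
  unfold lagPot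
  exact le_ciSup (f := fun i => inner ℝ x (y i) - ψ i) (Set.finite_range _).bddAbove i

theorem lag_exists_max [Nonempty ι] (y : ι → EuclideanSpace ℝ (Fin d)) (ψ : ι → ℝ)
    (x : EuclideanSpace ℝ (Fin d)) : ∃ i, x ∈ lagCell y ψ i := by
  obtain ⟨i, hi⟩ := Finite.exists_max (fun i => inner ℝ x (y i) - ψ i)
  exact ⟨i, fun k => hi k⟩

theorem lag_mem_cell_iff (y : ι → EuclideanSpace ℝ (Fin d)) (ψ : ι → ℝ)
    (x : EuclideanSpace ℝ (Fin d)) (i : ι) :
    x ∈ lagCell y ψ i ↔ lagPot y ψ x = inner ℝ x (y i) - ψ i := by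
  have : Nonempty ι := ⟨i⟩
  constructor
  · intro hx
    refine le_antisymm ?_ (lag_le_pot y ψ x i)
    unfold lagPot
    exact ciSup_le fun k => hx k
  · intro h k
    exact (lag_le_pot y ψ x k).trans_eq h

theorem lag_cellS_subset (y : ι → EuclideanSpace ℝ (Fin d)) (ψ : ι → ℝ) (i : ι) :
    lagCellS y ψ i ⊆ lagCell y ψ i := by
  intro x hx k
  by_cases hk : k = i
  · rw [hk]
  · exact (hx k hk).le

theorem lag_pot_eq_of_mem (y : ι → EuclideanSpace ℝ (Fin d)) (ψ : ι → ℝ)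
    (x : EuclideanSpace ℝ (Fin d)) (i : ι) (hx : x ∈ lagCellS y ψ i) :
    lagPot y ψ x = inner ℝ x (y i) - ψ i :=
  (lag_mem_cell_iff y ψ x i).1 (lag_cellS_subset y ψ i hx)

theorem lag_cellS_disjoint (y : ι → EuclideanSpace ℝ (Fin d)) (ψ : ι → ℝ) (i k : ι) (hik : i ≠ k) :
    Disjoint (lagCellS y ψ i) (lagCellS y ψ k) := by
  rw [Set.disjoint_left]
  intro x hx hx'
  have h1 := hx k (Ne.symm hik)
  have h2 := hx' i hik
  exact lt_asymm h1 h2

/-- A point of the strict cell `i` lies in no other closed cell. -/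
theorem lag_cellS_not_mem_cell (y : ι → EuclideanSpace ℝ (Fin d)) (ψ : ι → ℝ) (i k : ι)
    (hik : k ≠ i) (x : EuclideanSpace ℝ (Fin d)) (hx : x ∈ lagCellS y ψ i) :
    x ∉ lagCell y ψ k := by
  intro hx'
  have h1 := hx k hik
  have h2 := hx' i
  exact absurd h1 (not_lt.2 h2)

theorem lag_isOpen_cellS (y : ι → EuclideanSpace ℝ (Fin d)) (ψ : ι → ℝ) (i : ι) :
    IsOpen (lagCellS y ψ i) := by
  have h : lagCellS y ψ i
      = ⋂ k, {x : EuclideanSpace ℝ (Fin d) |
          k ≠ i → inner ℝ x (y k) - ψ k < inner ℝ x (y i) - ψ i} := by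
    ext x
    simp only [lagCellS, Set.mem_ofPred_eq, Set.mem_iInter]
  rw [h]
  refine isOpen_iInter_of_finite fun k => ?_
  by_cases hk : k = i
  · have : {x : EuclideanSpace ℝ (Fin d) |
        k ≠ i → inner ℝ x (y k) - ψ k < inner ℝ x (y i) - ψ i} = Set.univ := by
      ext x
      simp [hk]
    rw [this]
    exact isOpen_univ
  · have : {x : EuclideanSpace ℝ (Fin d) |
        k ≠ i → inner ℝ x (y k) - ψ k < inner ℝ x (y i) - ψ i}
        = {x : EuclideanSpace ℝ (Fin d) | inner ℝ x (y k) - ψ k < inner ℝ x (y i) - ψ i} := by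
      ext x
      simp [hk]
    rw [this]
    exact isOpen_lt (by fun_prop) (by fun_prop)

theorem lag_isClosed_cell (y : ι → EuclideanSpace ℝ (Fin d)) (ψ : ι → ℝ) (i : ι) :
    IsClosed (lagCell y ψ i) := by
  have h : lagCell y ψ i
      = ⋂ k, {x : EuclideanSpace ℝ (Fin d) |
          inner ℝ x (y k) - ψ k ≤ inner ℝ x (y i) - ψ i} := by
    ext x
    simp only [lagCell, Set.mem_ofPred_eq, Set.mem_iInter]
  rw [h]
  exact isClosed_iInter fun k => isClosed_le (by fun_prop) (by fun_prop)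

theorem lag_convex_cellS (y : ι → EuclideanSpace ℝ (Fin d)) (ψ : ι → ℝ) (i : ι) :
    Convex ℝ (lagCellS y ψ i) := by
  rw [convex_iff_forall_pos]
  intro x hx x' hx' a b ha hb hab k hk
  have h1 := hx k hk
  have h2 := hx' k hk
  have e : ∀ j, inner ℝ (a • x + b • x') (y j) - ψ j
      = a * (inner ℝ x (y j) - ψ j) + b * (inner ℝ x' (y j) - ψ j) := by
    intro j
    rw [inner_add_left, real_inner_smul_left, real_inner_smul_left]
    have : ψ j = (a + b) * ψ j := by rw [hab, one_mul]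
    linear_combination (-1 : ℝ) * this
  rw [e k, e i]
  have h3 := mul_lt_mul_of_pos_left h1 ha
  have h4 := mul_lt_mul_of_pos_left h2 hb
  linarith

theorem lag_measurableSet_cellS (y : ι → EuclideanSpace ℝ (Fin d)) (ψ : ι → ℝ) (i : ι) :
    MeasurableSet (lagCellS y ψ i) :=
  (lag_isOpen_cellS y ψ i).measurableSet

theorem lag_measurableSet_cell (y : ι → EuclideanSpace ℝ (Fin d)) (ψ : ι → ℝ) (i : ι) :
    MeasurableSet (lagCell y ψ i) :=
  (lag_isClosed_cell y ψ i).measurableSet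

/-- Minkowski interpolation of strict cells (same sites, interpolated potentials). -/
theorem lag_cellS_interp (y : ι → EuclideanSpace ℝ (Fin d)) (ψ0 ψ1 : ι → ℝ) (i : ι) (t : ℝ)
    (ht0 : 0 ≤ t) (ht1 : t ≤ 1) (x x' : EuclideanSpace ℝ (Fin d))
    (hx : x ∈ lagCellS y ψ0 i) (hx' : x' ∈ lagCellS y ψ1 i) :
    (1 - t) • x + t • x' ∈ lagCellS y (fun k => (1 - t) * ψ0 k + t * ψ1 k) i := by
  intro k hk
  have h1 := hx k hk
  have h2 := hx' k hk
  have e : ∀ j, inner ℝ ((1 - t) • x + t • x') (y j) - ((1 - t) * ψ0 j + t * ψ1 j)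
      = (1 - t) * (inner ℝ x (y j) - ψ0 j) + t * (inner ℝ x' (y j) - ψ1 j) := by
    intro j
    rw [inner_add_left, real_inner_smul_left, real_inner_smul_left]
    ring
  show inner ℝ ((1 - t) • x + t • x') (y k) - ((1 - t) * ψ0 k + t * ψ1 k)
      < inner ℝ ((1 - t) • x + t • x') (y i) - ((1 - t) * ψ0 i + t * ψ1 i)
  rw [e k, e i]
  rcases eq_or_lt_of_le ht0 with h0 | h0
  · rw [← h0]
    simpa using h1
  · have h3 := mul_lt_mul_of_pos_left h2 h0
    have h4 := mul_le_mul_of_nonneg_left h1.le (sub_nonneg.2 ht1)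
    linarith

private theorem lag_pot_le_add [Nonempty ι] (y : ι → EuclideanSpace ℝ (Fin d)) (ψ : ι → ℝ)
    (Ry : ℝ) (hy : ∀ i, ‖y i‖ ≤ Ry) (x x' : EuclideanSpace ℝ (Fin d)) :
    lagPot y ψ x ≤ lagPot y ψ x' + Ry * ‖x - x'‖ := by
  show (⨆ i, (inner ℝ x (y i) - ψ i)) ≤ _
  refine ciSup_le fun i => ?_
  have h1 := lag_le_pot y ψ x' i
  have h2 : inner ℝ (x - x') (y i) ≤ ‖x - x'‖ * ‖y i‖ := real_inner_le_norm _ _
  have h3 : ‖x - x'‖ * ‖y i‖ ≤ ‖x - x'‖ * Ry :=
    mul_le_mul_of_nonneg_left (hy i) (norm_nonneg _)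
  rw [inner_sub_left] at h2
  linarith

theorem lag_pot_lipschitz [Nonempty ι] (y : ι → EuclideanSpace ℝ (Fin d)) (ψ : ι → ℝ) (Ry : ℝ)
    (hy : ∀ i, ‖y i‖ ≤ Ry) (x x' : EuclideanSpace ℝ (Fin d)) :
    |lagPot y ψ x - lagPot y ψ x'| ≤ Ry * ‖x - x'‖ := by
  have h1 := lag_pot_le_add y ψ Ry hy x x'
  have h2 := lag_pot_le_add y ψ Ry hy x' x
  rw [norm_sub_rev x' x] at h2
  rw [abs_le]
  constructor <;> linarith

theorem lag_pot_continuous (y : ι → EuclideanSpace ℝ (Fin d)) (ψ : ι → ℝ) :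
    Continuous (lagPot y ψ) := by
  rcases isEmpty_or_nonempty ι with hι | hι
  · have : lagPot y ψ = fun _ => (0 : ℝ) := by
      funext x
      unfold lagPot
      exact Real.iSup_of_isEmpty _
    rw [this]
    exact continuous_const
  · have hy : ∀ i, ‖y i‖ ≤ ∑ j, ‖y j‖ := fun i =>
      Finset.single_le_sum (f := fun j => ‖y j‖) (fun j _ => norm_nonneg _) (Finset.mem_univ i)
    have hL : LipschitzWith (Real.toNNReal (∑ j, ‖y j‖)) (lagPot y ψ) := by
      refine LipschitzWith.of_dist_le_mul fun x x' => ?_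
      rw [Real.dist_eq, dist_eq_norm, Real.coe_toNNReal _
        (Finset.sum_nonneg fun j _ => norm_nonneg _)]
      exact lag_pot_lipschitz y ψ _ hy x x'
    exact hL.continuous

/-- Dependence on the potential: 1-Lipschitz in the sup norm. -/
theorem lag_pot_sub_le [Nonempty ι] (y : ι → EuclideanSpace ℝ (Fin d)) (ψ ψ' : ι → ℝ) (δ : ℝ)
    (h : ∀ i, |ψ i - ψ' i| ≤ δ) (x : EuclideanSpace ℝ (Fin d)) :
    |lagPot y ψ x - lagPot y ψ' x| ≤ δ := by
  have h1 : lagPot y ψ x ≤ lagPot y ψ' x + δ := by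
    show (⨆ i, (inner ℝ x (y i) - ψ i)) ≤ _
    refine ciSup_le fun i => ?_
    have h1 := lag_le_pot y ψ' x i
    have h2 := (abs_le.1 (h i)).1
    linarith
  have h2 : lagPot y ψ' x ≤ lagPot y ψ x + δ := by
    show (⨆ i, (inner ℝ x (y i) - ψ' i)) ≤ _
    refine ciSup_le fun i => ?_
    have h1 := lag_le_pot y ψ x i
    have h2 := (abs_le.1 (h i)).2
    linarith
  rw [abs_le]
  constructor <;> linarith

theorem lag_pot_add_const [Nonempty ι] (y : ι → EuclideanSpace ℝ (Fin d)) (ψ : ι → ℝ) (c : ℝ)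
    (x : EuclideanSpace ℝ (Fin d)) :
    lagPot y (fun i => ψ i + c) x = lagPot y ψ x - c := by
  apply le_antisymm
  · show (⨆ i, (inner ℝ x (y i) - (ψ i + c))) ≤ _
    refine ciSup_le fun i => ?_
    have h1 := lag_le_pot y ψ x i
    linarith
  · have : lagPot y ψ x ≤ lagPot y (fun i => ψ i + c) x + c := by
      show (⨆ i, (inner ℝ x (y i) - ψ i)) ≤ _
      refine ciSup_le fun i => ?_
      have h1 : inner ℝ x (y i) - (ψ i + c) ≤ lagPot y (fun i => ψ i + c) x :=
        lag_le_pot y (fun i => ψ i + c) x i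
      linarith
    linarith

theorem lag_cellS_add_const (y : ι → EuclideanSpace ℝ (Fin d)) (ψ : ι → ℝ) (c : ℝ) (i : ι) :
    lagCellS y (fun i => ψ i + c) i = lagCellS y ψ i := by
  ext x
  simp only [lagCellS, Set.mem_ofPred_eq]
  constructor
  · intro h k hk
    have := h k hk
    linarith
  · intro h k hk
    have := h k hk
    linarith

theorem lag_map_measurable (y : ι → EuclideanSpace ℝ (Fin d)) (ψ : ι → ℝ) :
    Measurable (lagMap y ψ) := by
  have h1 : Measurable (fun x : EuclideanSpace ℝ (Fin d) =>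
      ∑ i, (lagCell y ψ i).indicator (fun _ => (1 : ℝ)) x) :=
    Finset.measurable_sum _ fun i _ =>
      measurable_const.indicator (lag_measurableSet_cell y ψ i)
  have h2 : Measurable (fun x : EuclideanSpace ℝ (Fin d) =>
      ∑ i, (lagCell y ψ i).indicator (fun _ => y i) x) :=
    Finset.measurable_sum _ fun i _ =>
      measurable_const.indicator (lag_measurableSet_cell y ψ i)
  exact h1.inv.smul h2

theorem lag_map_eq_of_mem (y : ι → EuclideanSpace ℝ (Fin d)) (ψ : ι → ℝ)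
    (x : EuclideanSpace ℝ (Fin d)) (i : ι) (hx : x ∈ lagCellS y ψ i) :
    lagMap y ψ x = y i := by
  have hi : x ∈ lagCell y ψ i := lag_cellS_subset y ψ i hx
  have hk : ∀ k, k ≠ i → x ∉ lagCell y ψ k := fun k hk =>
    lag_cellS_not_mem_cell y ψ i k hk x hx
  have h1 : ∑ k, (lagCell y ψ k).indicator (fun _ => (1 : ℝ)) x = 1 := by
    rw [Finset.sum_eq_single i]
    · exact Set.indicator_of_mem hi _
    · intro k _ hki
      exact Set.indicator_of_notMem (hk k hki) _
    · intro h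
      exact absurd (Finset.mem_univ i) h
  have h2 : ∑ k, (lagCell y ψ k).indicator (fun _ => y k) x = y i := by
    rw [Finset.sum_eq_single i]
    · exact Set.indicator_of_mem hi _
    · intro k _ hki
      exact Set.indicator_of_notMem (hk k hki) _
    · intro h
      exact absurd (Finset.mem_univ i) h
  unfold lagMap
  rw [h1, h2, inv_one, one_smul]

private theorem lag_count_pos [Nonempty ι] (y : ι → EuclideanSpace ℝ (Fin d)) (ψ : ι → ℝ)
    (x : EuclideanSpace ℝ (Fin d)) :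
    0 < ∑ i, (lagCell y ψ i).indicator (fun _ => (1 : ℝ)) x := by
  obtain ⟨i, hi⟩ := lag_exists_max y ψ x
  have h0 : ∀ k ∈ Finset.univ, 0 ≤ (lagCell y ψ k).indicator (fun _ => (1 : ℝ)) x :=
    fun k _ => Set.indicator_nonneg (fun _ _ => zero_le_one) x
  have h1 : (lagCell y ψ i).indicator (fun _ => (1 : ℝ)) x
      ≤ ∑ k, (lagCell y ψ k).indicator (fun _ => (1 : ℝ)) x :=
    Finset.single_le_sum h0 (Finset.mem_univ i)
  rw [Set.indicator_of_mem hi] at h1
  linarith

/-- `lagMap` is a subgradient selection of `lagPot` (everywhere). -/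
theorem lag_map_subgrad [Nonempty ι] (y : ι → EuclideanSpace ℝ (Fin d)) (ψ : ι → ℝ)
    (x x' : EuclideanSpace ℝ (Fin d)) :
    lagPot y ψ x + inner ℝ (lagMap y ψ x) (x' - x) ≤ lagPot y ψ x' := by
  have hn := lag_count_pos y ψ x
  set n : ℝ := ∑ i, (lagCell y ψ i).indicator (fun _ => (1 : ℝ)) x with hn_def
  have hterm : ∀ i, inner ℝ ((lagCell y ψ i).indicator (fun _ => y i) x) (x' - x)
      ≤ (lagCell y ψ i).indicator (fun _ => (1 : ℝ)) x * (lagPot y ψ x' - lagPot y ψ x) := by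
    intro i
    by_cases hi : x ∈ lagCell y ψ i
    · rw [Set.indicator_of_mem hi, Set.indicator_of_mem hi, one_mul]
      have h1 := (lag_mem_cell_iff y ψ x i).1 hi
      have h2 := lag_le_pot y ψ x' i
      rw [inner_sub_right, real_inner_comm x' (y i), real_inner_comm x (y i)]
      linarith
    · rw [Set.indicator_of_notMem hi, Set.indicator_of_notMem hi, inner_zero_left, zero_mul]
  have hsum : inner ℝ (∑ i, (lagCell y ψ i).indicator (fun _ => y i) x) (x' - x)
      ≤ n * (lagPot y ψ x' - lagPot y ψ x) := by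
    rw [sum_inner, hn_def, Finset.sum_mul]
    exact Finset.sum_le_sum fun i _ => hterm i
  have hmap : inner ℝ (lagMap y ψ x) (x' - x)
      = n⁻¹ * inner ℝ (∑ i, (lagCell y ψ i).indicator (fun _ => y i) x) (x' - x) := by
    unfold lagMap
    rw [real_inner_smul_left]
  have h3 : n⁻¹ * inner ℝ (∑ i, (lagCell y ψ i).indicator (fun _ => y i) x) (x' - x)
      ≤ n⁻¹ * (n * (lagPot y ψ x' - lagPot y ψ x)) :=
    mul_le_mul_of_nonneg_left hsum (inv_nonneg.2 hn.le)
  rw [← mul_assoc, inv_mul_cancel₀ hn.ne', one_mul] at h3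
  rw [hmap]
  linarith

theorem lag_map_norm_le [Nonempty ι] (y : ι → EuclideanSpace ℝ (Fin d)) (ψ : ι → ℝ) (Ry : ℝ)
    (hy : ∀ i, ‖y i‖ ≤ Ry) (x : EuclideanSpace ℝ (Fin d)) : ‖lagMap y ψ x‖ ≤ Ry := by
  have hn := lag_count_pos y ψ x
  set n : ℝ := ∑ i, (lagCell y ψ i).indicator (fun _ => (1 : ℝ)) x with hn_def
  have hterm : ∀ i, ‖(lagCell y ψ i).indicator (fun _ => y i) x‖
      ≤ (lagCell y ψ i).indicator (fun _ => (1 : ℝ)) x * Ry := by
    intro i
    by_cases hi : x ∈ lagCell y ψ i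
    · rw [Set.indicator_of_mem hi, Set.indicator_of_mem hi, one_mul]
      exact hy i
    · rw [Set.indicator_of_notMem hi, Set.indicator_of_notMem hi, norm_zero, zero_mul]
  have hsum : ‖∑ i, (lagCell y ψ i).indicator (fun _ => y i) x‖ ≤ n * Ry := by
    rw [hn_def, Finset.sum_mul]
    exact (norm_sum_le _ _).trans (Finset.sum_le_sum fun i _ => hterm i)
  have hmap : ‖lagMap y ψ x‖ = n⁻¹ * ‖∑ i, (lagCell y ψ i).indicator (fun _ => y i) x‖ := by
    unfold lagMap
    rw [norm_smul, Real.norm_eq_abs, abs_of_nonneg (inv_nonneg.2 hn.le)]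
  have h3 : n⁻¹ * ‖∑ i, (lagCell y ψ i).indicator (fun _ => y i) x‖ ≤ n⁻¹ * (n * Ry) :=
    mul_le_mul_of_nonneg_left hsum (inv_nonneg.2 hn.le)
  rw [← mul_assoc, inv_mul_cancel₀ hn.ne', one_mul] at h3
  rw [hmap]
  exact h3

end Crest.Agent.S0109
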