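import Crest.Agent.S0109.CellsA

/-!
Row 82 (S0109) job CELLS-B: measure-theoretic API (hyperplanes null, uniformProbOn, rhoG). Statements FROZEN; one owner.
-/

set_option autoImplicit false
open MeasureTheory
open scoped ENNReal NNReal
open Crest.AnalysisR.OT

namespace Crest.Agent.S0109

variable {d : ℕ} {ι : Type} [Fintype ι]

/-- A hyperplane is Lebesgue-null. -/
theorem lag_hyperplane_null (v : EuclideanSpace ℝ (Fin d)) (hv : v ≠ 0) (c : ℝ) :
    volume {x : EuclideanSpace ℝ (Fin d) | inner ℝ x v = c} = 0 := by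
  classical
  set S : Submodule ℝ (EuclideanSpace ℝ (Fin d)) := (ℝ ∙ v)ᗮ with hS
  have hSne : S ≠ ⊤ := by
    intro htop
    have hvS : v ∈ S := by rw [htop]; trivial
    rw [hS, Submodule.mem_orthogonal_singleton_iff_inner_left] at hvS
    exact hv (inner_self_eq_zero.mp hvS)
  have hS0 : volume (S : Set (EuclideanSpace ℝ (Fin d))) = 0 :=
    Measure.addHaar_submodule volume S hSne
  set x₀ : EuclideanSpace ℝ (Fin d) := (c / inner ℝ v v) • v with hx₀
  have hvv : inner ℝ v v ≠ 0 := fun h => hv (inner_self_eq_zero.mp h)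
  have hset : {x : EuclideanSpace ℝ (Fin d) | inner ℝ x v = c}
      = (fun h => h + (-x₀)) ⁻¹' (S : Set (EuclideanSpace ℝ (Fin d))) := by
    ext x
    simp only [Set.mem_setOf_eq, Set.mem_preimage, SetLike.mem_coe]
    rw [hS, Submodule.mem_orthogonal_singleton_iff_inner_left]
    rw [inner_add_left, inner_neg_left, hx₀, real_inner_smul_left]
    rw [div_mul_cancel₀ c hvv]
    constructor
    · intro h; linarith
    · intro h; linarith
  rw [hset, measure_preimage_add_right]
  exact hS0

private theorem lag_bad_subset [Nonempty ι] (y : ι → EuclideanSpace ℝ (Fin d)) (ψ : ι → ℝ) :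
    {x : EuclideanSpace ℝ (Fin d) | ¬ ∃ i, x ∈ lagCellS y ψ i} ⊆
      ⋃ i : ι, ⋃ k : ι, ⋃ _ : k ≠ i,
        {x : EuclideanSpace ℝ (Fin d) | inner ℝ x (y i - y k) = ψ i - ψ k} := by
  intro x hx
  simp only [Set.mem_setOf_eq, not_exists] at hx
  obtain ⟨i, hi⟩ := lag_exists_max y ψ x
  have hxi := hx i
  simp only [lagCellS, Set.mem_setOf_eq, not_forall] at hxi
  obtain ⟨k, hki, hk⟩ := hxi
  have h1 := hi k
  have h2 : inner ℝ x (y k) - ψ k = inner ℝ x (y i) - ψ i := le_antisymm h1 (not_lt.mp hk)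
  simp only [Set.mem_iUnion, Set.mem_setOf_eq]
  refine ⟨i, k, hki, ?_⟩
  rw [inner_sub_right]; linarith

private theorem lag_hyper_null' (y : ι → EuclideanSpace ℝ (Fin d))
    (hy : Function.Injective y) (ψ : ι → ℝ) :
    volume (⋃ i : ι, ⋃ k : ι, ⋃ _ : k ≠ i,
        {x : EuclideanSpace ℝ (Fin d) | inner ℝ x (y i - y k) = ψ i - ψ k}) = 0 := by
  rw [measure_iUnion_null_iff]; intro i
  rw [measure_iUnion_null_iff]; intro k
  rw [measure_iUnion_null_iff]; intro hki
  apply lag_hyperplane_null
  intro h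
  exact hki (hy (sub_eq_zero.mp h)).symm

/-- For injective sites, almost every point lies in a strict cell. -/
theorem lag_ae_mem_cellS [Nonempty ι] (y : ι → EuclideanSpace ℝ (Fin d))
    (hy : Function.Injective y) (ψ : ι → ℝ) (ρ' : Measure (EuclideanSpace ℝ (Fin d)))
    (hρ : ρ' ≪ volume) : ∀ᵐ x ∂ρ', ∃ i, x ∈ lagCellS y ψ i := by
  rw [ae_iff]
  apply hρ
  exact measure_mono_null (lag_bad_subset y ψ) (lag_hyper_null' y hy ψ)

/-- For injective sites, closed and strict cells have the same measure. -/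
theorem lag_measure_cell_eq (y : ι → EuclideanSpace ℝ (Fin d))
    (hy : Function.Injective y) (ψ : ι → ℝ) (ρ' : Measure (EuclideanSpace ℝ (Fin d)))
    (hρ : ρ' ≪ volume) (i : ι) : ρ' (lagCell y ψ i) = ρ' (lagCellS y ψ i) := by
  symm
  apply measure_eq_measure_of_null_diff (lag_cellS_subset y ψ i)
  apply hρ
  refine measure_mono_null ?_ (lag_hyper_null' y hy ψ)
  intro x hx
  obtain ⟨hx1, hx2⟩ := hx
  simp only [lagCellS, Set.mem_setOf_eq, not_forall] at hx2
  obtain ⟨k, hki, hk⟩ := hx2
  have h1 := hx1 k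
  have h2 : inner ℝ x (y k) - ψ k = inner ℝ x (y i) - ψ i := le_antisymm h1 (not_lt.mp hk)
  simp only [Set.mem_iUnion, Set.mem_setOf_eq]
  refine ⟨i, k, hki, ?_⟩
  rw [inner_sub_right]; linarith

theorem rhoG_zero (K : Set (EuclideanSpace ℝ (Fin d))) :
    rhoG K (fun _ => 0) = uniformProbOn K := by
  unfold rhoG
  have : (fun _ : EuclideanSpace ℝ (Fin d) => ENNReal.ofReal (1 + 0)) = 1 := by
    funext x; simp
  rw [this, withDensity_one]

private theorem volK_ne_zero (K : Set (EuclideanSpace ℝ (Fin d)))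
    (hKi : (interior K).Nonempty) : (volume K) ≠ 0 := by
  have h1 : 0 < volume (interior K) := isOpen_interior.measure_pos volume hKi
  exact (lt_of_lt_of_le h1 (measure_mono interior_subset)).ne'

private theorem volK_ne_top (K : Set (EuclideanSpace ℝ (Fin d))) (hKc : IsCompact K) :
    (volume K) ≠ ⊤ := hKc.measure_lt_top.ne

private theorem uniformProbOn_apply (K : Set (EuclideanSpace ℝ (Fin d))) (hKc : IsCompact K)
    (s : Set (EuclideanSpace ℝ (Fin d))) :
    uniformProbOn K s = (volume K)⁻¹ * volume (s ∩ K) := by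
  unfold uniformProbOn
  rw [Measure.smul_apply, Measure.restrict_apply' hKc.measurableSet, smul_eq_mul]

theorem uniformProbOn_isProb (K : Set (EuclideanSpace ℝ (Fin d))) (hKc : IsCompact K)
    (hKi : (interior K).Nonempty) : IsProbabilityMeasure (uniformProbOn K) := by
  constructor
  rw [uniformProbOn_apply K hKc, Set.univ_inter]
  exact ENNReal.inv_mul_cancel (volK_ne_zero K hKi) (volK_ne_top K hKc)

theorem uniformProbOn_ac (K : Set (EuclideanSpace ℝ (Fin d))) :
    uniformProbOn K ≪ (volume : Measure (EuclideanSpace ℝ (Fin d))) := by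
  unfold uniformProbOn
  exact (Measure.restrict_le_self.absolutelyContinuous).smul_left _

theorem uniformProbOn_compl (K : Set (EuclideanSpace ℝ (Fin d))) (hKc : IsCompact K) :
    uniformProbOn K Kᶜ = 0 := by
  rw [uniformProbOn_apply K hKc]
  simp

/-- Open sets meeting the interior of `K` have positive mass. -/
theorem uniformProbOn_pos_of_open (K : Set (EuclideanSpace ℝ (Fin d))) (hKc : IsCompact K)
    (hKi : (interior K).Nonempty) (U : Set (EuclideanSpace ℝ (Fin d))) (hU : IsOpen U)
    (hUK : (U ∩ interior K).Nonempty) : 0 < uniformProbOn K U := by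
  rw [uniformProbOn_apply K hKc]
  have h1 : 0 < volume (U ∩ interior K) := (hU.inter isOpen_interior).measure_pos volume hUK
  have h2 : 0 < volume (U ∩ K) :=
    lt_of_lt_of_le h1 (measure_mono (Set.inter_subset_inter_right U interior_subset))
  have h3 : 0 < (volume K)⁻¹ := ENNReal.inv_pos.mpr (volK_ne_top K hKc)
  exact ENNReal.mul_pos h3.ne' h2.ne'

/-- The frontier of a convex set is null, hence `uniformProbOn K` is carried by `interior K`. -/
theorem uniformProbOn_interior (K : Set (EuclideanSpace ℝ (Fin d))) (hKc : IsCompact K)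
    (hKv : Convex ℝ K) : uniformProbOn K (interior K)ᶜ = 0 := by
  rw [uniformProbOn_apply K hKc]
  have hsub : (interior K)ᶜ ∩ K ⊆ frontier K := by
    intro x hx
    exact ⟨subset_closure hx.2, hx.1⟩
  have h0 : volume ((interior K)ᶜ ∩ K) = 0 :=
    measure_mono_null hsub (hKv.addHaar_frontier volume)
  rw [h0, mul_zero]

theorem rhoG_ac (K : Set (EuclideanSpace ℝ (Fin d))) (g : EuclideanSpace ℝ (Fin d) → ℝ) :
    rhoG K g ≪ uniformProbOn K := by
  unfold rhoG
  exact withDensity_absolutelyContinuous _ _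

private theorem isPert_nonneg (K : Set (EuclideanSpace ℝ (Fin d)))
    (g : EuclideanSpace ℝ (Fin d) → ℝ) (hg : IsPert K g) (x : EuclideanSpace ℝ (Fin d)) :
    1 / 2 ≤ 1 + g x ∧ 1 + g x ≤ 3 / 2 := by
  have h := abs_le.mp (hg.bdd x)
  constructor <;> linarith [h.1, h.2]

private theorem rhoG_dens_meas (g : EuclideanSpace ℝ (Fin d) → ℝ) (hg : Measurable g) :
    Measurable (fun x => ENNReal.ofReal (1 + g x)) :=
  ENNReal.measurable_ofReal.comp (measurable_const.add hg)

theorem rhoG_isProb (K : Set (EuclideanSpace ℝ (Fin d))) (hKc : IsCompact K)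
    (hKi : (interior K).Nonempty) (g : EuclideanSpace ℝ (Fin d) → ℝ) (hg : IsPert K g) :
    IsProbabilityMeasure (rhoG K g) := by
  haveI := uniformProbOn_isProb K hKc hKi
  constructor
  unfold rhoG
  rw [withDensity_apply _ MeasurableSet.univ, Measure.restrict_univ]
  have hgi : Integrable g (uniformProbOn K) := by
    refine Integrable.mono' (integrable_const (1 / 2 : ℝ)) hg.meas.aestronglyMeasurable ?_
    exact Filter.Eventually.of_forall (fun x => by simpa [Real.norm_eq_abs] using hg.bdd x)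
  have hi : Integrable (fun x => 1 + g x) (uniformProbOn K) := (integrable_const 1).add hgi
  rw [← ofReal_integral_eq_lintegral_ofReal hi
    (Filter.Eventually.of_forall (fun x => by
      have := (isPert_nonneg K g hg x).1
      show (0 : ℝ) ≤ 1 + g x
      linarith))]
  rw [integral_add (integrable_const 1) hgi, hg.mean]
  simp

/-- Integration against `rhoG`. -/
theorem rhoG_integral (K : Set (EuclideanSpace ℝ (Fin d))) (g : EuclideanSpace ℝ (Fin d) → ℝ)
    (hg : IsPert K g) (f : EuclideanSpace ℝ (Fin d) → ℝ) :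
    ∫ x, f x ∂(rhoG K g) = ∫ x, f x * (1 + g x) ∂(uniformProbOn K) := by
  unfold rhoG
  have hm : Measurable (fun x => (1 + g x).toNNReal) :=
    (measurable_const.add hg.meas).real_toNNReal
  have h1 : (fun x => ENNReal.ofReal (1 + g x)) = fun x => (((1 + g x).toNNReal : ℝ≥0) : ℝ≥0∞) :=
    rfl
  rw [h1, integral_withDensity_eq_integral_smul hm]
  apply integral_congr_ae
  refine Filter.Eventually.of_forall (fun x => ?_)
  have h0 : (0 : ℝ) ≤ 1 + g x := by linarith [(isPert_nonneg K g hg x).1]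
  simp only [NNReal.smul_def, smul_eq_mul, Real.coe_toNNReal _ h0]
  ring

/-- Vector-valued version of `rhoG_integral`. -/
theorem rhoG_integral_vec (K : Set (EuclideanSpace ℝ (Fin d)))
    (g : EuclideanSpace ℝ (Fin d) → ℝ) (hg : IsPert K g)
    (f : EuclideanSpace ℝ (Fin d) → EuclideanSpace ℝ (Fin d)) (s : Set (EuclideanSpace ℝ (Fin d)))
    (hs : MeasurableSet s) :
    ∫ x in s, f x ∂(rhoG K g) = ∫ x in s, (1 + g x) • f x ∂(uniformProbOn K) := by
  unfold rhoG
  have hm : Measurable (fun x => (1 + g x).toNNReal) :=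
    (measurable_const.add hg.meas).real_toNNReal
  have h1 : (fun x => ENNReal.ofReal (1 + g x)) = fun x => (((1 + g x).toNNReal : ℝ≥0) : ℝ≥0∞) :=
    rfl
  rw [restrict_withDensity hs, h1, integral_withDensity_eq_integral_smul hm]
  apply integral_congr_ae
  refine Filter.Eventually.of_forall (fun x => ?_)
  have h0 : (0 : ℝ) ≤ 1 + g x := by linarith [(isPert_nonneg K g hg x).1]
  simp only [NNReal.smul_def, Real.coe_toNNReal _ h0]

/-- Comparison of masses: `(1/2) ρ ≤ rhoG ≤ (3/2) ρ`. -/
theorem rhoG_measure_le (K : Set (EuclideanSpace ℝ (Fin d))) (g : EuclideanSpace ℝ (Fin d) → ℝ)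
    (hg : IsPert K g) (s : Set (EuclideanSpace ℝ (Fin d))) (hs : MeasurableSet s) :
    rhoG K g s ≤ ENNReal.ofReal (3 / 2) * uniformProbOn K s ∧
      uniformProbOn K s ≤ 2 * rhoG K g s := by
  have happ : rhoG K g s = ∫⁻ x in s, ENNReal.ofReal (1 + g x) ∂(uniformProbOn K) := by
    unfold rhoG; rw [withDensity_apply _ hs]
  constructor
  · rw [happ, ← setLIntegral_const]
    apply lintegral_mono
    intro x
    exact ENNReal.ofReal_le_ofReal (isPert_nonneg K g hg x).2
  · have h1 : ENNReal.ofReal (1 / 2) * uniformProbOn K s ≤ rhoG K g s := by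
      rw [happ, ← setLIntegral_const]
      apply lintegral_mono
      intro x
      exact ENNReal.ofReal_le_ofReal (isPert_nonneg K g hg x).1
    calc uniformProbOn K s = 2 * (ENNReal.ofReal (1 / 2) * uniformProbOn K s) := by
          rw [← mul_assoc]
          have : (2 : ℝ≥0∞) * ENNReal.ofReal (1 / 2) = 1 := by
            rw [show (2 : ℝ≥0∞) = ENNReal.ofReal 2 by simp, ← ENNReal.ofReal_mul (by norm_num)]
            norm_num
          rw [this, one_mul]
      _ ≤ 2 * rhoG K g s := by gcongr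

/-- `uniformProbOn K ≪ rhoG K g`. -/
theorem rhoG_ac' (K : Set (EuclideanSpace ℝ (Fin d))) (g : EuclideanSpace ℝ (Fin d) → ℝ)
    (hg : IsPert K g) : uniformProbOn K ≪ rhoG K g := by
  refine Measure.AbsolutelyContinuous.mk (fun s hs h0 => ?_)
  have h := (rhoG_measure_le K g hg s hs).2
  rw [h0, mul_zero] at h
  exact nonpos_iff_eq_zero.mp h

/-- Scaling an admissible perturbation. -/
theorem isPert_smul (K : Set (EuclideanSpace ℝ (Fin d))) (g : EuclideanSpace ℝ (Fin d) → ℝ)
    (hgm : Measurable g) (B : ℝ) (hB : ∀ x, |g x| ≤ B)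
    (hmean : ∫ x, g x ∂(uniformProbOn K) = 0) (ε : ℝ) (hε : |ε| * B ≤ 1 / 2) :
    IsPert K (fun x => ε * g x) := by
  refine ⟨measurable_const.mul hgm, fun x => ?_, ?_⟩
  · rw [abs_mul]
    exact le_trans (mul_le_mul_of_nonneg_left (hB x) (abs_nonneg ε)) hε
  · rw [integral_const_mul, hmean, mul_zero]

theorem isPert_zero (K : Set (EuclideanSpace ℝ (Fin d))) :
    IsPert K (fun _ => (0 : ℝ)) := by
  refine ⟨measurable_const, fun x => ?_, ?_⟩
  · simp
  · simp

/-- Push-forward of the source by the Laguerre map of an optimal potential. -/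
theorem lag_map_pushforward [Nonempty ι] (y : ι → EuclideanSpace ℝ (Fin d))
    (hy : Function.Injective y) (m : ι → ℝ) (ψ : ι → ℝ)
    (ρ' : Measure (EuclideanSpace ℝ (Fin d))) (hρ : ρ' ≪ volume)
    (hopt : IsLagOpt ρ' y m ψ) :
    ρ'.map (lagMap y ψ) = ∑ i, ENNReal.ofReal (m i) • Measure.dirac (y i) := by
  classical
  ext A hA
  rw [Measure.map_apply (lag_map_measurable y ψ) hA]
  rw [Measure.coe_finsetSum, Finset.sum_apply]
  simp only [Measure.smul_apply, smul_eq_mul, Measure.dirac_apply' _ hA]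
  -- the preimage is a.e. the union of the strict cells with `y i ∈ A`
  have hae : (lagMap y ψ ⁻¹' A : Set (EuclideanSpace ℝ (Fin d))) =ᵐ[ρ']
      ⋃ i ∈ (Finset.univ : Finset ι), (if y i ∈ A then lagCellS y ψ i else ∅) := by
    rw [Filter.eventuallyEq_set]
    filter_upwards [lag_ae_mem_cellS y hy ψ ρ' hρ] with x hx
    obtain ⟨i, hi⟩ := hx
    simp only [Set.mem_preimage, Finset.mem_univ, Set.iUnion_true, Set.mem_iUnion]
    constructor
    · intro hxA
      refine ⟨i, ?_⟩
      rw [lag_map_eq_of_mem y ψ x i hi] at hxA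
      rw [if_pos hxA]; exact hi
    · rintro ⟨k, hk⟩
      by_cases hkA : y k ∈ A
      · rw [if_pos hkA] at hk
        rw [lag_map_eq_of_mem y ψ x k hk]; exact hkA
      · rw [if_neg hkA] at hk; exact absurd hk (Set.notMem_empty x)
  rw [measure_congr hae]
  rw [measure_biUnion_finset]
  · apply Finset.sum_congr rfl
    intro i _
    by_cases hiA : y i ∈ A
    · rw [if_pos hiA, hopt i]; simp [hiA]
    · rw [if_neg hiA]; simp [hiA]
  · intro i _ k _ hik
    simp only [Function.onFun]
    by_cases hiA : y i ∈ A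
    · by_cases hkA : y k ∈ A
      · rw [if_pos hiA, if_pos hkA]; exact lag_cellS_disjoint y ψ i k hik
      · rw [if_neg hkA]; exact Set.disjoint_empty _
    · rw [if_neg hiA]; exact Set.empty_disjoint _
  · intro i _
    by_cases hiA : y i ∈ A
    · rw [if_pos hiA]; exact lag_measurableSet_cellS y ψ i
    · rw [if_neg hiA]; exact MeasurableSet.empty

/-- Decomposition of an integral over the strict cells. -/
theorem lag_integral_eq_sum [Nonempty ι] (y : ι → EuclideanSpace ℝ (Fin d))
    (hy : Function.Injective y) (ψ : ι → ℝ) (ρ' : Measure (EuclideanSpace ℝ (Fin d)))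
    (hρ : ρ' ≪ volume) (f : EuclideanSpace ℝ (Fin d) → ℝ) (hf : Integrable f ρ') :
    ∫ x, f x ∂ρ' = ∑ i, ∫ x in lagCellS y ψ i, f x ∂ρ' := by
  classical
  have hae : ∀ᵐ x ∂ρ', x ∈ ⋃ i ∈ (Finset.univ : Finset ι), lagCellS y ψ i := by
    filter_upwards [lag_ae_mem_cellS y hy ψ ρ' hρ] with x hx
    obtain ⟨i, hi⟩ := hx
    simp only [Finset.mem_univ, Set.iUnion_true, Set.mem_iUnion]
    exact ⟨i, hi⟩
  have h1 : ∫ x, f x ∂ρ' = ∫ x in ⋃ i ∈ (Finset.univ : Finset ι), lagCellS y ψ i, f x ∂ρ' := by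
    rw [Measure.restrict_eq_self_of_ae_mem hae]
  rw [h1, integral_biUnion_finset]
  · intro i _; exact lag_measurableSet_cellS y ψ i
  · intro i _ k _ hik
    exact lag_cellS_disjoint y ψ i k hik
  · intro i _; exact hf.integrableOn

end Crest.Agent.S0109
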