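import Mathlib

/-!
# Prékopa–Leindler inequality (row 82, module PL)

Complete, sorry-free (helper65).  Everything in `namespace Crest.Agent.S0109`, declaration names
prefixed `pl_`.  Interface statements (unchanged from the skeleton): `pl_brunn_minkowski_real`,
`pl_real`, `pl_pi`, `pl_euclidean`.
-/

set_option autoImplicit false
open MeasureTheory Set
open scoped ENNReal NNReal Pointwise

namespace Crest.Agent.S0109

/-- One-dimensional Brunn–Minkowski inequality for nonempty compact sets. -/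
theorem pl_bm_compact {A B : Set ℝ} (hA : IsCompact A) (hB : IsCompact B)
    (hAn : A.Nonempty) (hBn : B.Nonempty) :
    volume A + volume B ≤ volume (A + B) := by
  set a := sSup A with ha
  set b := sInf B with hb
  have haA : a ∈ A := hA.sSup_mem hAn
  have hbB : b ∈ B := hB.sInf_mem hBn
  have hA_le : ∀ x ∈ A, x ≤ a := fun x hx => le_csSup hA.bddAbove hx
  have hB_ge : ∀ y ∈ B, b ≤ y := fun y hy => csInf_le hB.bddBelow hy
  have h1 : (fun x => x + b) '' A ⊆ A + B := by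
    rintro _ ⟨x, hx, rfl⟩; exact Set.add_mem_add hx hbB
  have h2 : (fun y => a + y) '' B ⊆ A + B := by
    rintro _ ⟨y, hy, rfl⟩; exact Set.add_mem_add haA hy
  have hinter : (fun x => x + b) '' A ∩ (fun y => a + y) '' B ⊆ {a + b} := by
    rintro z ⟨⟨x, hx, rfl⟩, ⟨y, hy, hxy⟩⟩
    have := hA_le x hx
    have := hB_ge y hy
    simp only [mem_singleton_iff]
    linarith
  have hvolA : volume ((fun x => x + b) '' A) = volume A := by
    simp
  have hvolB : volume ((fun y => a + y) '' B) = volume B := by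
    simp
  have hmeas : MeasurableSet ((fun y => a + y) '' B) :=
    (hB.image (continuous_const.add continuous_id)).measurableSet
  have hzero : volume ((fun x => x + b) '' A ∩ (fun y => a + y) '' B) = 0 :=
    measure_mono_null hinter (by simp)
  calc volume A + volume B
      = volume ((fun x => x + b) '' A) + volume ((fun y => a + y) '' B) := by
        rw [hvolA, hvolB]
    _ = volume ((fun x => x + b) '' A ∪ (fun y => a + y) '' B)
          + volume ((fun x => x + b) '' A ∩ (fun y => a + y) '' B) :=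
        (measure_union_add_inter _ hmeas).symm
    _ = volume ((fun x => x + b) '' A ∪ (fun y => a + y) '' B) := by rw [hzero, add_zero]
    _ ≤ volume (A + B) := measure_mono (union_subset h1 h2)

/-- The measure of a nonempty measurable subset of `ℝ` is the supremum of the measures of its
nonempty compact subsets. -/
theorem pl_exists_compact {A : Set ℝ} (hA : MeasurableSet A) (hAn : A.Nonempty) {r : ℝ≥0∞}
    (hr : r < volume A) : ∃ K, K ⊆ A ∧ IsCompact K ∧ K.Nonempty ∧ r < volume K := by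
  obtain ⟨a₀, ha₀⟩ := hAn
  obtain ⟨K, hKA, hK, hrK⟩ := hA.exists_lt_isCompact hr
  refine ⟨K ∪ {a₀}, union_subset hKA (singleton_subset_iff.mpr ha₀), hK.union isCompact_singleton,
    ⟨a₀, Or.inr rfl⟩, lt_of_lt_of_le hrK (measure_mono subset_union_left)⟩

/-- One-dimensional Brunn–Minkowski for measurable sets, outer form. -/
theorem pl_brunn_minkowski_real (A B S : Set ℝ) (hA : MeasurableSet A) (hB : MeasurableSet B)
    (hS : MeasurableSet S) (hAn : A.Nonempty) (hBn : B.Nonempty)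
    (hAB : ∀ a ∈ A, ∀ b ∈ B, a + b ∈ S) :
    volume A + volume B ≤ volume S := by
  have _ := hS
  have hsub : ∀ K₁ ⊆ A, ∀ K₂ ⊆ B, K₁ + K₂ ⊆ S := by
    intro K₁ h1 K₂ h2
    rintro _ ⟨a, ha, b, hb, rfl⟩
    exact hAB a (h1 ha) b (h2 hb)
  have key : ∀ r₁ < volume A, ∀ r₂ < volume B, r₁ + r₂ ≤ volume S := by
    intro r₁ hr₁ r₂ hr₂
    obtain ⟨K₁, hK₁A, hK₁, hK₁n, h1⟩ := pl_exists_compact hA hAn hr₁
    obtain ⟨K₂, hK₂B, hK₂, hK₂n, h2⟩ := pl_exists_compact hB hBn hr₂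
    calc r₁ + r₂ ≤ volume K₁ + volume K₂ := by gcongr
      _ ≤ volume (K₁ + K₂) := pl_bm_compact hK₁ hK₂ hK₁n hK₂n
      _ ≤ volume S := measure_mono (hsub K₁ hK₁A K₂ hK₂B)
  have hsupA : volume A = ⨆ r : {r : ℝ≥0∞ // r < volume A}, (r : ℝ≥0∞) := by
    apply le_antisymm
    · refine le_of_forall_lt fun c hc => ?_
      obtain ⟨c', hc1, hc2⟩ := exists_between hc
      exact lt_of_lt_of_le hc1 (le_iSup (fun r : {r : ℝ≥0∞ // r < volume A} => (r : ℝ≥0∞)) ⟨c', hc2⟩)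
    · exact iSup_le fun r => r.2.le
  have hsupB : volume B = ⨆ r : {r : ℝ≥0∞ // r < volume B}, (r : ℝ≥0∞) := by
    apply le_antisymm
    · refine le_of_forall_lt fun c hc => ?_
      obtain ⟨c', hc1, hc2⟩ := exists_between hc
      exact lt_of_lt_of_le hc1 (le_iSup (fun r : {r : ℝ≥0∞ // r < volume B} => (r : ℝ≥0∞)) ⟨c', hc2⟩)
    · exact iSup_le fun r => r.2.le
  by_cases hA0 : volume A = 0
  · by_cases hB0 : volume B = 0
    · simp [hA0, hB0]
    · rw [hA0, zero_add, hsupB]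
      refine iSup_le fun r => ?_
      obtain ⟨a₀, ha₀⟩ := hAn
      obtain ⟨K₂, hK₂B, hK₂, hK₂n, h2⟩ := pl_exists_compact hB hBn r.2
      calc (r : ℝ≥0∞) ≤ volume ({a₀} : Set ℝ) + volume K₂ := by
            simp only [Real.volume_singleton, zero_add]
            exact h2.le
        _ ≤ volume (({a₀} : Set ℝ) + K₂) :=
            pl_bm_compact isCompact_singleton hK₂ (singleton_nonempty a₀) hK₂n
        _ ≤ volume S := measure_mono (hsub _ (singleton_subset_iff.mpr ha₀) K₂ hK₂B)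
  · have hne1 : Nonempty {r : ℝ≥0∞ // r < volume A} := ⟨⟨0, pos_iff_ne_zero.mpr hA0⟩⟩
    by_cases hB0 : volume B = 0
    · rw [hB0, add_zero, hsupA]
      refine iSup_le fun r => ?_
      obtain ⟨b₀, hb₀⟩ := hBn
      obtain ⟨K₁, hK₁A, hK₁, hK₁n, h1⟩ := pl_exists_compact hA hAn r.2
      calc (r : ℝ≥0∞) ≤ volume K₁ + volume ({b₀} : Set ℝ) := by
            simp only [Real.volume_singleton, add_zero]
            exact h1.le
        _ ≤ volume (K₁ + ({b₀} : Set ℝ)) :=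
            pl_bm_compact hK₁ isCompact_singleton hK₁n (singleton_nonempty b₀)
        _ ≤ volume S := measure_mono (hsub K₁ hK₁A _ (singleton_subset_iff.mpr hb₀))
    · have hne2 : Nonempty {r : ℝ≥0∞ // r < volume B} := ⟨⟨0, pos_iff_ne_zero.mpr hB0⟩⟩
      rw [hsupA, hsupB]
      exact ENNReal.iSup_add_iSup_le fun r₁ r₂ => key r₁ r₁.2 r₂ r₂.2

/-- Scaled one-dimensional Brunn–Minkowski inequality for nonempty measurable sets (the sum set
is replaced by any measurable set containing it). -/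
theorem pl_bm_meas {A B C : Set ℝ} (hA : MeasurableSet A) (hB : MeasurableSet B)
    (hC : MeasurableSet C) (hAn : A.Nonempty) (hBn : B.Nonempty) {t : ℝ} (ht0 : 0 < t)
    (ht1 : t < 1) (hsub : (1 - t) • A + t • B ⊆ C) :
    ENNReal.ofReal (1 - t) * volume A + ENNReal.ofReal t * volume B ≤ volume C := by
  have h1t : (0 : ℝ) < 1 - t := by linarith
  have h := pl_brunn_minkowski_real ((1 - t) • A) (t • B) C (hA.const_smul₀ (1 - t))
    (hB.const_smul₀ t) hC hAn.smul_set hBn.smul_set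
    (fun a ha b hb => hsub (Set.add_mem_add ha hb))
  rw [Measure.addHaar_smul, Measure.addHaar_smul] at h
  simpa [abs_of_pos ht0, abs_of_pos h1t] using h

/-- Normalised one-dimensional Prékopa–Leindler (arithmetic form): `f, g ≤ 1` with supremum `1`. -/
theorem pl_one_norm {f g h : ℝ → ℝ} (hf : Measurable f) (hg : Measurable g) (hh : Measurable h)
    (hf0 : ∀ x, 0 ≤ f x) (hf1 : ∀ x, f x ≤ 1) (hg0 : ∀ x, 0 ≤ g x) (hg1 : ∀ x, g x ≤ 1)
    (hh0 : ∀ x, 0 ≤ h x)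
    (hfs : ∀ s < 1, ∃ x, s < f x) (hgs : ∀ s < 1, ∃ y, s < g y) {t : ℝ} (ht0 : 0 < t)
    (ht1 : t < 1) (H : ∀ x y, f x ^ (1 - t) * g y ^ t ≤ h ((1 - t) * x + t * y)) :
    ENNReal.ofReal (1 - t) * (∫⁻ x, ENNReal.ofReal (f x))
      + ENNReal.ofReal t * (∫⁻ x, ENNReal.ofReal (g x)) ≤ ∫⁻ x, ENNReal.ofReal (h x) := by
  have e1 : ∫⁻ x, ENNReal.ofReal (f x) = ∫⁻ s in Ioi (0 : ℝ), volume {a : ℝ | s < f a} :=
    lintegral_eq_lintegral_meas_lt volume (f := f) (Filter.Eventually.of_forall hf0) hf.aemeasurable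
  have e2 : ∫⁻ x, ENNReal.ofReal (g x) = ∫⁻ s in Ioi (0 : ℝ), volume {a : ℝ | s < g a} :=
    lintegral_eq_lintegral_meas_lt volume (f := g) (Filter.Eventually.of_forall hg0) hg.aemeasurable
  have e3 : ∫⁻ x, ENNReal.ofReal (h x) = ∫⁻ s in Ioi (0 : ℝ), volume {a : ℝ | s < h a} :=
    lintegral_eq_lintegral_meas_lt volume (f := h) (Filter.Eventually.of_forall hh0) hh.aemeasurable
  rw [e1, e2, e3,
    ← lintegral_const_mul' _ _ ENNReal.ofReal_ne_top, ← lintegral_const_mul' _ _ ENNReal.ofReal_ne_top]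
  refine (le_lintegral_add _ _).trans ?_
  refine setLIntegral_mono' measurableSet_Ioi fun s hs => ?_
  have hs0 : 0 < s := hs
  by_cases hs1 : 1 ≤ s
  · have e1 : {a | s < f a} = ∅ := by
      ext a; simp only [Set.mem_ofPred_eq, mem_empty_iff_false, iff_false, not_lt]
      exact (hf1 a).trans hs1
    have e2 : {a | s < g a} = ∅ := by
      ext a; simp only [Set.mem_ofPred_eq, mem_empty_iff_false, iff_false, not_lt]
      exact (hg1 a).trans hs1
    simp [e1, e2]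
  · have hs1' : s < 1 := not_le.mp hs1
    refine pl_bm_meas (measurableSet_lt measurable_const hf) (measurableSet_lt measurable_const hg)
      (measurableSet_lt measurable_const hh) (hfs s hs1') (hgs s hs1') ht0 ht1 ?_
    rintro _ ⟨_, ⟨x, hx, rfl⟩, _, ⟨y, hy, rfl⟩, rfl⟩
    simp only [Set.mem_ofPred_eq] at hx hy ⊢
    have h1 : s ^ (1 - t) < f x ^ (1 - t) := Real.rpow_lt_rpow hs0.le hx (by linarith)
    have h2 : s ^ t < g y ^ t := Real.rpow_lt_rpow hs0.le hy ht0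
    have h3 : s ^ (1 - t) * s ^ t = s := by
      rw [← Real.rpow_add hs0]; simp
    have h4 : s ^ (1 - t) * s ^ t < f x ^ (1 - t) * g y ^ t :=
      mul_lt_mul'' h1 h2 (Real.rpow_nonneg hs0.le _) (Real.rpow_nonneg hs0.le _)
    calc s = s ^ (1 - t) * s ^ t := h3.symm
      _ < f x ^ (1 - t) * g y ^ t := h4
      _ ≤ h ((1 - t) * x + t * y) := H x y

/-- Weighted AM–GM in `ℝ≥0∞`. -/
theorem pl_amgm (a b : ℝ≥0∞) {t : ℝ} (ht0 : 0 < t) (ht1 : t < 1) :
    a ^ (1 - t) * b ^ t ≤ ENNReal.ofReal (1 - t) * a + ENNReal.ofReal t * b := by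
  have hpq : ((1 - t)⁻¹).HolderConjugate (t⁻¹) := Real.HolderConjugate.one_sub_inv_inv ht0 ht1
  have h := ENNReal.young_inequality (a ^ (1 - t)) (b ^ t) hpq
  have h1t : (0 : ℝ) < 1 - t := by linarith
  rw [← ENNReal.rpow_mul, ← ENNReal.rpow_mul, mul_inv_cancel₀ h1t.ne', mul_inv_cancel₀ ht0.ne',
    ENNReal.rpow_one, ENNReal.rpow_one, ENNReal.ofReal_inv_of_pos h1t,
    ENNReal.ofReal_inv_of_pos ht0, div_eq_mul_inv, div_eq_mul_inv, inv_inv, inv_inv] at h
  calc a ^ (1 - t) * b ^ t ≤ a * ENNReal.ofReal (1 - t) + b * ENNReal.ofReal t := h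
    _ = ENNReal.ofReal (1 - t) * a + ENNReal.ofReal t * b := by ring

/-- One-dimensional Prékopa–Leindler, bounded case. -/
theorem pl_one_bdd {f g h : ℝ → ℝ≥0∞} (hf : Measurable f) (hg : Measurable g) (hh : Measurable h)
    {t : ℝ} (ht0 : 0 < t) (ht1 : t < 1)
    (hMf0 : (⨆ x, f x) ≠ 0) (hMf : (⨆ x, f x) ≠ ∞) (hMg0 : (⨆ x, g x) ≠ 0) (hMg : (⨆ x, g x) ≠ ∞)
    (H : ∀ x y, f x ^ (1 - t) * g y ^ t ≤ h ((1 - t) * x + t * y)) :
    (∫⁻ x, f x) ^ (1 - t) * (∫⁻ x, g x) ^ t ≤ ∫⁻ x, h x := by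
  have h1t : (0 : ℝ) < 1 - t := by linarith
  set Mf := ⨆ x, f x with hMf_def
  set Mg := ⨆ x, g x with hMg_def
  set c := Mf ^ (1 - t) * Mg ^ t with hc_def
  have hc0 : c ≠ 0 := by
    refine mul_ne_zero ?_ ?_
    · simpa [ENNReal.rpow_eq_zero_iff, h1t, h1t.le, not_lt.mpr h1t.le] using hMf0
    · simpa [ENNReal.rpow_eq_zero_iff, ht0, ht0.le, not_lt.mpr ht0.le] using hMg0
  have hc : c ≠ ∞ :=
    ENNReal.mul_ne_top (ENNReal.rpow_ne_top_of_nonneg h1t.le hMf) (ENNReal.rpow_ne_top_of_nonneg ht0.le hMg)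
  have hfle : ∀ x, f x / Mf ≤ 1 := fun x => ENNReal.div_le_of_le_mul (by simpa using le_iSup f x)
  have hgle : ∀ x, g x / Mg ≤ 1 := fun x => ENNReal.div_le_of_le_mul (by simpa using le_iSup g x)
  have hfne : ∀ x, f x / Mf ≠ ∞ := fun x => ne_top_of_le_ne_top ENNReal.one_ne_top (hfle x)
  have hgne : ∀ x, g x / Mg ≠ ∞ := fun x => ne_top_of_le_ne_top ENNReal.one_ne_top (hgle x)
  -- the normalised real functions
  set fr : ℝ → ℝ := fun x => (f x / Mf).toReal with hfr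
  set gr : ℝ → ℝ := fun x => (g x / Mg).toReal with hgr
  set hr : ℝ → ℝ := fun x => (min (h x / c) 1).toReal with hhr
  have hhne : ∀ x, min (h x / c) 1 ≠ ∞ := fun x =>
    ne_top_of_le_ne_top ENNReal.one_ne_top (min_le_right _ _)
  have hfrm : Measurable fr := (hf.div_const Mf).ennreal_toReal
  have hgrm : Measurable gr := (hg.div_const Mg).ennreal_toReal
  have hhrm : Measurable hr := ((hh.div_const c).min measurable_const).ennreal_toReal
  have hfr1 : ∀ x, fr x ≤ 1 := fun x => by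
    have := ENNReal.toReal_mono ENNReal.one_ne_top (hfle x)
    simpa [hfr] using this
  have hgr1 : ∀ x, gr x ≤ 1 := fun x => by
    have := ENNReal.toReal_mono ENNReal.one_ne_top (hgle x)
    simpa [hgr] using this
  have hsup : ∀ (F : ℝ → ℝ≥0∞) (M : ℝ≥0∞), M = ⨆ x, F x → M ≠ 0 → M ≠ ∞ → (∀ x, F x / M ≠ ∞) →
      ∀ s < (1 : ℝ), ∃ x, s < (F x / M).toReal := by
    intro F M hM hM0 hMtop hne s hs
    by_cases hs0 : s < 0
    · exact ⟨0, lt_of_lt_of_le hs0 ENNReal.toReal_nonneg⟩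
    · have hs0' : 0 ≤ s := not_lt.mp hs0
      have h1 : ENNReal.ofReal s * M < M := by
        have : ENNReal.ofReal s < 1 := by
          rw [← ENNReal.ofReal_one]; exact (ENNReal.ofReal_lt_ofReal_iff one_pos).mpr hs
        calc ENNReal.ofReal s * M < 1 * M := (ENNReal.mul_lt_mul_iff_left hM0 hMtop).mpr this
          _ = M := one_mul M
      rw [hM] at h1
      obtain ⟨x, hx⟩ := lt_iSup_iff.mp h1
      refine ⟨x, ?_⟩
      rw [← hM] at hx
      have h2 : ENNReal.ofReal s < F x / M := (ENNReal.lt_div_iff_mul_lt (Or.inl hM0) (Or.inl hMtop)).mpr hx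
      exact (ENNReal.ofReal_lt_iff_lt_toReal hs0' (hne x)).mp h2
  have Hr : ∀ x y, fr x ^ (1 - t) * gr y ^ t ≤ hr ((1 - t) * x + t * y) := by
    intro x y
    have e1 : fr x ^ (1 - t) * gr y ^ t = ((f x / Mf) ^ (1 - t) * (g y / Mg) ^ t).toReal := by
      simp only [hfr, hgr, ENNReal.toReal_mul, ENNReal.toReal_rpow]
    rw [e1]
    refine ENNReal.toReal_mono (hhne _) (le_min ?_ ?_)
    · rw [ENNReal.div_rpow_of_nonneg _ _ h1t.le, ENNReal.div_rpow_of_nonneg _ _ ht0.le]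
      calc f x ^ (1 - t) / Mf ^ (1 - t) * (g y ^ t / Mg ^ t)
          = (f x ^ (1 - t) * g y ^ t) / c := by
            rw [hc_def, div_eq_mul_inv, div_eq_mul_inv, div_eq_mul_inv,
              ENNReal.mul_inv (Or.inr (ENNReal.rpow_ne_top_of_nonneg ht0.le hMg))
                (Or.inl (ENNReal.rpow_ne_top_of_nonneg h1t.le hMf))]
            ring
        _ ≤ h ((1 - t) * x + t * y) / c := ENNReal.div_le_div_right (H x y) c
    · calc (f x / Mf) ^ (1 - t) * (g y / Mg) ^ t ≤ 1 * 1 :=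
            mul_le_mul' (ENNReal.rpow_le_one (hfle x) h1t.le) (ENNReal.rpow_le_one (hgle y) ht0.le)
        _ = 1 := one_mul 1
  have key := pl_one_norm hfrm hgrm hhrm (fun x => ENNReal.toReal_nonneg) hfr1
    (fun x => ENNReal.toReal_nonneg) hgr1 (fun x => ENNReal.toReal_nonneg)
    (hsup f Mf hMf_def hMf0 hMf hfne) (hsup g Mg hMg_def hMg0 hMg hgne) ht0 ht1 Hr
  have e1 : ∫⁻ x, ENNReal.ofReal (fr x) = (∫⁻ x, f x) / Mf := by
    have e : ∀ x, ENNReal.ofReal (fr x) = f x * Mf⁻¹ := fun x => by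
      simp only [hfr]; rw [ENNReal.ofReal_toReal (hfne x), div_eq_mul_inv]
    simp_rw [e]
    rw [lintegral_mul_const _ hf, div_eq_mul_inv]
  have e2 : ∫⁻ x, ENNReal.ofReal (gr x) = (∫⁻ x, g x) / Mg := by
    have e : ∀ x, ENNReal.ofReal (gr x) = g x * Mg⁻¹ := fun x => by
      simp only [hgr]; rw [ENNReal.ofReal_toReal (hgne x), div_eq_mul_inv]
    simp_rw [e]
    rw [lintegral_mul_const _ hg, div_eq_mul_inv]
  have e3 : ∫⁻ x, ENNReal.ofReal (hr x) ≤ (∫⁻ x, h x) / c := by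
    calc ∫⁻ x, ENNReal.ofReal (hr x) ≤ ∫⁻ x, h x * c⁻¹ := by
          refine lintegral_mono fun x => ?_
          simp only [hhr]
          rw [ENNReal.ofReal_toReal (hhne x), ← div_eq_mul_inv]
          exact min_le_left _ _
      _ = (∫⁻ x, h x) / c := by
          rw [lintegral_mul_const _ hh, div_eq_mul_inv]
  rw [e1, e2] at key
  have key2 : ((∫⁻ x, f x) / Mf) ^ (1 - t) * ((∫⁻ x, g x) / Mg) ^ t ≤ (∫⁻ x, h x) / c :=
    (pl_amgm _ _ ht0 ht1).trans (key.trans e3)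
  have e4 : ((∫⁻ x, f x) / Mf) ^ (1 - t) * ((∫⁻ x, g x) / Mg) ^ t
      = ((∫⁻ x, f x) ^ (1 - t) * (∫⁻ x, g x) ^ t) / c := by
    rw [ENNReal.div_rpow_of_nonneg _ _ h1t.le, ENNReal.div_rpow_of_nonneg _ _ ht0.le,
      hc_def, div_eq_mul_inv, div_eq_mul_inv, div_eq_mul_inv,
      ENNReal.mul_inv (Or.inr (ENNReal.rpow_ne_top_of_nonneg ht0.le hMg))
        (Or.inl (ENNReal.rpow_ne_top_of_nonneg h1t.le hMf))]
    ring
  rw [e4] at key2
  calc (∫⁻ x, f x) ^ (1 - t) * (∫⁻ x, g x) ^ t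
      = ((∫⁻ x, f x) ^ (1 - t) * (∫⁻ x, g x) ^ t) / c * c := (ENNReal.div_mul_cancel hc0 hc).symm
    _ ≤ (∫⁻ x, h x) / c * c := by gcongr
    _ = ∫⁻ x, h x := ENNReal.div_mul_cancel hc0 hc

/-- One-dimensional Prékopa–Leindler inequality. -/
theorem pl_one_dim {f g h : ℝ → ℝ≥0∞} (hf : Measurable f) (hg : Measurable g) (hh : Measurable h)
    {t : ℝ} (ht0 : 0 < t) (ht1 : t < 1)
    (H : ∀ x y, f x ^ (1 - t) * g y ^ t ≤ h ((1 - t) * x + t * y)) :
    (∫⁻ x, f x) ^ (1 - t) * (∫⁻ x, g x) ^ t ≤ ∫⁻ x, h x := by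
  have h1t : (0 : ℝ) < 1 - t := by linarith
  -- truncations
  have trunc : ∀ n : ℕ, (∫⁻ x, min (f x) n) ^ (1 - t) * (∫⁻ x, min (g x) n) ^ t ≤ ∫⁻ x, h x := by
    intro n
    have hfn : Measurable fun x => min (f x) (n : ℝ≥0∞) := hf.min measurable_const
    have hgn : Measurable fun x => min (g x) (n : ℝ≥0∞) := hg.min measurable_const
    have hMf : (⨆ x, min (f x) (n : ℝ≥0∞)) ≠ ∞ :=
      ne_top_of_le_ne_top (ENNReal.natCast_ne_top n) (iSup_le fun x => min_le_right _ _)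
    have hMg : (⨆ x, min (g x) (n : ℝ≥0∞)) ≠ ∞ :=
      ne_top_of_le_ne_top (ENNReal.natCast_ne_top n) (iSup_le fun x => min_le_right _ _)
    by_cases hMf0 : (⨆ x, min (f x) (n : ℝ≥0∞)) = 0
    · have : ∀ x, min (f x) (n : ℝ≥0∞) = 0 := fun x => by
        have := le_iSup (fun x => min (f x) (n : ℝ≥0∞)) x
        rw [hMf0] at this
        exact le_antisymm this zero_le
      simp [this, ENNReal.zero_rpow_of_pos h1t]
    by_cases hMg0 : (⨆ x, min (g x) (n : ℝ≥0∞)) = 0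
    · have : ∀ x, min (g x) (n : ℝ≥0∞) = 0 := fun x => by
        have := le_iSup (fun x => min (g x) (n : ℝ≥0∞)) x
        rw [hMg0] at this
        exact le_antisymm this zero_le
      simp [this, ENNReal.zero_rpow_of_pos ht0]
    refine pl_one_bdd hfn hgn hh ht0 ht1 hMf0 hMf hMg0 hMg fun x y => ?_
    calc min (f x) (n : ℝ≥0∞) ^ (1 - t) * min (g y) (n : ℝ≥0∞) ^ t
        ≤ f x ^ (1 - t) * g y ^ t :=
          mul_le_mul' (ENNReal.rpow_le_rpow (min_le_left _ _) h1t.le)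
            (ENNReal.rpow_le_rpow (min_le_left _ _) ht0.le)
      _ ≤ h ((1 - t) * x + t * y) := H x y
  -- monotone convergence
  have lim : ∀ F : ℝ → ℝ≥0∞, Measurable F →
      Filter.Tendsto (fun n : ℕ => ∫⁻ x, min (F x) n) Filter.atTop (nhds (∫⁻ x, F x)) := by
    intro F hF
    have hmono : Monotone fun (n : ℕ) (x : ℝ) => min (F x) (n : ℝ≥0∞) := by
      intro n m hnm x
      exact min_le_min le_rfl (by exact_mod_cast hnm)
    have hsup : ∀ x, ⨆ n : ℕ, min (F x) (n : ℝ≥0∞) = F x := by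
      intro x
      have h1 : ⨆ n : ℕ, min (F x) (n : ℝ≥0∞) = F x ⊓ ⨆ n : ℕ, (n : ℝ≥0∞) := (inf_iSup_eq _ _).symm
      rw [h1, ENNReal.iSup_natCast]
      simp
    have e : ∫⁻ x, F x = ⨆ n : ℕ, ∫⁻ x, min (F x) (n : ℝ≥0∞) := by
      rw [← lintegral_iSup (fun n => hF.min measurable_const) hmono]
      simp_rw [hsup]
    rw [e]
    exact tendsto_atTop_iSup fun n m hnm => lintegral_mono (hmono hnm)
  by_cases hf0 : ∫⁻ x, f x = 0
  · simp [hf0, ENNReal.zero_rpow_of_pos h1t]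
  by_cases hg0 : ∫⁻ x, g x = 0
  · simp [hg0, ENNReal.zero_rpow_of_pos ht0]
  have hfp : (∫⁻ x, f x) ^ (1 - t) ≠ 0 := by
    simpa [ENNReal.rpow_eq_zero_iff, h1t, h1t.le, not_lt.mpr h1t.le] using hf0
  have hgp : (∫⁻ x, g x) ^ t ≠ 0 := by
    simpa [ENNReal.rpow_eq_zero_iff, ht0, ht0.le, not_lt.mpr ht0.le] using hg0
  have l1 : Filter.Tendsto (fun n : ℕ => (∫⁻ x, min (f x) n) ^ (1 - t)) Filter.atTop
      (nhds ((∫⁻ x, f x) ^ (1 - t))) :=
    (ENNReal.continuous_rpow_const.tendsto _).comp (lim f hf)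
  have l2 : Filter.Tendsto (fun n : ℕ => (∫⁻ x, min (g x) n) ^ t) Filter.atTop
      (nhds ((∫⁻ x, g x) ^ t)) :=
    (ENNReal.continuous_rpow_const.tendsto _).comp (lim g hg)
  have l3 := ENNReal.Tendsto.mul l1 (Or.inl hfp) l2 (Or.inl hgp)
  exact le_of_tendsto' l3 trunc

/-- One-dimensional Prékopa–Leindler. -/
theorem pl_real (t : ℝ) (ht0 : 0 < t) (ht1 : t < 1) (f k h : ℝ → ℝ≥0∞)
    (hf : Measurable f) (hk : Measurable k) (hh : Measurable h)
    (H : ∀ x y, f x ^ (1 - t) * k y ^ t ≤ h ((1 - t) * x + t * y)) :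
    (∫⁻ x, f x) ^ (1 - t) * (∫⁻ y, k y) ^ t ≤ ∫⁻ z, h z :=
  pl_one_dim hf hk hh ht0 ht1 H

/-- Prékopa–Leindler inequality on `Fin n → ℝ`. -/
theorem pl_pi_aux : ∀ (n : ℕ) (f g h : (Fin n → ℝ) → ℝ≥0∞), Measurable f → Measurable g →
    Measurable h → ∀ (t : ℝ), 0 < t → t < 1 →
    (∀ x y, f x ^ (1 - t) * g y ^ t ≤ h ((1 - t) • x + t • y)) →
    (∫⁻ x, f x) ^ (1 - t) * (∫⁻ x, g x) ^ t ≤ ∫⁻ x, h x
  | 0, f, g, h, hf, hg, hh, t, ht0, ht1, H => by
    have hv : (volume : Measure (Fin 0 → ℝ)) = Measure.dirac default :=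
      Measure.pi_of_empty _ _
    rw [hv, lintegral_dirac' _ hf, lintegral_dirac' _ hg, lintegral_dirac' _ hh]
    have h0 := H default default
    have e : (1 - t) • (default : Fin 0 → ℝ) + t • (default : Fin 0 → ℝ) = default :=
      Subsingleton.elim _ _
    rwa [e] at h0
  | n + 1, f, g, h, hf, hg, hh, t, ht0, ht1, H => by
    set e := MeasurableEquiv.piFinSuccAbove (fun _ : Fin (n + 1) => ℝ) 0 with he_def
    have he : MeasurePreserving e volume volume :=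
      volume_preserving_piFinSuccAbove (fun _ : Fin (n + 1) => ℝ) 0
    have key : ∀ F : (Fin (n + 1) → ℝ) → ℝ≥0∞, Measurable F →
        ∫⁻ x, F x = ∫⁻ a : ℝ, ∫⁻ y : Fin n → ℝ, F (e.symm (a, y)) := by
      intro F hF
      rw [← (he.symm e).lintegral_comp hF, Measure.volume_eq_prod,
        lintegral_prod (fun z => F (e.symm z)) (hF.comp e.symm.measurable).aemeasurable]
    have hlin : ∀ (a a' : ℝ) (y y' : Fin n → ℝ),
        (1 - t) • e.symm (a, y) + t • e.symm (a', y')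
          = e.symm ((1 - t) * a + t * a', (1 - t) • y + t • y') := by
      intro a a' y y'
      ext i
      refine Fin.cases ?_ (fun j => ?_) i <;> simp [he_def, MeasurableEquiv.piFinSuccAbove]
    rw [key f hf, key g hg, key h hh]
    have mF : ∀ F : (Fin (n + 1) → ℝ) → ℝ≥0∞, Measurable F →
        Measurable fun a : ℝ => ∫⁻ y : Fin n → ℝ, F (e.symm (a, y)) := by
      intro F hF
      exact (hF.comp e.symm.measurable).lintegral_prod_right'
    refine pl_one_dim (mF f hf) (mF g hg) (mF h hh) ht0 ht1 fun a a' => ?_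
    refine pl_pi_aux n _ _ _ (hf.comp (e.symm.measurable.comp measurable_prodMk_left))
      (hg.comp (e.symm.measurable.comp measurable_prodMk_left))
      (hh.comp (e.symm.measurable.comp measurable_prodMk_left)) t ht0 ht1 fun y y' => ?_
    show f (e.symm (a, y)) ^ (1 - t) * g (e.symm (a', y')) ^ t
      ≤ h (e.symm ((1 - t) * a + t * a', (1 - t) • y + t • y'))
    rw [← hlin]
    exact H _ _

/-- **Prékopa–Leindler inequality** on `EuclideanSpace ℝ (Fin d)`: if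
`f x ^ (1 - t) * g y ^ t ≤ h ((1 - t) • x + t • y)` for all `x y`, then
`(∫⁻ f) ^ (1 - t) * (∫⁻ g) ^ t ≤ ∫⁻ h`. -/
theorem pl_prekopa_leindler {d : ℕ} {f g h : EuclideanSpace ℝ (Fin d) → ℝ≥0∞} (hf : Measurable f)
    (hg : Measurable g) (hh : Measurable h) {t : ℝ} (ht0 : 0 < t) (ht1 : t < 1)
    (H : ∀ x y, f x ^ (1 - t) * g y ^ t ≤ h ((1 - t) • x + t • y)) :
    (∫⁻ x, f x) ^ (1 - t) * (∫⁻ x, g x) ^ t ≤ ∫⁻ x, h x := by
  have hmp : MeasurePreserving (@WithLp.toLp 2 (Fin d → ℝ)) volume volume :=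
    PiLp.volume_preserving_toLp (Fin d)
  have key : ∀ F : EuclideanSpace ℝ (Fin d) → ℝ≥0∞, Measurable F →
      ∫⁻ x, F x = ∫⁻ y : Fin d → ℝ, F (WithLp.toLp 2 y) := fun F hF =>
    (hmp.lintegral_comp hF).symm
  rw [key f hf, key g hg, key h hh]
  refine pl_pi_aux d _ _ _ (hf.comp hmp.measurable) (hg.comp hmp.measurable) (hh.comp hmp.measurable)
    t ht0 ht1 fun x y => ?_
  have e : (1 - t) • (WithLp.toLp 2 x : EuclideanSpace ℝ (Fin d)) + t • WithLp.toLp 2 y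
      = WithLp.toLp 2 ((1 - t) • x + t • y) := by
    simp
  show f (WithLp.toLp 2 x) ^ (1 - t) * g (WithLp.toLp 2 y) ^ t
    ≤ h (WithLp.toLp 2 ((1 - t) • x + t • y))
  rw [← e]
  exact H _ _

/-- Prékopa–Leindler on `Fin n → ℝ`. -/
theorem pl_pi (n : ℕ) (t : ℝ) (ht0 : 0 < t) (ht1 : t < 1) (f k h : (Fin n → ℝ) → ℝ≥0∞)
    (hf : Measurable f) (hk : Measurable k) (hh : Measurable h)
    (H : ∀ x y, f x ^ (1 - t) * k y ^ t ≤ h ((1 - t) • x + t • y)) :
    (∫⁻ x, f x) ^ (1 - t) * (∫⁻ y, k y) ^ t ≤ ∫⁻ z, h z :=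
  pl_pi_aux n f k h hf hk hh t ht0 ht1 H

/-- Prékopa–Leindler on Euclidean space (the form used by module `Core`). -/
theorem pl_euclidean (n : ℕ) (t : ℝ) (ht0 : 0 < t) (ht1 : t < 1)
    (f k h : EuclideanSpace ℝ (Fin n) → ℝ≥0∞)
    (hf : Measurable f) (hk : Measurable k) (hh : Measurable h)
    (H : ∀ x y, f x ^ (1 - t) * k y ^ t ≤ h ((1 - t) • x + t • y)) :
    (∫⁻ x, f x) ^ (1 - t) * (∫⁻ y, k y) ^ t ≤ ∫⁻ z, h z :=
  pl_prekopa_leindler hf hk hh ht0 ht1 H

end Crest.Agent.S0109
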