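import Mathlib
import Crest.Agent.S0109.PL

/-!
# Row 82, module CORE (abstract part, owner helper60): from Prékopa–Leindler to inequality (G')

Abstract form: two finite families of measurable cells `A i`, `B i` of a bounded measurable set `K`
whose Minkowski interpolations `(1-t) A i + t B i` lie in pairwise disjoint subsets of `K`.
All declarations in `namespace Crest.Agent.S0109`, names prefixed `core_`.
-/

set_option autoImplicit false
open MeasureTheory Metric Set Function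
open scoped ENNReal NNReal RealInnerProductSpace

namespace Crest.Agent.S0109

section Core

variable {d : ℕ}

/-- the weight `w(x) = 20 R² - |x|²/2`. -/
noncomputable def coreW (R : ℝ) (x : EuclideanSpace ℝ (Fin d)) : ℝ := 20 * R ^ 2 - ‖x‖ ^ 2 / 2

lemma core_norm_sq_combo (x y : EuclideanSpace ℝ (Fin d)) (t : ℝ) :
    ‖(1 - t) • x + t • y‖ ^ 2
      = (1 - t) * ‖x‖ ^ 2 + t * ‖y‖ ^ 2 - t * (1 - t) * ‖x - y‖ ^ 2 := by
  rw [norm_add_sq_real, norm_sub_sq_real, norm_smul, norm_smul, inner_smul_left, inner_smul_right]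
  simp only [Real.norm_eq_abs, mul_pow, sq_abs, RCLike.conj_to_real]
  ring

lemma coreW_combo (R : ℝ) (x y : EuclideanSpace ℝ (Fin d)) (t : ℝ) :
    coreW R ((1 - t) • x + t • y)
      = (1 - t) * coreW R x + t * coreW R y + t * (1 - t) * (‖x - y‖ ^ 2 / 2) := by
  unfold coreW
  rw [core_norm_sq_combo]
  ring

lemma coreW_measurable (R : ℝ) : Measurable (coreW (d := d) R) := by
  unfold coreW
  fun_prop

lemma coreW_bounds (R : ℝ) (x : EuclideanSpace ℝ (Fin d)) (hx : x ∈ closedBall (0 : EuclideanSpace ℝ (Fin d)) R) :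
    (39 / 2) * R ^ 2 ≤ coreW R x ∧ coreW R x ≤ 20 * R ^ 2 := by
  have h1 : ‖x‖ ≤ R := by simpa using hx
  have h2 : ‖x‖ ^ 2 ≤ R ^ 2 := by
    have := norm_nonneg x
    nlinarith
  unfold coreW
  constructor <;> nlinarith [sq_nonneg ‖x‖]

lemma core_integrableOn (R : ℝ) (S : Set (EuclideanSpace ℝ (Fin d))) (hS : MeasurableSet S)
    (hSR : S ⊆ closedBall 0 R) (f : EuclideanSpace ℝ (Fin d) → ℝ) (hf : Measurable f) (M : ℝ)
    (hM : ∀ x ∈ S, |f x| ≤ M) : IntegrableOn f S volume := by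
  have hfin : volume S < ∞ :=
    lt_of_le_of_lt (measure_mono hSR) (measure_closedBall_lt_top)
  refine Measure.integrableOn_of_bounded hfin.ne hf.aestronglyMeasurable (M := M) ?_
  rw [ae_restrict_iff' hS]
  exact Filter.Eventually.of_forall (fun x hx => by simpa using hM x hx)

/-- Prékopa–Leindler on a triple of cells, real-integral form. -/
lemma core_pl_cell (t : ℝ) (ht0 : 0 < t) (ht1 : t < 1)
    (A B C : Set (EuclideanSpace ℝ (Fin d))) (hA : MeasurableSet A) (hB : MeasurableSet B)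
    (hC : MeasurableSet C) (a b w : EuclideanSpace ℝ (Fin d) → ℝ)
    (ha : Measurable a) (hb : Measurable b) (hw : Measurable w)
    (ha0 : ∀ x ∈ A, 0 ≤ a x) (hb0 : ∀ y ∈ B, 0 ≤ b y) (hw0 : ∀ z ∈ C, 0 ≤ w z)
    (hABC : ∀ x ∈ A, ∀ y ∈ B, (1 - t) • x + t • y ∈ C)
    (H : ∀ x ∈ A, ∀ y ∈ B, (1 - t) * a x + t * b y ≤ w ((1 - t) • x + t • y))
    (haI : IntegrableOn a A volume) (hbI : IntegrableOn b B volume)
    (hwI : IntegrableOn w C volume) :
    (∫ x in A, a x) ^ (1 - t) * (∫ y in B, b y) ^ t ≤ ∫ z in C, w z := by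
  have h1t : 0 < 1 - t := by linarith
  have key := pl_euclidean d t ht0 ht1
    (A.indicator fun x => ENNReal.ofReal (a x)) (B.indicator fun y => ENNReal.ofReal (b y))
    (C.indicator fun z => ENNReal.ofReal (w z))
    ((ENNReal.measurable_ofReal.comp ha).indicator hA)
    ((ENNReal.measurable_ofReal.comp hb).indicator hB)
    ((ENNReal.measurable_ofReal.comp hw).indicator hC) ?_
  · rw [lintegral_indicator hA, lintegral_indicator hB, lintegral_indicator hC] at key
    have eA : ∫⁻ x in A, ENNReal.ofReal (a x) = ENNReal.ofReal (∫ x in A, a x) := by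
      rw [ofReal_integral_eq_lintegral_ofReal haI]
      rw [Filter.EventuallyLE, ae_restrict_iff' hA]
      exact Filter.Eventually.of_forall (fun x hx => ha0 x hx)
    have eB : ∫⁻ y in B, ENNReal.ofReal (b y) = ENNReal.ofReal (∫ y in B, b y) := by
      rw [ofReal_integral_eq_lintegral_ofReal hbI]
      rw [Filter.EventuallyLE, ae_restrict_iff' hB]
      exact Filter.Eventually.of_forall (fun x hx => hb0 x hx)
    have eC : ∫⁻ z in C, ENNReal.ofReal (w z) = ENNReal.ofReal (∫ z in C, w z) := by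
      rw [ofReal_integral_eq_lintegral_ofReal hwI]
      rw [Filter.EventuallyLE, ae_restrict_iff' hC]
      exact Filter.Eventually.of_forall (fun x hx => hw0 x hx)
    rw [eA, eB, eC] at key
    have hIa : 0 ≤ ∫ x in A, a x := setIntegral_nonneg hA ha0
    have hIb : 0 ≤ ∫ y in B, b y := setIntegral_nonneg hB hb0
    have hIc : 0 ≤ ∫ z in C, w z := setIntegral_nonneg hC hw0
    rw [ENNReal.ofReal_rpow_of_nonneg hIa h1t.le, ENNReal.ofReal_rpow_of_nonneg hIb ht0.le,
      ← ENNReal.ofReal_mul (Real.rpow_nonneg hIa _)] at key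
    exact (ENNReal.ofReal_le_ofReal_iff hIc).1 key
  · intro x y
    by_cases hx : x ∈ A
    · by_cases hy : y ∈ B
      · rw [indicator_of_mem hx, indicator_of_mem hy, indicator_of_mem (hABC x hx y hy)]
        rw [ENNReal.ofReal_rpow_of_nonneg (ha0 x hx) h1t.le,
          ENNReal.ofReal_rpow_of_nonneg (hb0 y hy) ht0.le,
          ← ENNReal.ofReal_mul (Real.rpow_nonneg (ha0 x hx) _)]
        apply ENNReal.ofReal_le_ofReal
        refine le_trans ?_ (H x hx y hy)
        exact Real.geom_mean_le_arith_mean2_weighted h1t.le ht0.le (ha0 x hx) (hb0 y hy) (by ring)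
      · rw [indicator_of_notMem hy, ENNReal.zero_rpow_of_pos ht0, mul_zero]
        exact zero_le
    · rw [indicator_of_notMem hx, ENNReal.zero_rpow_of_pos h1t, zero_mul]
      exact zero_le

lemma core_integral_bounds (R : ℝ) (S : Set (EuclideanSpace ℝ (Fin d))) (hS : MeasurableSet S)
    (hSR : S ⊆ closedBall 0 R) (f : EuclideanSpace ℝ (Fin d) → ℝ) (hf : Measurable f) (lo hi : ℝ)
    (h : ∀ x ∈ S, lo ≤ f x ∧ f x ≤ hi) :
    lo * volume.real S ≤ ∫ x in S, f x ∧ ∫ x in S, f x ≤ hi * volume.real S := by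
  have hfin : volume S < ∞ := lt_of_le_of_lt (measure_mono hSR) measure_closedBall_lt_top
  have iF : IntegrableOn f S volume :=
    core_integrableOn R S hS hSR f hf (max |lo| |hi|) (fun x hx => by
      rw [abs_le]
      have := h x hx
      constructor
      · have h1 := neg_abs_le lo
        have h2 := le_max_left |lo| |hi|
        linarith
      · have h1 := le_abs_self hi
        have h2 := le_max_right |lo| |hi|
        linarith)
  have ic : ∀ c : ℝ, IntegrableOn (fun _ : EuclideanSpace ℝ (Fin d) => c) S volume :=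
    fun c => integrableOn_const (hs := hfin.ne)
  constructor
  · have := setIntegral_mono_on (ic lo) iF hS (fun x hx => (h x hx).1)
    rw [setIntegral_const] at this
    simpa [mul_comm] using this
  · have := setIntegral_mono_on iF (ic hi) hS (fun x hx => (h x hx).2)
    rw [setIntegral_const] at this
    simpa [mul_comm] using this

lemma core_integral_affine (S : Set (EuclideanSpace ℝ (Fin d))) (hfin : volume S ≠ ∞)
    (f g : EuclideanSpace ℝ (Fin d) → ℝ) (hf : IntegrableOn f S volume)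
    (hg : IntegrableOn g S volume) (p q c : ℝ) :
    IntegrableOn (fun x => p * f x + q * g x + c) S volume ∧
    ∫ x in S, (p * f x + q * g x + c)
      = p * (∫ x in S, f x) + q * (∫ x in S, g x) + c * volume.real S := by
  have h1 : IntegrableOn (fun x => p * f x) S volume := hf.const_mul p
  have h2 : IntegrableOn (fun x => q * g x) S volume := hg.const_mul q
  have h3 : IntegrableOn (fun _ : EuclideanSpace ℝ (Fin d) => c) S volume :=
    integrableOn_const (hs := hfin)
  have h12 : IntegrableOn (fun x => p * f x + q * g x) S volume := h1.add h2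
  refine ⟨h12.add h3, ?_⟩
  rw [integral_add h12 h3, integral_add h1 h2, integral_const_mul, integral_const_mul,
    setIntegral_const]
  simp [mul_comm]

/-- Analytic part of the per-cell inequality, for an arbitrary shift `e`. -/
lemma core_cell_pl (R : ℝ) (hR : 0 < R) (t : ℝ) (ht0 : 0 < t) (ht1 : t < 1)
    (A B C : Set (EuclideanSpace ℝ (Fin d))) (hA : MeasurableSet A) (hB : MeasurableSet B)
    (hC : MeasurableSet C)
    (hAR : A ⊆ closedBall 0 R) (hBR : B ⊆ closedBall 0 R) (hCR : C ⊆ closedBall 0 R)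
    (hABC : ∀ x ∈ A, ∀ y ∈ B, (1 - t) • x + t • y ∈ C)
    (α β : EuclideanSpace ℝ (Fin d) → ℝ) (hα : Measurable α) (hβ : Measurable β)
    (hαb : ∀ x ∈ A, |α x| ≤ 4 * R ^ 2) (hβb : ∀ y ∈ B, |β y| ≤ 4 * R ^ 2)
    (hαβ : ∀ x ∈ A, ∀ y ∈ B, α x + β y ≤ ‖x - y‖ ^ 2 / 2)
    (e : ℝ) (he1 : -(17 / 2 * R ^ 2) ≤ e) (he2 : e ≤ 17 / 2 * R ^ 2) :
    ((∫ x in A, coreW R x) + t * (∫ x in A, α x) + t * e * volume.real A) ^ (1 - t)
      * ((∫ y in B, coreW R y) + (1 - t) * (∫ y in B, β y) + (-((1 - t) * e)) * volume.real B) ^ t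
      ≤ ∫ z in C, coreW R z := by
  have hR2 : 0 < R ^ 2 := by positivity
  have h1t : 0 < 1 - t := by linarith
  have hwabs : ∀ S : Set (EuclideanSpace ℝ (Fin d)), S ⊆ closedBall 0 R →
      ∀ x ∈ S, |coreW R x| ≤ 20 * R ^ 2 := by
    intro S hS x hx
    have := coreW_bounds R x (hS hx)
    rw [abs_le]
    constructor <;> nlinarith [this.1, this.2]
  have iwA : IntegrableOn (coreW R) A volume :=
    core_integrableOn R A hA hAR _ (coreW_measurable R) _ (hwabs A hAR)
  have iwB : IntegrableOn (coreW R) B volume :=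
    core_integrableOn R B hB hBR _ (coreW_measurable R) _ (hwabs B hBR)
  have iwC : IntegrableOn (coreW R) C volume :=
    core_integrableOn R C hC hCR _ (coreW_measurable R) _ (hwabs C hCR)
  have iα : IntegrableOn α A volume := core_integrableOn R A hA hAR α hα _ hαb
  have iβ : IntegrableOn β B volume := core_integrableOn R B hB hBR β hβ _ hβb
  have hmfin : volume A < ∞ := lt_of_le_of_lt (measure_mono hAR) measure_closedBall_lt_top
  have hMfin : volume B < ∞ := lt_of_le_of_lt (measure_mono hBR) measure_closedBall_lt_top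
  obtain ⟨haI, eIa⟩ := core_integral_affine A hmfin.ne (coreW R) α iwA iα 1 t (t * e)
  obtain ⟨hbI, eIb⟩ := core_integral_affine B hMfin.ne (coreW R) β iwB iβ 1 (1 - t) (-((1 - t) * e))
  rw [one_mul] at eIa eIb
  rw [← eIa, ← eIb]
  have ham : Measurable (fun x => 1 * coreW R x + t * α x + t * e) :=
    (((coreW_measurable R).const_mul 1).add (hα.const_mul t)).add measurable_const
  have hbm : Measurable (fun y => 1 * coreW R y + (1 - t) * β y + -((1 - t) * e)) :=
    (((coreW_measurable R).const_mul 1).add (hβ.const_mul (1 - t))).add measurable_const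
  refine core_pl_cell t ht0 ht1 A B C hA hB hC _ _ (coreW R) ham hbm (coreW_measurable R)
    ?_ ?_ ?_ hABC ?_ haI hbI iwC
  · intro x hx
    have h1 := (coreW_bounds R x (hAR hx)).1
    have h2 := abs_le.1 (hαb x hx)
    have h3 : -(4 * R ^ 2) ≤ t * α x := by nlinarith [h2.1, h2.2]
    have h4 : -(17 / 2 * R ^ 2) ≤ t * e := by nlinarith
    show 0 ≤ 1 * coreW R x + t * α x + t * e
    linarith
  · intro y hy
    have h1 := (coreW_bounds R y (hBR hy)).1
    have h2 := abs_le.1 (hβb y hy)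
    have h3 : -(4 * R ^ 2) ≤ (1 - t) * β y := by nlinarith [h2.1, h2.2]
    have h4 : -(17 / 2 * R ^ 2) ≤ -((1 - t) * e) := by nlinarith
    show 0 ≤ 1 * coreW R y + (1 - t) * β y + -((1 - t) * e)
    linarith
  · intro z hz
    have h1 := (coreW_bounds R z (hCR hz)).1
    nlinarith
  · intro x hx y hy
    rw [coreW_combo]
    have h1 := hαβ x hx y hy
    have h2 : 0 ≤ t * (1 - t) := by positivity
    have h4 := mul_le_mul_of_nonneg_left h1 h2
    show (1 - t) * (1 * coreW R x + t * α x + t * e)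
        + t * (1 * coreW R y + (1 - t) * β y + -((1 - t) * e)) ≤ _
    have h3 : (1 - t) * (1 * coreW R x + t * α x + t * e)
        + t * (1 * coreW R y + (1 - t) * β y + -((1 - t) * e))
        = (1 - t) * coreW R x + t * coreW R y + t * (1 - t) * (α x + β y) := by ring
    rw [h3]
    linarith

/-- Algebraic part of the per-cell inequality. -/
lemma core_cell_alg (R : ℝ) (hR : 0 < R) (t : ℝ) (ht0 : 0 < t) (ht1 : t < 1)
    (m M WA WB XA XB I : ℝ) (hm : 0 < m) (hM : 0 < M)
    (bWA : 39 / 2 * R ^ 2 * m ≤ WA ∧ WA ≤ 20 * R ^ 2 * m)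
    (bWB : 39 / 2 * R ^ 2 * M ≤ WB ∧ WB ≤ 20 * R ^ 2 * M)
    (bXA : -(4 * R ^ 2) * m ≤ XA ∧ XA ≤ 4 * R ^ 2 * m)
    (bXB : -(4 * R ^ 2) * M ≤ XB ∧ XB ≤ 4 * R ^ 2 * M)
    (key : ∀ e : ℝ, -(17 / 2 * R ^ 2) ≤ e → e ≤ 17 / 2 * R ^ 2 →
      (WA + t * XA + t * e * m) ^ (1 - t) * (WB + (1 - t) * XB + (-((1 - t) * e)) * M) ^ t ≤ I) :
    0 < (1 - t) * (WA / m) + t * (WB / M) + t * (1 - t) * (XA / m + XB / M) ∧
    m ^ (1 - t) * M ^ t * ((1 - t) * (WA / m) + t * (WB / M) + t * (1 - t) * (XA / m + XB / M))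
      ≤ I := by
  have hR2 : 0 < R ^ 2 := by positivity
  have h1t : 0 < 1 - t := by linarith
  have hwA1 : (39 / 2) * R ^ 2 ≤ WA / m := by rw [le_div_iff₀ hm]; exact bWA.1
  have hwA2 : WA / m ≤ 20 * R ^ 2 := by rw [div_le_iff₀ hm]; exact bWA.2
  have hwB1 : (39 / 2) * R ^ 2 ≤ WB / M := by rw [le_div_iff₀ hM]; exact bWB.1
  have hwB2 : WB / M ≤ 20 * R ^ 2 := by rw [div_le_iff₀ hM]; exact bWB.2
  have hxA1 : -(4 * R ^ 2) ≤ XA / m := by rw [le_div_iff₀ hm]; exact bXA.1
  have hxA2 : XA / m ≤ 4 * R ^ 2 := by rw [div_le_iff₀ hm]; exact bXA.2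
  have hxB1 : -(4 * R ^ 2) ≤ XB / M := by rw [le_div_iff₀ hM]; exact bXB.1
  have hxB2 : XB / M ≤ 4 * R ^ 2 := by rw [div_le_iff₀ hM]; exact bXB.2
  have eWA : WA = m * (WA / m) := by field_simp
  have eWB : WB = M * (WB / M) := by field_simp
  have eXA : XA = m * (XA / m) := by field_simp
  have eXB : XB = M * (XB / M) := by field_simp
  generalize WA / m = wA at *
  generalize WB / M = wB at *
  generalize XA / m = xA at *
  generalize XB / M = xB at *
  have h2 : 0 ≤ t * (1 - t) := by positivity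
  have h3 : t * (1 - t) ≤ 1 := by nlinarith
  have hZpos : 0 < (1 - t) * wA + t * wB + t * (1 - t) * (xA + xB) := by
    have h4 : -(8 * R ^ 2) ≤ xA + xB := by linarith
    have h5 : -(8 * R ^ 2) ≤ t * (1 - t) * (xA + xB) := by nlinarith
    nlinarith
  refine ⟨hZpos, ?_⟩
  have he1 : -(17 / 2 * R ^ 2) ≤ wB - wA + (1 - t) * xB - t * xA := by nlinarith
  have he2 : wB - wA + (1 - t) * xB - t * xA ≤ 17 / 2 * R ^ 2 := by nlinarith
  have k := key (wB - wA + (1 - t) * xB - t * xA) he1 he2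
  have e1 : WA + t * XA + t * (wB - wA + (1 - t) * xB - t * xA) * m
      = m * ((1 - t) * wA + t * wB + t * (1 - t) * (xA + xB)) := by
    rw [eWA, eXA]; ring
  have e2 : WB + (1 - t) * XB + (-((1 - t) * (wB - wA + (1 - t) * xB - t * xA))) * M
      = M * ((1 - t) * wA + t * wB + t * (1 - t) * (xA + xB)) := by
    rw [eWB, eXB]; ring
  rw [e1, e2] at k
  generalize (1 - t) * wA + t * wB + t * (1 - t) * (xA + xB) = Z at *
  have e3 : (m * Z) ^ (1 - t) * (M * Z) ^ t = m ^ (1 - t) * M ^ t * Z := by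
    rw [Real.mul_rpow hm.le hZpos.le, Real.mul_rpow hM.le hZpos.le]
    have : Z ^ (1 - t) * Z ^ t = Z := by
      rw [← Real.rpow_add hZpos]
      simp
    calc m ^ (1 - t) * Z ^ (1 - t) * (M ^ t * Z ^ t)
        = m ^ (1 - t) * M ^ t * (Z ^ (1 - t) * Z ^ t) := by ring
      _ = m ^ (1 - t) * M ^ t * Z := by rw [this]
  rw [e3] at k
  exact k

/-- Per-cell inequality: Prékopa–Leindler applied to the equalised tilted weights. -/
lemma core_cell (R : ℝ) (hR : 0 < R) (t : ℝ) (ht0 : 0 < t) (ht1 : t < 1)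
    (A B C : Set (EuclideanSpace ℝ (Fin d))) (hA : MeasurableSet A) (hB : MeasurableSet B)
    (hC : MeasurableSet C)
    (hAR : A ⊆ closedBall 0 R) (hBR : B ⊆ closedBall 0 R) (hCR : C ⊆ closedBall 0 R)
    (hABC : ∀ x ∈ A, ∀ y ∈ B, (1 - t) • x + t • y ∈ C)
    (m M : ℝ) (hm : 0 < m) (hM : 0 < M) (hmA : volume.real A = m) (hMB : volume.real B = M)
    (α β : EuclideanSpace ℝ (Fin d) → ℝ) (hα : Measurable α) (hβ : Measurable β)
    (hαb : ∀ x ∈ A, |α x| ≤ 4 * R ^ 2) (hβb : ∀ y ∈ B, |β y| ≤ 4 * R ^ 2)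
    (hαβ : ∀ x ∈ A, ∀ y ∈ B, α x + β y ≤ ‖x - y‖ ^ 2 / 2) :
    0 < (1 - t) * ((∫ x in A, coreW R x) / m) + t * ((∫ y in B, coreW R y) / M)
          + t * (1 - t) * ((∫ x in A, α x) / m + (∫ y in B, β y) / M) ∧
    m ^ (1 - t) * M ^ t * ((1 - t) * ((∫ x in A, coreW R x) / m) + t * ((∫ y in B, coreW R y) / M)
          + t * (1 - t) * ((∫ x in A, α x) / m + (∫ y in B, β y) / M)) ≤ ∫ z in C, coreW R z := by
  have bWA := core_integral_bounds R A hA hAR (coreW R) (coreW_measurable R) _ _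
    (fun x hx => coreW_bounds R x (hAR hx))
  have bWB := core_integral_bounds R B hB hBR (coreW R) (coreW_measurable R) _ _
    (fun x hx => coreW_bounds R x (hBR hx))
  have bXA := core_integral_bounds R A hA hAR α hα _ _ (fun x hx => abs_le.1 (hαb x hx))
  have bXB := core_integral_bounds R B hB hBR β hβ _ _ (fun x hx => abs_le.1 (hβb x hx))
  rw [hmA] at bWA bXA
  rw [hMB] at bWB bXB
  refine core_cell_alg R hR t ht0 ht1 m M _ _ _ _ _ hm hM bWA bWB bXA bXB ?_
  intro e he1 he2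
  have := core_cell_pl R hR t ht0 ht1 A B C hA hB hC hAR hBR hCR hABC α β hα hβ hαb hβb hαβ e
    he1 he2
  rw [hmA, hMB] at this
  exact this

/-- average of `f` over `S` (Lebesgue measure). -/
noncomputable def coreAvg (S : Set (EuclideanSpace ℝ (Fin d))) (f : EuclideanSpace ℝ (Fin d) → ℝ) : ℝ :=
  (∫ x in S, f x) / volume.real S

lemma core_partition_integral {ι : Type*} [Fintype ι] (K : Set (EuclideanSpace ℝ (Fin d)))
    (A : ι → Set (EuclideanSpace ℝ (Fin d))) (hAm : ∀ i, MeasurableSet (A i))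
    (hAK : ∀ i, A i ⊆ K) (hAd : Pairwise (Disjoint on A)) (hAc : volume (K \ ⋃ i, A i) = 0)
    (f : EuclideanSpace ℝ (Fin d) → ℝ) (hf : ∀ i, IntegrableOn f (A i) volume) :
    ∫ x in K, f x = ∑ i, ∫ x in A i, f x := by
  have h : (⋃ i, A i : Set (EuclideanSpace ℝ (Fin d))) =ᵐ[volume] K := by
    rw [ae_eq_set]
    constructor
    · have : (⋃ i, A i) \ K = ∅ := by
        rw [sdiff_eq_empty]
        exact iUnion_subset hAK
      rw [this]
      simp
    · exact hAc
  rw [← setIntegral_congr_set h, integral_iUnion_fintype hAm hAd hf]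

lemma core_limit (P Q₁ Q₂ : ℝ)
    (h : ∀ t : ℝ, 0 < t → t < 1 → t * P + t ^ 2 * Q₁ + t ^ 3 * Q₂ ≤ 0) : P ≤ 0 := by
  by_contra hP
  rw [not_le] at hP
  obtain ⟨c, hc⟩ : ∃ c : ℝ, c = |Q₁| + |Q₂| + 1 := ⟨_, rfl⟩
  have hcpos : 0 < c := by rw [hc]; positivity
  obtain ⟨t, ht⟩ : ∃ t : ℝ, t = min (1 / 2) (P / (2 * c)) := ⟨_, rfl⟩
  have ht0 : 0 < t := by rw [ht]; exact lt_min (by norm_num) (by positivity)
  have ht1 : t < 1 := by rw [ht]; exact lt_of_le_of_lt (min_le_left _ _) (by norm_num)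
  have htP : t ≤ P / (2 * c) := by rw [ht]; exact min_le_right _ _
  have h0 := h t ht0 ht1
  have ht2 : 0 < t ^ 2 := by positivity
  have ht3 : t ^ 3 ≤ t ^ 2 := by nlinarith
  have ht3' : 0 < t ^ 3 := by positivity
  have h1 : -(t ^ 2 * |Q₁|) ≤ t ^ 2 * Q₁ := by nlinarith [neg_abs_le Q₁]
  have h2 : -(t ^ 2 * |Q₂|) ≤ t ^ 3 * Q₂ := by
    have h21 : -(t ^ 3 * |Q₂|) ≤ t ^ 3 * Q₂ := by nlinarith [neg_abs_le Q₂]
    have h22 : t ^ 3 * |Q₂| ≤ t ^ 2 * |Q₂| := mul_le_mul_of_nonneg_right ht3 (abs_nonneg _)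
    linarith
  have h3 : t * (2 * c) ≤ P := by rwa [le_div_iff₀ (by positivity)] at htP
  have h4 : t ^ 2 * (|Q₁| + |Q₂|) ≤ t * (t * c) := by
    have : |Q₁| + |Q₂| ≤ c := by rw [hc]; linarith
    nlinarith
  have h5 : t * (t * c) ≤ t * (P / 2) := by
    apply mul_le_mul_of_nonneg_left _ ht0.le
    linarith
  have h6 : 0 < t * P := by positivity
  nlinarith

/-- The interpolation hypothesis used throughout the module. -/
def CoreInterp {ι : Type*} (K : Set (EuclideanSpace ℝ (Fin d)))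
    (A B : ι → Set (EuclideanSpace ℝ (Fin d))) : Prop :=
  ∀ t : ℝ, 0 < t → t < 1 → ∃ C : ι → Set (EuclideanSpace ℝ (Fin d)),
    (∀ i, MeasurableSet (C i)) ∧ Pairwise (Disjoint on C) ∧ (∀ i, C i ⊆ K) ∧
      ∀ i, ∀ x ∈ A i, ∀ y ∈ B i, (1 - t) • x + t • y ∈ C i

/-- Finite-`t` inequality obtained by summing the per-cell Prékopa–Leindler bounds. -/
lemma core_step {ι : Type*} [Fintype ι] (R : ℝ) (hR : 0 < R)
    (K : Set (EuclideanSpace ℝ (Fin d))) (hKm : MeasurableSet K) (hKR : K ⊆ closedBall 0 R)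
    (A B : ι → Set (EuclideanSpace ℝ (Fin d)))
    (hAm : ∀ i, MeasurableSet (A i)) (hBm : ∀ i, MeasurableSet (B i))
    (hAK : ∀ i, A i ⊆ K) (hBK : ∀ i, B i ⊆ K)
    (hAd : Pairwise (Disjoint on A)) (hAc : volume (K \ ⋃ i, A i) = 0)
    (hinterp : CoreInterp K A B)
    (m r : ι → ℝ) (hm : ∀ i, 0 < m i) (hmA : ∀ i, volume.real (A i) = m i)
    (hmB : ∀ i, volume.real (B i) = (1 + r i) * m i) (hr : ∀ i, -1 < r i)
    (α β : ι → EuclideanSpace ℝ (Fin d) → ℝ) (hα : ∀ i, Measurable (α i))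
    (hβ : ∀ i, Measurable (β i))
    (hαb : ∀ i, ∀ x ∈ A i, |α i x| ≤ 4 * R ^ 2) (hβb : ∀ i, ∀ y ∈ B i, |β i y| ≤ 4 * R ^ 2)
    (hαβ : ∀ i, ∀ x ∈ A i, ∀ y ∈ B i, α i x + β i y ≤ ‖x - y‖ ^ 2 / 2)
    (t : ℝ) (ht0 : 0 < t) (ht1 : t < 1) :
    ∑ i, m i * (1 + t * Real.log (1 + r i)) *
        ((1 - t) * coreAvg (A i) (coreW R) + t * coreAvg (B i) (coreW R)
          + t * (1 - t) * (coreAvg (A i) (α i) + coreAvg (B i) (β i)))
      ≤ ∑ i, m i * coreAvg (A i) (coreW R) := by
  obtain ⟨C, hCm, hCd, hCK, hCint⟩ := hinterp t ht0 ht1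
  have hR2 : 0 < R ^ 2 := by positivity
  have hwabs : ∀ S : Set (EuclideanSpace ℝ (Fin d)), S ⊆ closedBall 0 R →
      ∀ x ∈ S, |coreW R x| ≤ 20 * R ^ 2 := by
    intro S hS x hx
    have := coreW_bounds R x (hS hx)
    rw [abs_le]
    constructor <;> nlinarith [this.1, this.2]
  have iwK : IntegrableOn (coreW R) K volume :=
    core_integrableOn R K hKm hKR _ (coreW_measurable R) _ (hwabs K hKR)
  have iwA : ∀ i, IntegrableOn (coreW R) (A i) volume := fun i => iwK.mono_set (hAK i)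
  have iwC : ∀ i, IntegrableOn (coreW R) (C i) volume := fun i => iwK.mono_set (hCK i)
  have hcell : ∀ i, m i * (1 + t * Real.log (1 + r i)) *
        ((1 - t) * coreAvg (A i) (coreW R) + t * coreAvg (B i) (coreW R)
          + t * (1 - t) * (coreAvg (A i) (α i) + coreAvg (B i) (β i)))
      ≤ ∫ z in C i, coreW R z := by
    intro i
    have hr1 : 0 < 1 + r i := by have := hr i; linarith
    have hM : 0 < (1 + r i) * m i := mul_pos hr1 (hm i)
    obtain ⟨hZ, hle⟩ := core_cell R hR t ht0 ht1 (A i) (B i) (C i) (hAm i) (hBm i) (hCm i)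
      ((hAK i).trans hKR) ((hBK i).trans hKR) ((hCK i).trans hKR) (hCint i) (m i)
      ((1 + r i) * m i) (hm i) hM (hmA i) (hmB i) (α i) (β i) (hα i) (hβ i) (hαb i) (hβb i)
      (hαβ i)
    simp only [coreAvg, hmA i, hmB i]
    generalize (1 - t) * ((∫ x in A i, coreW R x) / m i)
      + t * ((∫ y in B i, coreW R y) / ((1 + r i) * m i))
      + t * (1 - t) * ((∫ x in A i, α i x) / m i + (∫ y in B i, β i y) / ((1 + r i) * m i)) = Z
      at hZ hle ⊢
    have e1 : m i ^ (1 - t) * ((1 + r i) * m i) ^ t = m i * (1 + r i) ^ t := by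
      rw [Real.mul_rpow hr1.le (hm i).le]
      have : m i ^ (1 - t) * m i ^ t = m i := by
        rw [← Real.rpow_add (hm i)]
        simp
      calc m i ^ (1 - t) * ((1 + r i) ^ t * m i ^ t)
          = (m i ^ (1 - t) * m i ^ t) * (1 + r i) ^ t := by ring
        _ = m i * (1 + r i) ^ t := by rw [this]
    rw [e1] at hle
    have e2 : 1 + t * Real.log (1 + r i) ≤ (1 + r i) ^ t := by
      rw [Real.rpow_def_of_pos hr1]
      have := Real.add_one_le_exp (Real.log (1 + r i) * t)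
      linarith
    refine le_trans ?_ hle
    have : m i * (1 + t * Real.log (1 + r i)) ≤ m i * (1 + r i) ^ t :=
      mul_le_mul_of_nonneg_left e2 (hm i).le
    exact mul_le_mul_of_nonneg_right this hZ.le
  calc ∑ i, m i * (1 + t * Real.log (1 + r i)) *
        ((1 - t) * coreAvg (A i) (coreW R) + t * coreAvg (B i) (coreW R)
          + t * (1 - t) * (coreAvg (A i) (α i) + coreAvg (B i) (β i)))
      ≤ ∑ i, ∫ z in C i, coreW R z := Finset.sum_le_sum (fun i _ => hcell i)
    _ = ∫ z in ⋃ i, C i, coreW R z := (integral_iUnion_fintype hCm hCd iwC).symm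
    _ ≤ ∫ z in K, coreW R z := by
        apply setIntegral_mono_set iwK
        · rw [Filter.EventuallyLE, ae_restrict_iff' hKm]
          refine Filter.Eventually.of_forall (fun x hx => ?_)
          have := (coreW_bounds R x (hKR hx)).1
          show (0 : ℝ) ≤ coreW R x
          nlinarith
        · exact (iUnion_subset hCK).eventuallyLE
    _ = ∑ i, ∫ x in A i, coreW R x :=
        core_partition_integral K A hAm hAK hAd hAc (coreW R) iwA
    _ = ∑ i, m i * coreAvg (A i) (coreW R) := by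
        apply Finset.sum_congr rfl
        intro i _
        have := (hm i).ne'
        simp only [coreAvg, hmA i]
        field_simp

/-- **Core inequality (G')**: for arbitrary bounded tilts `α i`, `β i` with
`α i x + β i y ≤ |x - y|²/2` on `A i × B i`. -/
theorem core_Gprime_abs {ι : Type*} [Fintype ι] (R : ℝ) (hR : 0 < R)
    (K : Set (EuclideanSpace ℝ (Fin d))) (hKm : MeasurableSet K) (hKR : K ⊆ closedBall 0 R)
    (A B : ι → Set (EuclideanSpace ℝ (Fin d)))
    (hAm : ∀ i, MeasurableSet (A i)) (hBm : ∀ i, MeasurableSet (B i))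
    (hAK : ∀ i, A i ⊆ K) (hBK : ∀ i, B i ⊆ K)
    (hAd : Pairwise (Disjoint on A)) (hAc : volume (K \ ⋃ i, A i) = 0)
    (hinterp : CoreInterp K A B)
    (m r : ι → ℝ) (hm : ∀ i, 0 < m i) (hmA : ∀ i, volume.real (A i) = m i)
    (hmB : ∀ i, volume.real (B i) = (1 + r i) * m i) (hr : ∀ i, -1 < r i)
    (α β : ι → EuclideanSpace ℝ (Fin d) → ℝ) (hα : ∀ i, Measurable (α i))
    (hβ : ∀ i, Measurable (β i))
    (hαb : ∀ i, ∀ x ∈ A i, |α i x| ≤ 4 * R ^ 2) (hβb : ∀ i, ∀ y ∈ B i, |β i y| ≤ 4 * R ^ 2)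
    (hαβ : ∀ i, ∀ x ∈ A i, ∀ y ∈ B i, α i x + β i y ≤ ‖x - y‖ ^ 2 / 2) :
    ∑ i, m i * (coreAvg (A i) (α i) + coreAvg (B i) (β i))
      ≤ ∑ i, m i * (coreAvg (A i) (coreW R) - coreAvg (B i) (coreW R)
          - Real.log (1 + r i) * coreAvg (A i) (coreW R)) := by
  have key := core_limit
    (∑ i, m i * (coreAvg (B i) (coreW R) - coreAvg (A i) (coreW R)
        + (coreAvg (A i) (α i) + coreAvg (B i) (β i))
        + Real.log (1 + r i) * coreAvg (A i) (coreW R)))
    (∑ i, m i * (Real.log (1 + r i) * (coreAvg (B i) (coreW R) - coreAvg (A i) (coreW R)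
        + (coreAvg (A i) (α i) + coreAvg (B i) (β i)))
        - (coreAvg (A i) (α i) + coreAvg (B i) (β i))))
    (∑ i, m i * (-(Real.log (1 + r i) * (coreAvg (A i) (α i) + coreAvg (B i) (β i))))) ?_
  · have e : ∑ i, m i * (coreAvg (A i) (coreW R) - coreAvg (B i) (coreW R)
          - Real.log (1 + r i) * coreAvg (A i) (coreW R))
        - ∑ i, m i * (coreAvg (A i) (α i) + coreAvg (B i) (β i))
        = -(∑ i, m i * (coreAvg (B i) (coreW R) - coreAvg (A i) (coreW R)
        + (coreAvg (A i) (α i) + coreAvg (B i) (β i))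
        + Real.log (1 + r i) * coreAvg (A i) (coreW R))) := by
      rw [← Finset.sum_sub_distrib, ← Finset.sum_neg_distrib]
      apply Finset.sum_congr rfl
      intro i _
      ring
    linarith
  · intro t ht0 ht1
    have hs := core_step R hR K hKm hKR A B hAm hBm hAK hBK hAd hAc hinterp m r hm hmA hmB hr
      α β hα hβ hαb hβb hαβ t ht0 ht1
    have e : t * (∑ i, m i * (coreAvg (B i) (coreW R) - coreAvg (A i) (coreW R)
        + (coreAvg (A i) (α i) + coreAvg (B i) (β i))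
        + Real.log (1 + r i) * coreAvg (A i) (coreW R)))
        + t ^ 2 * (∑ i, m i * (Real.log (1 + r i) * (coreAvg (B i) (coreW R)
            - coreAvg (A i) (coreW R) + (coreAvg (A i) (α i) + coreAvg (B i) (β i)))
            - (coreAvg (A i) (α i) + coreAvg (B i) (β i))))
        + t ^ 3 * (∑ i, m i * (-(Real.log (1 + r i)
            * (coreAvg (A i) (α i) + coreAvg (B i) (β i)))))
        = (∑ i, m i * (1 + t * Real.log (1 + r i)) *
            ((1 - t) * coreAvg (A i) (coreW R) + t * coreAvg (B i) (coreW R)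
              + t * (1 - t) * (coreAvg (A i) (α i) + coreAvg (B i) (β i))))
          - ∑ i, m i * coreAvg (A i) (coreW R) := by
      rw [Finset.mul_sum, Finset.mul_sum, Finset.mul_sum, ← Finset.sum_add_distrib,
        ← Finset.sum_add_distrib, ← Finset.sum_sub_distrib]
      apply Finset.sum_congr rfl
      intro i _
      ring
    rw [e]
    linarith

end Core

end Crest.Agent.S0109
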