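import Crest.Agent.S0109.CorePL
import Crest.Agent.S0109.CoreAbs

/-!
Row 82 (S0109) job CORE-ALG. Statement FROZEN; one owner (helper60).
The analytic content is in `CoreAbs.lean` (abstract cells); here it is specialised to Laguerre cells.
-/

set_option autoImplicit false
open MeasureTheory Filter
open scoped ENNReal NNReal Topology
open Crest.AnalysisR.OT

namespace Crest.Agent.S0109

variable {d : ℕ} {ι : Type} [Fintype ι]

/-- The Laguerre cells of `K` satisfy the interpolation hypothesis of `CoreAbs`. -/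
theorem core_lag_interp (K : Set (EuclideanSpace ℝ (Fin d))) (hKc : IsCompact K) (hKv : Convex ℝ K)
    (y : ι → EuclideanSpace ℝ (Fin d)) (ψ0 ψ1 : ι → ℝ) :
    CoreInterp K (fun i => K ∩ lagCellS y ψ0 i) (fun i => K ∩ lagCellS y ψ1 i) := by
  intro t ht0 ht1
  refine ⟨fun i => K ∩ lagCellS y (fun k => (1 - t) * ψ0 k + t * ψ1 k) i, ?_, ?_, ?_, ?_⟩
  · intro i
    exact hKc.measurableSet.inter (lag_measurableSet_cellS _ _ _)
  · intro i k hik
    exact (lag_cellS_disjoint y _ i k hik).mono Set.inter_subset_right Set.inter_subset_right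
  · intro i
    exact Set.inter_subset_left
  · intro i x hx x' hx'
    refine ⟨?_, lag_cellS_interp y ψ0 ψ1 i t ht0.le ht1.le x x' hx.2 hx'.2⟩
    exact hKv hx.1 hx'.1 (by linarith) ht0.le (by ring)

/-- The strict Laguerre cells cover `K` up to a Lebesgue-null set. -/
theorem core_lag_cover [Nonempty ι] (K : Set (EuclideanSpace ℝ (Fin d)))
    (y : ι → EuclideanSpace ℝ (Fin d)) (hy : Function.Injective y) (ψ : ι → ℝ) :
    volume (K \ ⋃ i, K ∩ lagCellS y ψ i) = 0 := by
  have h := lag_ae_mem_cellS y hy ψ (volume : Measure (EuclideanSpace ℝ (Fin d)))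
    Measure.AbsolutelyContinuous.rfl
  rw [ae_iff] at h
  refine measure_mono_null ?_ h
  intro x hx
  simp only [Set.mem_sdiff, Set.mem_iUnion, Set.mem_inter_iff, not_exists, not_and] at hx
  simp only [Set.mem_ofPred_eq, not_exists]
  intro i hi
  exact hx.2 i hx.1 hi

theorem core_lag_disjoint (K : Set (EuclideanSpace ℝ (Fin d)))
    (y : ι → EuclideanSpace ℝ (Fin d)) (ψ : ι → ℝ) :
    Pairwise (Function.onFun Disjoint (fun i => K ∩ lagCellS y ψ i)) := by
  intro i k hik
  exact (lag_cellS_disjoint y ψ i k hik).mono Set.inter_subset_right Set.inter_subset_right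

/-- Inequality (G') (job CORE-ALG).  With `w x = 20 R² - ‖x‖²/2`, apply `core_pl_sum` for small
`t > 0` to `a i = w + t (α i + e i)`, `b i = w + (1 - t) (β i - e i)` where
`e i = wB i - wA i + (1 - t) βB i - t αA i` (cell averages), so that both cell averages equal
`Z i = (1-t) wA i + t wB i + t (1-t) G i`; then `∑ mA i (mB i/mA i)^t Z i ≤ ∑ mA i wA i`, use
`x^t ≥ 1 + t log x`, divide by `t` and let `t → 0`. -/
theorem core_Gprime [Nonempty ι] (K : Set (EuclideanSpace ℝ (Fin d))) (hKc : IsCompact K)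
    (hKv : Convex ℝ K) (R : ℝ) (hR : 0 < R) (hKR : K ⊆ Metric.closedBall 0 R)
    (y : ι → EuclideanSpace ℝ (Fin d)) (hy : Function.Injective y) (ψ0 ψ1 : ι → ℝ)
    (hA : ∀ i, 0 < volume (K ∩ lagCellS y ψ0 i)) (hB : ∀ i, 0 < volume (K ∩ lagCellS y ψ1 i))
    (α β : ι → EuclideanSpace ℝ (Fin d) → ℝ)
    (hαc : ∀ i, Continuous (α i)) (hβc : ∀ i, Continuous (β i))
    (hαb : ∀ i, ∀ x ∈ K, |α i x| ≤ 4 * R ^ 2) (hβb : ∀ i, ∀ x ∈ K, |β i x| ≤ 4 * R ^ 2)
    (H : ∀ i, ∀ x ∈ K, ∀ x' ∈ K, α i x + β i x' ≤ ‖x - x'‖ ^ 2 / 2) :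
    ∑ i, ((∫ x in K ∩ lagCellS y ψ0 i, α i x) +
        (volume (K ∩ lagCellS y ψ0 i)).toReal / (volume (K ∩ lagCellS y ψ1 i)).toReal *
          ∫ x in K ∩ lagCellS y ψ1 i, β i x) ≤
      ∑ i, ((1 - (volume (K ∩ lagCellS y ψ0 i)).toReal / (volume (K ∩ lagCellS y ψ1 i)).toReal) *
          (∫ x in K ∩ lagCellS y ψ1 i, (20 * R ^ 2 - ‖x‖ ^ 2 / 2)) -
        Real.log ((volume (K ∩ lagCellS y ψ1 i)).toReal / (volume (K ∩ lagCellS y ψ0 i)).toReal) *
          ∫ x in K ∩ lagCellS y ψ0 i, (20 * R ^ 2 - ‖x‖ ^ 2 / 2)) := by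
  have hKm : MeasurableSet K := hKc.measurableSet
  have hKfin : volume K < ∞ := hKc.measure_lt_top
  have hAm : ∀ i, MeasurableSet (K ∩ lagCellS y ψ0 i) :=
    fun i => hKm.inter (lag_measurableSet_cellS _ _ _)
  have hBm : ∀ i, MeasurableSet (K ∩ lagCellS y ψ1 i) :=
    fun i => hKm.inter (lag_measurableSet_cellS _ _ _)
  have hAfin : ∀ i, volume (K ∩ lagCellS y ψ0 i) < ∞ :=
    fun i => lt_of_le_of_lt (measure_mono Set.inter_subset_left) hKfin
  have hBfin : ∀ i, volume (K ∩ lagCellS y ψ1 i) < ∞ :=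
    fun i => lt_of_le_of_lt (measure_mono Set.inter_subset_left) hKfin
  have hmA : ∀ i, 0 < (volume (K ∩ lagCellS y ψ0 i)).toReal :=
    fun i => ENNReal.toReal_pos (hA i).ne' (hAfin i).ne
  have hmB : ∀ i, 0 < (volume (K ∩ lagCellS y ψ1 i)).toReal :=
    fun i => ENNReal.toReal_pos (hB i).ne' (hBfin i).ne
  -- the abstract inequality
  have key := core_Gprime_abs R hR K hKm hKR (fun i => K ∩ lagCellS y ψ0 i)
    (fun i => K ∩ lagCellS y ψ1 i) hAm hBm (fun i => Set.inter_subset_left)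
    (fun i => Set.inter_subset_left) (core_lag_disjoint K y ψ0) (core_lag_cover K y hy ψ0)
    (core_lag_interp K hKc hKv y ψ0 ψ1)
    (fun i => (volume (K ∩ lagCellS y ψ0 i)).toReal)
    (fun i => (volume (K ∩ lagCellS y ψ1 i)).toReal / (volume (K ∩ lagCellS y ψ0 i)).toReal - 1)
    hmA (fun i => rfl)
    (fun i => by
      have := (hmA i).ne'
      show (volume (K ∩ lagCellS y ψ1 i)).toReal = _
      field_simp
      ring)
    (fun i => by
      have := div_pos (hmB i) (hmA i)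
      linarith)
    α β (fun i => (hαc i).measurable) (fun i => (hβc i).measurable)
    (fun i x hx => hαb i x hx.1) (fun i x hx => hβb i x hx.1)
    (fun i x hx x' hx' => H i x hx.1 x' hx'.1)
  -- both partitions integrate `w` to the same value
  have hwabs : ∀ x ∈ K, |coreW R x| ≤ 20 * R ^ 2 := by
    intro x hx
    have := coreW_bounds R x (hKR hx)
    have hR2 : 0 < R ^ 2 := by positivity
    rw [abs_le]
    constructor <;> nlinarith [this.1, this.2]
  have iwK : IntegrableOn (coreW R) K volume :=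
    core_integrableOn R K hKm hKR _ (coreW_measurable R) _ hwabs
  have hpA := core_partition_integral K (fun i => K ∩ lagCellS y ψ0 i) hAm
    (fun i => Set.inter_subset_left) (core_lag_disjoint K y ψ0) (core_lag_cover K y hy ψ0)
    (coreW R) (fun i => iwK.mono_set Set.inter_subset_left)
  have hpB := core_partition_integral K (fun i => K ∩ lagCellS y ψ1 i) hBm
    (fun i => Set.inter_subset_left) (core_lag_disjoint K y ψ1) (core_lag_cover K y hy ψ1)
    (coreW R) (fun i => iwK.mono_set Set.inter_subset_left)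
  have hAB : ∑ i, ∫ x in K ∩ lagCellS y ψ0 i, coreW R x
      = ∑ i, ∫ x in K ∩ lagCellS y ψ1 i, coreW R x := by rw [← hpA, ← hpB]
  -- rewrite both sides
  have hL : ∑ i, (volume (K ∩ lagCellS y ψ0 i)).toReal *
      (coreAvg (K ∩ lagCellS y ψ0 i) (α i) + coreAvg (K ∩ lagCellS y ψ1 i) (β i))
      = ∑ i, ((∫ x in K ∩ lagCellS y ψ0 i, α i x) +
        (volume (K ∩ lagCellS y ψ0 i)).toReal / (volume (K ∩ lagCellS y ψ1 i)).toReal *
          ∫ x in K ∩ lagCellS y ψ1 i, β i x) := by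
    apply Finset.sum_congr rfl
    intro i _
    have h1 := (hmA i).ne'
    have h2 := (hmB i).ne'
    simp only [coreAvg, Measure.real]
    field_simp
  have hRt : ∑ i, (volume (K ∩ lagCellS y ψ0 i)).toReal *
      (coreAvg (K ∩ lagCellS y ψ0 i) (coreW R) - coreAvg (K ∩ lagCellS y ψ1 i) (coreW R)
        - Real.log (1 + ((volume (K ∩ lagCellS y ψ1 i)).toReal /
            (volume (K ∩ lagCellS y ψ0 i)).toReal - 1)) * coreAvg (K ∩ lagCellS y ψ0 i) (coreW R))
      = ∑ i, ((1 - (volume (K ∩ lagCellS y ψ0 i)).toReal /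
            (volume (K ∩ lagCellS y ψ1 i)).toReal) *
          (∫ x in K ∩ lagCellS y ψ1 i, coreW R x) -
        Real.log ((volume (K ∩ lagCellS y ψ1 i)).toReal / (volume (K ∩ lagCellS y ψ0 i)).toReal) *
          ∫ x in K ∩ lagCellS y ψ0 i, coreW R x) := by
    have e1 : ∀ i, (volume (K ∩ lagCellS y ψ0 i)).toReal *
      (coreAvg (K ∩ lagCellS y ψ0 i) (coreW R) - coreAvg (K ∩ lagCellS y ψ1 i) (coreW R)
        - Real.log (1 + ((volume (K ∩ lagCellS y ψ1 i)).toReal /
            (volume (K ∩ lagCellS y ψ0 i)).toReal - 1)) * coreAvg (K ∩ lagCellS y ψ0 i) (coreW R))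
      = ((1 - (volume (K ∩ lagCellS y ψ0 i)).toReal /
            (volume (K ∩ lagCellS y ψ1 i)).toReal) *
          (∫ x in K ∩ lagCellS y ψ1 i, coreW R x) -
        Real.log ((volume (K ∩ lagCellS y ψ1 i)).toReal / (volume (K ∩ lagCellS y ψ0 i)).toReal) *
          ∫ x in K ∩ lagCellS y ψ0 i, coreW R x)
        + ((∫ x in K ∩ lagCellS y ψ0 i, coreW R x) - ∫ x in K ∩ lagCellS y ψ1 i, coreW R x) := by
      intro i
      have h1 := (hmA i).ne'
      have h2 := (hmB i).ne'
      have h3 : 1 + ((volume (K ∩ lagCellS y ψ1 i)).toReal /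
            (volume (K ∩ lagCellS y ψ0 i)).toReal - 1)
          = (volume (K ∩ lagCellS y ψ1 i)).toReal / (volume (K ∩ lagCellS y ψ0 i)).toReal := by
        ring
      rw [h3]
      simp only [coreAvg, Measure.real]
      field_simp
      ring
    have e2 : ∑ i, ((∫ x in K ∩ lagCellS y ψ0 i, coreW R x)
        - ∫ x in K ∩ lagCellS y ψ1 i, coreW R x) = 0 := by
      rw [Finset.sum_sub_distrib, hAB, sub_self]
    rw [Finset.sum_congr rfl (fun i _ => e1 i), Finset.sum_add_distrib, e2, add_zero]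
  rw [hL, hRt] at key
  exact key

end Crest.Agent.S0109
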