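import Crest.Agent.S0109.CoreG

/-!
Row 82 (S0109) job CORE-D. Statement FROZEN; one owner.
-/

set_option autoImplicit false
open MeasureTheory Filter
open scoped ENNReal NNReal Topology
open Crest.AnalysisR.OT

namespace Crest.Agent.S0109

variable {d : ℕ} {ι : Type} [Fintype ι]

/-- Set integrals against `uniformProbOn K` are normalised Lebesgue integrals over `K ∩ s`. -/
private theorem coreD_setIntegral_unif {G : Type*} [NormedAddCommGroup G] [NormedSpace ℝ G]
    (K s : Set (EuclideanSpace ℝ (Fin d))) (hs : MeasurableSet s)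
    (F : EuclideanSpace ℝ (Fin d) → G) :
    ∫ x in s, F x ∂(uniformProbOn K) = ((volume K).toReal)⁻¹ • ∫ x in K ∩ s, F x := by
  unfold uniformProbOn
  rw [Measure.restrict_smul, integral_smul_measure, Measure.restrict_restrict hs,
    ENNReal.toReal_inv, Set.inter_comm]

/-- Integrals against `uniformProbOn K` are normalised Lebesgue integrals over `K`. -/
private theorem coreD_integral_unif {G : Type*} [NormedAddCommGroup G] [NormedSpace ℝ G]
    (K : Set (EuclideanSpace ℝ (Fin d))) (F : EuclideanSpace ℝ (Fin d) → G) :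
    ∫ x, F x ∂(uniformProbOn K) = ((volume K).toReal)⁻¹ • ∫ x in K, F x := by
  unfold uniformProbOn
  rw [integral_smul_measure, ENNReal.toReal_inv]

/-- Integrability on a set of finite measure of a bounded measurable function. -/
private theorem coreD_intOn {G : Type*} [NormedAddCommGroup G]
    (S : Set (EuclideanSpace ℝ (Fin d))) (hS : MeasurableSet S) (hSfin : volume S < ∞)
    (f : EuclideanSpace ℝ (Fin d) → G) (hf : AEStronglyMeasurable f volume) (C : ℝ)
    (hC : ∀ x ∈ S, ‖f x‖ ≤ C) : IntegrableOn f S volume :=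
  Measure.integrableOn_of_bounded hSfin.ne hf
    ((ae_restrict_iff' hS).mpr (Eventually.of_forall hC))

/-- Cauchy–Schwarz on a set of finite measure. -/
private theorem coreD_cs (S : Set (EuclideanSpace ℝ (Fin d))) (hS : MeasurableSet S)
    (hSfin : volume S < ∞) (g : EuclideanSpace ℝ (Fin d) → ℝ) (hg : Measurable g)
    (hb : ∀ x, |g x| ≤ 1 / 2) :
    (∫ x in S, |g x|) ^ 2 ≤ (volume S).toReal * ∫ x in S, g x ^ 2 := by
  have hi1 : IntegrableOn (fun x => |g x|) S volume :=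
    coreD_intOn S hS hSfin _ hg.abs.aestronglyMeasurable (1 / 2)
      (fun x _ => by rw [Real.norm_eq_abs, abs_abs]; exact hb x)
  have hi2 : IntegrableOn (fun x => g x ^ 2) S volume :=
    coreD_intOn S hS hSfin _ (hg.pow_const 2).aestronglyMeasurable (1 / 4)
      (fun x _ => by
        rw [Real.norm_eq_abs, abs_pow]
        have h0 := abs_nonneg (g x)
        have h1 := hb x
        nlinarith)
  set I : ℝ := ∫ x in S, |g x| with hI
  set v : ℝ := (volume S).toReal with hv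
  have hI0 : 0 ≤ I := integral_nonneg (fun x => abs_nonneg _)
  have hv0 : 0 ≤ v := ENNReal.toReal_nonneg
  -- for every t: 2 t I ≤ ∫ g² + t² v
  have key : ∀ t : ℝ, 2 * t * I ≤ (∫ x in S, g x ^ 2) + t ^ 2 * v := by
    intro t
    have hmono : ∫ x in S, 2 * t * |g x| ≤ ∫ x in S, (g x ^ 2 + t ^ 2) := by
      apply integral_mono (hi1.const_mul (2 * t))
      · exact hi2.add (integrableOn_const hSfin.ne)
      · intro x
        have : 0 ≤ (|g x| - t) ^ 2 := sq_nonneg _
        have h2 : |g x| ^ 2 = g x ^ 2 := sq_abs (g x)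
        show 2 * t * |g x| ≤ g x ^ 2 + t ^ 2
        nlinarith
    rw [integral_const_mul, integral_add hi2 (integrableOn_const hSfin.ne), setIntegral_const,
      measureReal_def, smul_eq_mul] at hmono
    linarith
  by_cases hvz : v = 0
  · -- then I = 0
    have h1 := key 1
    have h2 := key (-1)
    have hG0 : 0 ≤ ∫ x in S, g x ^ 2 := integral_nonneg (fun x => sq_nonneg _)
    have hSz : volume S = 0 := by
      rcases (ENNReal.toReal_eq_zero_iff _).mp hvz with h | h
      · exact h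
      · exact absurd h hSfin.ne
    have hIz : I = 0 := by
      rw [hI, Measure.restrict_eq_zero.mpr hSz, integral_zero_measure]
    rw [hIz, hvz]; simp
  · have hvpos : 0 < v := lt_of_le_of_ne hv0 (Ne.symm hvz)
    have h := key (I / v)
    have e1 : 2 * (I / v) * I = 2 * I ^ 2 / v := by ring
    have e2 : (I / v) ^ 2 * v = I ^ 2 / v := by field_simp
    rw [e1, e2] at h
    have h3 : I ^ 2 / v ≤ ∫ x in S, g x ^ 2 := by
      have : 2 * I ^ 2 / v = I ^ 2 / v + I ^ 2 / v := by ring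
      linarith
    rw [div_le_iff₀ hvpos] at h3
    linarith

/-- Per-cell estimate: weighted barycentre versus Lebesgue barycentre. -/
private theorem coreD_cell (S : Set (EuclideanSpace ℝ (Fin d))) (hS : MeasurableSet S)
    (hSfin : volume S < ∞) (hSpos : 0 < (volume S).toReal) (R : ℝ) (hR : 0 < R)
    (hSR : S ⊆ Metric.closedBall 0 R) (g : EuclideanSpace ℝ (Fin d) → ℝ) (hg : Measurable g)
    (hb : ∀ x, |g x| ≤ 1 / 2) :
    ‖(∫ x in S, (1 + g x) • x) -
        ((volume S).toReal + ∫ x in S, g x) • (((volume S).toReal)⁻¹ • ∫ x in S, x)‖ ^ 2 ≤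
      4 * R ^ 2 * ((volume S).toReal * ∫ x in S, g x ^ 2) := by
  set v : ℝ := (volume S).toReal with hv
  set c : EuclideanSpace ℝ (Fin d) := v⁻¹ • ∫ x in S, x with hc
  have hnorm : ∀ x ∈ S, ‖x‖ ≤ R := fun x hx => by
    simpa [Metric.mem_closedBall, dist_zero_right] using hSR hx
  have hix : IntegrableOn (fun x : EuclideanSpace ℝ (Fin d) => x) S volume :=
    coreD_intOn S hS hSfin _ measurable_id.aestronglyMeasurable R hnorm
  have hig : IntegrableOn g S volume :=
    coreD_intOn S hS hSfin _ hg.aestronglyMeasurable (1 / 2)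
      (fun x _ => by rw [Real.norm_eq_abs]; exact hb x)
  have higx : IntegrableOn (fun x : EuclideanSpace ℝ (Fin d) => g x • x) S volume :=
    coreD_intOn S hS hSfin _ (hg.smul measurable_id).aestronglyMeasurable (1 / 2 * R)
      (fun x hx => by
        rw [norm_smul, Real.norm_eq_abs]
        exact mul_le_mul (hb x) (hnorm x hx) (norm_nonneg _) (by norm_num))
  have hcR : ‖c‖ ≤ R := by
    rw [hc, norm_smul, Real.norm_eq_abs, abs_of_pos (inv_pos.mpr hSpos)]
    have h1 : ‖∫ x in S, x‖ ≤ R * v := by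
      have := norm_setIntegral_le_of_norm_le_const (μ := volume) hSfin hnorm
      rwa [measureReal_def] at this
    calc v⁻¹ * ‖∫ x in S, x‖ ≤ v⁻¹ * (R * v) :=
          mul_le_mul_of_nonneg_left h1 (inv_pos.mpr hSpos).le
      _ = R := by field_simp
  -- rewrite the difference as a single integral
  have e1 : (∫ x in S, (1 + g x) • x) = (∫ x in S, x) + ∫ x in S, g x • x := by
    rw [← integral_add hix higx]
    apply integral_congr_ae
    exact Eventually.of_forall (fun x => by simp [add_smul])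
  have e2 : (v + ∫ x in S, g x) • c = (∫ x in S, x) + ∫ x in S, g x • c := by
    rw [add_smul, integral_smul_const]
    congr 1
    rw [hc, smul_smul, mul_inv_cancel₀ hSpos.ne', one_smul]
  have e3 : (∫ x in S, (1 + g x) • x) - (v + ∫ x in S, g x) • c =
      ∫ x in S, g x • (x - c) := by
    rw [e1, e2, add_sub_add_left_eq_sub, ← integral_sub higx (hig.smul_const c)]
    apply integral_congr_ae
    exact Eventually.of_forall (fun x => by simp [smul_sub])
  rw [e3]
  have hbound : ‖∫ x in S, g x • (x - c)‖ ≤ 2 * R * ∫ x in S, |g x| := by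
    have hi1 : IntegrableOn (fun x => |g x|) S volume :=
      coreD_intOn S hS hSfin _ hg.abs.aestronglyMeasurable (1 / 2)
        (fun x _ => by rw [Real.norm_eq_abs, abs_abs]; exact hb x)
    calc ‖∫ x in S, g x • (x - c)‖ ≤ ∫ x in S, ‖g x • (x - c)‖ := norm_integral_le_integral_norm _
      _ ≤ ∫ x in S, 2 * R * |g x| := by
          apply setIntegral_mono_on _ (hi1.const_mul (2 * R)) hS
          · intro x hx
            rw [norm_smul, Real.norm_eq_abs]
            have h1 : ‖x - c‖ ≤ 2 * R := by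
              calc ‖x - c‖ ≤ ‖x‖ + ‖c‖ := norm_sub_le _ _
                _ ≤ R + R := add_le_add (hnorm x hx) hcR
                _ = 2 * R := by ring
            calc |g x| * ‖x - c‖ ≤ |g x| * (2 * R) :=
                  mul_le_mul_of_nonneg_left h1 (abs_nonneg _)
              _ = 2 * R * |g x| := by ring
          · exact (higx.sub (hig.smul_const c) |>.norm).congr
              (Eventually.of_forall (fun x => by simp [smul_sub]))
      _ = 2 * R * ∫ x in S, |g x| := integral_const_mul _ _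
  have hcs := coreD_cs S hS hSfin g hg hb
  have hI0 : 0 ≤ ∫ x in S, |g x| := integral_nonneg (fun x => abs_nonneg _)
  calc ‖∫ x in S, g x • (x - c)‖ ^ 2 ≤ (2 * R * ∫ x in S, |g x|) ^ 2 :=
        pow_le_pow_left₀ (norm_nonneg _) hbound 2
    _ = 4 * R ^ 2 * (∫ x in S, |g x|) ^ 2 := by ring
    _ ≤ 4 * R ^ 2 * (v * ∫ x in S, g x ^ 2) :=
        mul_le_mul_of_nonneg_left hcs (by positivity)

/-- Pure algebra: assembling the per-cell estimates. -/
private theorem coreD_assemble (R : ℝ) (hR : 0 < R) (Vr : ℝ) (hV : 0 < Vr) (T : ℝ)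
    (m vB Γ G2 : ι → ℝ) (hm : ∀ i, 0 < m i) (hG2 : ∀ i, 0 ≤ G2 i)
    (hmass : ∀ i, Vr * m i = vB i + Γ i) (hΓ : ∀ i, Γ i ^ 2 ≤ vB i * G2 i)
    (hvB : ∀ i, vB i ≤ 2 * (Vr * m i))
    (b1 b0 c1 : ι → EuclideanSpace ℝ (Fin d))
    (hcell : ∀ i, ‖(Vr * m i) • (b1 i - c1 i)‖ ^ 2 ≤ 4 * R ^ 2 * (vB i * G2 i))
    (hG : ∑ i, (Vr * m i) * ‖c1 i - b0 i‖ ^ 2 ≤
      59 * R ^ 2 * ∑ i, (Vr * m i) * (vB i / (Vr * m i) - 1) ^ 2)
    (hsum : ∑ i, G2 i ≤ Vr * T) :
    ∑ i, m i * ‖b1 i - b0 i‖ ^ 2 ≤ 300 * R ^ 2 * T := by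
  have hX : ∀ i, 0 < Vr * m i := fun i => mul_pos hV (hm i)
  have hR2 : 0 ≤ R ^ 2 := sq_nonneg R
  -- (a)
  have ha : ∀ i, (Vr * m i) * ‖b1 i - c1 i‖ ^ 2 ≤ 8 * R ^ 2 * G2 i := by
    intro i
    have h1 := hcell i
    rw [norm_smul, Real.norm_eq_abs, abs_of_pos (hX i), mul_pow] at h1
    have h2 : 4 * R ^ 2 * (vB i * G2 i) ≤ 4 * R ^ 2 * (2 * (Vr * m i) * G2 i) :=
      mul_le_mul_of_nonneg_left (mul_le_mul_of_nonneg_right (hvB i) (hG2 i)) (by positivity)
    have h3 : (Vr * m i) * ((Vr * m i) * ‖b1 i - c1 i‖ ^ 2) ≤ (Vr * m i) * (8 * R ^ 2 * G2 i) := by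
      calc (Vr * m i) * ((Vr * m i) * ‖b1 i - c1 i‖ ^ 2)
          = (Vr * m i) ^ 2 * ‖b1 i - c1 i‖ ^ 2 := by ring
        _ ≤ 4 * R ^ 2 * (vB i * G2 i) := h1
        _ ≤ 4 * R ^ 2 * (2 * (Vr * m i) * G2 i) := h2
        _ = (Vr * m i) * (8 * R ^ 2 * G2 i) := by ring
    exact le_of_mul_le_mul_left h3 (hX i)
  -- (b)
  have hb : ∀ i, (Vr * m i) * (vB i / (Vr * m i) - 1) ^ 2 ≤ 2 * G2 i := by
    intro i
    have e : (Vr * m i) * (vB i / (Vr * m i) - 1) ^ 2 = Γ i ^ 2 / (Vr * m i) := by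
      have hne := (hX i).ne'
      have : vB i = Vr * m i - Γ i := by linarith [hmass i]
      rw [this]
      have gen : ∀ X G : ℝ, X ≠ 0 → X * ((X - G) / X - 1) ^ 2 = G ^ 2 / X := by
        intro X G hXne
        field_simp
        ring
      exact gen _ _ hne
    rw [e, div_le_iff₀ (hX i)]
    calc Γ i ^ 2 ≤ vB i * G2 i := hΓ i
      _ ≤ 2 * (Vr * m i) * G2 i := mul_le_mul_of_nonneg_right (hvB i) (hG2 i)
      _ = 2 * G2 i * (Vr * m i) := by ring
  have hG' : ∑ i, (Vr * m i) * ‖c1 i - b0 i‖ ^ 2 ≤ 118 * R ^ 2 * ∑ i, G2 i := by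
    calc ∑ i, (Vr * m i) * ‖c1 i - b0 i‖ ^ 2
        ≤ 59 * R ^ 2 * ∑ i, (Vr * m i) * (vB i / (Vr * m i) - 1) ^ 2 := hG
      _ ≤ 59 * R ^ 2 * ∑ i, 2 * G2 i :=
          mul_le_mul_of_nonneg_left (Finset.sum_le_sum (fun i _ => hb i)) (by positivity)
      _ = 118 * R ^ 2 * ∑ i, G2 i := by rw [← Finset.mul_sum]; ring
  -- pointwise
  have hpt : ∀ i, (Vr * m i) * ‖b1 i - b0 i‖ ^ 2 ≤
      2 * ((Vr * m i) * ‖c1 i - b0 i‖ ^ 2) + 16 * R ^ 2 * G2 i := by
    intro i
    have htri : ‖b1 i - b0 i‖ ≤ ‖b1 i - c1 i‖ + ‖c1 i - b0 i‖ := by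
      have : b1 i - b0 i = (b1 i - c1 i) + (c1 i - b0 i) := by abel
      rw [this]; exact norm_add_le _ _
    have hsq : ‖b1 i - b0 i‖ ^ 2 ≤ 2 * ‖b1 i - c1 i‖ ^ 2 + 2 * ‖c1 i - b0 i‖ ^ 2 := by
      have h0 := norm_nonneg (b1 i - b0 i)
      have h1 := norm_nonneg (b1 i - c1 i)
      have h2 := norm_nonneg (c1 i - b0 i)
      nlinarith [sq_nonneg (‖b1 i - c1 i‖ - ‖c1 i - b0 i‖)]
    calc (Vr * m i) * ‖b1 i - b0 i‖ ^ 2
        ≤ (Vr * m i) * (2 * ‖b1 i - c1 i‖ ^ 2 + 2 * ‖c1 i - b0 i‖ ^ 2) :=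
          mul_le_mul_of_nonneg_left hsq (hX i).le
      _ = 2 * ((Vr * m i) * ‖c1 i - b0 i‖ ^ 2) + 2 * ((Vr * m i) * ‖b1 i - c1 i‖ ^ 2) := by ring
      _ ≤ 2 * ((Vr * m i) * ‖c1 i - b0 i‖ ^ 2) + 2 * (8 * R ^ 2 * G2 i) := by
          linarith [ha i]
      _ = 2 * ((Vr * m i) * ‖c1 i - b0 i‖ ^ 2) + 16 * R ^ 2 * G2 i := by ring
  have hS0 : 0 ≤ ∑ i, G2 i := Finset.sum_nonneg (fun i _ => hG2 i)
  have htot : Vr * ∑ i, m i * ‖b1 i - b0 i‖ ^ 2 ≤ Vr * (300 * R ^ 2 * T) := by
    calc Vr * ∑ i, m i * ‖b1 i - b0 i‖ ^ 2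
        = ∑ i, (Vr * m i) * ‖b1 i - b0 i‖ ^ 2 := by
          rw [Finset.mul_sum]; exact Finset.sum_congr rfl (fun i _ => by ring)
      _ ≤ ∑ i, (2 * ((Vr * m i) * ‖c1 i - b0 i‖ ^ 2) + 16 * R ^ 2 * G2 i) :=
          Finset.sum_le_sum (fun i _ => hpt i)
      _ = 2 * ∑ i, (Vr * m i) * ‖c1 i - b0 i‖ ^ 2 + 16 * R ^ 2 * ∑ i, G2 i := by
          rw [Finset.sum_add_distrib, ← Finset.mul_sum, ← Finset.mul_sum]
      _ ≤ 2 * (118 * R ^ 2 * ∑ i, G2 i) + 16 * R ^ 2 * ∑ i, G2 i := by linarith [hG']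
      _ = 252 * R ^ 2 * ∑ i, G2 i := by ring
      _ ≤ 300 * R ^ 2 * ∑ i, G2 i := by nlinarith
      _ ≤ 300 * R ^ 2 * (Vr * T) := mul_le_mul_of_nonneg_left hsum (by positivity)
      _ = Vr * (300 * R ^ 2 * T) := by ring
  exact le_of_mul_le_mul_left htot hV

/-- The dual estimate (D) (job CORE-D): barycentric projections of the optimal semi-discrete plans
for the sources `uniformProbOn K` and `rhoG K g` differ by at most `C R ‖g‖_{L²}` in `ℓ²(m)`.
Proof: `core_G`; relative volume change `r i = -(∫_{B i} g dρ)/m i` so `∑ m r² ≤ 2 ∫ g²`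
(Cauchy–Schwarz, `ρ (B i) ≤ 2 m i`); the `rhoG`-barycentre of `B i` differs from its Lebesgue
barycentre by `(∫_{B i} (x - bary) g dρ)/m i`, again Cauchy–Schwarz. -/
theorem core_D [Nonempty ι] (K : Set (EuclideanSpace ℝ (Fin d))) (hKc : IsCompact K)
    (hKv : Convex ℝ K) (hKi : (interior K).Nonempty) (R : ℝ) (hR : 0 < R)
    (hKR : K ⊆ Metric.closedBall 0 R) (g : EuclideanSpace ℝ (Fin d) → ℝ) (hg : IsPert K g)
    (y : ι → EuclideanSpace ℝ (Fin d)) (hy : Function.Injective y)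
    (m : ι → ℝ) (hm : ∀ i, 0 < m i) (hsum : ∑ i, m i = 1) (ψ0 ψ1 : ι → ℝ)
    (h0 : IsLagOpt (uniformProbOn K) y m ψ0) (h1 : IsLagOpt (rhoG K g) y m ψ1) :
    ∑ i, m i * ‖lagBary (rhoG K g) y ψ1 m i - lagBary (uniformProbOn K) y ψ0 m i‖ ^ 2 ≤
      300 * R ^ 2 * ∫ x, g x ^ 2 ∂(uniformProbOn K) := by
  have hKm : MeasurableSet K := hKc.measurableSet
  have hKfin : volume K < ∞ := hKc.measure_lt_top
  have hV0 : volume K ≠ 0 := by
    have h1 : 0 < volume (interior K) := isOpen_interior.measure_pos volume hKi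
    exact (lt_of_lt_of_le h1 (measure_mono interior_subset)).ne'
  have hVpos : 0 < (volume K).toReal := ENNReal.toReal_pos hV0 hKfin.ne
  have hAm : ∀ i, MeasurableSet (lagCellS y ψ0 i) := fun i => lag_measurableSet_cellS _ _ _
  have hBm : ∀ i, MeasurableSet (lagCellS y ψ1 i) := fun i => lag_measurableSet_cellS _ _ _
  have hSm : ∀ i, MeasurableSet (K ∩ lagCellS y ψ1 i) := fun i => hKm.inter (hBm i)
  have hSfin : ∀ i, volume (K ∩ lagCellS y ψ1 i) < ∞ :=
    fun i => lt_of_le_of_lt (measure_mono Set.inter_subset_left) hKfin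
  have hSR : ∀ i, K ∩ lagCellS y ψ1 i ⊆ Metric.closedBall 0 R :=
    fun i => Set.inter_subset_left.trans hKR
  have hgb := hg.bdd
  have hgm := hg.meas
  have hig : ∀ i, IntegrableOn g (K ∩ lagCellS y ψ1 i) volume := fun i =>
    coreD_intOn _ (hSm i) (hSfin i) _ hgm.aestronglyMeasurable (1 / 2)
      (fun x _ => by rw [Real.norm_eq_abs]; exact hgb x)
  have hig2 : ∀ S : Set (EuclideanSpace ℝ (Fin d)), MeasurableSet S → volume S < ∞ →
      IntegrableOn (fun x => g x ^ 2) S volume := fun S hS hSf =>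
    coreD_intOn S hS hSf _ (hgm.pow_const 2).aestronglyMeasurable (1 / 4)
      (fun x _ => by
        rw [Real.norm_eq_abs, abs_pow]
        have h0 := abs_nonneg (g x)
        have h1 := hgb x
        nlinarith)
  -- volumes of the cells of ψ0
  have hvA : ∀ i, (volume (K ∩ lagCellS y ψ0 i)).toReal = (volume K).toReal * m i := by
    intro i
    have h := h0 i
    have happ : uniformProbOn K (lagCellS y ψ0 i) =
        (volume K)⁻¹ * volume (K ∩ lagCellS y ψ0 i) := by
      unfold uniformProbOn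
      rw [Measure.smul_apply, Measure.restrict_apply (hAm i), smul_eq_mul, Set.inter_comm]
    rw [happ] at h
    have h2 := congrArg ENNReal.toReal h
    rw [ENNReal.toReal_mul, ENNReal.toReal_inv, ENNReal.toReal_ofReal (hm i).le] at h2
    rw [← h2]
    field_simp
  -- mass identity for the cells of ψ1
  have hmass : ∀ i, (volume K).toReal * m i =
      (volume (K ∩ lagCellS y ψ1 i)).toReal + ∫ x in K ∩ lagCellS y ψ1 i, g x := by
    intro i
    have h := h1 i
    have e1 : (rhoG K g (lagCellS y ψ1 i)).toReal =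
        ∫ x in lagCellS y ψ1 i, (1 + g x) ∂(uniformProbOn K) := by
      have hr := rhoG_integral K g hg ((lagCellS y ψ1 i).indicator 1)
      rw [integral_indicator_one (hBm i), measureReal_def] at hr
      rw [hr, ← integral_indicator (hBm i)]
      apply integral_congr_ae
      refine Eventually.of_forall (fun x => ?_)
      by_cases hx : x ∈ lagCellS y ψ1 i
      · simp [Set.indicator_of_mem hx]
      · simp [Set.indicator_of_notMem hx]
    rw [coreD_setIntegral_unif K _ (hBm i)] at e1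
    have hic : IntegrableOn (fun _ : EuclideanSpace ℝ (Fin d) => (1 : ℝ))
        (K ∩ lagCellS y ψ1 i) volume := integrableOn_const (hSfin i).ne
    rw [h, ENNReal.toReal_ofReal (hm i).le,
      integral_add hic (hig i), setIntegral_const, measureReal_def,
      smul_eq_mul, smul_eq_mul, mul_one] at e1
    rw [e1]
    field_simp
  have hΓb : ∀ i, |∫ x in K ∩ lagCellS y ψ1 i, g x| ≤
      1 / 2 * (volume (K ∩ lagCellS y ψ1 i)).toReal := by
    intro i
    have := norm_setIntegral_le_of_norm_le_const (μ := volume) (f := g) (hSfin i)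
      (C := 1 / 2) (fun x _ => by rw [Real.norm_eq_abs]; exact hgb x)
    rwa [measureReal_def, Real.norm_eq_abs] at this
  have hvBu : ∀ i, (volume (K ∩ lagCellS y ψ1 i)).toReal ≤ 2 * ((volume K).toReal * m i) := by
    intro i
    have h1 := abs_le.mp (hΓb i)
    linarith [hmass i]
  have hvBl : ∀ i, 2 / 3 * ((volume K).toReal * m i) ≤ (volume (K ∩ lagCellS y ψ1 i)).toReal := by
    intro i
    have h1 := abs_le.mp (hΓb i)
    linarith [hmass i]
  have hX : ∀ i, 0 < (volume K).toReal * m i := fun i => mul_pos hVpos (hm i)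
  have hvBpos : ∀ i, 0 < (volume (K ∩ lagCellS y ψ1 i)).toReal := fun i => by
    linarith [hvBl i, hX i]
  -- barycentres
  have hb0 : ∀ i, lagBary (uniformProbOn K) y ψ0 m i =
      ((volume (K ∩ lagCellS y ψ0 i)).toReal)⁻¹ • ∫ x in K ∩ lagCellS y ψ0 i, x := by
    intro i
    unfold lagBary
    rw [coreD_setIntegral_unif K _ (hAm i), smul_smul, hvA i, mul_inv_rev]
  have hb1 : ∀ i, ((volume K).toReal * m i) • lagBary (rhoG K g) y ψ1 m i =
      ∫ x in K ∩ lagCellS y ψ1 i, (1 + g x) • x := by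
    intro i
    unfold lagBary
    rw [rhoG_integral_vec K g hg (fun x => x) _ (hBm i), coreD_setIntegral_unif K _ (hBm i),
      smul_smul, smul_smul]
    have : (volume K).toReal * m i * (m i)⁻¹ * ((volume K).toReal)⁻¹ = 1 := by
      have := (hm i).ne'
      have := hVpos.ne'
      field_simp
    rw [this, one_smul]
  -- apply the algebraic assembly
  refine coreD_assemble R hR (volume K).toReal hVpos (∫ x, g x ^ 2 ∂(uniformProbOn K)) m
    (fun i => (volume (K ∩ lagCellS y ψ1 i)).toReal)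
    (fun i => ∫ x in K ∩ lagCellS y ψ1 i, g x)
    (fun i => ∫ x in K ∩ lagCellS y ψ1 i, g x ^ 2) hm
    (fun i => integral_nonneg (fun x => sq_nonneg _)) hmass ?_ hvBu
    (fun i => lagBary (rhoG K g) y ψ1 m i) (fun i => lagBary (uniformProbOn K) y ψ0 m i)
    (fun i => ((volume (K ∩ lagCellS y ψ1 i)).toReal)⁻¹ • ∫ x in K ∩ lagCellS y ψ1 i, x)
    ?_ ?_ ?_
  · -- Γ² ≤ vB * G2
    intro i
    have hcs := coreD_cs _ (hSm i) (hSfin i) g hgm hgb
    have h1 : |∫ x in K ∩ lagCellS y ψ1 i, g x| ≤ ∫ x in K ∩ lagCellS y ψ1 i, |g x| :=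
      abs_integral_le_integral_abs
    calc (∫ x in K ∩ lagCellS y ψ1 i, g x) ^ 2 = |∫ x in K ∩ lagCellS y ψ1 i, g x| ^ 2 :=
          (sq_abs _).symm
      _ ≤ (∫ x in K ∩ lagCellS y ψ1 i, |g x|) ^ 2 := pow_le_pow_left₀ (abs_nonneg _) h1 2
      _ ≤ _ := hcs
  · -- cell estimate
    intro i
    have hc := coreD_cell _ (hSm i) (hSfin i) (hvBpos i) R hR (hSR i) g hgm hgb
    rw [smul_sub, hb1 i, hmass i]
    exact hc
  · -- core_G
    have hA : ∀ i, 0 < volume (K ∩ lagCellS y ψ0 i) := by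
      intro i
      have : 0 < (volume (K ∩ lagCellS y ψ0 i)).toReal := by rw [hvA i]; exact hX i
      exact ENNReal.toReal_pos_iff.mp this |>.1
    have hAB : ∀ i, (volume (K ∩ lagCellS y ψ0 i)).toReal / 2 ≤
        (volume (K ∩ lagCellS y ψ1 i)).toReal := by
      intro i
      rw [hvA i]
      linarith [hvBl i, hX i]
    have hG := core_G K hKc hKv R hR hKR y hy ψ0 ψ1 hA hAB
    simp only [hvA] at hG
    simp only [hb0, hvA]
    exact hG
  · -- ∑ G2 ≤ Vr * T
    rw [coreD_integral_unif K, smul_eq_mul, ← mul_assoc, mul_inv_cancel₀ hVpos.ne', one_mul,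
      ← integral_iUnion_fintype hSm (core_lag_disjoint K y ψ1) (fun i => hig2 _ (hSm i) (hSfin i))]
    apply setIntegral_mono_set (hig2 K hKm hKfin)
    · exact Eventually.of_forall (fun x => sq_nonneg _)
    · exact (Set.iUnion_subset (fun i => Set.inter_subset_left)).eventuallyLE

end Crest.Agent.S0109
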