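import Crest.Agent.S0109.CoreAlg

/-!
Row 82 (S0109) job CORE-G. Statement FROZEN; one owner (helper41).

`core_G` is derived from `core_Gprime` (job CORE-ALG) with two families of tilts:
* dilation `α i x = -(s i/2)‖x‖²`, `β i x = s i/(2(1+s i)) ‖x‖²`, `s i = D i/(4R²)`, where `D i` is the
  difference of the cell averages of `‖x‖²`; it gives `∑ a D² ≤ 361 R⁴ ∑ a r²`;
* translation `α i x = -⟪λ i, x⟫`, `β i x = ⟪λ i, x⟫ - ‖λ i‖²/2`, `λ i` = barycentre shift.
The purely algebraic part is `coreG_alg`; the integral computations are `coreG_dil` / `coreG_tra`.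
-/

set_option autoImplicit false
open MeasureTheory Filter
open scoped ENNReal NNReal Topology
open Crest.AnalysisR.OT

namespace Crest.Agent.S0109

variable {d : ℕ} {ι : Type} [Fintype ι]

/-- `log (1 - x) ≥ -x - x²` for `0 < x ≤ 1/2`. -/
private lemma coreG_log_aux (x : ℝ) (hx0 : 0 < x) (hx1 : x ≤ 1 / 2) :
    -x - x ^ 2 ≤ Real.log (1 - x) := by
  have habs : |x| < 1 := by
    rw [abs_of_pos hx0]
    linarith
  have h := Real.abs_log_sub_add_sum_range_le habs 4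
  rw [abs_of_pos hx0] at h
  have h6 := (abs_le.mp h).1
  simp only [Finset.sum_range_succ, Finset.sum_range_zero] at h6
  norm_num at h6
  have h5 : x ^ 5 / (1 - x) ≤ 2 * x ^ 5 := by
    rw [div_le_iff₀ (by linarith)]
    nlinarith [mul_nonneg (pow_pos hx0 5).le (show (0 : ℝ) ≤ 1 - 2 * x by linarith)]
  have hp5 : x ^ 5 ≤ (1 / 2) ^ 3 * x ^ 2 := by
    have : x ^ 5 = x ^ 3 * x ^ 2 := by ring
    rw [this]
    exact mul_le_mul_of_nonneg_right (pow_le_pow_left₀ hx0.le hx1 3) (sq_nonneg _)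
  have hp4 : x ^ 4 ≤ (1 / 2) ^ 2 * x ^ 2 := by
    have : x ^ 4 = x ^ 2 * x ^ 2 := by ring
    rw [this]
    exact mul_le_mul_of_nonneg_right (pow_le_pow_left₀ hx0.le hx1 2) (sq_nonneg _)
  have hp3 : x ^ 3 ≤ (1 / 2) * x ^ 2 := by
    have : x ^ 3 = x * x ^ 2 := by ring
    rw [this]
    exact mul_le_mul_of_nonneg_right hx1 (sq_nonneg _)
  linarith [sq_nonneg x]

/-- `r - log (1 + r) ≤ r²` for `r ≥ -1/2`. -/
private lemma coreG_log_bound (r : ℝ) (hr : -1 / 2 ≤ r) : r - Real.log (1 + r) ≤ r ^ 2 := by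
  rcases le_or_gt 0 r with h0 | h0
  · have h1 : 0 < 1 + r := by linarith
    have h2 := Real.one_sub_inv_le_log_of_pos h1
    have h3 : (1 + r)⁻¹ ≤ 1 - r + r ^ 2 := by
      rw [inv_le_iff_one_le_mul₀ h1]
      nlinarith [pow_nonneg h0 3]
    linarith
  · have h := coreG_log_aux (-r) (by linarith) (by linarith)
    have e1 : (1 : ℝ) - -r = 1 + r := by ring
    have e2 : (-r) ^ 2 = r ^ 2 := by ring
    rw [e1, e2] at h
    linarith

/-- Pointwise inequality for the dilation pair. -/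
private lemma coreG_dil_ineq (s : ℝ) (hs : |s| ≤ 1 / 4) (x x' : EuclideanSpace ℝ (Fin d)) :
    -(s / 2) * ‖x‖ ^ 2 + s / (2 * (1 + s)) * ‖x'‖ ^ 2 ≤ ‖x - x'‖ ^ 2 / 2 := by
  have hs1 : 0 < 1 + s := by
    have := (abs_le.mp hs).1
    linarith
  have h := sq_nonneg ‖(1 + s) • x - x'‖
  rw [norm_sub_sq_real, norm_smul, inner_smul_left, Real.norm_eq_abs, mul_pow, sq_abs] at h
  simp only [RCLike.conj_to_real] at h
  rw [norm_sub_sq_real, ← sub_nonneg]
  have e : (‖x‖ ^ 2 - 2 * inner ℝ x x' + ‖x'‖ ^ 2) / 2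
      - (-(s / 2) * ‖x‖ ^ 2 + s / (2 * (1 + s)) * ‖x'‖ ^ 2)
      = ((1 + s) ^ 2 * ‖x‖ ^ 2 - 2 * ((1 + s) * inner ℝ x x') + ‖x'‖ ^ 2) / (2 * (1 + s)) := by
    field_simp
    ring
  rw [e]
  exact div_nonneg h (by linarith)

/-- Pointwise inequality for the translation pair. -/
private lemma coreG_tra_ineq (l x x' : EuclideanSpace ℝ (Fin d)) :
    -(inner ℝ l x) + (inner ℝ l x' - ‖l‖ ^ 2 / 2) ≤ ‖x - x'‖ ^ 2 / 2 := by
  have h := sq_nonneg ‖l - (x' - x)‖
  rw [norm_sub_sq_real, inner_sub_right] at h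
  have e : ‖x' - x‖ = ‖x - x'‖ := norm_sub_rev _ _
  rw [e] at h
  linarith

/-- Integral facts on a measurable subset of the ball. -/
private lemma coreG_int (R : ℝ) (S : Set (EuclideanSpace ℝ (Fin d)))
    (hS : MeasurableSet S) (hSR : S ⊆ Metric.closedBall 0 R) :
    IntegrableOn (fun x : EuclideanSpace ℝ (Fin d) => ‖x‖ ^ 2) S volume ∧
    IntegrableOn (fun x : EuclideanSpace ℝ (Fin d) => x) S volume ∧
    0 ≤ ∫ x in S, ‖x‖ ^ 2 ∧ ∫ x in S, ‖x‖ ^ 2 ≤ R ^ 2 * (volume S).toReal ∧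
    ‖∫ x in S, x‖ ≤ R * (volume S).toReal ∧
    ∫ x in S, (20 * R ^ 2 - ‖x‖ ^ 2 / 2) = 20 * R ^ 2 * (volume S).toReal - (∫ x in S, ‖x‖ ^ 2) / 2 := by
  have hfin : volume S < ∞ := lt_of_le_of_lt (measure_mono hSR) measure_closedBall_lt_top
  have hnorm : ∀ x ∈ S, ‖x‖ ≤ R := fun x hx => by simpa using hSR hx
  have hsq : ∀ x ∈ S, 0 ≤ ‖x‖ ^ 2 ∧ ‖x‖ ^ 2 ≤ R ^ 2 := fun x hx =>
    ⟨sq_nonneg _, pow_le_pow_left₀ (norm_nonneg _) (hnorm x hx) 2⟩
  have i1 : IntegrableOn (fun x : EuclideanSpace ℝ (Fin d) => ‖x‖ ^ 2) S volume :=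
    core_integrableOn R S hS hSR _ (by fun_prop) (R ^ 2) (fun x hx => by
      rw [abs_of_nonneg (hsq x hx).1]
      exact (hsq x hx).2)
  have i2 : IntegrableOn (fun x : EuclideanSpace ℝ (Fin d) => x) S volume := by
    refine Measure.integrableOn_of_bounded hfin.ne measurable_id.aestronglyMeasurable (M := R) ?_
    rw [ae_restrict_iff' hS]
    exact Filter.Eventually.of_forall (fun x hx => hnorm x hx)
  have hb := core_integral_bounds R S hS hSR (fun x => ‖x‖ ^ 2) (by fun_prop) 0 (R ^ 2) hsq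
  refine ⟨i1, i2, ?_, ?_, ?_, ?_⟩
  · simpa using hb.1
  · simpa [measureReal_def] using hb.2
  · simpa [measureReal_def] using norm_setIntegral_le_of_norm_le_const hfin hnorm
  · have ic : IntegrableOn (fun _ : EuclideanSpace ℝ (Fin d) => 20 * R ^ 2) S volume :=
      integrableOn_const (hs := hfin.ne)
    rw [integral_sub ic (i1.div_const 2), setIntegral_const, integral_div, measureReal_def,
      smul_eq_mul]
    ring

/-- Algebraic core of `core_G`. -/
private lemma coreG_alg (R : ℝ) (hR : 0 < R) (a b PA PB : ι → ℝ)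
    (IA IB : ι → EuclideanSpace ℝ (Fin d))
    (ha : ∀ i, 0 < a i) (hab : ∀ i, a i / 2 ≤ b i)
    (hPA0 : ∀ i, 0 ≤ PA i) (hPA : ∀ i, PA i ≤ R ^ 2 * a i)
    (hPB0 : ∀ i, 0 ≤ PB i) (hPB : ∀ i, PB i ≤ R ^ 2 * b i)
    (hIA : ∀ i, ‖IA i‖ ≤ R * a i) (hIB : ∀ i, ‖IB i‖ ≤ R * b i)
    (Gd : ∀ s : ι → ℝ, (∀ i, |s i| ≤ 1 / 4) →
      ∑ i, (-(s i / 2) * PA i + a i / b i * (s i / (2 * (1 + s i)) * PB i)) ≤
        ∑ i, ((1 - a i / b i) * (20 * R ^ 2 * b i - PB i / 2) -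
          Real.log (b i / a i) * (20 * R ^ 2 * a i - PA i / 2)))
    (Gt : ∀ l : ι → EuclideanSpace ℝ (Fin d), (∀ i, ‖l i‖ ≤ 2 * R) →
      ∑ i, (-(inner ℝ (l i) (IA i)) +
          a i / b i * (inner ℝ (l i) (IB i) - b i * (‖l i‖ ^ 2 / 2))) ≤
        ∑ i, ((1 - a i / b i) * (20 * R ^ 2 * b i - PB i / 2) -
          Real.log (b i / a i) * (20 * R ^ 2 * a i - PA i / 2))) :
    ∑ i, a i * ‖(b i)⁻¹ • IB i - (a i)⁻¹ • IA i‖ ^ 2 ≤
      59 * R ^ 2 * ∑ i, a i * (b i / a i - 1) ^ 2 := by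
  have hR2 : 0 < R ^ 2 := by positivity
  have hb : ∀ i, 0 < b i := fun i => by
    have := hab i
    have := ha i
    linarith
  -- cell averages of `‖x‖²` and their differences
  have hqA0 : ∀ i, 0 ≤ PA i / a i := fun i => div_nonneg (hPA0 i) (ha i).le
  have hqA : ∀ i, PA i / a i ≤ R ^ 2 := fun i => by
    rw [div_le_iff₀ (ha i)]
    exact hPA i
  have hqB0 : ∀ i, 0 ≤ PB i / b i := fun i => div_nonneg (hPB0 i) (hb i).le
  have hqB : ∀ i, PB i / b i ≤ R ^ 2 := fun i => by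
    rw [div_le_iff₀ (hb i)]
    exact hPB i
  set D : ι → ℝ := fun i => PB i / b i - PA i / a i with hD
  set r : ι → ℝ := fun i => b i / a i - 1 with hr
  have hr1 : ∀ i, -1 / 2 ≤ r i := fun i => by
    have h1 : (1 : ℝ) / 2 ≤ b i / a i := by
      rw [le_div_iff₀ (ha i)]
      have := hab i
      linarith
    simp only [hr]
    linarith
  -- bound of the right-hand side of (G')
  have hRHS : ∑ i, ((1 - a i / b i) * (20 * R ^ 2 * b i - PB i / 2) -
        Real.log (b i / a i) * (20 * R ^ 2 * a i - PA i / 2)) ≤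
      99 / 4 * R ^ 2 * (∑ i, a i * r i ^ 2) + (∑ i, a i * D i ^ 2) / (76 * R ^ 2) := by
    have e : 99 / 4 * R ^ 2 * (∑ i, a i * r i ^ 2) + (∑ i, a i * D i ^ 2) / (76 * R ^ 2)
        = ∑ i, a i * (99 / 4 * R ^ 2 * r i ^ 2 + D i ^ 2 / (76 * R ^ 2)) := by
      rw [Finset.mul_sum, Finset.sum_div, ← Finset.sum_add_distrib]
      apply Finset.sum_congr rfl
      intro i _
      ring
    rw [e]
    apply Finset.sum_le_sum
    intro i _
    have hai := ha i
    have hbi := hb i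
    have e1 : b i / a i = 1 + r i := by
      simp only [hr]
      ring
    have e2 : (1 - a i / b i) * (20 * R ^ 2 * b i - PB i / 2) -
        Real.log (b i / a i) * (20 * R ^ 2 * a i - PA i / 2)
        = a i * (r i * (20 * R ^ 2 - PA i / a i / 2 - D i / 2)
            - Real.log (1 + r i) * (20 * R ^ 2 - PA i / a i / 2)) := by
      rw [e1]
      simp only [hr, hD]
      field_simp
      ring
    rw [e2]
    apply mul_le_mul_of_nonneg_left _ hai.le
    have hl1 : r i - Real.log (1 + r i) ≤ r i ^ 2 := coreG_log_bound (r i) (hr1 i)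
    have hl2 : Real.log (1 + r i) ≤ r i := by
      have := Real.log_le_sub_one_of_pos (show (0 : ℝ) < 1 + r i by have := hr1 i; linarith)
      linarith
    have hW0 : 0 ≤ 20 * R ^ 2 - PA i / a i / 2 := by
      have := hqA i
      linarith
    have hW1 : 20 * R ^ 2 - PA i / a i / 2 ≤ 20 * R ^ 2 := by
      have := hqA0 i
      linarith
    -- `W (r - L) ≤ 20 R² r²`
    have h1 : (20 * R ^ 2 - PA i / a i / 2) * (r i - Real.log (1 + r i)) ≤ 20 * R ^ 2 * r i ^ 2 := by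
      calc (20 * R ^ 2 - PA i / a i / 2) * (r i - Real.log (1 + r i))
          ≤ (20 * R ^ 2) * (r i - Real.log (1 + r i)) :=
            mul_le_mul_of_nonneg_right hW1 (by linarith)
        _ ≤ 20 * R ^ 2 * r i ^ 2 := mul_le_mul_of_nonneg_left hl1 (by positivity)
    -- `- r D / 2 ≤ 19 R² r² / 4 + D² / (76 R²)`
    have h2 : -(r i * D i) / 2 ≤ 19 / 4 * R ^ 2 * r i ^ 2 + D i ^ 2 / (76 * R ^ 2) := by
      have h3 := sq_nonneg (19 * R ^ 2 * r i + D i)
      have e3 : 19 / 4 * R ^ 2 * r i ^ 2 + D i ^ 2 / (76 * R ^ 2) - -(r i * D i) / 2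
          = (19 * R ^ 2 * r i + D i) ^ 2 / (76 * R ^ 2) := by
        field_simp
        ring
      have h4 : 0 ≤ (19 * R ^ 2 * r i + D i) ^ 2 / (76 * R ^ 2) := div_nonneg h3 (by positivity)
      linarith
    have e4 : r i * (20 * R ^ 2 - PA i / a i / 2 - D i / 2)
          - Real.log (1 + r i) * (20 * R ^ 2 - PA i / a i / 2)
        = -(r i * D i) / 2 + (20 * R ^ 2 - PA i / a i / 2) * (r i - Real.log (1 + r i)) := by
      ring
    rw [e4]
    linarith
  -- dilation: `∑ a D² / (12 R²) ≤ RHS`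
  have hDb : ∀ i, |D i| ≤ R ^ 2 := fun i => by
    rw [abs_le]
    have h1 := hqA0 i
    have h2 := hqA i
    have h3 := hqB0 i
    have h4 := hqB i
    simp only [hD]
    constructor <;> linarith
  have hdil : (∑ i, a i * D i ^ 2) / (12 * R ^ 2) ≤
      ∑ i, ((1 - a i / b i) * (20 * R ^ 2 * b i - PB i / 2) -
        Real.log (b i / a i) * (20 * R ^ 2 * a i - PA i / 2)) := by
    have hs : ∀ i, |D i / (4 * R ^ 2)| ≤ 1 / 4 := fun i => by
      rw [abs_div, abs_of_pos (show (0 : ℝ) < 4 * R ^ 2 by positivity), div_le_iff₀ (by positivity)]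
      have := hDb i
      linarith
    refine le_trans ?_ (Gd (fun i => D i / (4 * R ^ 2)) hs)
    rw [Finset.sum_div]
    apply Finset.sum_le_sum
    intro i _
    have hai := ha i
    have hbi := hb i
    set s := D i / (4 * R ^ 2) with hsdef
    have hsi := abs_le.mp (hs i)
    have hs1 : 0 < 1 + s := by linarith [hsi.1]
    -- rewrite the summand
    have e1 : -(s / 2) * PA i + a i / b i * (s / (2 * (1 + s)) * PB i)
        = a i * (s * D i / 2 - s ^ 2 * (PB i / b i) / (2 * (1 + s))) := by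
      simp only [hD]
      field_simp
      ring
    rw [e1]
    have h1 : s ^ 2 * (PB i / b i) / (2 * (1 + s)) ≤ 2 / 3 * R ^ 2 * s ^ 2 := by
      rw [div_le_iff₀ (by linarith)]
      have h2 : s ^ 2 * (PB i / b i) ≤ s ^ 2 * R ^ 2 :=
        mul_le_mul_of_nonneg_left (hqB i) (sq_nonneg s)
      have h3 : 0 ≤ R ^ 2 * s ^ 2 := by positivity
      nlinarith [hsi.1]
    have e2 : s * D i / 2 - 2 / 3 * R ^ 2 * s ^ 2 = D i ^ 2 / (12 * R ^ 2) := by
      rw [hsdef]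
      field_simp
      ring
    have h4 : a i * D i ^ 2 / (12 * R ^ 2) = a i * (D i ^ 2 / (12 * R ^ 2)) := by ring
    rw [h4]
    apply mul_le_mul_of_nonneg_left _ hai.le
    linarith
  -- translation: `∑ a ‖Δ‖² / 2 ≤ RHS`
  have htra : (∑ i, a i * ‖(b i)⁻¹ • IB i - (a i)⁻¹ • IA i‖ ^ 2) / 2 ≤
      ∑ i, ((1 - a i / b i) * (20 * R ^ 2 * b i - PB i / 2) -
        Real.log (b i / a i) * (20 * R ^ 2 * a i - PA i / 2)) := by
    have hl : ∀ i, ‖(b i)⁻¹ • IB i - (a i)⁻¹ • IA i‖ ≤ 2 * R := fun i => by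
      have h1 : ‖(b i)⁻¹ • IB i‖ ≤ R := by
        rw [norm_smul, Real.norm_eq_abs, abs_of_pos (inv_pos.mpr (hb i)), inv_mul_le_iff₀ (hb i)]
        have := hIB i
        linarith [mul_comm R (b i)]
      have h2 : ‖(a i)⁻¹ • IA i‖ ≤ R := by
        rw [norm_smul, Real.norm_eq_abs, abs_of_pos (inv_pos.mpr (ha i)), inv_mul_le_iff₀ (ha i)]
        have := hIA i
        linarith [mul_comm R (a i)]
      have := norm_sub_le ((b i)⁻¹ • IB i) ((a i)⁻¹ • IA i)
      linarith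
    refine le_trans (le_of_eq ?_) (Gt (fun i => (b i)⁻¹ • IB i - (a i)⁻¹ • IA i) hl)
    rw [Finset.sum_div]
    apply Finset.sum_congr rfl
    intro i _
    have hai := (ha i).ne'
    have hbi := (hb i).ne'
    set l := (b i)⁻¹ • IB i - (a i)⁻¹ • IA i with hldef
    have e1 : inner ℝ l (IA i) = a i * inner ℝ l ((a i)⁻¹ • IA i) := by
      rw [inner_smul_right]
      field_simp
    have e2 : inner ℝ l (IB i) = b i * inner ℝ l ((b i)⁻¹ • IB i) := by
      rw [inner_smul_right]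
      field_simp
    have e3 : inner ℝ l ((b i)⁻¹ • IB i) - inner ℝ l ((a i)⁻¹ • IA i) = ‖l‖ ^ 2 := by
      rw [← inner_sub_right, ← hldef, real_inner_self_eq_norm_sq]
    rw [e1, e2]
    have e4 : a i / b i * (b i * inner ℝ l ((b i)⁻¹ • IB i) - b i * (‖l‖ ^ 2 / 2))
        = a i * (inner ℝ l ((b i)⁻¹ • IB i) - ‖l‖ ^ 2 / 2) := by
      field_simp
    rw [e4]
    linear_combination (-(a i)) * e3
  -- conclusion
  set Sr := ∑ i, a i * r i ^ 2 with hSr
  set SD := ∑ i, a i * D i ^ 2 with hSD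
  set SΔ := ∑ i, a i * ‖(b i)⁻¹ • IB i - (a i)⁻¹ • IA i‖ ^ 2 with hSΔ
  have hSr0 : 0 ≤ Sr := Finset.sum_nonneg (fun i _ => mul_nonneg (ha i).le (sq_nonneg _))
  have hSD0 : 0 ≤ SD := Finset.sum_nonneg (fun i _ => mul_nonneg (ha i).le (sq_nonneg _))
  have I1 : SD / (12 * R ^ 2) ≤ 99 / 4 * R ^ 2 * Sr + SD / (76 * R ^ 2) := le_trans hdil hRHS
  have I2 : SΔ / 2 ≤ 99 / 4 * R ^ 2 * Sr + SD / (76 * R ^ 2) := le_trans htra hRHS
  have e5 : SD / (12 * R ^ 2) = 76 / 12 * (SD / (76 * R ^ 2)) := by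
    field_simp
  rw [e5] at I1
  have hZ : 0 ≤ R ^ 2 * Sr := by positivity
  nlinarith

/-- Inequality (G) (job CORE-G): Lebesgue barycentres of the cells move by at most
`sqrt 59 * R` times the relative volume change, in weighted `ℓ²`.
Proof: `core_Gprime` with the dilation pair `α = -(s/2)‖x‖²`, `β = s‖x‖²/(2(1+s))`,
`s i = D i/(4R²)` (`D i` = difference of the cell averages of `‖x‖²`) gives
`∑ mA D² ≤ 361 R⁴ ∑ mA r²`; then with the translation pair `α = -⟪λ,x⟫`, `β = ⟪λ,x⟫ - ‖λ‖²/2`,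
`λ i` = barycentre shift, using `r - log (1+r) ≤ r²` for `r ≥ -1/2` and Cauchy–Schwarz. -/
theorem core_G [Nonempty ι] (K : Set (EuclideanSpace ℝ (Fin d))) (hKc : IsCompact K)
    (hKv : Convex ℝ K) (R : ℝ) (hR : 0 < R) (hKR : K ⊆ Metric.closedBall 0 R)
    (y : ι → EuclideanSpace ℝ (Fin d)) (hy : Function.Injective y) (ψ0 ψ1 : ι → ℝ)
    (hA : ∀ i, 0 < volume (K ∩ lagCellS y ψ0 i))
    (hAB : ∀ i, (volume (K ∩ lagCellS y ψ0 i)).toReal / 2 ≤
      (volume (K ∩ lagCellS y ψ1 i)).toReal) :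
    ∑ i, (volume (K ∩ lagCellS y ψ0 i)).toReal *
        ‖((volume (K ∩ lagCellS y ψ1 i)).toReal)⁻¹ • (∫ x in K ∩ lagCellS y ψ1 i, x) -
          ((volume (K ∩ lagCellS y ψ0 i)).toReal)⁻¹ • (∫ x in K ∩ lagCellS y ψ0 i, x)‖ ^ 2 ≤
      59 * R ^ 2 * ∑ i, (volume (K ∩ lagCellS y ψ0 i)).toReal *
        ((volume (K ∩ lagCellS y ψ1 i)).toReal / (volume (K ∩ lagCellS y ψ0 i)).toReal - 1) ^ 2 := by
  have hKm : MeasurableSet K := hKc.measurableSet
  have hKfin : volume K < ∞ := hKc.measure_lt_top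
  have hAm : ∀ i, MeasurableSet (K ∩ lagCellS y ψ0 i) :=
    fun i => hKm.inter (lag_measurableSet_cellS _ _ _)
  have hBm : ∀ i, MeasurableSet (K ∩ lagCellS y ψ1 i) :=
    fun i => hKm.inter (lag_measurableSet_cellS _ _ _)
  have hAR : ∀ i, K ∩ lagCellS y ψ0 i ⊆ Metric.closedBall 0 R :=
    fun i => Set.inter_subset_left.trans hKR
  have hBR : ∀ i, K ∩ lagCellS y ψ1 i ⊆ Metric.closedBall 0 R :=
    fun i => Set.inter_subset_left.trans hKR
  have hAfin : ∀ i, volume (K ∩ lagCellS y ψ0 i) < ∞ :=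
    fun i => lt_of_le_of_lt (measure_mono Set.inter_subset_left) hKfin
  have ha : ∀ i, 0 < (volume (K ∩ lagCellS y ψ0 i)).toReal :=
    fun i => ENNReal.toReal_pos (hA i).ne' (hAfin i).ne
  have hb : ∀ i, 0 < (volume (K ∩ lagCellS y ψ1 i)).toReal := fun i => by
    have := hAB i
    have := ha i
    linarith
  have hB : ∀ i, 0 < volume (K ∩ lagCellS y ψ1 i) := fun i => (ENNReal.toReal_pos_iff.mp (hb i)).1
  have hnormK : ∀ x ∈ K, ‖x‖ ≤ R := fun x hx => by simpa using hKR hx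
  have hR2 : 0 < R ^ 2 := by positivity
  have FA := fun i => coreG_int R (K ∩ lagCellS y ψ0 i) (hAm i) (hAR i)
  have FB := fun i => coreG_int R (K ∩ lagCellS y ψ1 i) (hBm i) (hBR i)
  refine coreG_alg R hR (fun i => (volume (K ∩ lagCellS y ψ0 i)).toReal)
    (fun i => (volume (K ∩ lagCellS y ψ1 i)).toReal)
    (fun i => ∫ x in K ∩ lagCellS y ψ0 i, ‖x‖ ^ 2) (fun i => ∫ x in K ∩ lagCellS y ψ1 i, ‖x‖ ^ 2)
    (fun i => ∫ x in K ∩ lagCellS y ψ0 i, x) (fun i => ∫ x in K ∩ lagCellS y ψ1 i, x)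
    ha hAB (fun i => (FA i).2.2.1) (fun i => (FA i).2.2.2.1) (fun i => (FB i).2.2.1)
    (fun i => (FB i).2.2.2.1) (fun i => (FA i).2.2.2.2.1) (fun i => (FB i).2.2.2.2.1) ?_ ?_
  · -- dilation pair
    intro s hs
    have hs1 : ∀ i, 0 < 1 + s i := fun i => by
      have := (abs_le.mp (hs i)).1
      linarith
    have key := core_Gprime K hKc hKv R hR hKR y hy ψ0 ψ1 hA hB
      (fun i x => -(s i / 2) * ‖x‖ ^ 2) (fun i x => s i / (2 * (1 + s i)) * ‖x‖ ^ 2)
      (fun i => by fun_prop) (fun i => by fun_prop)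
      (fun i x hx => by
        have h1 : ‖x‖ ^ 2 ≤ R ^ 2 := pow_le_pow_left₀ (norm_nonneg _) (hnormK x hx) 2
        rw [abs_mul, abs_neg, abs_div, abs_of_pos (show (0 : ℝ) < 2 by norm_num),
          abs_of_nonneg (sq_nonneg ‖x‖)]
        have h2 : |s i| / 2 ≤ 1 / 8 := by
          have := hs i
          linarith
        calc |s i| / 2 * ‖x‖ ^ 2 ≤ 1 / 8 * R ^ 2 :=
              mul_le_mul h2 h1 (sq_nonneg _) (by norm_num)
          _ ≤ 4 * R ^ 2 := by linarith)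
      (fun i x hx => by
        have h1 : ‖x‖ ^ 2 ≤ R ^ 2 := pow_le_pow_left₀ (norm_nonneg _) (hnormK x hx) 2
        have hsi := abs_le.mp (hs i)
        rw [abs_mul, abs_div, abs_of_pos (show (0 : ℝ) < 2 * (1 + s i) by linarith [hs1 i]),
          abs_of_nonneg (sq_nonneg ‖x‖)]
        have h2 : |s i| / (2 * (1 + s i)) ≤ 1 / 6 := by
          rw [div_le_iff₀ (by linarith [hs1 i])]
          have := hs i
          linarith
        calc |s i| / (2 * (1 + s i)) * ‖x‖ ^ 2 ≤ 1 / 6 * R ^ 2 :=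
              mul_le_mul h2 h1 (sq_nonneg _) (by norm_num)
          _ ≤ 4 * R ^ 2 := by linarith)
      (fun i x _ x' _ => coreG_dil_ineq (s i) (hs i) x x')
    have eL : ∀ i, (∫ x in K ∩ lagCellS y ψ0 i, -(s i / 2) * ‖x‖ ^ 2) +
          (volume (K ∩ lagCellS y ψ0 i)).toReal / (volume (K ∩ lagCellS y ψ1 i)).toReal *
            ∫ x in K ∩ lagCellS y ψ1 i, s i / (2 * (1 + s i)) * ‖x‖ ^ 2
        = -(s i / 2) * (∫ x in K ∩ lagCellS y ψ0 i, ‖x‖ ^ 2) +
          (volume (K ∩ lagCellS y ψ0 i)).toReal / (volume (K ∩ lagCellS y ψ1 i)).toReal *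
            (s i / (2 * (1 + s i)) * ∫ x in K ∩ lagCellS y ψ1 i, ‖x‖ ^ 2) := by
      intro i
      rw [integral_const_mul, integral_const_mul]
    have eR : ∀ i, (1 - (volume (K ∩ lagCellS y ψ0 i)).toReal /
            (volume (K ∩ lagCellS y ψ1 i)).toReal) *
          (∫ x in K ∩ lagCellS y ψ1 i, (20 * R ^ 2 - ‖x‖ ^ 2 / 2)) -
        Real.log ((volume (K ∩ lagCellS y ψ1 i)).toReal / (volume (K ∩ lagCellS y ψ0 i)).toReal) *
          ∫ x in K ∩ lagCellS y ψ0 i, (20 * R ^ 2 - ‖x‖ ^ 2 / 2)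
        = (1 - (volume (K ∩ lagCellS y ψ0 i)).toReal / (volume (K ∩ lagCellS y ψ1 i)).toReal) *
          (20 * R ^ 2 * (volume (K ∩ lagCellS y ψ1 i)).toReal -
            (∫ x in K ∩ lagCellS y ψ1 i, ‖x‖ ^ 2) / 2) -
        Real.log ((volume (K ∩ lagCellS y ψ1 i)).toReal / (volume (K ∩ lagCellS y ψ0 i)).toReal) *
          (20 * R ^ 2 * (volume (K ∩ lagCellS y ψ0 i)).toReal -
            (∫ x in K ∩ lagCellS y ψ0 i, ‖x‖ ^ 2) / 2) := by
      intro i
      rw [(FA i).2.2.2.2.2, (FB i).2.2.2.2.2]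
    rw [Finset.sum_congr rfl (fun i _ => eL i), Finset.sum_congr rfl (fun i _ => eR i)] at key
    exact key
  · -- translation pair
    intro l hl
    have key := core_Gprime K hKc hKv R hR hKR y hy ψ0 ψ1 hA hB
      (fun i x => -(inner ℝ (l i) x)) (fun i x => inner ℝ (l i) x - ‖l i‖ ^ 2 / 2)
      (fun i => by fun_prop) (fun i => by fun_prop)
      (fun i x hx => by
        rw [abs_neg]
        have h1 := abs_real_inner_le_norm (l i) x
        have h2 : ‖l i‖ * ‖x‖ ≤ 2 * R * R :=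
          mul_le_mul (hl i) (hnormK x hx) (norm_nonneg _) (by positivity)
        nlinarith)
      (fun i x hx => by
        have h1 := abs_real_inner_le_norm (l i) x
        have h2 : ‖l i‖ * ‖x‖ ≤ 2 * R * R :=
          mul_le_mul (hl i) (hnormK x hx) (norm_nonneg _) (by positivity)
        have h3 : ‖l i‖ ^ 2 ≤ (2 * R) ^ 2 := pow_le_pow_left₀ (norm_nonneg _) (hl i) 2
        have h4 := abs_le.mp h1
        rw [abs_le]
        constructor <;> nlinarith [sq_nonneg ‖l i‖])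
      (fun i x _ x' _ => coreG_tra_ineq (l i) x x')
    have eL : ∀ i, (∫ x in K ∩ lagCellS y ψ0 i, -(inner ℝ (l i) x)) +
          (volume (K ∩ lagCellS y ψ0 i)).toReal / (volume (K ∩ lagCellS y ψ1 i)).toReal *
            ∫ x in K ∩ lagCellS y ψ1 i, (inner ℝ (l i) x - ‖l i‖ ^ 2 / 2)
        = -(inner ℝ (l i) (∫ x in K ∩ lagCellS y ψ0 i, x)) +
          (volume (K ∩ lagCellS y ψ0 i)).toReal / (volume (K ∩ lagCellS y ψ1 i)).toReal *
            (inner ℝ (l i) (∫ x in K ∩ lagCellS y ψ1 i, x) -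
              (volume (K ∩ lagCellS y ψ1 i)).toReal * (‖l i‖ ^ 2 / 2)) := by
      intro i
      have hBfin : volume (K ∩ lagCellS y ψ1 i) < ∞ :=
        lt_of_le_of_lt (measure_mono Set.inter_subset_left) hKfin
      have iA := (FA i).2.1
      have iB := (FB i).2.1
      have ic : IntegrableOn (fun _ : EuclideanSpace ℝ (Fin d) => ‖l i‖ ^ 2 / 2)
          (K ∩ lagCellS y ψ1 i) volume := integrableOn_const (hs := hBfin.ne)
      have iin : IntegrableOn (fun x : EuclideanSpace ℝ (Fin d) => inner ℝ (l i) x)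
          (K ∩ lagCellS y ψ1 i) volume := iB.const_inner (l i)
      rw [integral_neg, integral_inner iA, integral_sub iin ic, integral_inner iB,
        setIntegral_const, measureReal_def, smul_eq_mul]
    have eR : ∀ i, (1 - (volume (K ∩ lagCellS y ψ0 i)).toReal /
            (volume (K ∩ lagCellS y ψ1 i)).toReal) *
          (∫ x in K ∩ lagCellS y ψ1 i, (20 * R ^ 2 - ‖x‖ ^ 2 / 2)) -
        Real.log ((volume (K ∩ lagCellS y ψ1 i)).toReal / (volume (K ∩ lagCellS y ψ0 i)).toReal) *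
          ∫ x in K ∩ lagCellS y ψ0 i, (20 * R ^ 2 - ‖x‖ ^ 2 / 2)
        = (1 - (volume (K ∩ lagCellS y ψ0 i)).toReal / (volume (K ∩ lagCellS y ψ1 i)).toReal) *
          (20 * R ^ 2 * (volume (K ∩ lagCellS y ψ1 i)).toReal -
            (∫ x in K ∩ lagCellS y ψ1 i, ‖x‖ ^ 2) / 2) -
        Real.log ((volume (K ∩ lagCellS y ψ1 i)).toReal / (volume (K ∩ lagCellS y ψ0 i)).toReal) *
          (20 * R ^ 2 * (volume (K ∩ lagCellS y ψ0 i)).toReal -
            (∫ x in K ∩ lagCellS y ψ0 i, ‖x‖ ^ 2) / 2) := by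
      intro i
      rw [(FA i).2.2.2.2.2, (FB i).2.2.2.2.2]
    rw [Finset.sum_congr rfl (fun i _ => eL i), Finset.sum_congr rfl (fun i _ => eR i)] at key
    exact key

end Crest.Agent.S0109
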