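import Crest.Agent.S0109.Cells
import Crest.Agent.S0109.PL

/-!
Row 82 (S0109) job CORE-PL. Statement FROZEN; one owner.
Proved (helper65): `core_pl_sum`, no sorry in this file; helper lemma `corepl_cell` (PL on one cell).
-/

set_option autoImplicit false
open MeasureTheory Filter
open scoped ENNReal NNReal Topology
open Crest.AnalysisR.OT

namespace Crest.Agent.S0109

variable {d : ℕ} {ι : Type} [Fintype ι]

/-- PL on one cell. -/
theorem corepl_cell (K : Set (EuclideanSpace ℝ (Fin d))) (hKc : IsCompact K) (hKv : Convex ℝ K)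
    (y : ι → EuclideanSpace ℝ (Fin d)) (ψ0 ψ1 : ι → ℝ) (t : ℝ) (ht0 : 0 < t) (ht1 : t < 1)
    (w : EuclideanSpace ℝ (Fin d) → ℝ) (a b : EuclideanSpace ℝ (Fin d) → ℝ) (i : ι)
    (hwc : Continuous w) (hac : Continuous a) (hbc : Continuous b)
    (hw0 : ∀ x ∈ K, 0 ≤ w x)
    (ha0 : ∀ x ∈ K ∩ lagCellS y ψ0 i, 0 ≤ a x)
    (hb0 : ∀ x ∈ K ∩ lagCellS y ψ1 i, 0 ≤ b x)
    (H : ∀ x ∈ K ∩ lagCellS y ψ0 i, ∀ x' ∈ K ∩ lagCellS y ψ1 i,
      (1 - t) * a x + t * b x' ≤ w ((1 - t) • x + t • x')) :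
    (∫ x in K ∩ lagCellS y ψ0 i, a x) ^ (1 - t) * (∫ x in K ∩ lagCellS y ψ1 i, b x) ^ t
      ≤ ∫ x in K ∩ lagCellS y (fun k => (1 - t) * ψ0 k + t * ψ1 k) i, w x := by
  have h1t : (0 : ℝ) < 1 - t := by linarith
  set A := K ∩ lagCellS y ψ0 i with hA_def
  set B := K ∩ lagCellS y ψ1 i with hB_def
  set C := K ∩ lagCellS y (fun k => (1 - t) * ψ0 k + t * ψ1 k) i with hC_def
  have hKm : MeasurableSet K := hKc.measurableSet
  have hAm : MeasurableSet A := hKm.inter (lag_measurableSet_cellS y ψ0 i)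
  have hBm : MeasurableSet B := hKm.inter (lag_measurableSet_cellS y ψ1 i)
  have hCm : MeasurableSet C := hKm.inter (lag_measurableSet_cellS y _ i)
  -- integrability
  have hai : IntegrableOn a A := (hac.continuousOn.integrableOn_compact hKc).mono_set Set.inter_subset_left
  have hbi : IntegrableOn b B := (hbc.continuousOn.integrableOn_compact hKc).mono_set Set.inter_subset_left
  have hwi : IntegrableOn w C := (hwc.continuousOn.integrableOn_compact hKc).mono_set Set.inter_subset_left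
  have ha_nn : 0 ≤ᵐ[volume.restrict A] a :=
    (ae_restrict_iff' hAm).mpr (Eventually.of_forall fun x hx => ha0 x hx)
  have hb_nn : 0 ≤ᵐ[volume.restrict B] b :=
    (ae_restrict_iff' hBm).mpr (Eventually.of_forall fun x hx => hb0 x hx)
  have hw_nn : 0 ≤ᵐ[volume.restrict C] w :=
    (ae_restrict_iff' hCm).mpr (Eventually.of_forall fun x hx => hw0 x hx.1)
  have hIa : 0 ≤ ∫ x in A, a x := integral_nonneg_of_ae ha_nn
  have hIb : 0 ≤ ∫ x in B, b x := integral_nonneg_of_ae hb_nn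
  have hIw : 0 ≤ ∫ x in C, w x := integral_nonneg_of_ae hw_nn
  -- the three ENNReal functions
  set f : EuclideanSpace ℝ (Fin d) → ℝ≥0∞ := A.indicator fun x => ENNReal.ofReal (a x) with hf_def
  set k : EuclideanSpace ℝ (Fin d) → ℝ≥0∞ := B.indicator fun x => ENNReal.ofReal (b x) with hk_def
  set h : EuclideanSpace ℝ (Fin d) → ℝ≥0∞ := C.indicator fun x => ENNReal.ofReal (w x) with hh_def
  have hfm : Measurable f := (ENNReal.measurable_ofReal.comp hac.measurable).indicator hAm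
  have hkm : Measurable k := (ENNReal.measurable_ofReal.comp hbc.measurable).indicator hBm
  have hhm : Measurable h := (ENNReal.measurable_ofReal.comp hwc.measurable).indicator hCm
  have Hpl : ∀ x x', f x ^ (1 - t) * k x' ^ t ≤ h ((1 - t) • x + t • x') := by
    intro x x'
    by_cases hx : x ∈ A
    · by_cases hx' : x' ∈ B
      · have hz : (1 - t) • x + t • x' ∈ C :=
          ⟨hKv hx.1 hx'.1 h1t.le ht0.le (by ring),
            lag_cellS_interp y ψ0 ψ1 i t ht0.le ht1.le x x' hx.2 hx'.2⟩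
        simp only [hf_def, hk_def, hh_def, Set.indicator_of_mem hx, Set.indicator_of_mem hx',
          Set.indicator_of_mem hz]
        rw [ENNReal.ofReal_rpow_of_nonneg (ha0 x hx) h1t.le,
          ENNReal.ofReal_rpow_of_nonneg (hb0 x' hx') ht0.le,
          ← ENNReal.ofReal_mul (Real.rpow_nonneg (ha0 x hx) _)]
        refine ENNReal.ofReal_le_ofReal ?_
        calc a x ^ (1 - t) * b x' ^ t ≤ (1 - t) * a x + t * b x' :=
              Real.geom_mean_le_arith_mean2_weighted h1t.le ht0.le (ha0 x hx) (hb0 x' hx') (by ring)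
          _ ≤ w ((1 - t) • x + t • x') := H x hx x' hx'
      · simp [hk_def, Set.indicator_of_notMem hx', ENNReal.zero_rpow_of_pos ht0]
    · simp [hf_def, Set.indicator_of_notMem hx, ENNReal.zero_rpow_of_pos h1t]
  have key := pl_euclidean d t ht0 ht1 f k h hfm hkm hhm Hpl
  have e1 : ∫⁻ x, f x = ENNReal.ofReal (∫ x in A, a x) := by
    rw [hf_def, lintegral_indicator hAm, ofReal_integral_eq_lintegral_ofReal hai ha_nn]
  have e2 : ∫⁻ x, k x = ENNReal.ofReal (∫ x in B, b x) := by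
    rw [hk_def, lintegral_indicator hBm, ofReal_integral_eq_lintegral_ofReal hbi hb_nn]
  have e3 : ∫⁻ x, h x = ENNReal.ofReal (∫ x in C, w x) := by
    rw [hh_def, lintegral_indicator hCm, ofReal_integral_eq_lintegral_ofReal hwi hw_nn]
  rw [e1, e2, e3, ENNReal.ofReal_rpow_of_nonneg hIa h1t.le, ENNReal.ofReal_rpow_of_nonneg hIb ht0.le,
    ← ENNReal.ofReal_mul (Real.rpow_nonneg hIa _)] at key
  exact (ENNReal.ofReal_le_ofReal_iff hIw).mp key

/-- PL on every cell, summed (job CORE-PL).  The cells of the interpolated potential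
`(1-t) ψ0 + t ψ1` are pairwise disjoint and contain `(1-t) A i + t B i` (`lag_cellS_interp`);
apply `pl_euclidean` with `f = 1_{A i} a i`, `k = 1_{B i} b i`, `h = 1_{K ∩ cell_t i} w` and the
weighted AM-GM inequality. -/
theorem core_pl_sum (K : Set (EuclideanSpace ℝ (Fin d))) (hKc : IsCompact K) (hKv : Convex ℝ K)
    (y : ι → EuclideanSpace ℝ (Fin d)) (ψ0 ψ1 : ι → ℝ) (t : ℝ) (ht0 : 0 < t) (ht1 : t < 1)
    (w : EuclideanSpace ℝ (Fin d) → ℝ) (a b : ι → EuclideanSpace ℝ (Fin d) → ℝ)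
    (hwc : Continuous w) (hac : ∀ i, Continuous (a i)) (hbc : ∀ i, Continuous (b i))
    (hw0 : ∀ x ∈ K, 0 ≤ w x)
    (ha0 : ∀ i, ∀ x ∈ K ∩ lagCellS y ψ0 i, 0 ≤ a i x)
    (hb0 : ∀ i, ∀ x ∈ K ∩ lagCellS y ψ1 i, 0 ≤ b i x)
    (H : ∀ i, ∀ x ∈ K ∩ lagCellS y ψ0 i, ∀ x' ∈ K ∩ lagCellS y ψ1 i,
      (1 - t) * a i x + t * b i x' ≤ w ((1 - t) • x + t • x')) :
    ∑ i, (∫ x in K ∩ lagCellS y ψ0 i, a i x) ^ (1 - t) *
        (∫ x in K ∩ lagCellS y ψ1 i, b i x) ^ t ≤ ∫ x in K, w x := by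
  set ψt : ι → ℝ := fun k => (1 - t) * ψ0 k + t * ψ1 k with hψt
  have hKm : MeasurableSet K := hKc.measurableSet
  have hwK : IntegrableOn w K := hwc.continuousOn.integrableOn_compact hKc
  have hCm : ∀ i, MeasurableSet (K ∩ lagCellS y ψt i) := fun i =>
    hKm.inter (lag_measurableSet_cellS y ψt i)
  have hdisj : Pairwise (Function.onFun Disjoint fun i => K ∩ lagCellS y ψt i) := by
    intro i j hij
    exact (lag_cellS_disjoint y ψt i j hij).mono Set.inter_subset_right Set.inter_subset_right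
  have hsub : (⋃ i, K ∩ lagCellS y ψt i) ⊆ K := Set.iUnion_subset fun i => Set.inter_subset_left
  calc ∑ i, (∫ x in K ∩ lagCellS y ψ0 i, a i x) ^ (1 - t) *
        (∫ x in K ∩ lagCellS y ψ1 i, b i x) ^ t
      ≤ ∑ i, ∫ x in K ∩ lagCellS y ψt i, w x :=
        Finset.sum_le_sum fun i _ =>
          corepl_cell K hKc hKv y ψ0 ψ1 t ht0 ht1 w (a i) (b i) i hwc (hac i) (hbc i) hw0
            (ha0 i) (hb0 i) (H i)
    _ = ∫ x in ⋃ i, K ∩ lagCellS y ψt i, w x :=
        (integral_iUnion_fintype hCm hdisj fun i => hwK.mono_set Set.inter_subset_left).symm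
    _ ≤ ∫ x in K, w x := by
        refine setIntegral_mono_set hwK ?_ (LE.le.eventuallyLE hsub)
        exact (ae_restrict_iff' hKm).mpr (Eventually.of_forall fun x hx => hw0 x hx)

end Crest.Agent.S0109
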