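import Crest.Prelude.Def_QuadraticTransport

/-!
# Row 82 (S0109): basic definitions for semi-discrete optimal transport

A *family* is a finite index type `ι : Type`, sites `y : ι → E`, weights `m : ι → ℝ`
(positive, summing to one).  `ψ : ι → ℝ` is a potential.

* `lagPot y ψ x = max_i (⟪x, y i⟫ - ψ i)`  (convex potential on the source side)
* `lagCell y ψ i` closed Laguerre cell, `lagCellS y ψ i` strict (open) Laguerre cell
* `lagMap y ψ x` : average of the sites of all cells containing `x` (a measurable subgradient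
  selection of `lagPot y ψ`; equals `y i` on the strict cell `i`)
* `rhoG K g = (1 + g) • uniformProbOn K` : perturbed source density
* `IsPert K g` : admissible perturbation (measurable, `|g| ≤ 1/2`, mean zero)
* `IsLagOpt ρ' y m ψ` : the strict cells of `ψ` have `ρ'`-masses `m i`
* `lagBary ρ' y ψ m i` : `ρ'`-barycentre of the strict cell `i`
-/

set_option autoImplicit false
open MeasureTheory
open scoped ENNReal NNReal
open Crest.AnalysisR.OT

namespace Crest.Agent.S0109

variable {d : ℕ} {ι : Type} [Fintype ι]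

/-- Convex potential `max_i (⟪x, y i⟫ - ψ i)`. -/
noncomputable def lagPot (y : ι → EuclideanSpace ℝ (Fin d)) (ψ : ι → ℝ)
    (x : EuclideanSpace ℝ (Fin d)) : ℝ :=
  ⨆ i, (inner ℝ x (y i) - ψ i)

/-- Closed Laguerre cell. -/
def lagCell (y : ι → EuclideanSpace ℝ (Fin d)) (ψ : ι → ℝ) (i : ι) :
    Set (EuclideanSpace ℝ (Fin d)) :=
  {x | ∀ k, inner ℝ x (y k) - ψ k ≤ inner ℝ x (y i) - ψ i}

/-- Strict (open) Laguerre cell. -/
def lagCellS (y : ι → EuclideanSpace ℝ (Fin d)) (ψ : ι → ℝ) (i : ι) :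
    Set (EuclideanSpace ℝ (Fin d)) :=
  {x | ∀ k, k ≠ i → inner ℝ x (y k) - ψ k < inner ℝ x (y i) - ψ i}

/-- Laguerre map: the average of the sites `y i` over all closed cells containing `x`. -/
noncomputable def lagMap (y : ι → EuclideanSpace ℝ (Fin d)) (ψ : ι → ℝ)
    (x : EuclideanSpace ℝ (Fin d)) : EuclideanSpace ℝ (Fin d) :=
  (∑ i, (lagCell y ψ i).indicator (fun _ => (1 : ℝ)) x)⁻¹ •
    ∑ i, (lagCell y ψ i).indicator (fun _ => y i) x

/-- Perturbed source measure `(1 + g) • uniformProbOn K`. -/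
noncomputable def rhoG (K : Set (EuclideanSpace ℝ (Fin d))) (g : EuclideanSpace ℝ (Fin d) → ℝ) :
    Measure (EuclideanSpace ℝ (Fin d)) :=
  (uniformProbOn K).withDensity (fun x => ENNReal.ofReal (1 + g x))

/-- Admissible density perturbation. -/
structure IsPert (K : Set (EuclideanSpace ℝ (Fin d))) (g : EuclideanSpace ℝ (Fin d) → ℝ) :
    Prop where
  meas : Measurable g
  bdd : ∀ x, |g x| ≤ 1 / 2
  mean : ∫ x, g x ∂(uniformProbOn K) = 0

/-- `ψ` is an optimal potential: the strict cells have the prescribed masses. -/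
def IsLagOpt (ρ' : Measure (EuclideanSpace ℝ (Fin d))) (y : ι → EuclideanSpace ℝ (Fin d))
    (m : ι → ℝ) (ψ : ι → ℝ) : Prop :=
  ∀ i, ρ' (lagCellS y ψ i) = ENNReal.ofReal (m i)

/-- Barycentre of the strict cell `i` with respect to `ρ'` (normalised by the mass `m i`). -/
noncomputable def lagBary (ρ' : Measure (EuclideanSpace ℝ (Fin d)))
    (y : ι → EuclideanSpace ℝ (Fin d)) (ψ : ι → ℝ) (m : ι → ℝ) (i : ι) :
    EuclideanSpace ℝ (Fin d) :=
  (m i)⁻¹ • ∫ x in lagCellS y ψ i, x ∂ρ'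

/-- Dual (Kantorovich) value of a potential. -/
noncomputable def lagJ (ρ' : Measure (EuclideanSpace ℝ (Fin d)))
    (y : ι → EuclideanSpace ℝ (Fin d)) (m : ι → ℝ) (ψ : ι → ℝ) : ℝ :=
  ∫ x, lagPot y ψ x ∂ρ' + ∑ i, m i * ψ i

/-- `Π` is a coupling matrix of the weight vectors `m` and `n`. -/
structure IsCoupMat {κ : Type} [Fintype κ] (m : ι → ℝ) (n : κ → ℝ) (P : ι → κ → ℝ) : Prop where
  nonneg : ∀ i k, 0 ≤ P i k
  row : ∀ i, ∑ k, P i k = m i
  col : ∀ k, ∑ i, P i k = n k

/-- Quadratic cost of a coupling matrix. -/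
noncomputable def matCost {κ : Type} [Fintype κ] (y : ι → EuclideanSpace ℝ (Fin d))
    (z : κ → EuclideanSpace ℝ (Fin d)) (P : ι → κ → ℝ) : ℝ :=
  ∑ i, ∑ k, P i k * ‖y i - z k‖ ^ 2

end Crest.Agent.S0109
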