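import Mathlib

/-!
# One-dimensional Gagliardo–Nirenberg-type inequality (row 82, module GN1D)

`gn_fund`, `gn_1d`.  Auxiliary lemmas are prefixed `gn1_`.
-/

set_option autoImplicit false
open MeasureTheory
open scoped ENNReal NNReal RealInnerProductSpace

namespace Crest.Agent.S0109

/-- A subgradient selection of a function on `[a,b]` is monotone. -/
theorem gn1_mono (a b : ℝ) (U p : ℝ → ℝ)
    (hU : ∀ t ∈ Set.Icc a b, ∀ s ∈ Set.Icc a b, U t + p t * (s - t) ≤ U s) :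
    MonotoneOn p (Set.Icc a b) := by
  intro t ht s hs hts
  rcases hts.eq_or_lt with h | h
  · rw [h]
  · have h1 := hU t ht s hs
    have h2 := hU s hs t ht
    have h3 : 0 ≤ (p s - p t) * (s - t) := by nlinarith
    have h4 : 0 < s - t := sub_pos.mpr h
    by_contra hcon
    have h5 : p s - p t < 0 := by linarith [not_le.mp hcon]
    nlinarith

theorem gn1_intervalIntegrable (a b : ℝ) (p : ℝ → ℝ) (hp : MonotoneOn p (Set.Icc a b))
    (t s : ℝ) (ht : t ∈ Set.Icc a b) (hs : s ∈ Set.Icc a b) :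
    IntervalIntegrable p volume t s := by
  apply MonotoneOn.intervalIntegrable
  apply hp.mono
  intro x hx
  rw [Set.mem_uIcc] at hx
  rcases hx with hx | hx
  · exact ⟨ht.1.trans hx.1, hx.2.trans hs.2⟩
  · exact ⟨hs.1.trans hx.1, hx.2.trans ht.2⟩

/-- The one-step estimate `|U s - U t - ∫_t^s p| ≤ (p s - p t) (s - t)`. -/
theorem gn1_step (a b : ℝ) (U p : ℝ → ℝ)
    (hU : ∀ t ∈ Set.Icc a b, ∀ s ∈ Set.Icc a b, U t + p t * (s - t) ≤ U s)
    (t s : ℝ) (ht : t ∈ Set.Icc a b) (hs : s ∈ Set.Icc a b) (hts : t ≤ s) :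
    |U s - U t - ∫ τ in t..s, p τ| ≤ (p s - p t) * (s - t) := by
  have hmono := gn1_mono a b U p hU
  have hint := gn1_intervalIntegrable a b p hmono t s ht hs
  have h1 := hU t ht s hs
  have h2 := hU s hs t ht
  have h3 : p t * (s - t) ≤ ∫ τ in t..s, p τ := by
    have := intervalIntegral.integral_mono_on hts (intervalIntegrable_const (c := p t)) hint
      (fun x hx => hmono ht ⟨ht.1.trans hx.1, hx.2.trans hs.2⟩ hx.1)
    simpa [mul_comm] using this
  have h4 : (∫ τ in t..s, p τ) ≤ p s * (s - t) := by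
    have := intervalIntegral.integral_mono_on hts hint (intervalIntegrable_const (c := p s))
      (fun x hx => hmono ⟨ht.1.trans hx.1, hx.2.trans hs.2⟩ hs hx.2)
    simpa [mul_comm] using this
  rw [abs_le]
  constructor <;> nlinarith

theorem gn_fund (a b : ℝ) (hab : a ≤ b) (U p : ℝ → ℝ)
    (hU : ∀ t ∈ Set.Icc a b, ∀ s ∈ Set.Icc a b, U t + p t * (s - t) ≤ U s) :
    MonotoneOn p (Set.Icc a b) ∧ IntervalIntegrable p volume a b ∧
      ∀ t ∈ Set.Icc a b, ∀ s ∈ Set.Icc a b, U s - U t = ∫ τ in t..s, p τ := by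
  have hmono := gn1_mono a b U p hU
  refine ⟨hmono, gn1_intervalIntegrable a b p hmono a b ⟨le_rfl, hab⟩ ⟨hab, le_rfl⟩, ?_⟩
  -- the ordered case
  have key : ∀ t ∈ Set.Icc a b, ∀ s ∈ Set.Icc a b, t ≤ s → U s - U t = ∫ τ in t..s, p τ := by
    intro t ht s hs hts
    -- subdivision bound
    have hn : ∀ n : ℕ, 0 < n →
        |U s - U t - ∫ τ in t..s, p τ| ≤ (p s - p t) * (s - t) / n := by
      intro n hn
      have hnR : (0 : ℝ) < n := Nat.cast_pos.mpr hn
      obtain ⟨x, hx⟩ : ∃ x : ℕ → ℝ, x = fun i : ℕ => t + i * ((s - t) / n) := ⟨_, rfl⟩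
      have hx0 : x 0 = t := by rw [hx]; simp
      have hxn : x n = s := by rw [hx]; field_simp; ring
      have hxmem : ∀ i ≤ n, x i ∈ Set.Icc a b := by
        intro i hi
        have hiR : (i : ℝ) ≤ n := Nat.cast_le.mpr hi
        have h0 : 0 ≤ (i : ℝ) * ((s - t) / n) :=
          mul_nonneg (Nat.cast_nonneg i) (div_nonneg (sub_nonneg.mpr hts) hnR.le)
        have h1 : (i : ℝ) * ((s - t) / n) ≤ s - t := by
          calc (i : ℝ) * ((s - t) / n) ≤ n * ((s - t) / n) :=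
                mul_le_mul_of_nonneg_right hiR (div_nonneg (sub_nonneg.mpr hts) hnR.le)
            _ = s - t := by field_simp
        rw [hx]
        exact ⟨by linarith [ht.1], by linarith [hs.2]⟩
      have hxstep : ∀ i, x (i + 1) - x i = (s - t) / n := by
        intro i; rw [hx]; push_cast; ring
      have hxle : ∀ i, x i ≤ x (i + 1) := by
        intro i
        have := hxstep i
        have h0 : 0 ≤ (s - t) / n := div_nonneg (sub_nonneg.mpr hts) hnR.le
        linarith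
      have hsumU : ∑ i ∈ Finset.range n, (U (x (i + 1)) - U (x i)) = U s - U t := by
        rw [Finset.sum_range_sub (fun i => U (x i)), hx0, hxn]
      have hsumI : ∑ i ∈ Finset.range n, (∫ τ in x i..x (i + 1), p τ) = ∫ τ in t..s, p τ := by
        rw [intervalIntegral.sum_integral_adjacent_intervals, hx0, hxn]
        intro k hk
        exact gn1_intervalIntegrable a b p hmono _ _ (hxmem k hk.le) (hxmem (k + 1) hk)
      have hsump : ∑ i ∈ Finset.range n, (p (x (i + 1)) - p (x i)) = p s - p t := by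
        rw [Finset.sum_range_sub (fun i => p (x i)), hx0, hxn]
      calc |U s - U t - ∫ τ in t..s, p τ|
          = |∑ i ∈ Finset.range n, (U (x (i + 1)) - U (x i) - ∫ τ in x i..x (i + 1), p τ)| := by
            rw [Finset.sum_sub_distrib, hsumU, hsumI]
        _ ≤ ∑ i ∈ Finset.range n, |U (x (i + 1)) - U (x i) - ∫ τ in x i..x (i + 1), p τ| :=
            Finset.abs_sum_le_sum_abs _ _
        _ ≤ ∑ i ∈ Finset.range n, (p (x (i + 1)) - p (x i)) * ((s - t) / n) := by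
            apply Finset.sum_le_sum
            intro i hi
            have hi' : i < n := Finset.mem_range.mp hi
            have := gn1_step a b U p hU (x i) (x (i + 1)) (hxmem i hi'.le) (hxmem (i + 1) hi')
              (hxle i)
            rwa [hxstep i] at this
        _ = (p s - p t) * (s - t) / n := by
            rw [← Finset.sum_mul, hsump]; ring
    by_contra hne
    have hpos : 0 < |U s - U t - ∫ τ in t..s, p τ| := abs_pos.mpr (sub_ne_zero.mpr hne)
    obtain ⟨n, hnlt⟩ := exists_nat_gt ((p s - p t) * (s - t) / |U s - U t - ∫ τ in t..s, p τ|)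
    have hC : 0 ≤ (p s - p t) * (s - t) :=
      mul_nonneg (sub_nonneg.mpr (hmono ht hs hts)) (sub_nonneg.mpr hts)
    have hn0 : 0 < n := by
      rcases Nat.eq_zero_or_pos n with h | h
      · exfalso
        rw [h] at hnlt
        have : 0 ≤ (p s - p t) * (s - t) / |U s - U t - ∫ τ in t..s, p τ| :=
          div_nonneg hC hpos.le
        simp only [Nat.cast_zero] at hnlt
        linarith
      · exact h
    have hnR : (0 : ℝ) < n := Nat.cast_pos.mpr hn0
    have h1 := hn n hn0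
    rw [div_lt_iff₀ hpos] at hnlt
    rw [le_div_iff₀ hnR] at h1
    nlinarith
  intro t ht s hs
  rcases le_total t s with hts | hts
  · exact key t ht s hs hts
  · have := key s hs t ht hts
    rw [intervalIntegral.integral_symm]
    linarith

/-- Archimedean helper. -/
theorem gn1_arch (X A C : ℝ) (hC : 0 ≤ C) (h : ∀ n : ℕ, 0 < n → X ≤ A + C / n) : X ≤ A := by
  by_contra hcon
  have hpos : 0 < X - A := by linarith [not_le.mp hcon]
  obtain ⟨n, hnlt⟩ := exists_nat_gt (C / (X - A))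
  have hn0 : 0 < n := by
    rcases Nat.eq_zero_or_pos n with h0 | h0
    · exfalso
      rw [h0] at hnlt
      have : 0 ≤ C / (X - A) := div_nonneg hC hpos.le
      simp only [Nat.cast_zero] at hnlt
      linarith
    · exact h0
  have hnR : (0 : ℝ) < n := Nat.cast_pos.mpr hn0
  have h1 := h n hn0
  rw [div_lt_iff₀ hpos] at hnlt
  have h2 : C / n < X - A := by
    rw [div_lt_iff₀ hnR]; linarith
  linarith

/-- Integrability of a product of an integrable function with a monotone one. -/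
theorem gn1_mul_integrable (a b : ℝ) (g P : ℝ → ℝ) (Rp : ℝ)
    (hP : MonotoneOn P (Set.Icc a b)) (hPR : ∀ t ∈ Set.Icc a b, |P t| ≤ Rp)
    (t s : ℝ) (ht : t ∈ Set.Icc a b) (hs : s ∈ Set.Icc a b) (hts : t ≤ s)
    (hg : IntervalIntegrable g volume t s) :
    IntervalIntegrable (fun x => g x * P x) volume t s := by
  have hPi := gn1_intervalIntegrable a b P hP t s ht hs
  rw [intervalIntegrable_iff_integrableOn_Ioc_of_le hts] at hg hPi ⊢
  refine Integrable.mul_bdd (c := Rp) hg hPi.aestronglyMeasurable ?_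
  refine (ae_restrict_iff' measurableSet_Ioc).mpr (Filter.Eventually.of_forall ?_)
  intro x hx
  rw [Real.norm_eq_abs]
  exact hPR x ⟨ht.1.trans hx.1.le, hx.2.trans hs.2⟩

/-- One piece of the Abel summation estimate. -/
theorem gn1_piece (a b : ℝ) (g P : ℝ → ℝ) (M Rp : ℝ)
    (hgM : ∀ t ∈ Set.Icc a b, |g t| ≤ M)
    (hP : MonotoneOn P (Set.Icc a b)) (hPR : ∀ t ∈ Set.Icc a b, |P t| ≤ Rp)
    (t s : ℝ) (ht : t ∈ Set.Icc a b) (hs : s ∈ Set.Icc a b) (hts : t ≤ s)
    (hg : IntervalIntegrable g volume t s) :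
    |(∫ x in t..s, g x * P x) - P t * ∫ x in t..s, g x| ≤ M * (P s - P t) * (s - t) := by
  have hgP := gn1_mul_integrable a b g P Rp hP hPR t s ht hs hts hg
  have hM : 0 ≤ M := (abs_nonneg _).trans (hgM t ht)
  have h1 : (∫ x in t..s, g x * P x) - P t * ∫ x in t..s, g x
      = ∫ x in t..s, g x * (P x - P t) := by
    rw [← intervalIntegral.integral_const_mul, ← intervalIntegral.integral_sub hgP (hg.const_mul _)]
    congr 1
    funext x
    ring
  rw [h1]
  have h2 := intervalIntegral.norm_integral_le_of_norm_le_const (a := t) (b := s)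
    (C := M * (P s - P t)) (f := fun x => g x * (P x - P t)) ?_
  · rw [Real.norm_eq_abs, abs_of_nonneg (sub_nonneg.mpr hts)] at h2
    exact h2
  · intro x hx
    rw [Set.uIoc_of_le hts] at hx
    have hxm : x ∈ Set.Icc a b := ⟨ht.1.trans hx.1.le, hx.2.trans hs.2⟩
    have h3 : P t ≤ P x := hP ht hxm hx.1.le
    have h4 : P x ≤ P s := hP hxm hs hx.2
    rw [Real.norm_eq_abs, abs_mul, abs_of_nonneg (sub_nonneg.mpr h3)]
    exact mul_le_mul (hgM x hxm) (by linarith) (sub_nonneg.mpr h3) hM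

/-- Abel summation estimate: `|∫ f' P| ≤ 4 Rp F` for monotone `P`. -/
theorem gn1_abel (a b : ℝ) (hab : a ≤ b) (g f P : ℝ → ℝ) (M Rp F : ℝ)
    (hg : IntervalIntegrable g volume a b)
    (hgM : ∀ t ∈ Set.Icc a b, |g t| ≤ M)
    (hf : ∀ t ∈ Set.Icc a b, ∀ s ∈ Set.Icc a b, f s - f t = ∫ τ in t..s, g τ)
    (hP : MonotoneOn P (Set.Icc a b)) (hPR : ∀ t ∈ Set.Icc a b, |P t| ≤ Rp)
    (hF : ∀ t ∈ Set.Icc a b, |f t| ≤ F) :
    |∫ t in a..b, g t * P t| ≤ 4 * Rp * F := by
  have ha : a ∈ Set.Icc a b := ⟨le_rfl, hab⟩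
  have hb : b ∈ Set.Icc a b := ⟨hab, le_rfl⟩
  have hM : 0 ≤ M := (abs_nonneg _).trans (hgM a ha)
  have hRp : 0 ≤ Rp := (abs_nonneg _).trans (hPR a ha)
  have hF0 : 0 ≤ F := (abs_nonneg _).trans (hF a ha)
  have hPab : 0 ≤ P b - P a := sub_nonneg.mpr (hP ha hb hab)
  have hPab2 : P b - P a ≤ 2 * Rp := by
    have h1 := abs_le.mp (hPR a ha)
    have h2 := abs_le.mp (hPR b hb)
    linarith [h1.1, h2.2]
  apply gn1_arch _ _ (M * (P b - P a) * (b - a))
    (mul_nonneg (mul_nonneg hM hPab) (sub_nonneg.mpr hab))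
  intro n hn
  have hnR : (0 : ℝ) < n := Nat.cast_pos.mpr hn
  obtain ⟨x, hx⟩ : ∃ x : ℕ → ℝ, x = fun i : ℕ => a + i * ((b - a) / n) := ⟨_, rfl⟩
  have hx0 : x 0 = a := by rw [hx]; simp
  have hxn : x n = b := by rw [hx]; field_simp; ring
  have hxmem : ∀ i ≤ n, x i ∈ Set.Icc a b := by
    intro i hi
    have hiR : (i : ℝ) ≤ n := Nat.cast_le.mpr hi
    have h0 : 0 ≤ (i : ℝ) * ((b - a) / n) :=
      mul_nonneg (Nat.cast_nonneg i) (div_nonneg (sub_nonneg.mpr hab) hnR.le)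
    have h1 : (i : ℝ) * ((b - a) / n) ≤ b - a := by
      calc (i : ℝ) * ((b - a) / n) ≤ n * ((b - a) / n) :=
            mul_le_mul_of_nonneg_right hiR (div_nonneg (sub_nonneg.mpr hab) hnR.le)
        _ = b - a := by field_simp
    rw [hx]
    exact ⟨by linarith, by linarith⟩
  have hxstep : ∀ i, x (i + 1) - x i = (b - a) / n := by
    intro i; rw [hx]; push_cast; ring
  have hxle : ∀ i, x i ≤ x (i + 1) := by
    intro i
    have := hxstep i
    have h0 : 0 ≤ (b - a) / n := div_nonneg (sub_nonneg.mpr hab) hnR.le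
    linarith
  have hgsub : ∀ i < n, IntervalIntegrable g volume (x i) (x (i + 1)) := by
    intro i hi
    apply hg.mono_set
    rw [Set.uIcc_of_le (hxle i), Set.uIcc_of_le hab]
    exact Set.Icc_subset_Icc (hxmem i hi.le).1 (hxmem (i + 1) hi).2
  -- the integral as a sum
  have hsumI : ∑ i ∈ Finset.range n, (∫ τ in x i..x (i + 1), g τ * P τ)
      = ∫ τ in a..b, g τ * P τ := by
    rw [intervalIntegral.sum_integral_adjacent_intervals, hx0, hxn]
    intro k hk
    exact gn1_mul_integrable a b g P Rp hP hPR _ _ (hxmem k hk.le) (hxmem (k + 1) hk) (hxle k)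
      (hgsub k hk)
  -- Abel summation
  have hAbel : ∑ i ∈ Finset.range n, P (x i) * (f (x (i + 1)) - f (x i))
      = P b * f b - P a * f a
        - ∑ i ∈ Finset.range n, (P (x (i + 1)) - P (x i)) * f (x (i + 1)) := by
    have h1 : ∀ i, P (x i) * (f (x (i + 1)) - f (x i))
        = (P (x (i + 1)) * f (x (i + 1)) - P (x i) * f (x i))
          - (P (x (i + 1)) - P (x i)) * f (x (i + 1)) := by
      intro i; ring
    simp_rw [h1]
    rw [Finset.sum_sub_distrib, Finset.sum_range_sub (fun i => P (x i) * f (x i)), hx0, hxn]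
  have hsumP : ∑ i ∈ Finset.range n, (P (x (i + 1)) - P (x i)) = P b - P a := by
    rw [Finset.sum_range_sub (fun i => P (x i)), hx0, hxn]
  have hbd1 : |∑ i ∈ Finset.range n, (P (x (i + 1)) - P (x i)) * f (x (i + 1))|
      ≤ (P b - P a) * F := by
    calc |∑ i ∈ Finset.range n, (P (x (i + 1)) - P (x i)) * f (x (i + 1))|
        ≤ ∑ i ∈ Finset.range n, |(P (x (i + 1)) - P (x i)) * f (x (i + 1))| :=
          Finset.abs_sum_le_sum_abs _ _
      _ ≤ ∑ i ∈ Finset.range n, (P (x (i + 1)) - P (x i)) * F := by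
          apply Finset.sum_le_sum
          intro i hi
          have hi' : i < n := Finset.mem_range.mp hi
          have h3 : 0 ≤ P (x (i + 1)) - P (x i) :=
            sub_nonneg.mpr (hP (hxmem i hi'.le) (hxmem (i + 1) hi') (hxle i))
          rw [abs_mul, abs_of_nonneg h3]
          exact mul_le_mul_of_nonneg_left (hF _ (hxmem (i + 1) hi')) h3
      _ = (P b - P a) * F := by rw [← Finset.sum_mul, hsumP]
  have hbd2 : |∑ i ∈ Finset.range n, P (x i) * (f (x (i + 1)) - f (x i))| ≤ 4 * Rp * F := by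
    rw [hAbel]
    have e1 : |P b * f b| ≤ Rp * F := by
      rw [abs_mul]; exact mul_le_mul (hPR b hb) (hF b hb) (abs_nonneg _) hRp
    have e2 : |P a * f a| ≤ Rp * F := by
      rw [abs_mul]; exact mul_le_mul (hPR a ha) (hF a ha) (abs_nonneg _) hRp
    have e3 : (P b - P a) * F ≤ 2 * Rp * F := mul_le_mul_of_nonneg_right hPab2 hF0
    have e1' := abs_le.mp e1
    have e2' := abs_le.mp e2
    have e4' := abs_le.mp hbd1
    rw [abs_le]
    constructor <;> linarith [e1'.1, e1'.2, e2'.1, e2'.2, e4'.1, e4'.2]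
  have hbd3 : |(∫ τ in a..b, g τ * P τ)
      - ∑ i ∈ Finset.range n, P (x i) * (f (x (i + 1)) - f (x i))|
      ≤ M * (P b - P a) * (b - a) / n := by
    rw [← hsumI, ← Finset.sum_sub_distrib]
    calc |∑ i ∈ Finset.range n, ((∫ τ in x i..x (i + 1), g τ * P τ)
            - P (x i) * (f (x (i + 1)) - f (x i)))|
        ≤ ∑ i ∈ Finset.range n, |(∫ τ in x i..x (i + 1), g τ * P τ)
            - P (x i) * (f (x (i + 1)) - f (x i))| := Finset.abs_sum_le_sum_abs _ _
      _ ≤ ∑ i ∈ Finset.range n, M * (P (x (i + 1)) - P (x i)) * ((b - a) / n) := by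
          apply Finset.sum_le_sum
          intro i hi
          have hi' : i < n := Finset.mem_range.mp hi
          have := gn1_piece a b g P M Rp hgM hP hPR (x i) (x (i + 1)) (hxmem i hi'.le)
            (hxmem (i + 1) hi') (hxle i) (hgsub i hi')
          rw [hxstep i, ← hf (x i) (hxmem i hi'.le) (x (i + 1)) (hxmem (i + 1) hi')] at this
          exact this
      _ = M * (P b - P a) * (b - a) / n := by
          rw [← Finset.sum_mul, ← Finset.mul_sum, hsumP]; ring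
  have e5 := abs_le.mp hbd2
  have e6 := abs_le.mp hbd3
  rw [abs_le]
  constructor <;> linarith [e5.1, e5.2, e6.1, e6.2]

/-- Final arithmetic: from the cubic inequality to the `rpow` form. -/
theorem gn1_final (J Ry I2 : ℝ) (hRy : 0 ≤ Ry) (hI2 : 0 ≤ I2)
    (h : J ^ 3 ≤ 64000 * Ry ^ 4 * I2) :
    J ≤ 40 * Ry ^ (4 / 3 : ℝ) * I2 ^ (1 / 3 : ℝ) := by
  have h1 : (Ry ^ (4 / 3 : ℝ)) ^ 3 = Ry ^ 4 := by
    rw [← Real.rpow_natCast, ← Real.rpow_mul hRy]
    norm_num
  have h2 : (I2 ^ (1 / 3 : ℝ)) ^ 3 = I2 := by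
    rw [← Real.rpow_natCast, ← Real.rpow_mul hI2]
    norm_num
  have hX0 : 0 ≤ 40 * Ry ^ (4 / 3 : ℝ) * I2 ^ (1 / 3 : ℝ) :=
    mul_nonneg (mul_nonneg (by norm_num) (Real.rpow_nonneg hRy _)) (Real.rpow_nonneg hI2 _)
  have hX3 : (40 * Ry ^ (4 / 3 : ℝ) * I2 ^ (1 / 3 : ℝ)) ^ 3 = 64000 * Ry ^ 4 * I2 := by
    rw [mul_pow, mul_pow, h1, h2]; norm_num
  exact le_of_pow_le_pow_left₀ (by norm_num : (3 : ℕ) ≠ 0) hX0 (by rw [hX3]; exact h)

theorem gn_1d (a b : ℝ) (hab : a ≤ b) (Ry : ℝ) (hRy : 0 ≤ Ry) (U V p q : ℝ → ℝ)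
    (hU : ∀ t ∈ Set.Icc a b, ∀ s ∈ Set.Icc a b, U t + p t * (s - t) ≤ U s)
    (hV : ∀ t ∈ Set.Icc a b, ∀ s ∈ Set.Icc a b, V t + q t * (s - t) ≤ V s)
    (hp : ∀ t ∈ Set.Icc a b, |p t| ≤ Ry) (hq : ∀ t ∈ Set.Icc a b, |q t| ≤ Ry) (c : ℝ) :
    ∫ t in a..b, (p t - q t) ^ 2 ≤
      40 * Ry ^ (4 / 3 : ℝ) * (∫ t in a..b, (U t - V t - c) ^ 2) ^ (1 / 3 : ℝ) := by
  obtain ⟨hpm, hpi, hpf⟩ := gn_fund a b hab U p hU
  obtain ⟨hqm, hqi, hqf⟩ := gn_fund a b hab V q hV
  have ha : a ∈ Set.Icc a b := ⟨le_rfl, hab⟩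
  have hb : b ∈ Set.Icc a b := ⟨hab, le_rfl⟩
  obtain ⟨g, hgdef⟩ : ∃ g : ℝ → ℝ, g = fun t => p t - q t := ⟨_, rfl⟩
  obtain ⟨f, hfdef⟩ : ∃ f : ℝ → ℝ, f = fun t => U t - V t - c := ⟨_, rfl⟩
  have hgi : IntervalIntegrable g volume a b := by rw [hgdef]; exact hpi.sub hqi
  have hgM : ∀ t ∈ Set.Icc a b, |g t| ≤ 2 * Ry := by
    intro t ht
    have h1 := abs_le.mp (hp t ht)
    have h2 := abs_le.mp (hq t ht)
    rw [hgdef, abs_le]
    constructor <;> linarith [h1.1, h1.2, h2.1, h2.2]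
  have hff : ∀ t ∈ Set.Icc a b, ∀ s ∈ Set.Icc a b, f s - f t = ∫ τ in t..s, g τ := by
    intro t ht s hs
    rw [hgdef, hfdef]
    simp only
    rw [intervalIntegral.integral_sub (gn1_intervalIntegrable a b p hpm t s ht hs)
      (gn1_intervalIntegrable a b q hqm t s ht hs), ← hpf t ht s hs, ← hqf t ht s hs]
    ring
  have hI2nn : 0 ≤ ∫ t in a..b, (U t - V t - c) ^ 2 :=
    intervalIntegral.integral_nonneg hab (fun t _ => sq_nonneg _)
  have hJeq : (∫ t in a..b, (p t - q t) ^ 2) = ∫ t in a..b, g t ^ 2 := by rw [hgdef]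
  have hI2eq : (∫ t in a..b, (U t - V t - c) ^ 2) = ∫ t in a..b, f t ^ 2 := by rw [hfdef]
  rw [hJeq, hI2eq]
  rw [hI2eq] at hI2nn
  -- Lipschitz bound
  have hLip : ∀ t ∈ Set.Icc a b, ∀ s ∈ Set.Icc a b, |f s - f t| ≤ 2 * Ry * |s - t| := by
    intro t ht s hs
    rw [hff t ht s hs, ← Real.norm_eq_abs]
    apply intervalIntegral.norm_integral_le_of_norm_le_const
    intro x hx
    rw [Real.norm_eq_abs]
    apply hgM
    have hx' := Set.uIoc_subset_uIcc hx
    rw [Set.mem_uIcc] at hx'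
    rcases hx' with hx' | hx'
    · exact ⟨ht.1.trans hx'.1, hx'.2.trans hs.2⟩
    · exact ⟨hs.1.trans hx'.1, hx'.2.trans ht.2⟩
  have hcont : ContinuousOn f (Set.Icc a b) := by
    have : LipschitzOnWith (Real.toNNReal (2 * Ry)) f (Set.Icc a b) := by
      apply LipschitzOnWith.of_dist_le_mul
      intro x hx y hy
      rw [Real.dist_eq, Real.dist_eq, Real.coe_toNNReal _ (by linarith)]
      exact hLip y hy x hx
    exact this.continuousOn
  have hf2i : IntervalIntegrable (fun t => f t ^ 2) volume a b := by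
    apply ContinuousOn.intervalIntegrable
    rw [Set.uIcc_of_le hab]
    exact hcont.pow 2
  -- the maximum of |f|
  obtain ⟨t₀, ht₀, hmax⟩ := isCompact_Icc.exists_isMaxOn (Set.nonempty_Icc.mpr hab) hcont.abs
  have hF : ∀ t ∈ Set.Icc a b, |f t| ≤ |f t₀| := fun t ht => hmax ht
  obtain ⟨F, hFdef⟩ : ∃ F : ℝ, F = |f t₀| := ⟨_, rfl⟩
  rw [← hFdef] at hF
  have hF0 : 0 ≤ F := by rw [hFdef]; exact abs_nonneg _
  -- Step A: ∫ g² ≤ 8 Ry F
  have hgp := gn1_mul_integrable a b g p Ry hpm hp a b ha hb hab hgi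
  have hgq := gn1_mul_integrable a b g q Ry hqm hq a b ha hb hab hgi
  have hA : (∫ t in a..b, g t ^ 2) ≤ 8 * Ry * F := by
    have h1 : (∫ t in a..b, g t ^ 2) = (∫ t in a..b, g t * p t) - ∫ t in a..b, g t * q t := by
      rw [← intervalIntegral.integral_sub hgp hgq]
      congr 1
      funext t
      rw [hgdef]
      ring
    have h2 := gn1_abel a b hab g f p (2 * Ry) Ry F hgi hgM hff hpm hp hF
    have h3 := gn1_abel a b hab g f q (2 * Ry) Ry F hgi hgM hff hqm hq hF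
    have h2' := abs_le.mp h2
    have h3' := abs_le.mp h3
    rw [h1]
    linarith [h2'.2, h3'.1]
  -- Step A': ∫ g² ≤ 4 Ry² (b - a)
  have hA' : (∫ t in a..b, g t ^ 2) ≤ 4 * Ry ^ 2 * (b - a) := by
    have h1 := intervalIntegral.norm_integral_le_of_norm_le_const (a := a) (b := b)
      (C := 4 * Ry ^ 2) (f := fun t => g t ^ 2) ?_
    · rw [abs_of_nonneg (sub_nonneg.mpr hab)] at h1
      exact (le_abs_self _).trans (by rwa [Real.norm_eq_abs] at h1)
    · intro x hx
      rw [Set.uIoc_of_le hab] at hx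
      have := hgM x ⟨hx.1.le, hx.2⟩
      rw [Real.norm_eq_abs, abs_pow]
      have h0 := abs_nonneg (g x)
      nlinarith
  have hJ0 : 0 ≤ ∫ t in a..b, g t ^ 2 :=
    intervalIntegral.integral_nonneg hab (fun t _ => sq_nonneg _)
  apply gn1_final _ _ _ hRy hI2nn
  rcases hRy.eq_or_lt with hR0 | hRpos
  · -- Ry = 0
    rw [← hR0] at hA
    have : (∫ t in a..b, g t ^ 2) = 0 := le_antisymm (by linarith) hJ0
    rw [this, ← hR0]
    simp
  -- Step B: lower bound for ∫ f²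
  obtain ⟨δ, hδdef⟩ : ∃ δ : ℝ, δ = min (F / (4 * Ry)) (b - a) := ⟨_, rfl⟩
  have hδ0 : 0 ≤ δ := by
    rw [hδdef]; exact le_min (div_nonneg hF0 (by linarith)) (sub_nonneg.mpr hab)
  have hδ1 : δ ≤ F / (4 * Ry) := by rw [hδdef]; exact min_le_left _ _
  have hδ2 : δ ≤ b - a := by rw [hδdef]; exact min_le_right _ _
  have hδ3 : 2 * Ry * δ ≤ F / 2 := by
    have : 2 * Ry * δ ≤ 2 * Ry * (F / (4 * Ry)) :=
      mul_le_mul_of_nonneg_left hδ1 (by linarith)
    have e : 2 * Ry * (F / (4 * Ry)) = F / 2 := by field_simp; ring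
    linarith
  obtain ⟨α, hα1, hα2, hα3⟩ : ∃ α : ℝ, a ≤ α ∧ α + δ ≤ b ∧
      ∀ t ∈ Set.Icc α (α + δ), |t - t₀| ≤ δ := by
    by_cases h : t₀ + δ ≤ b
    · refine ⟨t₀, ht₀.1, h, fun t ht => ?_⟩
      rw [abs_le]; constructor <;> linarith [ht.1, ht.2]
    · refine ⟨b - δ, by linarith, by linarith, fun t ht => ?_⟩
      rw [abs_le]; constructor <;> linarith [ht.1, ht.2, ht₀.2]
  have hB : F ^ 2 / 4 * δ ≤ ∫ t in a..b, f t ^ 2 := by
    have hsub : ∀ t ∈ Set.Icc α (α + δ), t ∈ Set.Icc a b :=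
      fun t ht => ⟨hα1.trans ht.1, ht.2.trans hα2⟩
    have hlow : ∀ t ∈ Set.Icc α (α + δ), F ^ 2 / 4 ≤ f t ^ 2 := by
      intro t ht
      have h1 := hLip t (hsub t ht) t₀ ht₀
      have h2 : |t₀ - t| ≤ δ := by rw [abs_sub_comm]; exact hα3 t ht
      have h3 : |f t₀ - f t| ≤ F / 2 :=
        h1.trans ((mul_le_mul_of_nonneg_left h2 (by linarith)).trans hδ3)
      have h4 : F / 2 ≤ |f t| := by
        have := abs_sub_abs_le_abs_sub (f t₀) (f t)
        rw [← hFdef] at this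
        linarith
      have h5 : (F / 2) ^ 2 ≤ |f t| ^ 2 := pow_le_pow_left₀ (by linarith) h4 2
      rw [sq_abs] at h5
      linarith
    have hle : α ≤ α + δ := by linarith
    have hsubint : IntervalIntegrable (fun t => f t ^ 2) volume α (α + δ) := by
      apply hf2i.mono_set
      rw [Set.uIcc_of_le hle, Set.uIcc_of_le hab]
      exact Set.Icc_subset_Icc hα1 hα2
    have h1 : F ^ 2 / 4 * δ ≤ ∫ t in α..(α + δ), f t ^ 2 := by
      have := intervalIntegral.integral_mono_on hle (intervalIntegrable_const (c := F ^ 2 / 4))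
        hsubint hlow
      rw [intervalIntegral.integral_const, smul_eq_mul] at this
      have e : α + δ - α = δ := by ring
      rw [e] at this
      linarith
    have h2 : (∫ t in α..(α + δ), f t ^ 2) ≤ ∫ t in a..b, f t ^ 2 :=
      intervalIntegral.integral_mono_interval hα1 hle hα2
        (Filter.Eventually.of_forall (fun t => sq_nonneg (f t))) hf2i
    exact h1.trans h2
  -- Step C: arithmetic
  obtain ⟨J, hJdef⟩ : ∃ J : ℝ, J = ∫ t in a..b, g t ^ 2 := ⟨_, rfl⟩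
  obtain ⟨I2, hI2def⟩ : ∃ I2 : ℝ, I2 = ∫ t in a..b, f t ^ 2 := ⟨_, rfl⟩
  rw [← hJdef] at hA hA' hJ0 ⊢
  rw [← hI2def] at hB hI2nn ⊢
  have hJ8 : J ^ 2 ≤ (8 * Ry * F) ^ 2 := pow_le_pow_left₀ hJ0 hA 2
  have hR4 : 0 ≤ Ry ^ 4 * I2 := mul_nonneg (by positivity) hI2nn
  rcases le_total (F / (4 * Ry)) (b - a) with hcase | hcase
  · -- δ = F / (4 Ry)
    have hδeq : δ = F / (4 * Ry) := by rw [hδdef]; exact min_eq_left hcase
    rw [hδeq] at hB
    have hB' : F ^ 3 ≤ 16 * Ry * I2 := by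
      have e : F ^ 2 / 4 * (F / (4 * Ry)) = F ^ 3 / (16 * Ry) := by field_simp; ring
      rw [e, div_le_iff₀ (by linarith)] at hB
      linarith
    have hJ3 : J ^ 3 ≤ (8 * Ry * F) ^ 3 := pow_le_pow_left₀ hJ0 hA 3
    have e2 : (8 * Ry * F) ^ 3 = 512 * Ry ^ 3 * F ^ 3 := by ring
    have e3 : 512 * Ry ^ 3 * F ^ 3 ≤ 512 * Ry ^ 3 * (16 * Ry * I2) :=
      mul_le_mul_of_nonneg_left hB' (by positivity)
    have e4 : 512 * Ry ^ 3 * (16 * Ry * I2) = 8192 * (Ry ^ 4 * I2) := by ring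
    nlinarith
  · -- δ = b - a
    have hδeq : δ = b - a := by rw [hδdef]; exact min_eq_right hcase
    rw [hδeq] at hB
    have hba : 0 ≤ b - a := sub_nonneg.mpr hab
    have e1 : J ^ 3 ≤ (4 * Ry ^ 2 * (b - a)) * (8 * Ry * F) ^ 2 := by
      calc J ^ 3 = J * J ^ 2 := by ring
        _ ≤ (4 * Ry ^ 2 * (b - a)) * (8 * Ry * F) ^ 2 :=
          mul_le_mul hA' hJ8 (sq_nonneg J) (by positivity)
    have e2 : (4 * Ry ^ 2 * (b - a)) * (8 * Ry * F) ^ 2 = 1024 * Ry ^ 4 * (F ^ 2 / 4 * (b - a)) := by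
      ring
    have e3 : 1024 * Ry ^ 4 * (F ^ 2 / 4 * (b - a)) ≤ 1024 * Ry ^ 4 * I2 :=
      mul_le_mul_of_nonneg_left hB (by positivity)
    nlinarith

end Crest.Agent.S0109
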