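import Mathlib

/-!
# One-dimensional Gagliardo–Nirenberg-type inequality for differences of convex functions
(row 82, module GN, job GN1D; helper3)

`gn_fund` : fundamental theorem of calculus for a function with a subgradient selection.
`gn_1d`   : `∫ (p-q)² ≤ 40 Ry^(4/3) (∫ (U-V-c)²)^(1/3)`.
-/

set_option autoImplicit false
open MeasureTheory Set
open scoped ENNReal NNReal

namespace Crest.Agent.S0109

/-- A subgradient selection is monotone. -/
theorem gn_mono (a b : ℝ) (U p : ℝ → ℝ)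
    (hU : ∀ t ∈ Set.Icc a b, ∀ s ∈ Set.Icc a b, U t + p t * (s - t) ≤ U s) :
    MonotoneOn p (Set.Icc a b) := by
  intro t ht s hs hts
  rcases eq_or_lt_of_le hts with h | h
  · rw [h]
  · have h1 := hU t ht s hs
    have h2 := hU s hs t ht
    by_contra hcon
    push Not at hcon
    nlinarith

/-- One-step estimate: `|U s - U t - ∫_t^s p| ≤ (p s - p t)(s - t)`. -/
theorem gn_fund_aux (a b : ℝ) (U p : ℝ → ℝ)
    (hU : ∀ t ∈ Set.Icc a b, ∀ s ∈ Set.Icc a b, U t + p t * (s - t) ≤ U s)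
    (t s : ℝ) (ht : t ∈ Icc a b) (hs : s ∈ Icc a b) (hts : t ≤ s) :
    |U s - U t - ∫ τ in t..s, p τ| ≤ (p s - p t) * (s - t) := by
  have hmono := gn_mono a b U p hU
  have hmono' : MonotoneOn p (Icc t s) := hmono.mono (Icc_subset_Icc ht.1 hs.2)
  have hint : IntervalIntegrable p volume t s := by
    apply MonotoneOn.intervalIntegrable
    rwa [uIcc_of_le hts]
  have h1 := hU t ht s hs
  have h2 := hU s hs t ht
  have h3 : p t * (s - t) ≤ ∫ τ in t..s, p τ := by
    have := intervalIntegral.integral_mono_on hts (intervalIntegrable_const (c := p t)) hint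
      (fun x hx => hmono' (left_mem_Icc.2 hts) hx hx.1)
    simpa [mul_comm] using this
  have h4 : ∫ τ in t..s, p τ ≤ p s * (s - t) := by
    have := intervalIntegral.integral_mono_on hts hint (intervalIntegrable_const (c := p s))
      (fun x hx => hmono' hx (right_mem_Icc.2 hts) hx.2)
    simpa [mul_comm] using this
  rw [abs_le]; constructor <;> nlinarith

/-- Equipartition points. -/
noncomputable def gnPt (t s : ℝ) (n : ℕ) (i : ℕ) : ℝ := t + i * ((s - t) / (n + 1))

theorem gnPt_zero (t s : ℝ) (n : ℕ) : gnPt t s n 0 = t := by simp [gnPt]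

theorem gnPt_last (t s : ℝ) (n : ℕ) : gnPt t s n (n + 1) = s := by
  have : ((n : ℝ) + 1) ≠ 0 := by positivity
  simp only [gnPt]; push_cast; field_simp; ring

theorem gnPt_succ_sub (t s : ℝ) (n i : ℕ) :
    gnPt t s n (i + 1) - gnPt t s n i = (s - t) / (n + 1) := by
  simp only [gnPt]; push_cast; ring

theorem gnPt_le_succ (t s : ℝ) (hts : t ≤ s) (n i : ℕ) : gnPt t s n i ≤ gnPt t s n (i + 1) := by
  have h := gnPt_succ_sub t s n i
  have : 0 ≤ (s - t) / ((n : ℝ) + 1) := div_nonneg (by linarith) (by positivity)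
  linarith

theorem gnPt_mem (t s : ℝ) (hts : t ≤ s) (n i : ℕ) (hi : i ≤ n + 1) :
    gnPt t s n i ∈ Icc t s := by
  have hn : (0 : ℝ) < (n : ℝ) + 1 := by positivity
  have h0 : 0 ≤ (s - t) / ((n : ℝ) + 1) := div_nonneg (by linarith) hn.le
  constructor
  · simp only [gnPt]
    have : 0 ≤ (i : ℝ) * ((s - t) / ((n : ℝ) + 1)) := mul_nonneg (by positivity) h0
    linarith
  · have hi' : (i : ℝ) ≤ (n : ℝ) + 1 := by exact_mod_cast hi
    have h1 : (i : ℝ) * ((s - t) / ((n : ℝ) + 1)) ≤ ((n : ℝ) + 1) * ((s - t) / ((n : ℝ) + 1)) :=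
      mul_le_mul_of_nonneg_right hi' h0
    have h2 : ((n : ℝ) + 1) * ((s - t) / ((n : ℝ) + 1)) = s - t := by field_simp
    simp only [gnPt]; linarith

theorem gn_fund_le (a b : ℝ) (U p : ℝ → ℝ)
    (hU : ∀ t ∈ Set.Icc a b, ∀ s ∈ Set.Icc a b, U t + p t * (s - t) ≤ U s)
    (t s : ℝ) (ht : t ∈ Icc a b) (hs : s ∈ Icc a b) (hts : t ≤ s) :
    U s - U t = ∫ τ in t..s, p τ := by
  have hmono := gn_mono a b U p hU
  have hsub : Icc t s ⊆ Icc a b := Icc_subset_Icc ht.1 hs.2
  have key : ∀ n : ℕ, |U s - U t - ∫ τ in t..s, p τ| ≤ (p s - p t) * ((s - t) / (n + 1)) := by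
    intro n
    set x : ℕ → ℝ := gnPt t s n with hx
    have hx0 : x 0 = t := gnPt_zero t s n
    have hxN : x (n + 1) = s := gnPt_last t s n
    have hxmem : ∀ i ≤ n + 1, x i ∈ Icc a b := fun i hi => hsub (gnPt_mem t s hts n i hi)
    have hint : ∀ k < n + 1, IntervalIntegrable p volume (x k) (x (k + 1)) := by
      intro k hk
      apply MonotoneOn.intervalIntegrable
      rw [uIcc_of_le (gnPt_le_succ t s hts n k)]
      exact hmono.mono (Icc_subset_Icc (hxmem k hk.le).1 (hxmem (k + 1) hk).2)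
    have hsum1 : ∑ k ∈ Finset.range (n + 1), ∫ τ in x k..x (k + 1), p τ = ∫ τ in t..s, p τ := by
      rw [intervalIntegral.sum_integral_adjacent_intervals hint, hx0, hxN]
    have hsum2 : ∑ k ∈ Finset.range (n + 1), (U (x (k + 1)) - U (x k)) = U s - U t := by
      rw [Finset.sum_range_sub (fun i => U (x i)), hx0, hxN]
    have hsum3 : ∑ k ∈ Finset.range (n + 1), (p (x (k + 1)) - p (x k)) = p s - p t := by
      rw [Finset.sum_range_sub (fun i => p (x i)), hx0, hxN]
    have : U s - U t - ∫ τ in t..s, p τ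
        = ∑ k ∈ Finset.range (n + 1), (U (x (k + 1)) - U (x k) - ∫ τ in x k..x (k + 1), p τ) := by
      rw [Finset.sum_sub_distrib, hsum1, hsum2]
    rw [this]
    calc |∑ k ∈ Finset.range (n + 1), (U (x (k + 1)) - U (x k) - ∫ τ in x k..x (k + 1), p τ)|
        ≤ ∑ k ∈ Finset.range (n + 1), |U (x (k + 1)) - U (x k) - ∫ τ in x k..x (k + 1), p τ| :=
          Finset.abs_sum_le_sum_abs _ _
      _ ≤ ∑ k ∈ Finset.range (n + 1), (p (x (k + 1)) - p (x k)) * ((s - t) / (n + 1)) := by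
          apply Finset.sum_le_sum
          intro k hk
          have hk' : k < n + 1 := Finset.mem_range.1 hk
          have := gn_fund_aux a b U p hU (x k) (x (k + 1)) (hxmem k hk'.le) (hxmem (k + 1) hk')
            (gnPt_le_succ t s hts n k)
          rwa [gnPt_succ_sub] at this
      _ = (p s - p t) * ((s - t) / (n + 1)) := by rw [← Finset.sum_mul, hsum3]
  by_contra hne
  have hpos : 0 < |U s - U t - ∫ τ in t..s, p τ| := abs_pos.2 (sub_ne_zero.2 hne)
  set D := |U s - U t - ∫ τ in t..s, p τ| with hD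
  set c := (p s - p t) * (s - t) with hc
  obtain ⟨n, hn⟩ := exists_nat_gt (c / D)
  have h1 := key n
  have hn1 : (0 : ℝ) < (n : ℝ) + 1 := by positivity
  have h2 : (p s - p t) * ((s - t) / (n + 1)) = c / (n + 1) := by rw [hc]; ring
  rw [h2] at h1
  have h3 : c / D < (n : ℝ) + 1 := by linarith
  have h4 : c < ((n : ℝ) + 1) * D := by
    rwa [div_lt_iff₀ hpos] at h3
  have h5 : D * ((n : ℝ) + 1) ≤ c := by
    rwa [le_div_iff₀ hn1] at h1
  linarith

/-- Fundamental theorem for a convex function with a subgradient selection `p` on `[a,b]`. -/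
theorem gn_fund (a b : ℝ) (hab : a ≤ b) (U p : ℝ → ℝ)
    (hU : ∀ t ∈ Set.Icc a b, ∀ s ∈ Set.Icc a b, U t + p t * (s - t) ≤ U s) :
    MonotoneOn p (Set.Icc a b) ∧ IntervalIntegrable p volume a b ∧
      ∀ t ∈ Set.Icc a b, ∀ s ∈ Set.Icc a b, U s - U t = ∫ τ in t..s, p τ := by
  have hmono := gn_mono a b U p hU
  refine ⟨hmono, ?_, ?_⟩
  · apply MonotoneOn.intervalIntegrable
    rwa [uIcc_of_le hab]
  · intro t ht s hs
    rcases le_total t s with h | h
    · exact gn_fund_le a b U p hU t s ht hs h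
    · have := gn_fund_le a b U p hU s t hs ht h
      rw [intervalIntegral.integral_symm, ← this]; ring

theorem gn_intervalIntegrable_mul (a b : ℝ) (hab : a ≤ b) (r m : ℝ → ℝ) (C : ℝ)
    (hr : IntervalIntegrable r volume a b) (hm : IntervalIntegrable m volume a b)
    (hmb : ∀ t ∈ Icc a b, |m t| ≤ C) : IntervalIntegrable (fun τ => r τ * m τ) volume a b := by
  rw [intervalIntegrable_iff_integrableOn_Ioc_of_le hab] at hr hm ⊢
  refine Integrable.mul_bdd (c := C) hr hm.aestronglyMeasurable ?_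
  rw [ae_restrict_iff' measurableSet_Ioc]
  exact Filter.Eventually.of_forall
    (fun x hx => by rw [Real.norm_eq_abs]; exact hmb x (Ioc_subset_Icc_self hx))

/-- Abel summation. -/
theorem gn_abel (m φ : ℕ → ℝ) (n : ℕ) :
    ∑ i ∈ Finset.range (n + 1), m i * (φ (i + 1) - φ i)
      = m n * φ (n + 1) - m 0 * φ 0 - ∑ i ∈ Finset.range n, (m (i + 1) - m i) * φ (i + 1) := by
  induction n with
  | zero => simp; ring
  | succ n ih =>
    rw [Finset.sum_range_succ, ih, Finset.sum_range_succ]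
    ring

/-- Bound for the Abel sum: `m` nondecreasing along the points, `|m| ≤ Ry`, `|φ| ≤ F`. -/
theorem gn_abel_bound (m φ : ℕ → ℝ) (n : ℕ) (Ry F : ℝ)
    (hm : ∀ i < n, m i ≤ m (i + 1)) (hmb : ∀ i ≤ n, |m i| ≤ Ry) (hφ : ∀ i ≤ n + 1, |φ i| ≤ F) :
    |∑ i ∈ Finset.range (n + 1), m i * (φ (i + 1) - φ i)| ≤ 4 * Ry * F := by
  rw [gn_abel]
  have hRy : 0 ≤ Ry := le_trans (abs_nonneg _) (hmb 0 (Nat.zero_le n))
  have hF : 0 ≤ F := le_trans (abs_nonneg _) (hφ 0 (Nat.zero_le _))
  have h1 : |m n * φ (n + 1)| ≤ Ry * F := by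
    rw [abs_mul]; exact mul_le_mul (hmb n le_rfl) (hφ (n + 1) le_rfl) (abs_nonneg _) hRy
  have h2 : |m 0 * φ 0| ≤ Ry * F := by
    rw [abs_mul]; exact mul_le_mul (hmb 0 (Nat.zero_le n)) (hφ 0 (Nat.zero_le _)) (abs_nonneg _) hRy
  have h3 : |∑ i ∈ Finset.range n, (m (i + 1) - m i) * φ (i + 1)| ≤ (m n - m 0) * F := by
    calc |∑ i ∈ Finset.range n, (m (i + 1) - m i) * φ (i + 1)|
        ≤ ∑ i ∈ Finset.range n, |(m (i + 1) - m i) * φ (i + 1)| := Finset.abs_sum_le_sum_abs _ _
      _ ≤ ∑ i ∈ Finset.range n, (m (i + 1) - m i) * F := by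
          apply Finset.sum_le_sum
          intro i hi
          have hi' : i < n := Finset.mem_range.1 hi
          have h0 : 0 ≤ m (i + 1) - m i := sub_nonneg.2 (hm i hi')
          rw [abs_mul, abs_of_nonneg h0]
          exact mul_le_mul_of_nonneg_left (hφ (i + 1) (by omega)) h0
      _ = (m n - m 0) * F := by rw [← Finset.sum_mul, Finset.sum_range_sub]
  have h4 : m n - m 0 ≤ 2 * Ry := by
    have := abs_le.1 (hmb n le_rfl)
    have := abs_le.1 (hmb 0 (Nat.zero_le n))
    linarith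
  have h5 : (m n - m 0) * F ≤ 2 * Ry * F := mul_le_mul_of_nonneg_right h4 hF
  have := abs_le.1 h1
  have := abs_le.1 h2
  have := abs_le.1 h3
  rw [abs_le]; constructor <;> linarith

/-- Key estimate: for a monotone bounded `m` and `r = f'` with `|f| ≤ F`:
`|∫ r m| ≤ 4 Ry F`. -/
theorem gn_pair (a b : ℝ) (hab : a ≤ b) (Ry F : ℝ) (m r f : ℝ → ℝ)
    (hm : MonotoneOn m (Icc a b)) (hmb : ∀ t ∈ Icc a b, |m t| ≤ Ry)
    (hr : IntervalIntegrable r volume a b) (hrb : ∀ t ∈ Icc a b, |r t| ≤ 2 * Ry)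
    (hf : ∀ t ∈ Icc a b, ∀ s ∈ Icc a b, f s - f t = ∫ τ in t..s, r τ)
    (hF : ∀ t ∈ Icc a b, |f t| ≤ F) :
    |∫ τ in a..b, r τ * m τ| ≤ 4 * Ry * F := by
  have hRy : 0 ≤ Ry := le_trans (abs_nonneg _) (hmb a (left_mem_Icc.2 hab))
  have key : ∀ n : ℕ, |∫ τ in a..b, r τ * m τ|
      ≤ 4 * Ry * F + 2 * Ry * (m b - m a) * ((b - a) / (n + 1)) := by
    intro n
    set x : ℕ → ℝ := gnPt a b n with hx
    have hx0 : x 0 = a := gnPt_zero a b n
    have hxN : x (n + 1) = b := gnPt_last a b n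
    have hxmem : ∀ i ≤ n + 1, x i ∈ Icc a b := fun i hi => gnPt_mem a b hab n i hi
    have hxle : ∀ i, x i ≤ x (i + 1) := fun i => gnPt_le_succ a b hab n i
    have hsubI : ∀ k < n + 1, Icc (x k) (x (k + 1)) ⊆ Icc a b := fun k hk =>
      Icc_subset_Icc (hxmem k hk.le).1 (hxmem (k + 1) hk).2
    have hsubU : ∀ k < n + 1, uIcc (x k) (x (k + 1)) ⊆ uIcc a b := fun k hk => by
      rw [uIcc_of_le (hxle k), uIcc_of_le hab]; exact hsubI k hk
    have hmint : ∀ k < n + 1, IntervalIntegrable m volume (x k) (x (k + 1)) := by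
      intro k hk
      apply MonotoneOn.intervalIntegrable
      rw [uIcc_of_le (hxle k)]
      exact hm.mono (hsubI k hk)
    have hrint : ∀ k < n + 1, IntervalIntegrable r volume (x k) (x (k + 1)) :=
      fun k hk => hr.mono_set (hsubU k hk)
    have hrmint : ∀ k < n + 1, IntervalIntegrable (fun τ => r τ * m τ) volume (x k) (x (k + 1)) :=
      fun k hk => gn_intervalIntegrable_mul _ _ (hxle k) r m Ry (hrint k hk) (hmint k hk)
        (fun t ht => hmb t (hsubI k hk ht))
    have hsum : ∑ k ∈ Finset.range (n + 1), ∫ τ in x k..x (k + 1), r τ * m τ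
        = ∫ τ in a..b, r τ * m τ := by
      rw [intervalIntegral.sum_integral_adjacent_intervals hrmint, hx0, hxN]
    -- error terms
    have hE : ∀ k < n + 1, |(∫ τ in x k..x (k + 1), r τ * m τ) - m (x k) * (f (x (k + 1)) - f (x k))|
        ≤ 2 * Ry * (m (x (k + 1)) - m (x k)) * ((b - a) / (n + 1)) := by
      intro k hk
      have e1 : m (x k) * (f (x (k + 1)) - f (x k)) = ∫ τ in x k..x (k + 1), m (x k) * r τ := by
        rw [hf (x k) (hxmem k hk.le) (x (k + 1)) (hxmem (k + 1) hk),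
          intervalIntegral.integral_const_mul]
      have e2 : (∫ τ in x k..x (k + 1), r τ * m τ) - ∫ τ in x k..x (k + 1), m (x k) * r τ
          = ∫ τ in x k..x (k + 1), r τ * (m τ - m (x k)) := by
        rw [← intervalIntegral.integral_sub (hrmint k hk) ((hrint k hk).const_mul _)]
        congr 1; ext τ; ring
      rw [e1, e2]
      have hb : ∀ τ ∈ Set.uIoc (x k) (x (k + 1)), ‖r τ * (m τ - m (x k))‖
          ≤ 2 * Ry * (m (x (k + 1)) - m (x k)) := by
        intro τ hτ
        rw [uIoc_of_le (hxle k)] at hτ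
        have hτI : τ ∈ Icc (x k) (x (k + 1)) := Ioc_subset_Icc_self hτ
        have hτab : τ ∈ Icc a b := hsubI k hk hτI
        have h1 : m (x k) ≤ m τ := hm (hxmem k hk.le) hτab hτI.1
        have h2 : m τ ≤ m (x (k + 1)) := hm hτab (hxmem (k + 1) hk) hτI.2
        rw [Real.norm_eq_abs, abs_mul, abs_of_nonneg (sub_nonneg.2 h1)]
        exact mul_le_mul (hrb τ hτab) (by linarith) (sub_nonneg.2 h1) (by linarith)
      have := intervalIntegral.norm_integral_le_of_norm_le_const hb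
      rw [Real.norm_eq_abs] at this
      have hlen : |x (k + 1) - x k| = (b - a) / (n + 1) := by
        rw [abs_of_nonneg (sub_nonneg.2 (hxle k))]; exact gnPt_succ_sub a b n k
      rwa [hlen] at this
    have hmain : |∑ k ∈ Finset.range (n + 1), m (x k) * (f (x (k + 1)) - f (x k))| ≤ 4 * Ry * F := by
      apply gn_abel_bound (fun i => m (x i)) (fun i => f (x i)) n Ry F
      · intro i hi
        exact hm (hxmem i (by omega)) (hxmem (i + 1) (by omega)) (hxle i)
      · intro i hi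
        exact hmb _ (hxmem i (by omega))
      · intro i hi
        exact hF _ (hxmem i hi)
    have hsumE : |∑ k ∈ Finset.range (n + 1),
        ((∫ τ in x k..x (k + 1), r τ * m τ) - m (x k) * (f (x (k + 1)) - f (x k)))|
        ≤ 2 * Ry * (m b - m a) * ((b - a) / (n + 1)) := by
      calc |∑ k ∈ Finset.range (n + 1),
            ((∫ τ in x k..x (k + 1), r τ * m τ) - m (x k) * (f (x (k + 1)) - f (x k)))|
          ≤ ∑ k ∈ Finset.range (n + 1),
            |(∫ τ in x k..x (k + 1), r τ * m τ) - m (x k) * (f (x (k + 1)) - f (x k))| :=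
            Finset.abs_sum_le_sum_abs _ _
        _ ≤ ∑ k ∈ Finset.range (n + 1),
            2 * Ry * (m (x (k + 1)) - m (x k)) * ((b - a) / (n + 1)) :=
            Finset.sum_le_sum (fun k hk => hE k (Finset.mem_range.1 hk))
        _ = 2 * Ry * (m b - m a) * ((b - a) / (n + 1)) := by
            rw [← Finset.sum_mul, ← Finset.mul_sum, Finset.sum_range_sub (fun i => m (x i)),
              hx0, hxN]
    have hsplit : ∫ τ in a..b, r τ * m τ
        = ∑ k ∈ Finset.range (n + 1), m (x k) * (f (x (k + 1)) - f (x k))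
          + ∑ k ∈ Finset.range (n + 1),
            ((∫ τ in x k..x (k + 1), r τ * m τ) - m (x k) * (f (x (k + 1)) - f (x k))) := by
      rw [Finset.sum_sub_distrib, hsum]; ring
    rw [hsplit]
    exact (abs_add_le _ _).trans (add_le_add hmain hsumE)
  by_contra hcon
  push Not at hcon
  set A := |∫ τ in a..b, r τ * m τ| with hA
  set c := 2 * Ry * (m b - m a) * (b - a) with hc
  have hε : 0 < A - 4 * Ry * F := by linarith
  obtain ⟨n, hn⟩ := exists_nat_gt (c / (A - 4 * Ry * F))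
  have h1 := key n
  have hn1 : (0 : ℝ) < (n : ℝ) + 1 := by positivity
  have h2 : 2 * Ry * (m b - m a) * ((b - a) / (n + 1)) = c / (n + 1) := by rw [hc]; ring
  rw [h2] at h1
  have h3 : c / (A - 4 * Ry * F) < (n : ℝ) + 1 := by linarith
  have h4 : c < ((n : ℝ) + 1) * (A - 4 * Ry * F) := by
    rwa [div_lt_iff₀ hε] at h3
  have h5 : (A - 4 * Ry * F) * ((n : ℝ) + 1) ≤ c := by
    have : A - 4 * Ry * F ≤ c / (n + 1) := by linarith
    rwa [le_div_iff₀ hn1] at this
  linarith

/-- Lower bound of an integral of a nonnegative function by its values on a subinterval. -/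
theorem gn_sub_lower (a b a' b' κ : ℝ) (g : ℝ → ℝ) (h1 : a ≤ a') (h2 : a' ≤ b') (h3 : b' ≤ b)
    (hg : IntervalIntegrable g volume a b) (hg0 : ∀ x ∈ Icc a b, 0 ≤ g x)
    (hκ : ∀ x ∈ Icc a' b', κ ≤ g x) :
    κ * (b' - a') ≤ ∫ x in a..b, g x := by
  have hab : a ≤ b := by linarith
  have i1 : IntervalIntegrable g volume a a' :=
    hg.mono_set (by rw [uIcc_of_le h1, uIcc_of_le hab]; exact Icc_subset_Icc le_rfl (by linarith))
  have i2 : IntervalIntegrable g volume a' b' :=
    hg.mono_set (by rw [uIcc_of_le h2, uIcc_of_le hab]; exact Icc_subset_Icc h1 h3)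
  have i3 : IntervalIntegrable g volume b' b :=
    hg.mono_set (by rw [uIcc_of_le h3, uIcc_of_le hab]; exact Icc_subset_Icc (by linarith) le_rfl)
  have e : ∫ x in a..b, g x = (∫ x in a..a', g x) + (∫ x in a'..b', g x) + ∫ x in b'..b, g x := by
    rw [intervalIntegral.integral_add_adjacent_intervals i1 i2,
      intervalIntegral.integral_add_adjacent_intervals (i1.trans i2) i3]
  have n1 : 0 ≤ ∫ x in a..a', g x :=
    intervalIntegral.integral_nonneg h1 (fun x hx => hg0 x ⟨hx.1, by linarith [hx.2]⟩)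
  have n3 : 0 ≤ ∫ x in b'..b, g x :=
    intervalIntegral.integral_nonneg h3 (fun x hx => hg0 x ⟨by linarith [hx.1], hx.2⟩)
  have n2 : κ * (b' - a') ≤ ∫ x in a'..b', g x := by
    have := intervalIntegral.integral_mono_on h2 (intervalIntegrable_const (c := κ)) i2 hκ
    simpa [mul_comm] using this
  linarith

/-- Conversion of the cubic inequality to the `rpow` form. -/
theorem gn_rpow_finish (A Ry I : ℝ) (hA : 0 ≤ A) (hRy : 0 ≤ Ry) (hI : 0 ≤ I)
    (h : A ^ 3 ≤ 64000 * Ry ^ 4 * I) :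
    A ≤ 40 * Ry ^ (4 / 3 : ℝ) * I ^ (1 / 3 : ℝ) := by
  have hB : 0 ≤ 40 * Ry ^ (4 / 3 : ℝ) * I ^ (1 / 3 : ℝ) := by positivity
  have e1 : (Ry ^ (4 / 3 : ℝ)) ^ 3 = Ry ^ 4 := by
    rw [← Real.rpow_natCast, ← Real.rpow_mul hRy]; norm_num
  have e2 : (I ^ (1 / 3 : ℝ)) ^ 3 = I := by
    rw [← Real.rpow_natCast, ← Real.rpow_mul hI]; norm_num
  have e3 : (40 * Ry ^ (4 / 3 : ℝ) * I ^ (1 / 3 : ℝ)) ^ 3 = 64000 * Ry ^ 4 * I := by
    rw [mul_pow, mul_pow, e1, e2]; norm_num
  rw [← e3] at h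
  exact (pow_le_pow_iff_left₀ hA hB (by norm_num)).1 h

/-- One-dimensional inequality: `U`, `V` convex on `[a,b]` with subgradient selections `p`, `q`
bounded by `Ry`.  Then `∫ (p-q)² ≤ 40 Ry^(4/3) (∫ (U-V-c)²)^(1/3)`. -/
theorem gn_1d (a b : ℝ) (hab : a ≤ b) (Ry : ℝ) (hRy : 0 ≤ Ry) (U V p q : ℝ → ℝ)
    (hU : ∀ t ∈ Set.Icc a b, ∀ s ∈ Set.Icc a b, U t + p t * (s - t) ≤ U s)
    (hV : ∀ t ∈ Set.Icc a b, ∀ s ∈ Set.Icc a b, V t + q t * (s - t) ≤ V s)
    (hp : ∀ t ∈ Set.Icc a b, |p t| ≤ Ry) (hq : ∀ t ∈ Set.Icc a b, |q t| ≤ Ry) (c : ℝ) :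
    ∫ t in a..b, (p t - q t) ^ 2 ≤
      40 * Ry ^ (4 / 3 : ℝ) * (∫ t in a..b, (U t - V t - c) ^ 2) ^ (1 / 3 : ℝ) := by
  obtain ⟨hpm, hpi, hpf⟩ := gn_fund a b hab U p hU
  obtain ⟨hqm, hqi, hqf⟩ := gn_fund a b hab V q hV
  set r : ℝ → ℝ := fun t => p t - q t with hr
  set f : ℝ → ℝ := fun t => U t - V t - c with hf
  have hri : IntervalIntegrable r volume a b := hpi.sub hqi
  have hrb : ∀ t ∈ Icc a b, |r t| ≤ 2 * Ry := by
    intro t ht
    have h1 := abs_le.1 (hp t ht)
    have h2 := abs_le.1 (hq t ht)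
    rw [abs_le]; constructor <;> simp only [hr] <;> linarith
  have hsubU : ∀ t ∈ Icc a b, ∀ s ∈ Icc a b, uIcc t s ⊆ uIcc a b := by
    intro t ht s hs
    rw [uIcc_of_le hab]
    exact uIcc_subset_Icc ht hs
  have hff : ∀ t ∈ Icc a b, ∀ s ∈ Icc a b, f s - f t = ∫ τ in t..s, r τ := by
    intro t ht s hs
    have i1 : IntervalIntegrable p volume t s := hpi.mono_set (hsubU t ht s hs)
    have i2 : IntervalIntegrable q volume t s := hqi.mono_set (hsubU t ht s hs)
    simp only [hr, hf]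
    rw [intervalIntegral.integral_sub i1 i2, ← hpf t ht s hs, ← hqf t ht s hs]; ring
  -- Lipschitz bound for f
  have hlip : ∀ t ∈ Icc a b, ∀ s ∈ Icc a b, |f s - f t| ≤ 2 * Ry * |s - t| := by
    intro t ht s hs
    rw [hff t ht s hs]
    have hb : ∀ τ ∈ Set.uIoc t s, ‖r τ‖ ≤ 2 * Ry := by
      intro τ hτ
      have : τ ∈ uIcc t s := uIoc_subset_uIcc hτ
      have : τ ∈ Icc a b := by
        have := hsubU t ht s hs this
        rwa [uIcc_of_le hab] at this
      rw [Real.norm_eq_abs]; exact hrb τ this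
    have := intervalIntegral.norm_integral_le_of_norm_le_const hb
    rwa [Real.norm_eq_abs] at this
  have hcont : ContinuousOn f (Icc a b) := by
    have : LipschitzOnWith (Real.toNNReal (2 * Ry)) f (Icc a b) := by
      apply LipschitzOnWith.of_dist_le_mul
      intro x hx y hy
      rw [Real.dist_eq, Real.dist_eq, Real.coe_toNNReal _ (by positivity)]
      exact hlip y hy x hx
    exact this.continuousOn
  -- maximum of |f|
  obtain ⟨x₀, hx₀, hmax⟩ := isCompact_Icc.exists_isMaxOn (nonempty_Icc.2 hab) hcont.abs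
  set F := |f x₀| with hFdef
  have hF0 : 0 ≤ F := abs_nonneg _
  have hFle : ∀ t ∈ Icc a b, |f t| ≤ F := fun t ht => hmax ht
  -- integrability
  have hrp : IntervalIntegrable (fun τ => r τ * p τ) volume a b :=
    gn_intervalIntegrable_mul a b hab r p Ry hri hpi hp
  have hrq : IntervalIntegrable (fun τ => r τ * q τ) volume a b :=
    gn_intervalIntegrable_mul a b hab r q Ry hri hqi hq
  have hrr : IntervalIntegrable (fun τ => r τ ^ 2) volume a b := by
    have := gn_intervalIntegrable_mul a b hab r r (2 * Ry) hri hri hrb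
    simpa [sq] using this
  have hfi : IntervalIntegrable (fun τ => f τ ^ 2) volume a b := by
    apply ContinuousOn.intervalIntegrable
    rw [uIcc_of_le hab]
    exact hcont.pow 2
  set A := ∫ t in a..b, r t ^ 2 with hAdef
  set I := ∫ t in a..b, f t ^ 2 with hIdef
  have hA0 : 0 ≤ A := intervalIntegral.integral_nonneg hab (fun x _ => sq_nonneg _)
  have hI0 : 0 ≤ I := intervalIntegral.integral_nonneg hab (fun x _ => sq_nonneg _)
  -- A ≤ 8 Ry F
  have hA1 : A ≤ 8 * Ry * F := by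
    have e : A = (∫ τ in a..b, r τ * p τ) - ∫ τ in a..b, r τ * q τ := by
      rw [← intervalIntegral.integral_sub hrp hrq]
      apply intervalIntegral.integral_congr
      intro τ _
      simp only [hr]; ring
    have b1 := abs_le.1 (gn_pair a b hab Ry F p r f hpm hp hri hrb hff hFle)
    have b2 := abs_le.1 (gn_pair a b hab Ry F q r f hqm hq hri hrb hff hFle)
    rw [e]; linarith
  -- A ≤ 4 Ry² (b - a)
  have hA2 : A ≤ 4 * Ry ^ 2 * (b - a) := by
    have := intervalIntegral.integral_mono_on hab hrr (intervalIntegrable_const (c := 4 * Ry ^ 2))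
      (fun x hx => by
        have := abs_le.1 (hrb x hx)
        show r x ^ 2 ≤ 4 * Ry ^ 2
        nlinarith)
    rw [intervalIntegral.integral_const, smul_eq_mul] at this
    linarith
  apply gn_rpow_finish A Ry I hA0 hRy hI0
  rcases eq_or_lt_of_le hRy with hR0 | hRpos
  · -- Ry = 0
    have : A ≤ 0 := by rw [← hR0] at hA2; simpa using hA2
    have hAz : A = 0 := le_antisymm this hA0
    rw [hAz, ← hR0]; simp
  · -- Ry > 0
    set δ := F / (4 * Ry) with hδ
    have hδ0 : 0 ≤ δ := div_nonneg hF0 (by positivity)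
    have hδF : 2 * Ry * δ = F / 2 := by rw [hδ]; field_simp; ring
    -- on points within δ of x₀ inside [a,b], f² ≥ F²/4
    have hnear : ∀ x ∈ Icc a b, |x - x₀| ≤ δ → F ^ 2 / 4 ≤ f x ^ 2 := by
      intro x hx hxd
      have h1 := hlip x₀ hx₀ x hx
      have h2 : |f x - f x₀| ≤ F / 2 := by
        calc |f x - f x₀| ≤ 2 * Ry * |x - x₀| := h1
          _ ≤ 2 * Ry * δ := by gcongr
          _ = F / 2 := hδF
      have h3 : F / 2 ≤ |f x| := by
        have := abs_sub_abs_le_abs_sub (f x₀) (f x)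
        rw [abs_sub_comm (f x₀) (f x)] at this
        linarith
      have : (F / 2) ^ 2 ≤ |f x| ^ 2 := pow_le_pow_left₀ (by positivity) h3 2
      rw [sq_abs] at this
      linarith
    have hg0 : ∀ x ∈ Icc a b, 0 ≤ f x ^ 2 := fun x _ => sq_nonneg _
    rcases le_or_gt δ (b - a) with hcase | hcase
    · -- Case 1: a subinterval of length δ
      have hI1 : F ^ 2 / 4 * δ ≤ I := by
        by_cases hx : x₀ + δ ≤ b
        · have := gn_sub_lower a b x₀ (x₀ + δ) (F ^ 2 / 4) (fun τ => f τ ^ 2) hx₀.1 (by linarith) hx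
            hfi hg0 (fun x hxx => hnear x ⟨by linarith [hxx.1, hx₀.1], by linarith [hxx.2]⟩
              (by rw [abs_le]; constructor <;> linarith [hxx.1, hxx.2]))
          simpa using this
        · push Not at hx
          have := gn_sub_lower a b (b - δ) b (F ^ 2 / 4) (fun τ => f τ ^ 2) (by linarith)
            (by linarith) le_rfl hfi hg0
            (fun x hxx => hnear x ⟨by linarith [hxx.1], hxx.2⟩
              (by rw [abs_le]; constructor <;> linarith [hxx.1, hxx.2, hx₀.2]))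
          simpa using this
      have hF3 : F ^ 3 ≤ 16 * Ry * I := by
        have : F ^ 2 / 4 * δ = F ^ 3 / (16 * Ry) := by rw [hδ]; field_simp; ring
        rw [this, div_le_iff₀ (by positivity)] at hI1
        linarith
      have hA3 : A ^ 3 ≤ (8 * Ry * F) ^ 3 := pow_le_pow_left₀ hA0 hA1 3
      have : (8 * Ry * F) ^ 3 = 512 * Ry ^ 3 * F ^ 3 := by ring
      have h5 : 512 * Ry ^ 3 * F ^ 3 ≤ 512 * Ry ^ 3 * (16 * Ry * I) :=
        mul_le_mul_of_nonneg_left hF3 (by positivity)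
      have h6 : 0 ≤ Ry ^ 4 * I := by positivity
      nlinarith
    · -- Case 2: whole interval
      have hI2 : F ^ 2 / 4 * (b - a) ≤ I := by
        have := gn_sub_lower a b a b (F ^ 2 / 4) (fun τ => f τ ^ 2) le_rfl hab le_rfl hfi hg0
          (fun x hxx => hnear x hxx
            (by rw [abs_le]; constructor <;> linarith [hxx.1, hxx.2, hx₀.1, hx₀.2]))
        simpa using this
      have hba : 0 ≤ b - a := by linarith
      have hFb : 4 * Ry * (b - a) ≤ F := by
        have : b - a ≤ F / (4 * Ry) := hcase.le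
        rw [le_div_iff₀ (by positivity)] at this
        linarith
      have hF2 : (4 * Ry * (b - a)) ^ 2 ≤ F ^ 2 := pow_le_pow_left₀ (by positivity) hFb 2
      have hI3 : 4 * Ry ^ 2 * (b - a) ^ 3 ≤ I := by
        have : (4 * Ry * (b - a)) ^ 2 / 4 * (b - a) ≤ F ^ 2 / 4 * (b - a) := by gcongr
        have e : (4 * Ry * (b - a)) ^ 2 / 4 * (b - a) = 4 * Ry ^ 2 * (b - a) ^ 3 := by ring
        linarith
      have hA3 : A ^ 3 ≤ (4 * Ry ^ 2 * (b - a)) ^ 3 := pow_le_pow_left₀ hA0 hA2 3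
      have e : (4 * Ry ^ 2 * (b - a)) ^ 3 = 16 * Ry ^ 4 * (4 * Ry ^ 2 * (b - a) ^ 3) := by ring
      have h5 : 16 * Ry ^ 4 * (4 * Ry ^ 2 * (b - a) ^ 3) ≤ 16 * Ry ^ 4 * I :=
        mul_le_mul_of_nonneg_left hI3 (by positivity)
      have h6 : 0 ≤ Ry ^ 4 * I := by positivity
      nlinarith

end Crest.Agent.S0109
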