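import Mathlib

/-!
# `gn_main` by finite differences (row 82, module GN — proof without slicing)

`gn_main_fd` has the statement of the skeleton `gn_main` (file `GN.lean`).  Proof: for a vector `h`
and `S = {x ∈ K | x + h ∈ K}` the subgradient inequalities at `x` and `x + h` give
`|⟪Tu x - Tv x, h⟫ - (f (x+h) - f x)| ≤ ⟪Tu (x+h) - Tu x, h⟫ + ⟪Tv (x+h) - Tv x, h⟫` (`f = u - v - c`);
the right-hand side is nonnegative and its integral over `S` telescopes by translation invariance
to boundary layers `K \ S`, whose volume is `≤ d ‖h‖ vol K / r` when a ball of radius `r` lies in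
`K` (homothety).  Summing over the coordinate directions with `‖h‖ = ε` and optimising `ε` gives
the exponent `1/3`.  Everything is in `namespace Crest.Agent.S0109.GNfd`, except `gn_main_fd`.
-/

set_option autoImplicit false
set_option linter.unusedSectionVars false
open MeasureTheory
open scoped ENNReal NNReal RealInnerProductSpace

namespace Crest.Agent.S0109

namespace GNfd

section abstract

variable {E : Type*} [NormedAddCommGroup E] [MeasurableSpace E] [BorelSpace E]

/-- points of `K` whose `h`-translate is still in `K`. -/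
def sh (K : Set E) (h : E) : Set E := {x | x ∈ K ∧ x + h ∈ K}

theorem sh_subset (K : Set E) (h : E) : sh K h ⊆ K := fun _ hx => hx.1

theorem measurableSet_sh {K : Set E} (hKm : MeasurableSet K) (h : E) : MeasurableSet (sh K h) :=
  hKm.inter ((measurable_add_const h) hKm)

/-- bounded measurable real functions. -/
def BM (g : E → ℝ) : Prop := Measurable g ∧ ∃ B, ∀ x, |g x| ≤ B

theorem BM.add {f g : E → ℝ} (hf : BM f) (hg : BM g) : BM (fun x => f x + g x) := by
  obtain ⟨hf, A, hA⟩ := hf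
  obtain ⟨hg, B, hB⟩ := hg
  exact ⟨hf.add hg, A + B, fun x => (abs_add_le _ _).trans (add_le_add (hA x) (hB x))⟩

theorem BM.sub {f g : E → ℝ} (hf : BM f) (hg : BM g) : BM (fun x => f x - g x) := by
  obtain ⟨hf, A, hA⟩ := hf
  obtain ⟨hg, B, hB⟩ := hg
  exact ⟨hf.sub hg, A + B, fun x => (abs_sub _ _).trans (add_le_add (hA x) (hB x))⟩

theorem BM.mul {f g : E → ℝ} (hf : BM f) (hg : BM g) : BM (fun x => f x * g x) := by
  obtain ⟨hf, A, hA⟩ := hf
  obtain ⟨hg, B, hB⟩ := hg
  refine ⟨hf.mul hg, A * B, fun x => ?_⟩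
  rw [abs_mul]
  exact mul_le_mul (hA x) (hB x) (abs_nonneg _) ((abs_nonneg _).trans (hA x))

theorem BM.const (c : ℝ) : BM (fun _ : E => c) := ⟨measurable_const, |c|, fun _ => le_rfl⟩

theorem BM.sq {f : E → ℝ} (hf : BM f) : BM (fun x => f x ^ 2) := by
  have := hf.mul hf
  simpa [pow_two] using this

theorem BM.shift {f : E → ℝ} (hf : BM f) (h : E) : BM (fun x => f (x + h)) := by
  obtain ⟨hf, A, hA⟩ := hf
  exact ⟨hf.comp (measurable_add_const h), A, fun x => hA _⟩

theorem BM.intOn {g : E → ℝ} (hg : BM g) {μ : Measure E} {A : Set E} (hA : μ A ≠ ⊤) :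
    IntegrableOn g A μ := by
  obtain ⟨hg, B, hB⟩ := hg
  exact Measure.integrableOn_of_bounded hA hg.aestronglyMeasurable (M := B)
    (Filter.Eventually.of_forall (fun x => by rw [Real.norm_eq_abs]; exact hB x))

theorem sh_translate (μ : Measure E) [μ.IsAddRightInvariant] {K : Set E} (hKm : MeasurableSet K)
    (h : E) (g : E → ℝ) :
    ∫ x in sh K h, g (x + h) ∂μ = ∫ x in sh K (-h), g x ∂μ := by
  rw [← integral_indicator (measurableSet_sh hKm h), ← integral_indicator (measurableSet_sh hKm (-h))]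
  rw [← integral_add_right_eq_self (fun y => (sh K (-h)).indicator g y) h]
  congr 1
  ext x
  by_cases hx : x ∈ sh K h
  · have hx' : x + h ∈ sh K (-h) := ⟨hx.2, by simpa using hx.1⟩
    rw [Set.indicator_of_mem hx, Set.indicator_of_mem hx']
  · have hx' : x + h ∉ sh K (-h) := fun hx' => hx ⟨by simpa using hx'.2, hx'.1⟩
    rw [Set.indicator_of_notMem hx, Set.indicator_of_notMem hx']

/-- The measure-theoretic core: a pointwise finite-difference inequality on `sh K h` plus small
boundary layers give an `L²` bound. -/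
theorem fd_abstract (μ : Measure E) [μ.IsAddRightInvariant] (K : Set E) (hKm : MeasurableSet K)
    (hKfin : μ K ≠ ⊤) (h : E) (F P Q : E → ℝ) (hF : BM F) (hP : Measurable P)
    (hQ : Measurable Q) (M : ℝ) (bP : ∀ x, |P x| ≤ M) (bQ : ∀ x, |Q x| ≤ M)
    (hpt : ∀ x, x ∈ K → x + h ∈ K →
      (P x - Q x) ^ 2 ≤
        2 * (F (x + h) - F x) ^ 2 + 8 * M * ((P (x + h) - P x) + (Q (x + h) - Q x)))
    (δ : ℝ) (hδ1 : μ.real (K \ sh K h) ≤ δ) (hδ2 : μ.real (K \ sh K (-h)) ≤ δ) :
    ∫ x in K, (P x - Q x) ^ 2 ∂μ ≤ 8 * ∫ x in K, (F x) ^ 2 ∂μ + 36 * M ^ 2 * δ := by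
  have hM : 0 ≤ M := le_trans (abs_nonneg _) (bP 0)
  have hPb : BM P := ⟨hP, M, bP⟩
  have hQb : BM Q := ⟨hQ, M, bQ⟩
  have hSm : MeasurableSet (sh K h) := measurableSet_sh hKm h
  have hS'm : MeasurableSet (sh K (-h)) := measurableSet_sh hKm (-h)
  have hSK : sh K h ⊆ K := sh_subset K h
  have hS'K : sh K (-h) ⊆ K := sh_subset K (-h)
  have hSfin : μ (sh K h) ≠ ⊤ := ne_top_of_le_ne_top hKfin (measure_mono hSK)
  have hS'fin : μ (sh K (-h)) ≠ ⊤ := ne_top_of_le_ne_top hKfin (measure_mono hS'K)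
  have hKSfin : μ (K \ sh K h) ≠ ⊤ := ne_top_of_le_ne_top hKfin (measure_mono Set.sdiff_subset)
  have hKS'fin : μ (K \ sh K (-h)) ≠ ⊤ :=
    ne_top_of_le_ne_top hKfin (measure_mono Set.sdiff_subset)
  have hg0 : BM (fun x => (P x - Q x) ^ 2) := (hPb.sub hQb).sq
  -- splitting of `K`
  have hsplit : ∫ x in K, (P x - Q x) ^ 2 ∂μ =
      ∫ x in sh K h, (P x - Q x) ^ 2 ∂μ + ∫ x in K \ sh K h, (P x - Q x) ^ 2 ∂μ := by
    rw [setIntegral_sdiff hSm (hg0.intOn hKfin) hSK]; ring
  -- (a) boundary layer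
  have ha : ∫ x in K \ sh K h, (P x - Q x) ^ 2 ∂μ ≤ 4 * M ^ 2 * δ := by
    have h1 : ∫ x in K \ sh K h, (P x - Q x) ^ 2 ∂μ ≤ ∫ _x in K \ sh K h, (2 * M) ^ 2 ∂μ := by
      refine setIntegral_mono_on (hg0.intOn hKSfin) ((BM.const _).intOn hKSfin) (hKm.diff hSm)
        (fun x _ => ?_)
      have h2 : |P x - Q x| ≤ 2 * M := by
        have := abs_sub (P x) (Q x); linarith [bP x, bQ x]
      calc (P x - Q x) ^ 2 = |P x - Q x| ^ 2 := (sq_abs _).symm
        _ ≤ (2 * M) ^ 2 := pow_le_pow_left₀ (abs_nonneg _) h2 2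
    rw [setIntegral_const, smul_eq_mul] at h1
    have h3 : μ.real (K \ sh K h) * (2 * M) ^ 2 ≤ δ * (2 * M) ^ 2 :=
      mul_le_mul_of_nonneg_right hδ1 (sq_nonneg _)
    linarith
  -- (b1) the `F` part
  have hb2 : ∫ x in sh K h, (F (x + h) - F x) ^ 2 ∂μ ≤ 4 * ∫ x in K, (F x) ^ 2 ∂μ := by
    have hF2 : BM (fun x => F x ^ 2) := hF.sq
    have h1 : ∫ x in sh K h, (F (x + h) - F x) ^ 2 ∂μ ≤
        ∫ x in sh K h, (2 * F (x + h) ^ 2 + 2 * F x ^ 2) ∂μ := by
      refine setIntegral_mono_on (((hF.shift h).sub hF).sq.intOn hSfin)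
        ((((BM.const 2).mul (hF.shift h).sq).add ((BM.const 2).mul hF2)).intOn hSfin) hSm
        (fun x _ => ?_)
      nlinarith [sq_nonneg (F (x + h) + F x)]
    have h2 : ∫ x in sh K h, (2 * F (x + h) ^ 2 + 2 * F x ^ 2) ∂μ =
        2 * ∫ x in sh K h, F (x + h) ^ 2 ∂μ + 2 * ∫ x in sh K h, F x ^ 2 ∂μ := by
      rw [integral_add (((BM.const 2).mul (hF.shift h).sq).intOn hSfin)
        (((BM.const 2).mul hF2).intOn hSfin), integral_const_mul, integral_const_mul]
    have h3 : ∫ x in sh K h, F (x + h) ^ 2 ∂μ = ∫ x in sh K (-h), F x ^ 2 ∂μ :=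
      sh_translate μ hKm h (fun x => F x ^ 2)
    have h4 : ∫ x in sh K (-h), F x ^ 2 ∂μ ≤ ∫ x in K, F x ^ 2 ∂μ :=
      setIntegral_mono_set (hF2.intOn hKfin)
        (Filter.Eventually.of_forall (fun x => sq_nonneg (F x))) hS'K.eventuallyLE
    have h5 : ∫ x in sh K h, F x ^ 2 ∂μ ≤ ∫ x in K, F x ^ 2 ∂μ :=
      setIntegral_mono_set (hF2.intOn hKfin)
        (Filter.Eventually.of_forall (fun x => sq_nonneg (F x))) hSK.eventuallyLE
    linarith
  -- (b2) the monotone part: telescoping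
  have htel : ∀ (G : E → ℝ), BM G → (∀ x, |G x| ≤ M) →
      ∫ x in sh K h, (G (x + h) - G x) ∂μ ≤ 2 * M * δ := by
    intro G hG bG
    have h1 : ∫ x in sh K h, (G (x + h) - G x) ∂μ =
        ∫ x in sh K h, G (x + h) ∂μ - ∫ x in sh K h, G x ∂μ :=
      integral_sub ((hG.shift h).intOn hSfin) (hG.intOn hSfin)
    have h2 : ∫ x in sh K h, G (x + h) ∂μ = ∫ x in sh K (-h), G x ∂μ := sh_translate μ hKm h G
    have h3 : ∫ x in K \ sh K h, G x ∂μ = ∫ x in K, G x ∂μ - ∫ x in sh K h, G x ∂μ :=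
      setIntegral_sdiff hSm (hG.intOn hKfin) hSK
    have h4 : ∫ x in K \ sh K (-h), G x ∂μ = ∫ x in K, G x ∂μ - ∫ x in sh K (-h), G x ∂μ :=
      setIntegral_sdiff hS'm (hG.intOn hKfin) hS'K
    have h5 : ‖∫ x in K \ sh K h, G x ∂μ‖ ≤ M * μ.real (K \ sh K h) :=
      norm_setIntegral_le_of_norm_le_const (lt_top_iff_ne_top.2 hKSfin)
        (fun x _ => by rw [Real.norm_eq_abs]; exact bG x)
    have h6 : ‖∫ x in K \ sh K (-h), G x ∂μ‖ ≤ M * μ.real (K \ sh K (-h)) :=
      norm_setIntegral_le_of_norm_le_const (lt_top_iff_ne_top.2 hKS'fin)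
        (fun x _ => by rw [Real.norm_eq_abs]; exact bG x)
    rw [Real.norm_eq_abs] at h5 h6
    have h7 := abs_le.1 h5
    have h8 := abs_le.1 h6
    have h9 : M * μ.real (K \ sh K h) ≤ M * δ := mul_le_mul_of_nonneg_left hδ1 hM
    have h10 : M * μ.real (K \ sh K (-h)) ≤ M * δ := mul_le_mul_of_nonneg_left hδ2 hM
    linarith
  -- (b) assembling on `sh K h`
  have hb : ∫ x in sh K h, (P x - Q x) ^ 2 ∂μ ≤
      8 * ∫ x in K, (F x) ^ 2 ∂μ + 32 * M ^ 2 * δ := by
    have hd : BM (fun x => (F (x + h) - F x) ^ 2) := ((hF.shift h).sub hF).sq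
    have hm : BM (fun x => (P (x + h) - P x) + (Q (x + h) - Q x)) :=
      ((hPb.shift h).sub hPb).add ((hQb.shift h).sub hQb)
    have h1 : ∫ x in sh K h, (P x - Q x) ^ 2 ∂μ ≤
        ∫ x in sh K h, (2 * (F (x + h) - F x) ^ 2 +
          8 * M * ((P (x + h) - P x) + (Q (x + h) - Q x))) ∂μ :=
      setIntegral_mono_on (hg0.intOn hSfin)
        ((((BM.const 2).mul hd).add ((BM.const (8 * M)).mul hm)).intOn hSfin) hSm
        (fun x hx => hpt x hx.1 hx.2)
    have h2 : ∫ x in sh K h, (2 * (F (x + h) - F x) ^ 2 +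
          8 * M * ((P (x + h) - P x) + (Q (x + h) - Q x))) ∂μ =
        2 * ∫ x in sh K h, (F (x + h) - F x) ^ 2 ∂μ +
          8 * M * ∫ x in sh K h, ((P (x + h) - P x) + (Q (x + h) - Q x)) ∂μ := by
      rw [integral_add (((BM.const 2).mul hd).intOn hSfin)
        (((BM.const (8 * M)).mul hm).intOn hSfin), integral_const_mul, integral_const_mul]
    have h3 : ∫ x in sh K h, ((P (x + h) - P x) + (Q (x + h) - Q x)) ∂μ =
        ∫ x in sh K h, (P (x + h) - P x) ∂μ + ∫ x in sh K h, (Q (x + h) - Q x) ∂μ :=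
      integral_add (((hPb.shift h).sub hPb).intOn hSfin) (((hQb.shift h).sub hQb).intOn hSfin)
    have h4 := htel P hPb bP
    have h5 := htel Q hQb bQ
    have h6 : 8 * M * ∫ x in sh K h, ((P (x + h) - P x) + (Q (x + h) - Q x)) ∂μ ≤
        8 * M * (4 * M * δ) := by
      apply mul_le_mul_of_nonneg_left _ (by positivity)
      rw [h3]; linarith
    nlinarith [hb2]
  rw [hsplit]
  linarith

end abstract

section geometric

variable {E : Type*} [NormedAddCommGroup E] [InnerProductSpace ℝ E] [MeasurableSpace E]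
  [BorelSpace E] [FiniteDimensional ℝ E]

/-- Boundary layers of a convex set containing a ball are thin. -/
theorem shrink (μ : Measure E) [μ.IsAddHaarMeasure] (K : Set E) (hKm : MeasurableSet K)
    (hKv : Convex ℝ K) (hKfin : μ K ≠ ⊤) (x0 : E) (r : ℝ) (hr : 0 < r)
    (hball : Metric.closedBall x0 r ⊆ K) (h : E) (hh : ‖h‖ ≤ r) :
    μ.real (K \ sh K h) ≤ (Module.finrank ℝ E : ℝ) * (‖h‖ / r) * μ.real K := by
  set s : ℝ := ‖h‖ / r with hs
  have hs0 : 0 ≤ s := div_nonneg (norm_nonneg _) hr.le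
  have hs1 : s ≤ 1 := (div_le_one hr).2 hh
  have hnorm : ‖h‖ = s * r := by rw [hs]; field_simp
  have hx0 : x0 ∈ K := hball (Metric.mem_closedBall_self hr.le)
  have himg : AffineMap.homothety x0 (1 - s) '' K ⊆ sh K h := by
    rintro _ ⟨k, hk, rfl⟩
    have e1 : AffineMap.homothety x0 (1 - s) k = (1 - s) • k + s • x0 := by
      rw [AffineMap.homothety_apply]
      simp only [vsub_eq_sub, vadd_eq_add]
      module
    refine ⟨?_, ?_⟩
    · rw [e1]
      exact hKv hk hx0 (by linarith) hs0 (by ring)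
    · rcases eq_or_lt_of_le hs0 with hs' | hs'
      · have hh0 : h = 0 := by
          apply norm_eq_zero.1
          rw [hnorm, ← hs', zero_mul]
        rw [e1, ← hs', hh0]
        simpa using hk
      · have hpt : x0 + (1 / s) • h ∈ K := by
          apply hball
          rw [Metric.mem_closedBall, dist_eq_norm, add_sub_cancel_left, norm_smul,
            Real.norm_eq_abs, abs_of_pos (by positivity), hnorm]
          field_simp
          exact le_rfl
        have e2 : AffineMap.homothety x0 (1 - s) k + h =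
            (1 - s) • k + s • (x0 + (1 / s) • h) := by
          rw [e1, smul_add, smul_smul, mul_one_div_cancel hs'.ne', one_smul]
          abel
        rw [e2]
        exact hKv hk hpt (by linarith) hs0 (by ring)
  have hSm := measurableSet_sh hKm h
  have hSK := sh_subset K h
  have hSfin : μ (sh K h) ≠ ⊤ := ne_top_of_le_ne_top hKfin (measure_mono hSK)
  have h1 : μ.real (K \ sh K h) = μ.real K - μ.real (sh K h) := measureReal_sdiff hSK hSm hKfin
  have h2 : (1 + -s) ^ Module.finrank ℝ E * μ.real K ≤ μ.real (sh K h) := by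
    have h3 : μ (AffineMap.homothety x0 (1 - s) '' K) ≤ μ (sh K h) := measure_mono himg
    rw [Measure.addHaar_image_homothety] at h3
    have h4 := ENNReal.toReal_mono hSfin h3
    rw [ENNReal.toReal_mul, ENNReal.toReal_ofReal (abs_nonneg _),
      abs_of_nonneg (pow_nonneg (by linarith) _)] at h4
    have e : (1 - s) = 1 + -s := by ring
    rw [e] at h4
    exact h4
  have h5 : 1 + (Module.finrank ℝ E : ℝ) * (-s) ≤ (1 + (-s)) ^ Module.finrank ℝ E :=
    one_add_mul_le_pow (by linarith) _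
  have h6 : 0 ≤ μ.real K := measureReal_nonneg
  rw [h1]
  nlinarith [mul_le_mul_of_nonneg_right h5 h6]

/-- The pointwise finite-difference inequality. -/
theorem pointwise (K : Set E) (Ry : ℝ) (u v : E → ℝ) (Tu Tv : E → E)
    (bTu : ∀ x ∈ K, ‖Tu x‖ ≤ Ry) (bTv : ∀ x ∈ K, ‖Tv x‖ ≤ Ry)
    (hu : ∀ x ∈ K, ∀ x' ∈ K, u x + inner ℝ (Tu x) (x' - x) ≤ u x')
    (hv : ∀ x ∈ K, ∀ x' ∈ K, v x + inner ℝ (Tv x) (x' - x) ≤ v x') (c : ℝ) (h : E)
    (x : E) (hx : x ∈ K) (hxh : x + h ∈ K) :
    (inner ℝ (Tu x) h - inner ℝ (Tv x) h) ^ 2 ≤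
      2 * ((u (x + h) - v (x + h) - c) - (u x - v x - c)) ^ 2 +
        8 * (Ry * ‖h‖) * ((inner ℝ (Tu (x + h)) h - inner ℝ (Tu x) h) +
          (inner ℝ (Tv (x + h)) h - inner ℝ (Tv x) h)) := by
  have h1 := hu x hx (x + h) hxh
  have h2 := hu (x + h) hxh x hx
  have h3 := hv x hx (x + h) hxh
  have h4 := hv (x + h) hxh x hx
  rw [add_sub_cancel_left] at h1 h3
  rw [sub_add_cancel_left, inner_neg_right] at h2 h4
  have b1 := abs_le.1 ((abs_real_inner_le_norm (Tu x) h).trans
    (mul_le_mul_of_nonneg_right (bTu x hx) (norm_nonneg _)))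
  have b2 := abs_le.1 ((abs_real_inner_le_norm (Tu (x + h)) h).trans
    (mul_le_mul_of_nonneg_right (bTu _ hxh) (norm_nonneg _)))
  have b3 := abs_le.1 ((abs_real_inner_le_norm (Tv x) h).trans
    (mul_le_mul_of_nonneg_right (bTv x hx) (norm_nonneg _)))
  have b4 := abs_le.1 ((abs_real_inner_le_norm (Tv (x + h)) h).trans
    (mul_le_mul_of_nonneg_right (bTv _ hxh) (norm_nonneg _)))
  generalize inner ℝ (Tu x) h = P at *
  generalize inner ℝ (Tu (x + h)) h = P' at *
  generalize inner ℝ (Tv x) h = Q at *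
  generalize inner ℝ (Tv (x + h)) h = Q' at *
  generalize Ry * ‖h‖ = M at *
  generalize u (x + h) = U' at *
  generalize u x = U at *
  generalize v (x + h) = V' at *
  generalize v x = V at *
  have ha : 0 ≤ P' - P := by linarith
  have hb : 0 ≤ Q' - Q := by linarith
  set e : ℝ := (P - Q) - ((U' - V' - c) - (U - V - c)) with he
  have he1 : -((P' - P) + (Q' - Q)) ≤ e := by rw [he]; linarith
  have he2 : e ≤ (P' - P) + (Q' - Q) := by rw [he]; linarith
  have he3 : e ^ 2 ≤ ((P' - P) + (Q' - Q)) ^ 2 := sq_le_sq' he1 he2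
  have he4 : ((P' - P) + (Q' - Q)) ^ 2 ≤ 4 * M * ((P' - P) + (Q' - Q)) := by
    have : (P' - P) + (Q' - Q) ≤ 4 * M := by linarith
    nlinarith
  have he5 : P - Q = ((U' - V' - c) - (U - V - c)) + e := by rw [he]; ring
  rw [he5]
  nlinarith [sq_nonneg (((U' - V' - c) - (U - V - c)) - e)]

/-- The estimate in one direction `h`. -/
theorem dir_est (μ : Measure E) [μ.IsAddHaarMeasure] (K : Set E) (hKc : IsCompact K)
    (hKv : Convex ℝ K) (x0 : E) (r : ℝ) (hr : 0 < r) (hball : Metric.closedBall x0 r ⊆ K)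
    (Ry : ℝ) (hRy : 0 ≤ Ry) (u v : E → ℝ) (Tu Tv : E → E) (hTu : Measurable Tu)
    (hTv : Measurable Tv) (bTu : ∀ x ∈ K, ‖Tu x‖ ≤ Ry) (bTv : ∀ x ∈ K, ‖Tv x‖ ≤ Ry)
    (hu : ∀ x ∈ K, ∀ x' ∈ K, u x + inner ℝ (Tu x) (x' - x) ≤ u x')
    (hv : ∀ x ∈ K, ∀ x' ∈ K, v x + inner ℝ (Tv x) (x' - x) ≤ v x') (c : ℝ) (h : E)
    (hh : ‖h‖ ≤ r) :
    ∫ x in K, (inner ℝ (Tu x - Tv x) h) ^ 2 ∂μ ≤
      8 * ∫ x in K, (u x - v x - c) ^ 2 ∂μ +
        36 * (Ry * ‖h‖) ^ 2 * ((Module.finrank ℝ E : ℝ) * (‖h‖ / r) * μ.real K) := by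
  classical
  have hKm : MeasurableSet K := hKc.measurableSet
  have hKfin : μ K ≠ ⊤ := hKc.measure_lt_top.ne
  have lip : ∀ (w : E → ℝ) (Tw : E → E), (∀ x ∈ K, ‖Tw x‖ ≤ Ry) →
      (∀ x ∈ K, ∀ x' ∈ K, w x + inner ℝ (Tw x) (x' - x) ≤ w x') → ContinuousOn w K := by
    intro w Tw bT hw
    have hl : LipschitzOnWith (Real.toNNReal Ry) w K := by
      apply LipschitzOnWith.of_dist_le_mul
      intro x hx y hy
      rw [Real.dist_eq, dist_eq_norm, Real.coe_toNNReal _ hRy, abs_le]
      have h1 := hw x hx y hy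
      have h2 := hw y hy x hx
      have h3 := abs_le.1 ((abs_real_inner_le_norm (Tw x) (y - x)).trans
        (mul_le_mul_of_nonneg_right (bT x hx) (norm_nonneg _)))
      have h4 := abs_le.1 ((abs_real_inner_le_norm (Tw y) (x - y)).trans
        (mul_le_mul_of_nonneg_right (bT y hy) (norm_nonneg _)))
      rw [norm_sub_rev] at h3
      constructor <;> linarith
    exact hl.continuousOn
  set f : E → ℝ := fun x => u x - v x - c with hf
  have hfc : ContinuousOn f K :=
    ((lip u Tu bTu hu).sub (lip v Tv bTv hv)).sub continuousOn_const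
  have hFm : Measurable (K.indicator f) := by
    have h1 := ContinuousOn.measurable_piecewise (f := f) (g := (0 : E → ℝ)) hfc
      continuousOn_const hKm
    rwa [Set.piecewise_eq_indicator] at h1
  obtain ⟨B, hB⟩ := hKc.exists_bound_of_continuousOn hfc
  have hFb : BM (K.indicator f) := by
    refine ⟨hFm, |B|, fun x => ?_⟩
    by_cases hx : x ∈ K
    · rw [Set.indicator_of_mem hx]
      have := hB x hx
      rw [Real.norm_eq_abs] at this
      exact this.trans (le_abs_self B)
    · rw [Set.indicator_of_notMem hx]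
      simp
  have hPm : Measurable (K.indicator (fun x => inner ℝ (Tu x) h)) :=
    (hTu.inner measurable_const).indicator hKm
  have hQm : Measurable (K.indicator (fun x => inner ℝ (Tv x) h)) :=
    (hTv.inner measurable_const).indicator hKm
  have hM : 0 ≤ Ry * ‖h‖ := mul_nonneg hRy (norm_nonneg _)
  have bP : ∀ x, |K.indicator (fun x => inner ℝ (Tu x) h) x| ≤ Ry * ‖h‖ := by
    intro x
    by_cases hx : x ∈ K
    · rw [Set.indicator_of_mem hx]
      exact (abs_real_inner_le_norm (Tu x) h).trans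
        (mul_le_mul_of_nonneg_right (bTu x hx) (norm_nonneg _))
    · rw [Set.indicator_of_notMem hx]
      simpa using hM
  have bQ : ∀ x, |K.indicator (fun x => inner ℝ (Tv x) h) x| ≤ Ry * ‖h‖ := by
    intro x
    by_cases hx : x ∈ K
    · rw [Set.indicator_of_mem hx]
      exact (abs_real_inner_le_norm (Tv x) h).trans
        (mul_le_mul_of_nonneg_right (bTv x hx) (norm_nonneg _))
    · rw [Set.indicator_of_notMem hx]
      simpa using hM
  have hpt : ∀ x, x ∈ K → x + h ∈ K →
      (K.indicator (fun x => inner ℝ (Tu x) h) x - K.indicator (fun x => inner ℝ (Tv x) h) x) ^ 2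
        ≤ 2 * (K.indicator f (x + h) - K.indicator f x) ^ 2 + 8 * (Ry * ‖h‖) *
          ((K.indicator (fun x => inner ℝ (Tu x) h) (x + h) -
              K.indicator (fun x => inner ℝ (Tu x) h) x) +
            (K.indicator (fun x => inner ℝ (Tv x) h) (x + h) -
              K.indicator (fun x => inner ℝ (Tv x) h) x)) := by
    intro x hx hxh
    rw [Set.indicator_of_mem hx, Set.indicator_of_mem hx, Set.indicator_of_mem hx,
      Set.indicator_of_mem hxh, Set.indicator_of_mem hxh, Set.indicator_of_mem hxh]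
    exact pointwise K Ry u v Tu Tv bTu bTv hu hv c h x hx hxh
  have hδ1 := shrink μ K hKm hKv hKfin x0 r hr hball h hh
  have hδ2 := shrink μ K hKm hKv hKfin x0 r hr hball (-h) (by rw [norm_neg]; exact hh)
  rw [norm_neg] at hδ2
  have key := fd_abstract μ K hKm hKfin h (K.indicator f)
    (K.indicator (fun x => inner ℝ (Tu x) h)) (K.indicator (fun x => inner ℝ (Tv x) h))
    hFb hPm hQm (Ry * ‖h‖) bP bQ hpt _ hδ1 hδ2
  have e1 : ∫ x in K, (inner ℝ (Tu x - Tv x) h) ^ 2 ∂μ =
      ∫ x in K, (K.indicator (fun x => inner ℝ (Tu x) h) x -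
        K.indicator (fun x => inner ℝ (Tv x) h) x) ^ 2 ∂μ := by
    apply setIntegral_congr_fun hKm
    intro x hx
    simp only [Set.indicator_of_mem hx, inner_sub_left]
  have e2 : ∫ x in K, (u x - v x - c) ^ 2 ∂μ = ∫ x in K, (K.indicator f x) ^ 2 ∂μ := by
    apply setIntegral_congr_fun hKm
    intro x hx
    simp only [Set.indicator_of_mem hx, hf]
  rw [e1, e2]
  exact key

end geometric

end GNfd

open GNfd in
/-- Same statement as the skeleton `gn_main` (file `GN.lean`), proved by finite differences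
(no slicing, no Fubini, no one-dimensional lemma). -/
theorem gn_main_fd (d : ℕ) (K : Set (EuclideanSpace ℝ (Fin d))) (hKc : IsCompact K)
    (hKv : Convex ℝ K) (Ry : ℝ) (hRy : 0 ≤ Ry) :
    ∃ C : ℝ, 0 ≤ C ∧ ∀ (u v : EuclideanSpace ℝ (Fin d) → ℝ)
      (Tu Tv : EuclideanSpace ℝ (Fin d) → EuclideanSpace ℝ (Fin d)),
      Measurable Tu → Measurable Tv →
      (∀ x ∈ K, ‖Tu x‖ ≤ Ry) → (∀ x ∈ K, ‖Tv x‖ ≤ Ry) →
      (∀ x ∈ K, ∀ x' ∈ K, u x + inner ℝ (Tu x) (x' - x) ≤ u x') →
      (∀ x ∈ K, ∀ x' ∈ K, v x + inner ℝ (Tv x) (x' - x) ≤ v x') →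
      ∀ c : ℝ, ∫ x in K, ‖Tu x - Tv x‖ ^ 2 ≤
        C * (∫ x in K, (u x - v x - c) ^ 2) ^ (1 / 3 : ℝ) := by
  classical
  have hKm : MeasurableSet K := hKc.measurableSet
  by_cases hint : (interior K).Nonempty
  swap
  · refine ⟨0, le_rfl, ?_⟩
    intro u v Tu Tv _ _ _ _ _ _ c
    have hK0 : volume K = 0 := by
      have h1 : frontier K = K := by
        rw [hKc.isClosed.frontier_eq, Set.not_nonempty_iff_eq_empty.1 hint, Set.sdiff_empty]
      rw [← h1]
      exact hKv.addHaar_frontier volume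
    rw [Measure.restrict_eq_zero.2 hK0]
    simp
  · obtain ⟨x0, hx0⟩ := hint
    obtain ⟨r', hr', hball'⟩ := Metric.isOpen_iff.1 isOpen_interior x0 hx0
    have hr : 0 < r' / 2 := by positivity
    have hball : Metric.closedBall x0 (r' / 2) ⊆ K :=
      (Metric.closedBall_subset_ball (by linarith)).trans (hball'.trans interior_subset)
    generalize r' / 2 = r at hr hball
    have hKfin : volume K ≠ ⊤ := hKc.measure_lt_top.ne
    set V : ℝ := volume.real K with hV
    have hV0 : 0 ≤ V := measureReal_nonneg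
    set A : ℝ := 36 * (d : ℝ) ^ 2 * Ry ^ 2 * V / r with hA
    have hA0 : 0 ≤ A := by positivity
    refine ⟨8 * d + A + 4 * Ry ^ 2 * V / r, by positivity, ?_⟩
    intro u v Tu Tv hTu hTv bTu bTv hu hv c
    set F : ℝ := ∫ x in K, (u x - v x - c) ^ 2 with hF
    set I : ℝ := ∫ x in K, ‖Tu x - Tv x‖ ^ 2 with hI
    have hF0 : 0 ≤ F := setIntegral_nonneg hKm (fun x _ => sq_nonneg _)
    have hbd : ∀ x ∈ K, ‖Tu x - Tv x‖ ≤ 2 * Ry := fun x hx =>
      (norm_sub_le _ _).trans (by linarith [bTu x hx, bTv x hx])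
    have hintD : IntegrableOn (fun x => ‖Tu x - Tv x‖ ^ 2) K volume := by
      refine Measure.integrableOn_of_bounded hKfin
        ((hTu.sub hTv).norm.pow_const 2).aestronglyMeasurable (M := (2 * Ry) ^ 2) ?_
      refine (ae_restrict_iff' hKm).2 (Filter.Eventually.of_forall (fun x hx => ?_))
      rw [Real.norm_eq_abs, abs_of_nonneg (sq_nonneg _)]
      exact pow_le_pow_left₀ (norm_nonneg _) (hbd x hx) 2
    have htriv : I ≤ 4 * Ry ^ 2 * V := by
      have h1 : I ≤ ∫ _x in K, (2 * Ry) ^ 2 := by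
        refine setIntegral_mono_on hintD ?_ hKm
          (fun x hx => pow_le_pow_left₀ (norm_nonneg _) (hbd x hx) 2)
        exact (BM.const _).intOn hKfin
      rw [setIntegral_const, smul_eq_mul] at h1
      rw [hV]
      linarith
    have key : ∀ ε : ℝ, 0 < ε → ε ≤ r → ε ^ 2 * I ≤ 8 * d * F + A * ε ^ 3 := by
      intro ε hε hεr
      have hn : ∀ i : Fin d,
          ‖(EuclideanSpace.single i ε : EuclideanSpace ℝ (Fin d))‖ = ε := by
        intro i
        rw [EuclideanSpace.norm_eq, Real.sqrt_eq_iff_mul_self_eq (Finset.sum_nonneg (fun j _ => sq_nonneg _)) hε.le]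
        rw [Finset.sum_eq_single i]
        · simp [pow_two]
        · intro j _ hji
          simp [hji]
        · intro hi
          exact absurd (Finset.mem_univ i) hi
      have hi : ∀ i : Fin d,
          ∫ x in K, (inner ℝ (Tu x - Tv x) (EuclideanSpace.single i ε)) ^ 2 ≤
            8 * F + 36 * (Ry * ε) ^ 2 * ((d : ℝ) * (ε / r) * V) := by
        intro i
        have h1 := dir_est volume K hKc hKv x0 r hr hball Ry hRy u v Tu Tv hTu hTv bTu bTv
          hu hv c (EuclideanSpace.single i ε) (by rw [hn]; exact hεr)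
        rw [hn, finrank_euclideanSpace_fin] at h1
        exact h1
      have hsum : ε ^ 2 * I =
          ∑ i : Fin d, ∫ x in K, (inner ℝ (Tu x - Tv x) (EuclideanSpace.single i ε)) ^ 2 := by
        rw [hI, ← integral_const_mul, ← integral_finsetSum]
        · apply setIntegral_congr_fun hKm
          intro x hx
          simp only
          rw [EuclideanSpace.norm_sq_eq, Finset.mul_sum]
          apply Finset.sum_congr rfl
          intro i _
          rw [EuclideanSpace.inner_single_right, Real.norm_eq_abs, sq_abs]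
          simp
          ring
        · intro i _
          refine Measure.integrableOn_of_bounded hKfin
            (((hTu.sub hTv).inner measurable_const).pow_const 2).aestronglyMeasurable
            (M := (2 * Ry * ε) ^ 2) ?_
          refine (ae_restrict_iff' hKm).2 (Filter.Eventually.of_forall (fun x hx => ?_))
          rw [Real.norm_eq_abs, abs_of_nonneg (sq_nonneg _)]
          have h2 : |inner ℝ (Tu x - Tv x) (EuclideanSpace.single i ε)| ≤ 2 * Ry * ε := by
            refine (abs_real_inner_le_norm _ _).trans ?_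
            rw [hn]
            exact mul_le_mul_of_nonneg_right (hbd x hx) hε.le
          calc (inner ℝ (Tu x - Tv x) (EuclideanSpace.single i ε)) ^ 2
              = |inner ℝ (Tu x - Tv x) (EuclideanSpace.single i ε)| ^ 2 := (sq_abs _).symm
            _ ≤ (2 * Ry * ε) ^ 2 := pow_le_pow_left₀ (abs_nonneg _) h2 2
      rw [hsum]
      calc ∑ i : Fin d, ∫ x in K, (inner ℝ (Tu x - Tv x) (EuclideanSpace.single i ε)) ^ 2
          ≤ ∑ _i : Fin d, (8 * F + 36 * (Ry * ε) ^ 2 * ((d : ℝ) * (ε / r) * V)) :=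
            Finset.sum_le_sum (fun i _ => hi i)
        _ = 8 * d * F + A * ε ^ 3 := by
          rw [Finset.sum_const, Finset.card_univ, Fintype.card_fin, nsmul_eq_mul, hA]
          field_simp
    set t : ℝ := F ^ (1 / 3 : ℝ) with ht
    have ht0 : 0 ≤ t := Real.rpow_nonneg hF0 _
    have ht3 : t ^ 3 = F := by
      rw [ht, ← Real.rpow_natCast, ← Real.rpow_mul hF0]
      norm_num
    have hC : 0 ≤ 4 * Ry ^ 2 * V / r := by positivity
    by_cases htr : t ≤ r
    · rcases eq_or_lt_of_le ht0 with h0 | hpos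
      · have hFz : F = 0 := by rw [← ht3, ← h0]; norm_num
        have hI0 : I ≤ 0 := by
          by_contra hcon
          have hcon := not_le.1 hcon
          have hε : 0 < min r (I / (2 * (A + 1))) := lt_min hr (by positivity)
          have h1 := key _ hε (min_le_left _ _)
          rw [hFz] at h1
          have h2 : min r (I / (2 * (A + 1))) ≤ I / (2 * (A + 1)) := min_le_right _ _
          generalize min r (I / (2 * (A + 1))) = ε at hε h1 h2
          have h3 : ε ^ 2 * I ≤ ε ^ 2 * (A * ε) := by nlinarith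
          have h4 : I ≤ A * ε := le_of_mul_le_mul_left h3 (by positivity)
          have h5 : A * ε ≤ A * (I / (2 * (A + 1))) := mul_le_mul_of_nonneg_left h2 hA0
          have h6 : A * (I / (2 * (A + 1))) < I := by
            rw [mul_div_assoc', div_lt_iff₀ (by positivity)]
            nlinarith
          linarith
        rw [← h0]
        simpa using hI0
      · have h1 := key t hpos htr
        rw [← ht3] at h1
        have h2 : t ^ 2 * I ≤ t ^ 2 * ((8 * d + A) * t) := by nlinarith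
        have h3 : I ≤ (8 * d + A) * t := le_of_mul_le_mul_left h2 (by positivity)
        nlinarith
    · have htr := not_le.1 htr
      have h1 : 4 * Ry ^ 2 * V = 4 * Ry ^ 2 * V / r * r := by field_simp
      have h2 : 4 * Ry ^ 2 * V / r * r ≤ 4 * Ry ^ 2 * V / r * t :=
        mul_le_mul_of_nonneg_left htr.le hC
      have h3 : 0 ≤ (8 * d + A) * t := by positivity
      nlinarith

end Crest.Agent.S0109
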