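import Crest.Agent.S0109.Cells

/-!
Row 82 (S0109) job GLUE-INJ (also holds the definition IsGlueData). Statement FROZEN; one owner.
-/

set_option autoImplicit false
open MeasureTheory Filter
open scoped ENNReal NNReal Topology
open Crest.AnalysisR.OT

namespace Crest.Agent.S0109

variable {d : ℕ} {ι κ : Type} [Fintype ι] [Fintype κ]

/-- `(ψ, b)` is optimal dual data for the source `ρ'` and the (not necessarily injective) family
`(y, m)`: value formula, barycentres in the ball, and the gluing inequality against every other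
family and every potential on it. -/
def IsGlueData (ρ' : Measure (EuclideanSpace ℝ (Fin d))) (R : ℝ)
    (y : ι → EuclideanSpace ℝ (Fin d)) (m : ι → ℝ) (ψ : ι → ℝ)
    (b : ι → EuclideanSpace ℝ (Fin d)) : Prop :=
  lagJ ρ' y m ψ = ∑ i, m i * inner ℝ (b i) (y i) ∧ (∀ i, ‖b i‖ ≤ R) ∧
    ∀ (κ : Type) [Fintype κ] (z : κ → EuclideanSpace ℝ (Fin d)) (n : κ → ℝ) (P : ι → κ → ℝ),
      IsCoupMat m n P → ∀ χ : κ → ℝ,
        ∑ i, ∑ k, P i k * inner ℝ (b i) (z k) ≤ lagJ ρ' z n χ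

/-- `rhoG K g` is carried by `K`. -/
private theorem glueInj_ae_mem (K : Set (EuclideanSpace ℝ (Fin d))) (hKc : IsCompact K)
    (g : EuclideanSpace ℝ (Fin d) → ℝ) : ∀ᵐ x ∂(rhoG K g), x ∈ K := by
  have h : rhoG K g Kᶜ = 0 := rhoG_ac K g (uniformProbOn_compl K hKc)
  exact mem_ae_iff.2 h

/-- Continuous functions are `rhoG K g`-integrable. -/
private theorem glueInj_integrable {F : Type} [NormedAddCommGroup F]
    (K : Set (EuclideanSpace ℝ (Fin d))) (hKc : IsCompact K) (hKi : (interior K).Nonempty)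
    (g : EuclideanSpace ℝ (Fin d) → ℝ) (hg : IsPert K g)
    (f : EuclideanSpace ℝ (Fin d) → F) (hf : Continuous f) : Integrable f (rhoG K g) := by
  haveI := rhoG_isProb K hKc hKi g hg
  obtain ⟨C, hC⟩ := hKc.exists_bound_of_continuousOn hf.continuousOn
  refine Integrable.of_bound hf.aestronglyMeasurable C ?_
  filter_upwards [glueInj_ae_mem K hKc g] with x hx using hC x hx

/-- Mass of a strict cell of an optimal potential. -/
private theorem glueInj_real_cell (ρ' : Measure (EuclideanSpace ℝ (Fin d)))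
    (y : ι → EuclideanSpace ℝ (Fin d)) (m : ι → ℝ) (hm : ∀ i, 0 < m i) (ψ : ι → ℝ)
    (hψ : IsLagOpt ρ' y m ψ) (i : ι) : ρ'.real (lagCellS y ψ i) = m i := by
  rw [measureReal_def, hψ i, ENNReal.toReal_ofReal (hm i).le]

/-- Integral of an affine function over a strict cell, in terms of the barycentre. -/
private theorem glueInj_cell_integral (K : Set (EuclideanSpace ℝ (Fin d))) (hKc : IsCompact K)
    (hKi : (interior K).Nonempty) (g : EuclideanSpace ℝ (Fin d) → ℝ) (hg : IsPert K g)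
    (y : ι → EuclideanSpace ℝ (Fin d)) (m : ι → ℝ) (hm : ∀ i, 0 < m i) (ψ : ι → ℝ)
    (hψ : IsLagOpt (rhoG K g) y m ψ) (i : ι) (v : EuclideanSpace ℝ (Fin d)) (c : ℝ) :
    ∫ x in lagCellS y ψ i, (inner ℝ x v - c) ∂(rhoG K g)
      = m i * inner ℝ (lagBary (rhoG K g) y ψ m i) v - m i * c := by
  haveI := rhoG_isProb K hKc hKi g hg
  have hid : Integrable (fun x : EuclideanSpace ℝ (Fin d) => x) (rhoG K g) :=
    glueInj_integrable K hKc hKi g hg _ continuous_id
  have h1 : Integrable (fun x : EuclideanSpace ℝ (Fin d) => (inner ℝ x v : ℝ)) (rhoG K g) :=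
    glueInj_integrable K hKc hKi g hg _ (by fun_prop)
  have h2 : ∫ x in lagCellS y ψ i, (inner ℝ x v : ℝ) ∂(rhoG K g)
      = inner ℝ (∫ x in lagCellS y ψ i, x ∂(rhoG K g)) v := by
    have e1 : ∫ x in lagCellS y ψ i, (inner ℝ x v : ℝ) ∂(rhoG K g)
        = ∫ x in lagCellS y ψ i, (inner ℝ v x : ℝ) ∂(rhoG K g) :=
      integral_congr_ae (Eventually.of_forall fun x => real_inner_comm _ _)
    rw [e1, integral_inner hid.integrableOn v, real_inner_comm]
  have h3 : m i * inner ℝ (lagBary (rhoG K g) y ψ m i) v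
      = inner ℝ (∫ x in lagCellS y ψ i, x ∂(rhoG K g)) v := by
    unfold lagBary
    rw [real_inner_smul_left, ← mul_assoc, mul_inv_cancel₀ (hm i).ne', one_mul]
  have h4 : ∫ _x in lagCellS y ψ i, c ∂(rhoG K g) = m i * c := by
    rw [setIntegral_const, glueInj_real_cell (rhoG K g) y m hm ψ hψ i, smul_eq_mul]
  have h5 : ∫ x in lagCellS y ψ i, (inner ℝ x v - c) ∂(rhoG K g)
      = ∫ x in lagCellS y ψ i, (inner ℝ x v : ℝ) ∂(rhoG K g)
        - ∫ _x in lagCellS y ψ i, c ∂(rhoG K g) :=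
    integral_sub h1.integrableOn (integrable_const c)
  rw [h5, h2, h4, h3]

/-- Barycentres of the strict cells lie in the ball containing `K`. -/
private theorem glueInj_bary_norm (K : Set (EuclideanSpace ℝ (Fin d))) (hKc : IsCompact K)
    (hKi : (interior K).Nonempty) (R : ℝ) (hKR : K ⊆ Metric.closedBall 0 R)
    (g : EuclideanSpace ℝ (Fin d) → ℝ) (hg : IsPert K g)
    (y : ι → EuclideanSpace ℝ (Fin d)) (m : ι → ℝ) (hm : ∀ i, 0 < m i) (ψ : ι → ℝ)
    (hψ : IsLagOpt (rhoG K g) y m ψ) (i : ι) :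
    ‖lagBary (rhoG K g) y ψ m i‖ ≤ R := by
  haveI := rhoG_isProb K hKc hKi g hg
  have hae : ∀ᵐ x ∂(rhoG K g).restrict (lagCellS y ψ i), ‖x‖ ≤ R := by
    refine ae_restrict_of_ae ?_
    filter_upwards [glueInj_ae_mem K hKc g] with x hx
    exact mem_closedBall_zero_iff.1 (hKR hx)
  have h1 : ‖∫ x in lagCellS y ψ i, x ∂(rhoG K g)‖
      ≤ R * (rhoG K g).real (lagCellS y ψ i) :=
    norm_setIntegral_le_of_norm_le_const_ae (measure_lt_top _ _) hae
  rw [glueInj_real_cell (rhoG K g) y m hm ψ hψ i] at h1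
  unfold lagBary
  rw [norm_smul, Real.norm_eq_abs, abs_of_pos (inv_pos.2 (hm i))]
  calc (m i)⁻¹ * ‖∫ x in lagCellS y ψ i, x ∂(rhoG K g)‖
      ≤ (m i)⁻¹ * (R * m i) := mul_le_mul_of_nonneg_left h1 (inv_nonneg.2 (hm i).le)
    _ = R := by
      rw [mul_comm R, ← mul_assoc, inv_mul_cancel₀ (hm i).ne', one_mul]

/-- Value formula. -/
private theorem glueInj_value [Nonempty ι] (K : Set (EuclideanSpace ℝ (Fin d)))
    (hKc : IsCompact K) (hKi : (interior K).Nonempty)
    (g : EuclideanSpace ℝ (Fin d) → ℝ) (hg : IsPert K g)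
    (y : ι → EuclideanSpace ℝ (Fin d)) (hy : Function.Injective y)
    (m : ι → ℝ) (hm : ∀ i, 0 < m i) (ψ : ι → ℝ)
    (hψ : IsLagOpt (rhoG K g) y m ψ) :
    lagJ (rhoG K g) y m ψ
      = ∑ i, m i * inner ℝ (lagBary (rhoG K g) y ψ m i) (y i) := by
  have hρ : rhoG K g ≪ (volume : Measure (EuclideanSpace ℝ (Fin d))) :=
    (rhoG_ac K g).trans (uniformProbOn_ac K)
  have hint : Integrable (lagPot y ψ) (rhoG K g) :=
    glueInj_integrable K hKc hKi g hg _ (lag_pot_continuous y ψ)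
  have hcell : ∀ i, ∫ x in lagCellS y ψ i, lagPot y ψ x ∂(rhoG K g)
      = m i * inner ℝ (lagBary (rhoG K g) y ψ m i) (y i) - m i * ψ i := by
    intro i
    rw [← glueInj_cell_integral K hKc hKi g hg y m hm ψ hψ i (y i) (ψ i)]
    exact setIntegral_congr_fun (lag_measurableSet_cellS y ψ i)
      (fun x hx => lag_pot_eq_of_mem y ψ x i hx)
  unfold lagJ
  rw [lag_integral_eq_sum y hy ψ (rhoG K g) hρ (lagPot y ψ) hint,
    Finset.sum_congr rfl (fun i _ => hcell i), Finset.sum_sub_distrib]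
  ring

/-- Gluing inequality. -/
private theorem glueInj_glue [Nonempty ι] (K : Set (EuclideanSpace ℝ (Fin d)))
    (hKc : IsCompact K) (hKi : (interior K).Nonempty)
    (g : EuclideanSpace ℝ (Fin d) → ℝ) (hg : IsPert K g)
    (y : ι → EuclideanSpace ℝ (Fin d)) (hy : Function.Injective y)
    (m : ι → ℝ) (hm : ∀ i, 0 < m i) (ψ : ι → ℝ)
    (hψ : IsLagOpt (rhoG K g) y m ψ)
    (z : κ → EuclideanSpace ℝ (Fin d)) (n : κ → ℝ) (P : ι → κ → ℝ)
    (hP : IsCoupMat m n P) (χ : κ → ℝ) :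
    ∑ i, ∑ k, P i k * inner ℝ (lagBary (rhoG K g) y ψ m i) (z k)
      ≤ lagJ (rhoG K g) z n χ := by
  have hρ : rhoG K g ≪ (volume : Measure (EuclideanSpace ℝ (Fin d))) :=
    (rhoG_ac K g).trans (uniformProbOn_ac K)
  have hint : Integrable (lagPot z χ) (rhoG K g) :=
    glueInj_integrable K hKc hKi g hg _ (lag_pot_continuous z χ)
  -- one cell, one target site
  have hik : ∀ i k, m i * inner ℝ (lagBary (rhoG K g) y ψ m i) (z k) - m i * χ k
      ≤ ∫ x in lagCellS y ψ i, lagPot z χ x ∂(rhoG K g) := by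
    intro i k
    rw [← glueInj_cell_integral K hKc hKi g hg y m hm ψ hψ i (z k) (χ k)]
    have h1 : Integrable (fun x : EuclideanSpace ℝ (Fin d) => (inner ℝ x (z k) : ℝ) - χ k)
        (rhoG K g) :=
      glueInj_integrable K hKc hKi g hg _ (by fun_prop)
    exact setIntegral_mono h1.integrableOn hint.integrableOn
      (fun x => lag_le_pot z χ x k)
  -- one cell
  have hi : ∀ i, ∑ k, P i k * inner ℝ (lagBary (rhoG K g) y ψ m i) (z k) - ∑ k, P i k * χ k
      ≤ ∫ x in lagCellS y ψ i, lagPot z χ x ∂(rhoG K g) := by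
    intro i
    set I : ℝ := ∫ x in lagCellS y ψ i, lagPot z χ x ∂(rhoG K g) with hI
    have hk : ∀ k, P i k * inner ℝ (lagBary (rhoG K g) y ψ m i) (z k) - P i k * χ k
        ≤ P i k * (m i)⁻¹ * I := by
      intro k
      have h2 := mul_le_mul_of_nonneg_left (hik i k)
        (mul_nonneg (hP.nonneg i k) (inv_nonneg.2 (hm i).le))
      have e : P i k * (m i)⁻¹
            * (m i * inner ℝ (lagBary (rhoG K g) y ψ m i) (z k) - m i * χ k)
          = P i k * inner ℝ (lagBary (rhoG K g) y ψ m i) (z k) - P i k * χ k := by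
        have hne : m i ≠ 0 := (hm i).ne'
        field_simp
      rw [e] at h2
      exact h2
    have hsum : ∑ k, P i k * (m i)⁻¹ * I = I := by
      rw [← Finset.sum_mul, ← Finset.sum_mul, hP.row i, mul_inv_cancel₀ (hm i).ne', one_mul]
    rw [← Finset.sum_sub_distrib, ← hsum]
    exact Finset.sum_le_sum fun k _ => hk k
  have hcol : ∑ i, ∑ k, P i k * χ k = ∑ k, n k * χ k := by
    rw [Finset.sum_comm]
    refine Finset.sum_congr rfl fun k _ => ?_
    rw [← Finset.sum_mul, hP.col k]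
  have htot : ∑ i, (∑ k, P i k * inner ℝ (lagBary (rhoG K g) y ψ m i) (z k)
        - ∑ k, P i k * χ k)
      ≤ ∑ i, ∫ x in lagCellS y ψ i, lagPot z χ x ∂(rhoG K g) :=
    Finset.sum_le_sum fun i _ => hi i
  rw [Finset.sum_sub_distrib, hcol,
    ← lag_integral_eq_sum y hy ψ (rhoG K g) hρ (lagPot z χ) hint] at htot
  unfold lagJ
  linarith

/-- Injective gluing lemma (job GLUE-INJ).  With `b i = lagBary`, cells `U i`:
value: `∫ φ dρ' = ∑ ∫_{U i} (⟪x,y i⟫ - ψ i) dρ'`; gluing: `φ_χ(x) ≥ ⟪x,z k⟫ - χ k` integrated over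
`U i` with weight `P i k / m i`, summed over `i, k` (row sums `m i`, column sums `n k`). -/
theorem glue_inj [Nonempty ι] (K : Set (EuclideanSpace ℝ (Fin d))) (hKc : IsCompact K)
    (hKv : Convex ℝ K) (hKi : (interior K).Nonempty) (R : ℝ)
    (hKR : K ⊆ Metric.closedBall 0 R) (g : EuclideanSpace ℝ (Fin d) → ℝ) (hg : IsPert K g)
    (y : ι → EuclideanSpace ℝ (Fin d)) (hy : Function.Injective y)
    (m : ι → ℝ) (hm : ∀ i, 0 < m i) (hsum : ∑ i, m i = 1) (ψ : ι → ℝ)
    (hψ : IsLagOpt (rhoG K g) y m ψ) :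
    IsGlueData (rhoG K g) R y m ψ (lagBary (rhoG K g) y ψ m) := by
  refine ⟨glueInj_value K hKc hKi g hg y hy m hm ψ hψ,
    fun i => glueInj_bary_norm K hKc hKi R hKR g hg y m hm ψ hψ i, ?_⟩
  intro κ' _ z n P hP χ
  exact glueInj_glue K hKc hKi g hg y hy m hm ψ hψ z n P hP χ

end Crest.Agent.S0109
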