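import Crest.Agent.S0109.SDUniq

/-!
Row 82 (S0109) job SD-STAB. Statement FROZEN; one owner.
-/

set_option autoImplicit false
open MeasureTheory Filter
open scoped ENNReal NNReal Topology
open Crest.AnalysisR.OT

namespace Crest.Agent.S0109

variable {d : ℕ} {ι : Type} [Fintype ι]

/-- Integrability of `lagPot y φ * g` against the uniform measure on a compact body. -/
private theorem sd_stab_integrable (K : Set (EuclideanSpace ℝ (Fin d)))
    (hKc : IsCompact K) (hKi : (interior K).Nonempty) (g : EuclideanSpace ℝ (Fin d) → ℝ)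
    (hgm : Measurable g) (B : ℝ) (hB : ∀ x, |g x| ≤ B)
    (y : ι → EuclideanSpace ℝ (Fin d)) (φ : ι → ℝ) :
    Integrable (fun x => lagPot y φ x * g x) (uniformProbOn K) := by
  have := uniformProbOn_isProb K hKc hKi
  obtain ⟨C, hC⟩ := hKc.exists_bound_of_continuousOn (lag_pot_continuous y φ).continuousOn
  refine Integrable.of_bound ?_ (C * B) ?_
  · exact ((lag_pot_continuous y φ).measurable.mul hgm).aestronglyMeasurable
  · have hK : ∀ᵐ x ∂(uniformProbOn K), x ∈ K := by
      have h := uniformProbOn_compl K hKc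
      rw [measure_eq_zero_iff_ae_notMem] at h
      filter_upwards [h] with x hx
      simpa using hx
    filter_upwards [hK] with x hx
    rw [norm_mul]
    have h1 := hC x hx
    have h2 : ‖g x‖ ≤ B := by simpa [Real.norm_eq_abs] using hB x
    have hC0 : 0 ≤ C := le_trans (norm_nonneg _) h1
    exact mul_le_mul h1 h2 (norm_nonneg _) hC0

/-- Lower bound for the perturbed mass of a measurable set. -/
private theorem sd_stab_mass_le (K : Set (EuclideanSpace ℝ (Fin d)))
    (g : EuclideanSpace ℝ (Fin d) → ℝ) (B : ℝ) (hB : ∀ x, |g x| ≤ B) (e : ℝ)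
    (s : Set (EuclideanSpace ℝ (Fin d))) (hs : MeasurableSet s) :
    ENNReal.ofReal (1 - |e| * B) * uniformProbOn K s ≤ rhoG K (fun x => e * g x) s := by
  unfold rhoG
  rw [withDensity_apply _ hs, ← setLIntegral_const]
  apply lintegral_mono
  intro x
  apply ENNReal.ofReal_le_ofReal
  have h1 : |e * g x| ≤ |e| * B := by
    rw [abs_mul]; exact mul_le_mul_of_nonneg_left (hB x) (abs_nonneg _)
  have h2 := neg_abs_le (e * g x)
  linarith

omit [Fintype ι] in
/-- Differences of an optimal potential are controlled by the size of `K`. -/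
private theorem sd_stab_diff_bound (K : Set (EuclideanSpace ℝ (Fin d))) (R : ℝ)
    (hR : ∀ x ∈ K, ‖x‖ ≤ R) (ρ' : Measure (EuclideanSpace ℝ (Fin d))) (hρ : ρ' Kᶜ = 0)
    (y : ι → EuclideanSpace ℝ (Fin d)) (m : ι → ℝ) (hm : ∀ i, 0 < m i) (ψ : ι → ℝ)
    (hopt : IsLagOpt ρ' y m ψ) (i k : ι) :
    ψ i - ψ k ≤ R * ‖y i - y k‖ := by
  by_cases hik : k = i
  · subst hik; simp
  · have hpos : 0 < ρ' (lagCellS y ψ i) := by
      rw [hopt i]; exact ENNReal.ofReal_pos.2 (hm i)
    have hne : (lagCellS y ψ i ∩ K).Nonempty := by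
      by_contra hcon
      rw [Set.not_nonempty_iff_eq_empty] at hcon
      have hsub : lagCellS y ψ i ⊆ Kᶜ := by
        intro x hx hxK
        have hmem : x ∈ lagCellS y ψ i ∩ K := ⟨hx, hxK⟩
        rw [hcon] at hmem; exact hmem
      have h0 := measure_mono_null hsub hρ
      rw [h0] at hpos; exact lt_irrefl _ hpos
    obtain ⟨x, hx, hxK⟩ := hne
    have h1 := hx k hik
    have h2 : inner ℝ x (y i) - inner ℝ x (y k) ≤ R * ‖y i - y k‖ := by
      rw [← inner_sub_right]
      calc inner ℝ x (y i - y k) ≤ ‖x‖ * ‖y i - y k‖ := real_inner_le_norm _ _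
        _ ≤ R * ‖y i - y k‖ := mul_le_mul_of_nonneg_right (hR x hxK) (norm_nonneg _)
    linarith

/-- A limit of optimal potentials for vanishing perturbations is optimal for the unperturbed
source. -/
private theorem sd_stab_limit_opt [Nonempty ι] (K : Set (EuclideanSpace ℝ (Fin d)))
    (hKc : IsCompact K) (hKi : (interior K).Nonempty) (g : EuclideanSpace ℝ (Fin d) → ℝ)
    (B : ℝ) (hB : ∀ x, |g x| ≤ B)
    (y : ι → EuclideanSpace ℝ (Fin d)) (hy : Function.Injective y)
    (m : ι → ℝ) (hm : ∀ i, 0 < m i) (hsum : ∑ i, m i = 1)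
    (e : ℕ → ℝ) (he : Tendsto e atTop (𝓝 0)) (θ : ℕ → ι → ℝ) (a : ι → ℝ)
    (hθ : Tendsto θ atTop (𝓝 a))
    (hopt : ∀ n, IsLagOpt (rhoG K (fun x => e n * g x)) y m (θ n)) :
    IsLagOpt (uniformProbOn K) y m a := by
  have := uniformProbOn_isProb K hKc hKi
  -- Step 1: upper bound for every cell.
  have hle : ∀ i, uniformProbOn K (lagCellS y a i) ≤ ENNReal.ofReal (m i) := by
    intro i
    let S : ℕ → Set (EuclideanSpace ℝ (Fin d)) := fun N => ⋂ k ∈ Set.Ici N, lagCellS y (θ k) i
    have hSmono : Monotone S := by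
      intro N N' hNN' x hx
      simp only [S, Set.mem_iInter, Set.mem_Ici] at hx ⊢
      intro k hk; exact hx k (le_trans hNN' hk)
    have hsub : lagCellS y a i ⊆ ⋃ N, S N := by
      intro x hx
      have hev : ∀ᶠ k in atTop, x ∈ lagCellS y (θ k) i := by
        have hall : ∀ j, ∀ᶠ k in atTop,
            j ≠ i → inner ℝ x (y j) - θ k j < inner ℝ x (y i) - θ k i := by
          intro j
          by_cases hj : j = i
          · exact Filter.Eventually.of_forall (fun k h => absurd hj h)
          · have h1 : Tendsto (fun k => inner ℝ x (y j) - θ k j) atTop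
                (𝓝 (inner ℝ x (y j) - a j)) :=
              tendsto_const_nhds.sub ((tendsto_pi_nhds.1 hθ) j)
            have h2 : Tendsto (fun k => inner ℝ x (y i) - θ k i) atTop
                (𝓝 (inner ℝ x (y i) - a i)) :=
              tendsto_const_nhds.sub ((tendsto_pi_nhds.1 hθ) i)
            exact (h1.eventually_lt h2 (hx j hj)).mono (fun k hk _ => hk)
        exact Filter.eventually_all.2 hall
      obtain ⟨N, hN⟩ := Filter.eventually_atTop.1 hev
      refine Set.mem_iUnion.2 ⟨N, ?_⟩
      simp only [S, Set.mem_iInter, Set.mem_Ici]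
      exact hN
    have hSN : ∀ N, uniformProbOn K (S N) ≤ ENNReal.ofReal (m i) := by
      intro N
      have hbound : ∀ k, N ≤ k →
          ENNReal.ofReal (1 - |e k| * B) * uniformProbOn K (S N) ≤ ENNReal.ofReal (m i) := by
        intro k hk
        have hSk : S N ⊆ lagCellS y (θ k) i := by
          intro x hx
          simp only [S, Set.mem_iInter, Set.mem_Ici] at hx
          exact hx k hk
        calc ENNReal.ofReal (1 - |e k| * B) * uniformProbOn K (S N)
            ≤ ENNReal.ofReal (1 - |e k| * B) * uniformProbOn K (lagCellS y (θ k) i) :=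
              by gcongr
          _ ≤ rhoG K (fun x => e k * g x) (lagCellS y (θ k) i) :=
              sd_stab_mass_le K g B hB (e k) _ (lag_measurableSet_cellS y (θ k) i)
          _ = ENNReal.ofReal (m i) := hopt k i
      have hlim : Tendsto (fun k => ENNReal.ofReal (1 - |e k| * B) * uniformProbOn K (S N)) atTop
          (𝓝 (ENNReal.ofReal (1 - |(0 : ℝ)| * B) * uniformProbOn K (S N))) := by
        apply ENNReal.Tendsto.mul_const
        · apply ENNReal.tendsto_ofReal
          exact tendsto_const_nhds.sub ((he.abs).mul_const B)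
        · right; exact measure_ne_top _ _
      simp only [abs_zero, zero_mul, sub_zero, ENNReal.ofReal_one, one_mul] at hlim
      exact le_of_tendsto hlim (Filter.eventually_atTop.2 ⟨N, hbound⟩)
    calc uniformProbOn K (lagCellS y a i) ≤ uniformProbOn K (⋃ N, S N) := measure_mono hsub
      _ = ⨆ N, uniformProbOn K (S N) := hSmono.measure_iUnion
      _ ≤ ENNReal.ofReal (m i) := iSup_le hSN
  -- Step 2: the masses of the limit cells sum to one.
  have hρac : uniformProbOn K ≪ (volume : Measure (EuclideanSpace ℝ (Fin d))) := uniformProbOn_ac K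
  have hsum1 : ∑ i, uniformProbOn K (lagCellS y a i) = 1 := by
    rw [← measure_biUnion_finset (s := Finset.univ)]
    · have hae := lag_ae_mem_cellS y hy a (uniformProbOn K) hρac
      have hms : MeasurableSet (⋃ i ∈ (Finset.univ : Finset ι), lagCellS y a i) :=
        Finset.measurableSet_biUnion _ (fun i _ => lag_measurableSet_cellS y a i)
      rw [← prob_compl_eq_zero_iff hms, measure_eq_zero_iff_ae_notMem]
      filter_upwards [hae] with x hx
      obtain ⟨i, hi⟩ := hx
      simp only [Set.mem_compl_iff, not_not]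
      exact Set.mem_biUnion (Finset.mem_univ i) hi
    · intro i _ k _ hik
      exact lag_cellS_disjoint y a i k hik
    · intro i _
      exact lag_measurableSet_cellS y a i
  -- Step 3: equality in every cell.
  have hfin : ∀ i, uniformProbOn K (lagCellS y a i) ≠ ∞ := fun i => measure_ne_top _ _
  have hreal_le : ∀ i ∈ (Finset.univ : Finset ι),
      (uniformProbOn K (lagCellS y a i)).toReal ≤ m i := fun i _ =>
    ENNReal.toReal_le_of_le_ofReal (hm i).le (hle i)
  have hreal_sum : ∑ i, (uniformProbOn K (lagCellS y a i)).toReal = ∑ i, m i := by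
    rw [← ENNReal.toReal_sum (fun i _ => hfin i), hsum1, hsum]; simp
  have heq := (Finset.sum_eq_sum_iff_of_le hreal_le).1 hreal_sum
  intro i
  rw [← heq i (Finset.mem_univ i), ENNReal.ofReal_toReal (hfin i)]

/-- Stability of the potential under vanishing perturbations of the source (job SD-STAB).
Proof: optimal potentials satisfy `|ψ i - ψ k| ≤ R ‖y i - y k‖` (cells meet `K`), so after
normalisation they are bounded; along any subsequence extract a convergent one; the limit is optimal
for `uniformProbOn K` (indicators of strict cells converge off the ties, dominated convergence, and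
`|rhoG K (ε g) s - uniformProbOn K s| ≤ |ε| B`); by `sd_unique` it is `ψ0 + c`; `g` has mean zero. -/
theorem sd_stab [Nonempty ι] (K : Set (EuclideanSpace ℝ (Fin d))) (hKc : IsCompact K)
    (hKv : Convex ℝ K) (hKi : (interior K).Nonempty) (g : EuclideanSpace ℝ (Fin d) → ℝ)
    (hgm : Measurable g) (B : ℝ) (hB : ∀ x, |g x| ≤ B)
    (hmean : ∫ x, g x ∂(uniformProbOn K) = 0)
    (y : ι → EuclideanSpace ℝ (Fin d)) (hy : Function.Injective y)
    (m : ι → ℝ) (hm : ∀ i, 0 < m i) (hsum : ∑ i, m i = 1) (ψ0 : ι → ℝ)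
    (h0 : IsLagOpt (uniformProbOn K) y m ψ0) (ε : ℕ → ℝ) (hε : Tendsto ε atTop (𝓝 0))
    (hεB : ∀ n, |ε n| * B ≤ 1 / 2) (ψ : ℕ → ι → ℝ)
    (hopt : ∀ n, IsLagOpt (rhoG K (fun x => ε n * g x)) y m (ψ n)) :
    Tendsto (fun n => ∫ x, lagPot y (ψ n) x * g x ∂(uniformProbOn K)) atTop
      (𝓝 (∫ x, lagPot y ψ0 x * g x ∂(uniformProbOn K))) := by
  have := uniformProbOn_isProb K hKc hKi
  obtain ⟨i₀⟩ := ‹Nonempty ι›
  have : Nonempty ι := ⟨i₀⟩
  -- normalised potentials
  let c : ℕ → ℝ := fun n => ψ n i₀ - ψ0 i₀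
  let θ : ℕ → ι → ℝ := fun n i => ψ n i + (-(c n))
  have hθi₀ : ∀ n, θ n i₀ = ψ0 i₀ := by intro n; simp [θ, c]
  have hθopt : ∀ n, IsLagOpt (rhoG K (fun x => ε n * g x)) y m (θ n) := by
    intro n i
    show rhoG K _ (lagCellS y (fun i => ψ n i + (-(c n))) i) = _
    rw [lag_cellS_add_const]; exact hopt n i
  have hgint : Integrable g (uniformProbOn K) := by
    refine Integrable.of_bound hgm.aestronglyMeasurable B (Filter.Eventually.of_forall fun x => ?_)
    simpa [Real.norm_eq_abs] using hB x
  -- the integrals do not see the normalisation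
  have hint : ∀ n, ∫ x, lagPot y (ψ n) x * g x ∂(uniformProbOn K)
      = ∫ x, lagPot y (θ n) x * g x ∂(uniformProbOn K) := by
    intro n
    have h1 : ∀ x, lagPot y (θ n) x = lagPot y (ψ n) x - (-(c n)) :=
      fun x => lag_pot_add_const y (ψ n) (-(c n)) x
    have h2 : (fun x => lagPot y (θ n) x * g x)
        = fun x => lagPot y (ψ n) x * g x + c n * g x := by
      funext x; rw [h1]; ring
    rw [h2, integral_add (sd_stab_integrable K hKc hKi g hgm B hB y (ψ n)) (hgint.const_mul _),
      integral_const_mul, hmean, mul_zero, add_zero]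
  -- bound on K
  obtain ⟨R, hR⟩ := hKc.isBounded.exists_norm_le
  have hR0 : 0 ≤ R := by
    obtain ⟨x, hx⟩ := hKi
    exact le_trans (norm_nonneg _) (hR x (interior_subset hx))
  set M : ℝ := R * (2 * ∑ j, ‖y j‖) with hM
  have hyb : ∀ i k, ‖y i - y k‖ ≤ 2 * ∑ j, ‖y j‖ := by
    intro i k
    have h1 : ‖y i‖ ≤ ∑ j, ‖y j‖ :=
      Finset.single_le_sum (f := fun j => ‖y j‖) (fun j _ => norm_nonneg _) (Finset.mem_univ i)
    have h2 : ‖y k‖ ≤ ∑ j, ‖y j‖ :=
      Finset.single_le_sum (f := fun j => ‖y j‖) (fun j _ => norm_nonneg _) (Finset.mem_univ k)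
    have h3 := norm_sub_le (y i) (y k)
    linarith
  have hdiff : ∀ n i k, ψ n i - ψ n k ≤ M := by
    intro n i k
    have hρK : rhoG K (fun x => ε n * g x) Kᶜ = 0 :=
      rhoG_ac K _ (uniformProbOn_compl K hKc)
    have h1 := sd_stab_diff_bound K R hR _ hρK y m hm (ψ n) (hopt n) i k
    exact le_trans h1 (mul_le_mul_of_nonneg_left (hyb i k) hR0)
  have hcompact : IsCompact (Set.Icc (fun _ : ι => ψ0 i₀ - M) (fun _ : ι => ψ0 i₀ + M)) :=
    isCompact_Icc
  have hbox : ∀ n, θ n ∈ Set.Icc (fun _ : ι => ψ0 i₀ - M) (fun _ : ι => ψ0 i₀ + M) := by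
    intro n
    refine ⟨fun i => ?_, fun i => ?_⟩
    · have := hdiff n i₀ i
      simp only [θ, c]; linarith
    · have := hdiff n i i₀
      simp only [θ, c]; linarith
  -- convergence of the normalised potentials
  have hθlim : Tendsto θ atTop (𝓝 ψ0) := by
    apply tendsto_of_subseq_tendsto
    intro ns hns
    obtain ⟨a, -, φ, hφ, hlim⟩ := hcompact.tendsto_subseq (fun k => hbox (ns k))
    refine ⟨φ, ?_⟩
    have hopt' : IsLagOpt (uniformProbOn K) y m a :=
      sd_stab_limit_opt K hKc hKi g B hB y hy m hm hsum (fun k => ε (ns (φ k)))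
        (hε.comp (hns.comp hφ.tendsto_atTop)) (fun k => θ (ns (φ k))) a hlim (fun k => hθopt _)
    obtain ⟨c', hc'⟩ := sd_unique K hKc hKv hKi (fun _ => 0) (isPert_zero K) y hy m hm ψ0 a
      (by rw [rhoG_zero]; exact h0) (by rw [rhoG_zero]; exact hopt')
    have ha0 : a i₀ = ψ0 i₀ := by
      have h1 : Tendsto (fun k => θ (ns (φ k)) i₀) atTop (𝓝 (a i₀)) :=
        (tendsto_pi_nhds.1 hlim) i₀
      have h2 : (fun k => θ (ns (φ k)) i₀) = fun _ => ψ0 i₀ := funext fun k => hθi₀ _
      rw [h2] at h1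
      exact tendsto_nhds_unique h1 tendsto_const_nhds
    have hc0 : c' = 0 := by have := hc' i₀; linarith
    have haeq : a = ψ0 := by funext i; rw [hc' i, hc0, add_zero]
    rw [← haeq]; exact hlim
  -- convergence of the integrals
  have hfinal : Tendsto (fun n => ∫ x, lagPot y (θ n) x * g x ∂(uniformProbOn K)) atTop
      (𝓝 (∫ x, lagPot y ψ0 x * g x ∂(uniformProbOn K))) := by
    rw [tendsto_iff_dist_tendsto_zero]
    have hd : Tendsto (fun n => dist (θ n) ψ0 * B) atTop (𝓝 0) := by
      have := (tendsto_iff_dist_tendsto_zero.1 hθlim).mul_const B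
      simpa using this
    refine squeeze_zero (fun n => dist_nonneg) (fun n => ?_) hd
    rw [Real.dist_eq, ← integral_sub (sd_stab_integrable K hKc hKi g hgm B hB y (θ n))
      (sd_stab_integrable K hKc hKi g hgm B hB y ψ0)]
    have hb : ‖∫ x, (lagPot y (θ n) x * g x - lagPot y ψ0 x * g x) ∂(uniformProbOn K)‖
        ≤ dist (θ n) ψ0 * B * (uniformProbOn K).real Set.univ := by
      apply norm_integral_le_of_norm_le_const
      refine Filter.Eventually.of_forall (fun x => ?_)
      have h1 : |lagPot y (θ n) x - lagPot y ψ0 x| ≤ dist (θ n) ψ0 :=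
        lag_pot_sub_le y (θ n) ψ0 _
          (fun i => by rw [← Real.dist_eq]; exact dist_le_pi_dist (θ n) ψ0 i) x
      rw [← sub_mul, norm_mul, Real.norm_eq_abs, Real.norm_eq_abs]
      exact mul_le_mul h1 (hB x) (abs_nonneg _) dist_nonneg
    simpa [Real.norm_eq_abs] using hb
  have hfun : (fun n => ∫ x, lagPot y (ψ n) x * g x ∂(uniformProbOn K))
      = fun n => ∫ x, lagPot y (θ n) x * g x ∂(uniformProbOn K) := funext hint
  rw [hfun]; exact hfinal

end Crest.Agent.S0109
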