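import Crest.Agent.S0109.GlueTel
import Crest.Agent.S0109.SDStab
import Crest.Agent.S0109.SDExist

/-!
Row 82 (S0109) job GLUE-IPRIME. Statement FROZEN; one owner.
-/

set_option autoImplicit false
open MeasureTheory Filter
open scoped ENNReal NNReal Topology
open Crest.AnalysisR.OT

namespace Crest.Agent.S0109

variable {d : ℕ} {ι κ : Type} [Fintype ι] [Fintype κ]

/-- Almost every point of `uniformProbOn K` lies in `K`. -/
private theorem glue_iprime_ae_mem (K : Set (EuclideanSpace ℝ (Fin d))) (hKc : IsCompact K) :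
    ∀ᵐ x ∂(uniformProbOn K), x ∈ K := by
  have h := uniformProbOn_compl K hKc
  rw [ae_iff]
  simpa [Set.compl_def] using h

/-- Measurable functions bounded on `K` are integrable for `uniformProbOn K`. -/
private theorem glue_iprime_integrable (K : Set (EuclideanSpace ℝ (Fin d))) (hKc : IsCompact K)
    (hKi : (interior K).Nonempty) (F : EuclideanSpace ℝ (Fin d) → ℝ) (hF : Measurable F) (B : ℝ)
    (hB : ∀ x ∈ K, |F x| ≤ B) : Integrable F (uniformProbOn K) := by
  have := uniformProbOn_isProb K hKc hKi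
  refine Integrable.of_bound hF.aestronglyMeasurable B ?_
  filter_upwards [glue_iprime_ae_mem K hKc] with x hx
  simpa [Real.norm_eq_abs] using hB x hx

/-- Product of a continuous function and a bounded measurable function is integrable. -/
private theorem glue_iprime_integrable_mul (K : Set (EuclideanSpace ℝ (Fin d))) (hKc : IsCompact K)
    (hKi : (interior K).Nonempty) (φ : EuclideanSpace ℝ (Fin d) → ℝ) (hφ : Continuous φ)
    (g : EuclideanSpace ℝ (Fin d) → ℝ) (hgm : Measurable g) (B : ℝ) (hB : ∀ x, |g x| ≤ B) :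
    Integrable (fun x => φ x * g x) (uniformProbOn K) := by
  obtain ⟨C, hC⟩ := hKc.exists_bound_of_continuousOn hφ.continuousOn
  refine glue_iprime_integrable K hKc hKi _ (hφ.measurable.mul hgm) (C * B) ?_
  intro x hx
  have h1 : |φ x| ≤ C := by simpa [Real.norm_eq_abs] using hC x hx
  rw [abs_mul]
  exact mul_le_mul h1 (hB x) (abs_nonneg _) (le_trans (abs_nonneg _) h1)

/-- The estimate (i') (job GLUE-IPRIME): potentials are Lipschitz in `L²(ρ)` (modulo constants)
with respect to the transport cost of the targets.  From `glue_main` applied to `ε_n g₀`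
(`isPert_smul`, `sd_exists`), `sd_stab` as `ε_n → 0`, then `g₀ = f - ∫ f` truncated outside `K`,
`f = lagPot z χ - lagPot y ψ`. -/
theorem glue_iprime [Nonempty ι] [Nonempty κ] (K : Set (EuclideanSpace ℝ (Fin d)))
    (hKc : IsCompact K) (hKv : Convex ℝ K) (hKi : (interior K).Nonempty) (R : ℝ) (hR : 0 < R)
    (hKR : K ⊆ Metric.closedBall 0 R)
    (y : ι → EuclideanSpace ℝ (Fin d)) (hy : Function.Injective y)
    (m : ι → ℝ) (hm : ∀ i, 0 < m i) (hsum : ∑ i, m i = 1)
    (z : κ → EuclideanSpace ℝ (Fin d)) (hz : Function.Injective z)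
    (n : κ → ℝ) (hn : ∀ k, 0 < n k) (hnsum : ∑ k, n k = 1)
    (P : ι → κ → ℝ) (hP : IsCoupMat m n P) (ψ : ι → ℝ) (χ : κ → ℝ)
    (hψ : IsLagOpt (uniformProbOn K) y m ψ) (hχ : IsLagOpt (uniformProbOn K) z n χ) :
    ∃ c : ℝ, ∫ x, (lagPot y ψ x - lagPot z χ x - c) ^ 2 ∂(uniformProbOn K) ≤
      300 * R ^ 2 * matCost y z P := by
  classical
  have hprob : IsProbabilityMeasure (uniformProbOn K) := uniformProbOn_isProb K hKc hKi
  have hae : ∀ᵐ x ∂(uniformProbOn K), x ∈ K := glue_iprime_ae_mem K hKc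
  obtain ⟨x0, hx0i⟩ := id hKi
  have hx0 : x0 ∈ K := interior_subset hx0i
  -- the two potentials are continuous, hence bounded on `K`
  have hcy : Continuous (lagPot y ψ) := lag_pot_continuous y ψ
  have hcz : Continuous (lagPot z χ) := lag_pot_continuous z χ
  obtain ⟨By, hBy⟩ := hKc.exists_bound_of_continuousOn hcy.continuousOn
  obtain ⟨Bz, hBz⟩ := hKc.exists_bound_of_continuousOn hcz.continuousOn
  -- `f = lagPot z χ - lagPot y ψ`
  set f : EuclideanSpace ℝ (Fin d) → ℝ := fun x => lagPot z χ x - lagPot y ψ x with hf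
  have hfm : Measurable f := (hcz.sub hcy).measurable
  have hfB : ∀ x ∈ K, |f x| ≤ Bz + By := by
    intro x hx
    have h1 : |lagPot z χ x| ≤ Bz := by simpa [Real.norm_eq_abs] using hBz x hx
    have h2 : |lagPot y ψ x| ≤ By := by simpa [Real.norm_eq_abs] using hBy x hx
    calc |f x| ≤ |lagPot z χ x| + |lagPot y ψ x| := abs_sub _ _
      _ ≤ Bz + By := add_le_add h1 h2
  have hBzy : 0 ≤ Bz + By := le_trans (abs_nonneg _) (hfB x0 hx0)
  have hfi : Integrable f (uniformProbOn K) := glue_iprime_integrable K hKc hKi f hfm _ hfB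
  set c0 : ℝ := ∫ x, f x ∂(uniformProbOn K) with hc0
  -- the perturbation direction `g0 = (f - c0) 1_K`
  set g0 : EuclideanSpace ℝ (Fin d) → ℝ := K.indicator (fun x => f x - c0) with hg0
  have hg0m : Measurable g0 := (hfm.sub measurable_const).indicator hKc.measurableSet
  set B : ℝ := Bz + By + |c0| with hBdef
  have hB0 : 0 ≤ B := by have := abs_nonneg c0; linarith
  have hg0K : ∀ x ∈ K, g0 x = f x - c0 := fun x hx => by rw [hg0, Set.indicator_of_mem hx]
  have hg0B : ∀ x, |g0 x| ≤ B := by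
    intro x
    by_cases hx : x ∈ K
    · rw [hg0K x hx]
      calc |f x - c0| ≤ |f x| + |c0| := abs_sub _ _
        _ ≤ Bz + By + |c0| := by linarith [hfB x hx]
    · rw [hg0, Set.indicator_of_notMem hx, abs_zero]
      exact hB0
  have hg0ae : g0 =ᵐ[uniformProbOn K] fun x => f x - c0 := by
    filter_upwards [hae] with x hx using hg0K x hx
  have hmean : ∫ x, g0 x ∂(uniformProbOn K) = 0 := by
    rw [integral_congr_ae hg0ae, integral_sub hfi (integrable_const _), integral_const]
    simp [hc0]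
  have hg0i : Integrable g0 (uniformProbOn K) :=
    glue_iprime_integrable K hKc hKi g0 hg0m B (fun x _ => hg0B x)
  have hg0sq : Integrable (fun x => g0 x ^ 2) (uniformProbOn K) := by
    have := glue_iprime_integrable_mul K hKc hKi (fun _ => (1 : ℝ)) continuous_const
      (fun x => g0 x ^ 2) (hg0m.pow_const 2) (B ^ 2) (fun x => by
        rw [abs_pow]; exact pow_le_pow_left₀ (abs_nonneg _) (hg0B x) 2)
    simpa using this
  set A : ℝ := ∫ x, g0 x ^ 2 ∂(uniformProbOn K) with hA
  have hA0 : 0 ≤ A := integral_nonneg (fun x => sq_nonneg _)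
  have hM0 : 0 ≤ matCost y z P := by
    unfold matCost
    exact Finset.sum_nonneg fun i _ => Finset.sum_nonneg fun k _ =>
      mul_nonneg (hP.nonneg i k) (sq_nonneg _)
  -- the scales `ε j → 0`
  set ε : ℕ → ℝ := fun j => (1 / (2 * (B + 1))) * (1 / ((j : ℝ) + 1)) with hεdef
  have hεpos : ∀ j, 0 < ε j := by
    intro j
    have hj : (0 : ℝ) < (j : ℝ) + 1 := by positivity
    have hB1 : (0 : ℝ) < 2 * (B + 1) := by linarith
    simp only [hεdef]
    positivity
  have hεB : ∀ j, |ε j| * B ≤ 1 / 2 := by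
    intro j
    rw [abs_of_pos (hεpos j)]
    simp only [hεdef]
    have hj : (1 : ℝ) ≤ (j : ℝ) + 1 := by linarith [Nat.cast_nonneg (α := ℝ) j]
    have h1 : 1 / ((j : ℝ) + 1) ≤ 1 := by
      rw [div_le_one (by linarith)]; exact hj
    have h2 : 1 / (2 * (B + 1)) * B ≤ 1 / 2 := by
      rw [div_mul_eq_mul_div, one_mul, div_le_iff₀ (by linarith)]; linarith
    have h3 : 0 ≤ 1 / (2 * (B + 1)) * B := by positivity
    calc 1 / (2 * (B + 1)) * (1 / ((j : ℝ) + 1)) * B
        = (1 / (2 * (B + 1)) * B) * (1 / ((j : ℝ) + 1)) := by ring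
      _ ≤ (1 / (2 * (B + 1)) * B) * 1 := mul_le_mul_of_nonneg_left h1 h3
      _ ≤ 1 / 2 := by linarith
  have hεlim : Tendsto ε atTop (𝓝 0) := by
    have h := (tendsto_one_div_add_atTop_nhds_zero_nat (𝕜 := ℝ)).const_mul (1 / (2 * (B + 1)))
    simpa [hεdef] using h
  -- optimal potentials for the perturbed sources
  have hpert : ∀ j, IsPert K (fun x => ε j * g0 x) := fun j =>
    isPert_smul K g0 hg0m B hg0B hmean (ε j) (hεB j)
  choose χs hχs using fun j =>
    sd_exists K hKc hKv hKi (fun x => ε j * g0 x) (hpert j) z hz n hn hnsum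
  -- `glue_main` at scale `ε j`, divided by `ε j`
  set S : ℝ := Real.sqrt (300 * R ^ 2 * A * matCost y z P) with hS
  have hint : ∀ χ' : κ → ℝ, Integrable (fun x => lagPot z χ' x * g0 x) (uniformProbOn K) :=
    fun χ' => glue_iprime_integrable_mul K hKc hKi _ (lag_pot_continuous z χ') g0 hg0m B hg0B
  have hinty : Integrable (fun x => lagPot y ψ x * g0 x) (uniformProbOn K) :=
    glue_iprime_integrable_mul K hKc hKi _ hcy g0 hg0m B hg0B
  have hkey : ∀ j, ∫ x, lagPot z (χs j) x * g0 x ∂(uniformProbOn K) -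
      ∫ x, lagPot y ψ x * g0 x ∂(uniformProbOn K) ≤ S := by
    intro j
    have h := glue_main K hKc hKv hKi R hR hKR (fun x => ε j * g0 x) (hpert j) y hy m hm hsum
      z hz n hn hnsum P hP ψ (χs j) hψ (hχs j)
    have hL : ∫ x, (lagPot z (χs j) x - lagPot y ψ x) * (ε j * g0 x) ∂(uniformProbOn K)
        = ε j * (∫ x, lagPot z (χs j) x * g0 x ∂(uniformProbOn K) -
            ∫ x, lagPot y ψ x * g0 x ∂(uniformProbOn K)) := by
      rw [← integral_sub (hint (χs j)) hinty, ← integral_const_mul]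
      congr 1
      ext x
      ring
    have hR' : Real.sqrt (300 * R ^ 2 * (∫ x, (ε j * g0 x) ^ 2 ∂(uniformProbOn K)) *
        matCost y z P) = ε j * S := by
      have h1 : ∫ x, (ε j * g0 x) ^ 2 ∂(uniformProbOn K) = ε j ^ 2 * A := by
        rw [hA, ← integral_const_mul]
        congr 1
        ext x
        ring
      rw [h1, hS, show 300 * R ^ 2 * (ε j ^ 2 * A) * matCost y z P
          = ε j ^ 2 * (300 * R ^ 2 * A * matCost y z P) by ring,
        Real.sqrt_mul (sq_nonneg _), Real.sqrt_sq (hεpos j).le]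
    rw [hL, hR'] at h
    exact le_of_mul_le_mul_left h (hεpos j)
  -- pass to the limit with `sd_stab`
  have hlim := sd_stab K hKc hKv hKi g0 hg0m B hg0B hmean z hz n hn hnsum χ hχ ε hεlim hεB χs hχs
  have hfin : ∫ x, lagPot z χ x * g0 x ∂(uniformProbOn K) -
      ∫ x, lagPot y ψ x * g0 x ∂(uniformProbOn K) ≤ S :=
    le_of_tendsto' (hlim.sub_const _) hkey
  -- the left side is `A`
  have hLA : ∫ x, lagPot z χ x * g0 x ∂(uniformProbOn K) -
      ∫ x, lagPot y ψ x * g0 x ∂(uniformProbOn K) = A := by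
    rw [← integral_sub (hint χ) hinty]
    have hEq : (fun x => lagPot z χ x * g0 x - lagPot y ψ x * g0 x) =ᵐ[uniformProbOn K]
        fun x => g0 x ^ 2 + c0 * g0 x := by
      filter_upwards [hae] with x hx
      have h1 : g0 x = lagPot z χ x - lagPot y ψ x - c0 := hg0K x hx
      have h2 : lagPot z χ x - lagPot y ψ x = g0 x + c0 := by rw [h1]; ring
      calc lagPot z χ x * g0 x - lagPot y ψ x * g0 x
          = (lagPot z χ x - lagPot y ψ x) * g0 x := by ring
        _ = (g0 x + c0) * g0 x := by rw [h2]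
        _ = g0 x ^ 2 + c0 * g0 x := by ring
    rw [integral_congr_ae hEq, integral_add hg0sq (hg0i.const_mul c0), integral_const_mul, hmean]
    simp [hA]
  rw [hLA] at hfin
  have hAle : A ≤ 300 * R ^ 2 * matCost y z P := by
    have hc : 0 ≤ 300 * R ^ 2 * matCost y z P := mul_nonneg (by positivity) hM0
    by_cases hA' : A = 0
    · rw [hA']; exact hc
    · have hApos : 0 < A := lt_of_le_of_ne hA0 (Ne.symm hA')
      have hX : 0 ≤ 300 * R ^ 2 * A * matCost y z P :=
        mul_nonneg (mul_nonneg (by positivity) hA0) hM0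
      have h2 : A * A ≤ 300 * R ^ 2 * A * matCost y z P := by
        calc A * A ≤ S * S := mul_self_le_mul_self hA0 hfin
          _ = 300 * R ^ 2 * A * matCost y z P := Real.mul_self_sqrt hX
      have h3 : A * A ≤ A * (300 * R ^ 2 * matCost y z P) := by linarith
      exact le_of_mul_le_mul_left h3 hApos
  refine ⟨-c0, ?_⟩
  have hEq2 : (fun x => (lagPot y ψ x - lagPot z χ x - (-c0)) ^ 2) =ᵐ[uniformProbOn K]
      fun x => g0 x ^ 2 := by
    filter_upwards [hae] with x hx
    have h1 : g0 x = lagPot z χ x - lagPot y ψ x - c0 := hg0K x hx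
    rw [h1]
    ring
  rw [integral_congr_ae hEq2]
  exact hAle

end Crest.Agent.S0109
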