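import Crest.Agent.S0109.GlueInj
import Crest.Agent.S0109.SDExist
import Crest.Agent.S0109.CoreD

/-!
Row 82 (S0109) job GLUE-MERGE. Statement FROZEN; one owner.
-/

set_option autoImplicit false
open MeasureTheory Filter
open scoped ENNReal NNReal Topology
open Crest.AnalysisR.OT

namespace Crest.Agent.S0109

variable {d : ℕ} {ι κ : Type} [Fintype ι] [Fintype κ]

/-- The potential of a family pulled back along a surjection of index types. -/
private theorem glue_merge_pot {ι ι' : Type} [Fintype ι] [Fintype ι'] (π : ι → ι')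
    (hπ : Function.Surjective π) (y' : ι' → EuclideanSpace ℝ (Fin d)) (ψ' : ι' → ℝ)
    (x : EuclideanSpace ℝ (Fin d)) :
    lagPot (fun i => y' (π i)) (fun i => ψ' (π i)) x = lagPot y' ψ' x := by
  unfold lagPot
  exact hπ.iSup_comp (fun s => inner ℝ x (y' s) - ψ' s)

/-- Fibrewise regrouping of a weighted sum along a map of index types. -/
private theorem glue_merge_fiber {ι ι' : Type} [Fintype ι] [Fintype ι'] [DecidableEq ι']
    (π : ι → ι') (m : ι → ℝ) (f : ι' → ℝ) :
    ∑ i, m i * f (π i) =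
      ∑ s, (∑ i ∈ Finset.univ.filter (fun i => π i = s), m i) * f s := by
  rw [← Finset.sum_fiberwise Finset.univ π (fun i => m i * f (π i))]
  refine Finset.sum_congr rfl fun s _ => ?_
  rw [Finset.sum_mul]
  refine Finset.sum_congr rfl fun i hi => ?_
  rw [(Finset.mem_filter.1 hi).2]

/-- Glue data for a merged family pull back to glue data for the original family. -/
private theorem glue_merge_pullback {ι ι' : Type} [Fintype ι] [Fintype ι'] [DecidableEq ι']
    (ρ' : Measure (EuclideanSpace ℝ (Fin d))) (R : ℝ) (π : ι → ι')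
    (hπ : Function.Surjective π) (y' : ι' → EuclideanSpace ℝ (Fin d)) (m : ι → ℝ)
    (ψ' : ι' → ℝ) (b' : ι' → EuclideanSpace ℝ (Fin d))
    (h : IsGlueData ρ' R y' (fun s => ∑ i ∈ Finset.univ.filter (fun i => π i = s), m i) ψ' b') :
    IsGlueData ρ' R (fun i => y' (π i)) m (fun i => ψ' (π i)) (fun i => b' (π i)) := by
  obtain ⟨h1, h2, h3⟩ := h
  refine ⟨?_, fun i => h2 (π i), ?_⟩
  · have hJ : lagJ ρ' (fun i => y' (π i)) m (fun i => ψ' (π i)) =
        lagJ ρ' y' (fun s => ∑ i ∈ Finset.univ.filter (fun i => π i = s), m i) ψ' := by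
      unfold lagJ
      congr 1
      · exact integral_congr_ae
          (Filter.Eventually.of_forall fun x => glue_merge_pot π hπ y' ψ' x)
      · exact glue_merge_fiber π m ψ'
    rw [hJ, h1]
    exact (glue_merge_fiber π m (fun s => inner ℝ (b' s) (y' s))).symm
  · intro κ _ z n P hP χ
    have hP' : IsCoupMat (fun s => ∑ i ∈ Finset.univ.filter (fun i => π i = s), m i) n
        (fun s k => ∑ i ∈ Finset.univ.filter (fun i => π i = s), P i k) := by
      refine ⟨fun s k => Finset.sum_nonneg fun i _ => hP.nonneg i k, fun s => ?_, fun k => ?_⟩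
      · rw [Finset.sum_comm]
        exact Finset.sum_congr rfl fun i _ => hP.row i
      · rw [Finset.sum_fiberwise Finset.univ π (fun i => P i k)]
        exact hP.col k
    refine le_trans (le_of_eq ?_) (h3 κ z n _ hP' χ)
    rw [Finset.sum_comm]
    rw [Finset.sum_comm (f := fun s k =>
      (∑ i ∈ Finset.univ.filter (fun i => π i = s), P i k) * inner ℝ (b' s) (z k))]
    refine Finset.sum_congr rfl fun k _ => ?_
    exact glue_merge_fiber π (fun i => P i k) (fun s => inner ℝ (b' s) (z k))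

/-- Optimal dual data for an ARBITRARY family (sites may coincide), for both sources, with the
dual estimate (D) (job GLUE-MERGE).  Merge coinciding sites: index type `{s // s ∈ image y univ}`,
weights `∑_{y i = s} m i`; apply `sd_exists` (twice; `rhoG_zero` for the unperturbed source),
`glue_inj`, `core_D`, and pull back `ψ i := ψ' (y i)`, `b i := b' (y i)`. -/
theorem glue_merge [Nonempty ι] (K : Set (EuclideanSpace ℝ (Fin d))) (hKc : IsCompact K)
    (hKv : Convex ℝ K) (hKi : (interior K).Nonempty) (R : ℝ) (hR : 0 < R)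
    (hKR : K ⊆ Metric.closedBall 0 R) (g : EuclideanSpace ℝ (Fin d) → ℝ) (hg : IsPert K g)
    (y : ι → EuclideanSpace ℝ (Fin d)) (m : ι → ℝ) (hm : ∀ i, 0 < m i) (hsum : ∑ i, m i = 1) :
    ∃ (ψ0 ψ1 : ι → ℝ) (b0 b1 : ι → EuclideanSpace ℝ (Fin d)),
      IsGlueData (uniformProbOn K) R y m ψ0 b0 ∧ IsGlueData (rhoG K g) R y m ψ1 b1 ∧
      ∑ i, m i * ‖b1 i - b0 i‖ ^ 2 ≤ 300 * R ^ 2 * ∫ x, g x ^ 2 ∂(uniformProbOn K) := by
  classical
  let S : Finset (EuclideanSpace ℝ (Fin d)) := Finset.univ.image y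
  let π : ι → {s // s ∈ S} := fun i => ⟨y i, Finset.mem_image_of_mem y (Finset.mem_univ i)⟩
  have hπ : Function.Surjective π := by
    rintro ⟨s, hs⟩
    obtain ⟨i, -, rfl⟩ := Finset.mem_image.1 hs
    exact ⟨i, rfl⟩
  let y' : {s // s ∈ S} → EuclideanSpace ℝ (Fin d) := Subtype.val
  have hy' : Function.Injective y' := Subtype.val_injective
  let m' : {s // s ∈ S} → ℝ := fun s => ∑ i ∈ Finset.univ.filter (fun i => π i = s), m i
  have hm' : ∀ s, 0 < m' s := by
    intro s
    obtain ⟨i, hi⟩ := hπ s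
    exact Finset.sum_pos (fun j _ => hm j) ⟨i, Finset.mem_filter.2 ⟨Finset.mem_univ i, hi⟩⟩
  have hsum' : ∑ s, m' s = 1 := by
    have := Finset.sum_fiberwise Finset.univ π m
    rw [← hsum, ← this]
  have : Nonempty {s // s ∈ S} := ⟨π (Classical.arbitrary ι)⟩
  obtain ⟨ψ1', h1⟩ := sd_exists K hKc hKv hKi g hg y' hy' m' hm' hsum'
  obtain ⟨ψ0', h0z⟩ :=
    sd_exists K hKc hKv hKi (fun _ => 0) (isPert_zero K) y' hy' m' hm' hsum'
  have G1 := glue_inj K hKc hKv hKi R hKR g hg y' hy' m' hm' hsum' ψ1' h1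
  have G0 := glue_inj K hKc hKv hKi R hKR (fun _ => 0) (isPert_zero K) y' hy' m' hm' hsum'
    ψ0' h0z
  rw [rhoG_zero K] at G0 h0z
  have D := core_D K hKc hKv hKi R hR hKR g hg y' hy' m' hm' hsum' ψ0' ψ1' h0z h1
  refine ⟨fun i => ψ0' (π i), fun i => ψ1' (π i),
    fun i => lagBary (uniformProbOn K) y' ψ0' m' (π i),
    fun i => lagBary (rhoG K g) y' ψ1' m' (π i), ?_, ?_, ?_⟩
  · exact glue_merge_pullback (uniformProbOn K) R π hπ y' m ψ0' _ G0
  · exact glue_merge_pullback (rhoG K g) R π hπ y' m ψ1' _ G1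
  · refine le_trans (le_of_eq ?_) D
    exact glue_merge_fiber π m (fun s =>
      ‖lagBary (rhoG K g) y' ψ1' m' s - lagBary (uniformProbOn K) y' ψ0' m' s‖ ^ 2)

end Crest.Agent.S0109
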