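import Crest.Agent.S0109.GlueMerge

/-!
Row 82 (S0109) job GLUE-TEL. Statement FROZEN; one owner.
-/

set_option autoImplicit false
open MeasureTheory Filter
open scoped ENNReal NNReal Topology
open Crest.AnalysisR.OT

namespace Crest.Agent.S0109

variable {d : ℕ} {ι κ : Type} [Fintype ι] [Fintype κ]


/-- Weighted Cauchy–Schwarz. -/
private theorem glue_tel_cs {σ : Type} [Fintype σ] (w : σ → ℝ) (hw : ∀ q, 0 ≤ w q)
    (u v : σ → EuclideanSpace ℝ (Fin d)) :
    ∑ q, w q * inner ℝ (u q) (v q) ≤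
      Real.sqrt (∑ q, w q * ‖u q‖ ^ 2) * Real.sqrt (∑ q, w q * ‖v q‖ ^ 2) := by
  have h1 : ∑ q, w q * inner ℝ (u q) (v q) ≤
      ∑ q, (Real.sqrt (w q) * ‖u q‖) * (Real.sqrt (w q) * ‖v q‖) := by
    apply Finset.sum_le_sum
    intro q _
    have h2 : inner ℝ (u q) (v q) ≤ ‖u q‖ * ‖v q‖ := real_inner_le_norm _ _
    have h3 : Real.sqrt (w q) * Real.sqrt (w q) = w q := Real.mul_self_sqrt (hw q)
    calc w q * inner ℝ (u q) (v q) ≤ w q * (‖u q‖ * ‖v q‖) :=
          mul_le_mul_of_nonneg_left h2 (hw q)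
      _ = (Real.sqrt (w q) * Real.sqrt (w q)) * (‖u q‖ * ‖v q‖) := by rw [h3]
      _ = (Real.sqrt (w q) * ‖u q‖) * (Real.sqrt (w q) * ‖v q‖) := by ring
  have h4 := Real.sum_mul_le_sqrt_mul_sqrt Finset.univ
    (fun q => Real.sqrt (w q) * ‖u q‖) (fun q => Real.sqrt (w q) * ‖v q‖)
  have h5 : ∀ (x : σ → EuclideanSpace ℝ (Fin d)),
      ∑ q, (Real.sqrt (w q) * ‖x q‖) ^ 2 = ∑ q, w q * ‖x q‖ ^ 2 := by
    intro x
    apply Finset.sum_congr rfl
    intro q _
    rw [mul_pow, Real.sq_sqrt (hw q)]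
  simp only [h5] at h4
  exact h1.trans h4

/-- Diagonal gluing: data for the family `(p, w)` tested against the family `(p', w)`. -/
private theorem glue_tel_step {σ : Type} [Fintype σ] [DecidableEq σ]
    (ρ' : Measure (EuclideanSpace ℝ (Fin d))) (R : ℝ)
    (w : σ → ℝ) (hw : ∀ q, 0 ≤ w q) (p p' : σ → EuclideanSpace ℝ (Fin d)) (ψ ψ' : σ → ℝ)
    (b : σ → EuclideanSpace ℝ (Fin d)) (h : IsGlueData ρ' R p w ψ b) :
    ∑ q, w q * inner ℝ (b q) (p' q) ≤ lagJ ρ' p' w ψ' := by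
  have h1 := h.2.2 σ p' w (fun q q' => if q = q' then w q else 0)
    ⟨fun q q' => by split_ifs <;> simp [hw q], fun q => by simp, fun q => by simp⟩ ψ'
  have h2 : ∑ q, ∑ q', (if q = q' then w q else 0) * inner ℝ (b q) (p' q') =
      ∑ q, w q * inner ℝ (b q) (p' q) := by
    apply Finset.sum_congr rfl
    intro q _
    simp [ite_mul]
  rw [h2] at h1
  exact h1

/-- Pushing data on `σ` forward along `a : σ → ι`. -/
private theorem glue_tel_push {σ : Type} [Fintype σ] [DecidableEq ι]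
    (ρ' : Measure (EuclideanSpace ℝ (Fin d))) (R : ℝ)
    (w : σ → ℝ) (hw : ∀ q, 0 ≤ w q) (a : σ → ι) (y : ι → EuclideanSpace ℝ (Fin d))
    (m : ι → ℝ) (ha : ∀ i, ∑ q, (if a q = i then w q else 0) = m i)
    (ψ : σ → ℝ) (b : σ → EuclideanSpace ℝ (Fin d))
    (h : IsGlueData ρ' R (fun q => y (a q)) w ψ b) (χ : ι → ℝ) :
    lagJ ρ' (fun q => y (a q)) w ψ ≤ lagJ ρ' y m χ := by
  have h1 := h.2.2 ι y m (fun q i => if a q = i then w q else 0)
    ⟨fun q i => by split_ifs <;> simp [hw q], fun q => by simp, fun i => ha i⟩ χ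
  have h2 : ∑ q, ∑ i, (if a q = i then w q else 0) * inner ℝ (b q) (y i) =
      ∑ q, w q * inner ℝ (b q) (y (a q)) := by
    apply Finset.sum_congr rfl
    intro q _
    simp [ite_mul]
  rw [h2] at h1
  rw [h.1]
  exact h1

/-- Pulling data on `ι` back along `a : σ → ι`. -/
private theorem glue_tel_pull {σ : Type} [Fintype σ] [DecidableEq ι]
    (ρ' : Measure (EuclideanSpace ℝ (Fin d))) (R : ℝ)
    (w : σ → ℝ) (hw : ∀ q, 0 ≤ w q) (a : σ → ι) (y : ι → EuclideanSpace ℝ (Fin d))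
    (m : ι → ℝ) (ha : ∀ i, ∑ q, (if a q = i then w q else 0) = m i)
    (ψ : ι → ℝ) (b : ι → EuclideanSpace ℝ (Fin d))
    (h : IsGlueData ρ' R y m ψ b) (χ : σ → ℝ) :
    lagJ ρ' y m ψ ≤ lagJ ρ' (fun q => y (a q)) w χ := by
  have h1 := h.2.2 σ (fun q => y (a q)) w (fun i q => if a q = i then w q else 0)
    ⟨fun i q => by split_ifs <;> simp [hw q], fun i => ha i, fun q => by simp⟩ χ
  have h2 : ∑ i, ∑ q, (if a q = i then w q else 0) * inner ℝ (b i) (y (a q)) =
      ∑ i, m i * inner ℝ (b i) (y i) := by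
    apply Finset.sum_congr rfl
    intro i _
    rw [← ha i, Finset.sum_mul]
    apply Finset.sum_congr rfl
    intro q _
    by_cases hq : a q = i
    · simp [hq]
    · simp [hq]
  rw [h2] at h1
  rw [h.1]
  exact h1


/-- Weighted Cauchy–Schwarz with a uniformly bounded factor. -/
private theorem glue_tel_cs_bdd {σ : Type} [Fintype σ] (w : σ → ℝ) (hw : ∀ q, 0 ≤ w q)
    (hwsum : ∑ q, w q = 1) (R : ℝ) (hR : 0 ≤ R)
    (u v : σ → EuclideanSpace ℝ (Fin d)) (hu : ∀ q, ‖u q‖ ≤ R) :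
    ∑ q, w q * inner ℝ (u q) (v q) ≤ R * Real.sqrt (∑ q, w q * ‖v q‖ ^ 2) := by
  refine (glue_tel_cs w hw u v).trans ?_
  apply mul_le_mul_of_nonneg_right _ (Real.sqrt_nonneg _)
  apply Real.sqrt_le_iff.mpr
  refine ⟨hR, ?_⟩
  calc ∑ q, w q * ‖u q‖ ^ 2 ≤ ∑ q, w q * R ^ 2 := by
        apply Finset.sum_le_sum
        intro q _
        apply mul_le_mul_of_nonneg_left _ (hw q)
        exact pow_le_pow_left₀ (norm_nonneg _) (hu q) 2
    _ = R ^ 2 := by rw [← Finset.sum_mul, hwsum, one_mul]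

/-- The potential is integrable against the uniform measure of a compact set. -/
private theorem glue_tel_int (K : Set (EuclideanSpace ℝ (Fin d))) (hKc : IsCompact K)
    (hKi : (interior K).Nonempty) (y : ι → EuclideanSpace ℝ (Fin d)) (ψ : ι → ℝ) :
    Integrable (lagPot y ψ) (uniformProbOn K) := by
  unfold uniformProbOn
  apply Integrable.smul_measure
  · exact (lag_pot_continuous y ψ).continuousOn.integrableOn_compact hKc
  · apply ENNReal.inv_ne_top.mpr
    exact ((isOpen_interior.measure_pos volume hKi).trans_le (measure_mono interior_subset)).ne'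

/-- The potential times an admissible perturbation is integrable. -/
private theorem glue_tel_int_mul (K : Set (EuclideanSpace ℝ (Fin d))) (hKc : IsCompact K)
    (hKi : (interior K).Nonempty) (g : EuclideanSpace ℝ (Fin d) → ℝ) (hg : IsPert K g)
    (y : ι → EuclideanSpace ℝ (Fin d)) (ψ : ι → ℝ) :
    Integrable (fun x => lagPot y ψ x * g x) (uniformProbOn K) := by
  apply (glue_tel_int K hKc hKi y ψ).mul_bdd (c := 1 / 2) hg.meas.aestronglyMeasurable
  exact Filter.Eventually.of_forall (fun x => by rw [Real.norm_eq_abs]; exact hg.bdd x)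

/-- Difference of the dual values for the two sources. -/
private theorem glue_tel_lagJ_sub (K : Set (EuclideanSpace ℝ (Fin d))) (hKc : IsCompact K)
    (hKi : (interior K).Nonempty) (g : EuclideanSpace ℝ (Fin d) → ℝ) (hg : IsPert K g)
    (y : ι → EuclideanSpace ℝ (Fin d)) (m : ι → ℝ) (ψ : ι → ℝ) :
    lagJ (rhoG K g) y m ψ - lagJ (uniformProbOn K) y m ψ =
      ∫ x, lagPot y ψ x * g x ∂(uniformProbOn K) := by
  unfold lagJ
  rw [rhoG_integral K g hg]
  have h1 : ∫ x, lagPot y ψ x * (1 + g x) ∂(uniformProbOn K) =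
      ∫ x, lagPot y ψ x ∂(uniformProbOn K) + ∫ x, lagPot y ψ x * g x ∂(uniformProbOn K) := by
    rw [← integral_add (glue_tel_int K hKc hKi y ψ) (glue_tel_int_mul K hKc hKi g hg y ψ)]
    congr 1
    ext x
    ring
  rw [h1]
  ring

/-- Pure telescoping. -/
private theorem glue_tel_aux (V0 V1 x0 x1 : ℕ → ℝ) (A : ℝ) (ha : ∀ j, V0 j + x0 j ≤ V0 (j + 1))
    (hb : ∀ j, V1 (j + 1) ≤ V1 j + x1 (j + 1)) (hcs : ∀ j, x1 j - x0 j ≤ A) (k : ℕ) :
    V1 k - V1 0 - (V0 k - V0 0) ≤ k * A + x0 k - x0 0 := by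
  induction k with
  | zero => simp
  | succ k ih =>
    have h1 := ha k
    have h2 := hb k
    have h3 := hcs (k + 1)
    push_cast
    linarith

/-- Core telescoping estimate over an abstract index set `σ` carrying the coupling. -/
private theorem glue_tel_core {σ : Type} [Fintype σ] [DecidableEq σ] [Nonempty σ] [DecidableEq ι]
    [DecidableEq κ] (K : Set (EuclideanSpace ℝ (Fin d)))
    (hKc : IsCompact K) (hKv : Convex ℝ K) (hKi : (interior K).Nonempty) (R : ℝ) (hR : 0 < R)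
    (hKR : K ⊆ Metric.closedBall 0 R) (g : EuclideanSpace ℝ (Fin d) → ℝ) (hg : IsPert K g)
    (y : ι → EuclideanSpace ℝ (Fin d)) (m : ι → ℝ)
    (z : κ → EuclideanSpace ℝ (Fin d)) (n : κ → ℝ)
    (a : σ → ι) (c : σ → κ) (w : σ → ℝ) (hw : ∀ q, 0 < w q) (hwsum : ∑ q, w q = 1)
    (ha : ∀ i, ∑ q, (if a q = i then w q else 0) = m i)
    (hc : ∀ k, ∑ q, (if c q = k then w q else 0) = n k)
    (ψ : ι → ℝ) (χ1 : κ → ℝ)
    (by0 : ι → EuclideanSpace ℝ (Fin d)) (hby : IsGlueData (uniformProbOn K) R y m ψ by0)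
    (bz1 : κ → EuclideanSpace ℝ (Fin d)) (hbz : IsGlueData (rhoG K g) R z n χ1 bz1)
    (N : ℕ) (hN : 0 < N) :
    (lagJ (rhoG K g) z n χ1 - lagJ (uniformProbOn K) z n χ1) -
        (lagJ (rhoG K g) y m ψ - lagJ (uniformProbOn K) y m ψ) ≤
      Real.sqrt (300 * R ^ 2 * ∫ x, g x ^ 2 ∂(uniformProbOn K)) *
          Real.sqrt (∑ q, w q * ‖y (a q) - z (c q)‖ ^ 2) +
        2 * (R * Real.sqrt (∑ q, w q * ‖y (a q) - z (c q)‖ ^ 2)) / N := by
  have hw0 : ∀ q, 0 ≤ w q := fun q => (hw q).le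
  have hN' : (N : ℝ) ≠ 0 := Nat.cast_ne_zero.mpr hN.ne'
  have hNpos : (0 : ℝ) < N := Nat.cast_pos.mpr hN
  -- the interpolated sites
  obtain ⟨p, hp⟩ : ∃ p : ℕ → σ → EuclideanSpace ℝ (Fin d),
      ∀ j q, p j q = (1 - (j : ℝ) / N) • y (a q) + ((j : ℝ) / N) • z (c q) :=
    ⟨fun j q => (1 - (j : ℝ) / N) • y (a q) + ((j : ℝ) / N) • z (c q), fun _ _ => rfl⟩
  have hmerge : ∀ j : ℕ, ∃ (ψ0 ψ1 : σ → ℝ) (b0 b1 : σ → EuclideanSpace ℝ (Fin d)),
      IsGlueData (uniformProbOn K) R (p j) w ψ0 b0 ∧ IsGlueData (rhoG K g) R (p j) w ψ1 b1 ∧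
      ∑ q, w q * ‖b1 q - b0 q‖ ^ 2 ≤ 300 * R ^ 2 * ∫ x, g x ^ 2 ∂(uniformProbOn K) :=
    fun j => glue_merge K hKc hKv hKi R hR hKR g hg (p j) w hw hwsum
  choose ψ0 ψ1 b0 b1 h0 h1 hD using hmerge
  -- one step of the interpolation
  have hexp : ∀ (b : σ → EuclideanSpace ℝ (Fin d)) (j : ℕ),
      ∑ q, w q * inner ℝ (b q) (p (j + 1) q) = ∑ q, w q * inner ℝ (b q) (p j q) +
        (∑ q, w q * inner ℝ (b q) (z (c q) - y (a q))) / N := by
    intro b j
    rw [Finset.sum_div, ← Finset.sum_add_distrib]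
    apply Finset.sum_congr rfl
    intro q _
    simp only [hp, inner_add_right, inner_smul_right, inner_sub_right]
    push_cast
    field_simp
    ring
  have hp0 : p 0 = fun q => y (a q) := by
    funext q
    simp [hp]
  have hpN : p N = fun q => z (c q) := by
    funext q
    simp [hp, div_self hN']
  -- the cost in terms of `z - y`
  have hcost : ∑ q, w q * ‖z (c q) - y (a q)‖ ^ 2 = ∑ q, w q * ‖y (a q) - z (c q)‖ ^ 2 := by
    apply Finset.sum_congr rfl
    intro q _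
    rw [norm_sub_rev]
  -- telescoping
  have htel := glue_tel_aux
    (fun j => lagJ (uniformProbOn K) (p j) w (ψ0 j))
    (fun j => lagJ (rhoG K g) (p j) w (ψ1 j))
    (fun j => (∑ q, w q * inner ℝ (b0 j q) (z (c q) - y (a q))) / N)
    (fun j => (∑ q, w q * inner ℝ (b1 j q) (z (c q) - y (a q))) / N)
    (Real.sqrt (300 * R ^ 2 * ∫ x, g x ^ 2 ∂(uniformProbOn K)) *
          Real.sqrt (∑ q, w q * ‖y (a q) - z (c q)‖ ^ 2) / N)
    (by
      intro j
      have h2 := glue_tel_step (uniformProbOn K) R w hw0 (p j) (p (j + 1)) (ψ0 j) (ψ0 (j + 1))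
        (b0 j) (h0 j)
      rw [hexp, ← (h0 j).1] at h2
      exact h2)
    (by
      intro j
      have h2 := glue_tel_step (rhoG K g) R w hw0 (p (j + 1)) (p j) (ψ1 (j + 1)) (ψ1 j)
        (b1 (j + 1)) (h1 (j + 1))
      have h3 := hexp (b1 (j + 1)) j
      rw [← (h1 (j + 1)).1] at h3
      show lagJ (rhoG K g) (p (j + 1)) w (ψ1 (j + 1)) ≤ lagJ (rhoG K g) (p j) w (ψ1 j) +
        (∑ q, w q * inner ℝ (b1 (j + 1) q) (z (c q) - y (a q))) / N
      rw [h3]
      linarith)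
    (by
      intro j
      show (∑ q, w q * inner ℝ (b1 j q) (z (c q) - y (a q))) / N -
        (∑ q, w q * inner ℝ (b0 j q) (z (c q) - y (a q))) / N ≤ _
      rw [← sub_div]
      apply div_le_div_of_nonneg_right _ hNpos.le
      have h2 := glue_tel_cs w hw0 (fun q => b1 j q - b0 j q) (fun q => z (c q) - y (a q))
      have h3 : ∑ q, w q * inner ℝ (b1 j q - b0 j q) (z (c q) - y (a q)) =
          ∑ q, w q * inner ℝ (b1 j q) (z (c q) - y (a q)) -
            ∑ q, w q * inner ℝ (b0 j q) (z (c q) - y (a q)) := by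
        rw [← Finset.sum_sub_distrib]
        apply Finset.sum_congr rfl
        intro q _
        rw [inner_sub_left]
        ring
      rw [h3, hcost] at h2
      refine h2.trans ?_
      exact mul_le_mul_of_nonneg_right (Real.sqrt_le_sqrt (hD j)) (Real.sqrt_nonneg _))
    N
  beta_reduce at htel
  -- endpoint comparisons
  have e1 : lagJ (rhoG K g) z n χ1 ≤ lagJ (rhoG K g) (p N) w (ψ1 N) := by
    rw [hpN]
    exact glue_tel_pull (rhoG K g) R w hw0 c z n hc χ1 bz1 hbz (ψ1 N)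
  have e2 : lagJ (uniformProbOn K) (p N) w (ψ0 N) ≤ lagJ (uniformProbOn K) z n χ1 := by
    have h2 := h0 N
    rw [hpN] at h2 ⊢
    exact glue_tel_push (uniformProbOn K) R w hw0 c z n hc (ψ0 N) (b0 N) h2 χ1
  have e3 : lagJ (rhoG K g) (p 0) w (ψ1 0) ≤ lagJ (rhoG K g) y m ψ := by
    have h2 := h1 0
    rw [hp0] at h2 ⊢
    exact glue_tel_push (rhoG K g) R w hw0 a y m ha (ψ1 0) (b1 0) h2 ψ
  have e4 : lagJ (uniformProbOn K) y m ψ ≤ lagJ (uniformProbOn K) (p 0) w (ψ0 0) := by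
    rw [hp0]
    exact glue_tel_pull (uniformProbOn K) R w hw0 a y m ha ψ by0 hby (ψ0 0)
  -- the boundary terms
  have f1 : ∑ q, w q * inner ℝ (b0 N q) (z (c q) - y (a q)) ≤
      R * Real.sqrt (∑ q, w q * ‖y (a q) - z (c q)‖ ^ 2) := by
    have h2 := glue_tel_cs_bdd w hw0 hwsum R hR.le (b0 N) (fun q => z (c q) - y (a q)) (h0 N).2.1
    rw [hcost] at h2
    exact h2
  have f2 : -(∑ q, w q * inner ℝ (b0 0 q) (z (c q) - y (a q))) ≤
      R * Real.sqrt (∑ q, w q * ‖y (a q) - z (c q)‖ ^ 2) := by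
    have h2 := glue_tel_cs_bdd w hw0 hwsum R hR.le (fun q => -(b0 0 q)) (fun q => z (c q) - y (a q))
      (fun q => by rw [norm_neg]; exact (h0 0).2.1 q)
    rw [hcost] at h2
    refine le_trans (le_of_eq ?_) h2
    rw [← Finset.sum_neg_distrib]
    apply Finset.sum_congr rfl
    intro q _
    rw [inner_neg_left]
    ring
  have f3 : (N : ℝ) * (Real.sqrt (300 * R ^ 2 * ∫ x, g x ^ 2 ∂(uniformProbOn K)) *
          Real.sqrt (∑ q, w q * ‖y (a q) - z (c q)‖ ^ 2) / N) =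
      Real.sqrt (300 * R ^ 2 * ∫ x, g x ^ 2 ∂(uniformProbOn K)) *
          Real.sqrt (∑ q, w q * ‖y (a q) - z (c q)‖ ^ 2) := by
    field_simp
  have f4 : (∑ q, w q * inner ℝ (b0 N q) (z (c q) - y (a q))) / N -
      (∑ q, w q * inner ℝ (b0 0 q) (z (c q) - y (a q))) / N ≤
      2 * (R * Real.sqrt (∑ q, w q * ‖y (a q) - z (c q)‖ ^ 2)) / N := by
    rw [← sub_div]
    apply div_le_div_of_nonneg_right _ hNpos.le
    linarith
  rw [f3] at htel
  linarith

/-- Telescoping (job GLUE-TEL).  Families `(σ, p_j, w)`, `σ = {q : ι × κ // 0 < P q.1 q.2}`,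
`p_j q = (1 - j/N) • y q.1 + (j/N) • z q.2`, `w q = P q.1 q.2`, `j = 0..N`; `glue_merge` for each
`j`; consecutive families are coupled by the diagonal matrix, giving
`X^j/N ≤ V^{j+1} - V^j ≤ X^{j+1}/N` with `X^j = ∑ w ⟪b^j, z - y⟫` for both sources; the endpoint
values are the values of `(y,m)` and `(z,n)` (glue both ways with the matrix `1[q.1 = i] w q`);
`lagJ (rhoG K g) = lagJ ρ + ∫ φ g dρ` (`rhoG_integral`); the values are minima of `lagJ`. Result
for every `N ≥ 1` with an error `2 R sqrt(cost)/N`. -/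
theorem glue_main [Nonempty ι] [Nonempty κ] (K : Set (EuclideanSpace ℝ (Fin d)))
    (hKc : IsCompact K) (hKv : Convex ℝ K) (hKi : (interior K).Nonempty) (R : ℝ) (hR : 0 < R)
    (hKR : K ⊆ Metric.closedBall 0 R) (g : EuclideanSpace ℝ (Fin d) → ℝ) (hg : IsPert K g)
    (y : ι → EuclideanSpace ℝ (Fin d)) (hy : Function.Injective y)
    (m : ι → ℝ) (hm : ∀ i, 0 < m i) (hsum : ∑ i, m i = 1)
    (z : κ → EuclideanSpace ℝ (Fin d)) (hz : Function.Injective z)
    (n : κ → ℝ) (hn : ∀ k, 0 < n k) (hnsum : ∑ k, n k = 1)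
    (P : ι → κ → ℝ) (hP : IsCoupMat m n P) (ψ : ι → ℝ) (χ1 : κ → ℝ)
    (hψ : IsLagOpt (uniformProbOn K) y m ψ) (hχ1 : IsLagOpt (rhoG K g) z n χ1) :
    ∫ x, (lagPot z χ1 x - lagPot y ψ x) * g x ∂(uniformProbOn K) ≤
      Real.sqrt (300 * R ^ 2 * (∫ x, g x ^ 2 ∂(uniformProbOn K)) * matCost y z P) := by
  classical
  -- glue data at the two ends
  have hby : IsGlueData (uniformProbOn K) R y m ψ (lagBary (uniformProbOn K) y ψ m) := by
    have h := glue_inj K hKc hKv hKi R hKR (fun _ => 0) (isPert_zero K) y hy m hm hsum ψ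
      (by rw [rhoG_zero]; exact hψ)
    rw [rhoG_zero] at h
    exact h
  have hbz := glue_inj K hKc hKv hKi R hKR g hg z hz n hn hnsum χ1 hχ1
  -- sums over the support of the coupling
  have hsub : ∀ F : ι × κ → ℝ, (∀ x, ¬ 0 < P x.1 x.2 → F x = 0) →
      ∑ q : {q : ι × κ // 0 < P q.1 q.2}, F q.1 = ∑ i, ∑ k, F (i, k) := by
    intro F hF
    rw [← Fintype.sum_prod_type]
    rw [← Finset.sum_subtype (Finset.univ.filter (fun q : ι × κ => 0 < P q.1 q.2))
      (by intro x; simp) F]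
    apply Finset.sum_subset (Finset.filter_subset _ _)
    intro x _ hx
    apply hF x
    simpa using hx
  have hPz : ∀ x : ι × κ, ¬ 0 < P x.1 x.2 → P x.1 x.2 = 0 := fun x hx =>
    le_antisymm (not_lt.mp hx) (hP.nonneg x.1 x.2)
  have hne : Nonempty {q : ι × κ // 0 < P q.1 q.2} := by
    obtain ⟨i⟩ := ‹Nonempty ι›
    by_contra hcon
    have h2 : ∀ k, P i k = 0 := by
      intro k
      apply hPz (i, k)
      intro h3
      exact hcon ⟨⟨(i, k), h3⟩⟩
    have h4 := hP.row i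
    rw [Finset.sum_congr rfl (fun k _ => h2 k), Finset.sum_const_zero] at h4
    exact (hm i).ne h4
  have hwsum : ∑ q : {q : ι × κ // 0 < P q.1 q.2}, P q.1.1 q.1.2 = 1 := by
    rw [hsub (fun x => P x.1 x.2) hPz]
    rw [Finset.sum_congr rfl (fun i _ => hP.row i), hsum]
  have ha : ∀ i, ∑ q : {q : ι × κ // 0 < P q.1 q.2}, (if q.1.1 = i then P q.1.1 q.1.2 else 0)
      = m i := by
    intro i
    rw [hsub (fun x => if x.1 = i then P x.1 x.2 else 0)
      (fun x hx => by simp [hPz x hx])]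
    rw [← hP.row i]
    simp
  have hc : ∀ k, ∑ q : {q : ι × κ // 0 < P q.1 q.2}, (if q.1.2 = k then P q.1.1 q.1.2 else 0)
      = n k := by
    intro k
    rw [hsub (fun x => if x.2 = k then P x.1 x.2 else 0)
      (fun x hx => by simp [hPz x hx])]
    rw [← hP.col k]
    simp
  have hcostEq : ∑ q : {q : ι × κ // 0 < P q.1 q.2}, P q.1.1 q.1.2 * ‖y q.1.1 - z q.1.2‖ ^ 2
      = matCost y z P := by
    rw [hsub (fun x => P x.1 x.2 * ‖y x.1 - z x.2‖ ^ 2)
      (fun x hx => by simp [hPz x hx])]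
    rfl
  -- the estimate with an error term, for every `N ≥ 1`
  have key : ∀ N : ℕ, 0 < N →
      ∫ x, (lagPot z χ1 x - lagPot y ψ x) * g x ∂(uniformProbOn K) ≤
        Real.sqrt (300 * R ^ 2 * (∫ x, g x ^ 2 ∂(uniformProbOn K)) * matCost y z P) +
          2 * (R * Real.sqrt (matCost y z P)) / N := by
    intro N hN
    have h := glue_tel_core K hKc hKv hKi R hR hKR g hg y m z n
      (fun q : {q : ι × κ // 0 < P q.1 q.2} => q.1.1)
      (fun q : {q : ι × κ // 0 < P q.1 q.2} => q.1.2)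
      (fun q : {q : ι × κ // 0 < P q.1 q.2} => P q.1.1 q.1.2)
      (fun q => q.2) hwsum ha hc ψ χ1 _ hby _ hbz N hN
    rw [glue_tel_lagJ_sub K hKc hKi g hg, glue_tel_lagJ_sub K hKc hKi g hg, hcostEq] at h
    have h2 : ∫ x, (lagPot z χ1 x - lagPot y ψ x) * g x ∂(uniformProbOn K) =
        ∫ x, lagPot z χ1 x * g x ∂(uniformProbOn K) -
          ∫ x, lagPot y ψ x * g x ∂(uniformProbOn K) := by
      rw [← integral_sub (glue_tel_int_mul K hKc hKi g hg z χ1) (glue_tel_int_mul K hKc hKi g hg y ψ)]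
      congr 1
      ext x
      ring
    rw [h2]
    have h3 : Real.sqrt (300 * R ^ 2 * (∫ x, g x ^ 2 ∂(uniformProbOn K)) * matCost y z P) =
        Real.sqrt (300 * R ^ 2 * ∫ x, g x ^ 2 ∂(uniformProbOn K)) *
          Real.sqrt (matCost y z P) := by
      apply Real.sqrt_mul
      have : 0 ≤ ∫ x, g x ^ 2 ∂(uniformProbOn K) := integral_nonneg (fun x => sq_nonneg _)
      positivity
    rw [h3]
    exact h
  -- let `N → ∞`
  have hlim : Tendsto (fun N : ℕ =>
      Real.sqrt (300 * R ^ 2 * (∫ x, g x ^ 2 ∂(uniformProbOn K)) * matCost y z P) +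
          2 * (R * Real.sqrt (matCost y z P)) / N) atTop
      (𝓝 (Real.sqrt (300 * R ^ 2 * (∫ x, g x ^ 2 ∂(uniformProbOn K)) * matCost y z P) + 0)) :=
    tendsto_const_nhds.add (tendsto_const_div_atTop_nhds_zero_nat _)
  rw [add_zero] at hlim
  apply ge_of_tendsto hlim
  filter_upwards [eventually_gt_atTop 0] with N hN
  exact key N hN

end Crest.Agent.S0109
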