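import Crest.Agent.S0109.GlueMerge
import Crest.Agent.S0109.GN1D

/-!
Row 82 (S0109) job GLUE-TEL, integral version (helper22): `glue_main_int` has the same statement
as `glue_main`.  Instead of an `N`-step telescoping sum, the value `V(t)` of the interpolated
family at time `t ∈ [0,1]` has the subgradient `X(t) = ∑ w ⟪b(t), z - y⟫` (gluing inequality
between the families at times `t` and `s`), so `V(1) - V(0) = ∫₀¹ X` by `gn_fund`; the estimate
(D) of `glue_merge` bounds `X_g(t) - X_0(t)` for every `t`.  Names prefixed `gti_`.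
-/

set_option autoImplicit false
open MeasureTheory Filter
open scoped ENNReal NNReal Topology
open Crest.AnalysisR.OT

namespace Crest.Agent.S0109

variable {d : ℕ}

/-- `lagPot` is integrable against `uniformProbOn K`. -/
theorem gti_integrable_pot {ι : Type} [Fintype ι] (K : Set (EuclideanSpace ℝ (Fin d)))
    (hKc : IsCompact K) (hKi : (interior K).Nonempty) (y : ι → EuclideanSpace ℝ (Fin d))
    (ψ : ι → ℝ) : Integrable (lagPot y ψ) (uniformProbOn K) := by
  have h1 : IntegrableOn (lagPot y ψ) K volume :=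
    (lag_pot_continuous y ψ).continuousOn.integrableOn_compact hKc
  have hpos : 0 < volume K :=
    lt_of_lt_of_le (isOpen_interior.measure_pos volume hKi) (measure_mono interior_subset)
  unfold uniformProbOn
  exact Integrable.smul_measure h1 (ENNReal.inv_ne_top.mpr hpos.ne')

/-- Difference of the dual values for the perturbed and the unperturbed source. -/
theorem gti_lagJ_sub {ι : Type} [Fintype ι] (K : Set (EuclideanSpace ℝ (Fin d)))
    (hKc : IsCompact K) (hKi : (interior K).Nonempty) (g : EuclideanSpace ℝ (Fin d) → ℝ)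
    (hg : IsPert K g) (y : ι → EuclideanSpace ℝ (Fin d)) (m ψ : ι → ℝ) :
    lagJ (rhoG K g) y m ψ - lagJ (uniformProbOn K) y m ψ =
      ∫ x, lagPot y ψ x * g x ∂(uniformProbOn K) := by
  unfold lagJ
  rw [rhoG_integral K g hg (lagPot y ψ)]
  have hi := gti_integrable_pot K hKc hKi y ψ
  have hig : Integrable (fun x => lagPot y ψ x * g x) (uniformProbOn K) :=
    hi.mul_bdd hg.meas.aestronglyMeasurable
      (Eventually.of_forall fun x => by rw [Real.norm_eq_abs]; exact hg.bdd x)
  have h2 : ∫ x, lagPot y ψ x * (1 + g x) ∂(uniformProbOn K) =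
      ∫ x, lagPot y ψ x ∂(uniformProbOn K) + ∫ x, lagPot y ψ x * g x ∂(uniformProbOn K) := by
    rw [← integral_add hi hig]
    congr 1 with x
    ring
  rw [h2]
  ring

/-- Endpoint comparison, upper bound: the value of glue data of a family `(u, w)` that is a
"splitting" of the family `(y, m)` along `a` is at most the dual value of any potential on
`(y, m)`. -/
theorem gti_endpoint_le {τ ι : Type} [Fintype τ] [Fintype ι] [DecidableEq ι]
    (ρ' : Measure (EuclideanSpace ℝ (Fin d))) (R : ℝ)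
    (u : τ → EuclideanSpace ℝ (Fin d)) (w : τ → ℝ) (ψa : τ → ℝ)
    (ba : τ → EuclideanSpace ℝ (Fin d)) (hG : IsGlueData ρ' R u w ψa ba)
    (y : ι → EuclideanSpace ℝ (Fin d)) (m : ι → ℝ) (a : τ → ι) (hu : ∀ q, u q = y (a q))
    (hw : ∀ q, 0 ≤ w q) (hpush : ∀ i, ∑ q, (if a q = i then w q else 0) = m i) (χ : ι → ℝ) :
    lagJ ρ' u w ψa ≤ lagJ ρ' y m χ := by
  have hcoup : IsCoupMat w m (fun q i => if a q = i then w q else 0) := by
    refine ⟨fun q i => ?_, fun q => ?_, hpush⟩
    · split_ifs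
      · exact hw q
      · exact le_refl 0
    · simp
  have h := hG.2.2 ι y m _ hcoup χ
  rw [hG.1]
  refine le_trans (le_of_eq ?_) h
  apply Finset.sum_congr rfl
  intro q _
  rw [Finset.sum_eq_single (a q)]
  · simp [hu q]
  · intro i _ hi
    simp [Ne.symm hi]
  · intro h
    exact absurd (Finset.mem_univ _) h

/-- Endpoint comparison, lower bound. -/
theorem gti_endpoint_ge {τ ι : Type} [Fintype τ] [Fintype ι] [DecidableEq ι]
    (ρ' : Measure (EuclideanSpace ℝ (Fin d))) (R : ℝ)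
    (y : ι → EuclideanSpace ℝ (Fin d)) (m : ι → ℝ) (ψ : ι → ℝ)
    (b : ι → EuclideanSpace ℝ (Fin d)) (hG : IsGlueData ρ' R y m ψ b)
    (u : τ → EuclideanSpace ℝ (Fin d)) (w : τ → ℝ) (a : τ → ι) (hu : ∀ q, u q = y (a q))
    (hw : ∀ q, 0 ≤ w q) (hpush : ∀ i, ∑ q, (if a q = i then w q else 0) = m i) (ψa : τ → ℝ) :
    lagJ ρ' y m ψ ≤ lagJ ρ' u w ψa := by
  have hcoup : IsCoupMat m w (fun i q => if a q = i then w q else 0) := by
    refine ⟨fun i q => ?_, hpush, fun q => ?_⟩
    · split_ifs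
      · exact hw q
      · exact le_refl 0
    · simp
  have h := hG.2.2 τ u w _ hcoup ψa
  rw [hG.1]
  refine le_trans (le_of_eq ?_) h
  apply Finset.sum_congr rfl
  intro i _
  rw [← hpush i, Finset.sum_mul]
  apply Finset.sum_congr rfl
  intro q _
  split_ifs with h
  · rw [hu q, h]
  · simp

/-- Path lemma: along the displacement interpolation `(1 - t) u + t v` of a weighted family, the
difference of the increments of the dual values for the two sources is controlled by (D). -/
theorem gti_path {τ : Type} [Fintype τ] [Nonempty τ] (K : Set (EuclideanSpace ℝ (Fin d)))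
    (hKc : IsCompact K) (hKv : Convex ℝ K) (hKi : (interior K).Nonempty) (R : ℝ) (hR : 0 < R)
    (hKR : K ⊆ Metric.closedBall 0 R) (g : EuclideanSpace ℝ (Fin d) → ℝ) (hg : IsPert K g)
    (u v : τ → EuclideanSpace ℝ (Fin d)) (w : τ → ℝ) (hw : ∀ q, 0 < w q)
    (hwsum : ∑ q, w q = 1) :
    ∃ (ψ0a ψ1a ψ0b ψ1b : τ → ℝ) (b0a b1a b0b b1b : τ → EuclideanSpace ℝ (Fin d)),
      IsGlueData (uniformProbOn K) R u w ψ0a b0a ∧ IsGlueData (rhoG K g) R u w ψ1a b1a ∧
      IsGlueData (uniformProbOn K) R v w ψ0b b0b ∧ IsGlueData (rhoG K g) R v w ψ1b b1b ∧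
      (lagJ (rhoG K g) v w ψ1b - lagJ (rhoG K g) u w ψ1a) -
          (lagJ (uniformProbOn K) v w ψ0b - lagJ (uniformProbOn K) u w ψ0a) ≤
        Real.sqrt (300 * R ^ 2 * ∫ x, g x ^ 2 ∂(uniformProbOn K)) *
          Real.sqrt (∑ q, w q * ‖v q - u q‖ ^ 2) := by
  classical
  set pt : ℝ → τ → EuclideanSpace ℝ (Fin d) := fun t q => (1 - t) • u q + t • v q with hpt
  have hmerge := fun t : ℝ => glue_merge K hKc hKv hKi R hR hKR g hg (pt t) w hw hwsum
  choose ψ0 ψ1 b0 b1 hG0 hG1 hD using hmerge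
  have hp0 : pt 0 = u := by
    funext q
    simp [hpt]
  have hp1 : pt 1 = v := by
    funext q
    simp [hpt]
  have hdiag : IsCoupMat w w (fun q q' => if q = q' then w q else 0) := by
    refine ⟨fun q q' => ?_, fun q => ?_, fun q => ?_⟩
    · split_ifs
      · exact (hw q).le
      · exact le_refl 0
    · simp
    · simp
  -- the subgradient inequality, generic in the source
  have key : ∀ (ρ' : Measure (EuclideanSpace ℝ (Fin d))) (ψ' : ℝ → τ → ℝ)
      (b' : ℝ → τ → EuclideanSpace ℝ (Fin d)),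
      (∀ t, IsGlueData ρ' R (pt t) w (ψ' t) (b' t)) → ∀ t s : ℝ,
        lagJ ρ' (pt t) w (ψ' t) + (∑ q, w q * inner ℝ (b' t q) (v q - u q)) * (s - t) ≤
          lagJ ρ' (pt s) w (ψ' s) := by
    intro ρ' ψ' b' hG t s
    have h := (hG t).2.2 τ (pt s) w _ hdiag (ψ' s)
    rw [(hG t).1]
    refine le_trans (le_of_eq ?_) h
    rw [Finset.sum_mul, ← Finset.sum_add_distrib]
    apply Finset.sum_congr rfl
    intro q _
    rw [Finset.sum_eq_single q]
    · have e : pt s q = pt t q + (s - t) • (v q - u q) := by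
        simp only [hpt]
        module
      have e2 : inner ℝ (b' t q) (pt s q) =
          inner ℝ (b' t q) (pt t q) + (s - t) * inner ℝ (b' t q) (v q - u q) := by
        rw [e, inner_add_right, inner_smul_right]
      rw [if_pos rfl, e2]
      ring
    · intro q' _ hq'
      simp [Ne.symm hq']
    · intro h
      exact absurd (Finset.mem_univ _) h
  obtain ⟨-, hint0, hf0⟩ := gn_fund 0 1 zero_le_one
    (fun t => lagJ (uniformProbOn K) (pt t) w (ψ0 t))
    (fun t => ∑ q, w q * inner ℝ (b0 t q) (v q - u q))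
    (fun t _ s _ => key _ ψ0 b0 hG0 t s)
  obtain ⟨-, hint1, hf1⟩ := gn_fund 0 1 zero_le_one
    (fun t => lagJ (rhoG K g) (pt t) w (ψ1 t))
    (fun t => ∑ q, w q * inner ℝ (b1 t q) (v q - u q))
    (fun t _ s _ => key _ ψ1 b1 hG1 t s)
  have e0 := hf0 0 (by simp) 1 (by simp)
  have e1 := hf1 0 (by simp) 1 (by simp)
  set c : ℝ := Real.sqrt (300 * R ^ 2 * ∫ x, g x ^ 2 ∂(uniformProbOn K)) *
    Real.sqrt (∑ q, w q * ‖v q - u q‖ ^ 2) with hc
  have hbound : ∀ t : ℝ, (∑ q, w q * inner ℝ (b1 t q) (v q - u q)) -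
      (∑ q, w q * inner ℝ (b0 t q) (v q - u q)) ≤ c := by
    intro t
    rw [← Finset.sum_sub_distrib]
    have h1 : ∀ q, w q * inner ℝ (b1 t q) (v q - u q) - w q * inner ℝ (b0 t q) (v q - u q) ≤
        (Real.sqrt (w q) * ‖b1 t q - b0 t q‖) * (Real.sqrt (w q) * ‖v q - u q‖) := by
      intro q
      have h2 : inner ℝ (b1 t q) (v q - u q) - inner ℝ (b0 t q) (v q - u q) =
          inner ℝ (b1 t q - b0 t q) (v q - u q) := by
        rw [inner_sub_left]
      have h3 := real_inner_le_norm (b1 t q - b0 t q) (v q - u q)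
      have h4 : Real.sqrt (w q) * Real.sqrt (w q) = w q := Real.mul_self_sqrt (hw q).le
      calc w q * inner ℝ (b1 t q) (v q - u q) - w q * inner ℝ (b0 t q) (v q - u q)
          = w q * inner ℝ (b1 t q - b0 t q) (v q - u q) := by rw [← h2]; ring
        _ ≤ w q * (‖b1 t q - b0 t q‖ * ‖v q - u q‖) :=
            mul_le_mul_of_nonneg_left h3 (hw q).le
        _ = (Real.sqrt (w q) * ‖b1 t q - b0 t q‖) * (Real.sqrt (w q) * ‖v q - u q‖) := by
            rw [mul_mul_mul_comm, h4]
    refine le_trans (Finset.sum_le_sum fun q _ => h1 q) ?_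
    refine le_trans (Real.sum_mul_le_sqrt_mul_sqrt _ _ _) ?_
    have h5 : ∑ q, (Real.sqrt (w q) * ‖b1 t q - b0 t q‖) ^ 2 =
        ∑ q, w q * ‖b1 t q - b0 t q‖ ^ 2 := by
      apply Finset.sum_congr rfl
      intro q _
      rw [mul_pow, Real.sq_sqrt (hw q).le]
    have h6 : ∑ q, (Real.sqrt (w q) * ‖v q - u q‖) ^ 2 = ∑ q, w q * ‖v q - u q‖ ^ 2 := by
      apply Finset.sum_congr rfl
      intro q _
      rw [mul_pow, Real.sq_sqrt (hw q).le]
    rw [h5, h6, hc]
    exact mul_le_mul_of_nonneg_right (Real.sqrt_le_sqrt (hD t)) (Real.sqrt_nonneg _)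
  have main : (lagJ (rhoG K g) (pt 1) w (ψ1 1) - lagJ (rhoG K g) (pt 0) w (ψ1 0)) -
      (lagJ (uniformProbOn K) (pt 1) w (ψ0 1) - lagJ (uniformProbOn K) (pt 0) w (ψ0 0)) ≤ c := by
    rw [e0, e1, ← intervalIntegral.integral_sub hint1 hint0]
    have hcc : ∫ _ in (0 : ℝ)..1, c = c := by simp
    rw [← hcc]
    exact intervalIntegral.integral_mono_on zero_le_one (hint1.sub hint0)
      intervalIntegrable_const (fun t _ => hbound t)
  have g00 := hG0 0
  have g10 := hG1 0
  have g01 := hG0 1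
  have g11 := hG1 1
  rw [hp0] at g00 g10 main
  rw [hp1] at g01 g11 main
  exact ⟨ψ0 0, ψ1 0, ψ0 1, ψ1 1, b0 0, b1 0, b0 1, b1 1, g00, g10, g01, g11, main⟩

/-- Telescoping along the displacement interpolation, integral version (same statement as
`glue_main`). -/
theorem glue_main_int {ι κ : Type} [Fintype ι] [Fintype κ] [Nonempty ι] [Nonempty κ]
    (K : Set (EuclideanSpace ℝ (Fin d)))
    (hKc : IsCompact K) (hKv : Convex ℝ K) (hKi : (interior K).Nonempty) (R : ℝ) (hR : 0 < R)
    (hKR : K ⊆ Metric.closedBall 0 R) (g : EuclideanSpace ℝ (Fin d) → ℝ) (hg : IsPert K g)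
    (y : ι → EuclideanSpace ℝ (Fin d)) (hy : Function.Injective y)
    (m : ι → ℝ) (hm : ∀ i, 0 < m i) (hsum : ∑ i, m i = 1)
    (z : κ → EuclideanSpace ℝ (Fin d)) (hz : Function.Injective z)
    (n : κ → ℝ) (hn : ∀ k, 0 < n k) (hnsum : ∑ k, n k = 1)
    (P : ι → κ → ℝ) (hP : IsCoupMat m n P) (ψ : ι → ℝ) (χ1 : κ → ℝ)
    (hψ : IsLagOpt (uniformProbOn K) y m ψ) (hχ1 : IsLagOpt (rhoG K g) z n χ1) :
    ∫ x, (lagPot z χ1 x - lagPot y ψ x) * g x ∂(uniformProbOn K) ≤
      Real.sqrt (300 * R ^ 2 * (∫ x, g x ^ 2 ∂(uniformProbOn K)) * matCost y z P) := by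
  classical
  -- the index type of the positive entries of the coupling matrix
  let τ : Type := {q : ι × κ // 0 < P q.1 q.2}
  let w : τ → ℝ := fun q => P q.1.1 q.1.2
  have hw : ∀ q : τ, 0 < w q := fun q => q.2
  have hsumτ : ∀ G : ι → κ → ℝ, ∑ q : τ, w q * G q.1.1 q.1.2 = ∑ i, ∑ k, P i k * G i k := by
    intro G
    rw [← Finset.sum_product' (s := Finset.univ) (t := Finset.univ)
      (f := fun i k => P i k * G i k), Finset.univ_product_univ]
    have h1 : ∑ q : τ, w q * G q.1.1 q.1.2 =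
        ∑ q ∈ Finset.univ.filter (fun q : ι × κ => 0 < P q.1 q.2), P q.1 q.2 * G q.1 q.2 :=
      (Finset.sum_subtype (p := fun q : ι × κ => 0 < P q.1 q.2)
        (Finset.univ.filter fun q : ι × κ => 0 < P q.1 q.2) (by simp)
        (fun q => P q.1 q.2 * G q.1 q.2)).symm
    rw [h1, Finset.sum_filter]
    apply Finset.sum_congr rfl
    intro q _
    split_ifs with h
    · rfl
    · have h0 : P q.1 q.2 = 0 := le_antisymm (not_lt.mp h) (hP.nonneg _ _)
      simp [h0]
  have hwsum : ∑ q, w q = 1 := by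
    have h := hsumτ (fun _ _ => 1)
    simp only [mul_one] at h
    rw [h]
    simp_rw [hP.row]
    exact hsum
  have hne : Nonempty τ := by
    by_contra hcon
    rw [not_nonempty_iff] at hcon
    have h0 : ∑ q : τ, w q = 0 := Finset.sum_of_isEmpty _
    linarith
  set u : τ → EuclideanSpace ℝ (Fin d) := fun q => y q.1.1 with hu
  set v : τ → EuclideanSpace ℝ (Fin d) := fun q => z q.1.2 with hv
  obtain ⟨ψ0a, ψ1a, ψ0b, ψ1b, b0a, b1a, b0b, b1b, hG0a, hG1a, hG0b, hG1b, hmain⟩ :=
    gti_path K hKc hKv hKi R hR hKR g hg u v w hw hwsum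
  -- the weights push forward to `m` and `n`
  have hpa : ∀ i, ∑ q : τ, (if q.1.1 = i then w q else 0) = m i := by
    intro i
    have h := hsumτ (fun i' _ => if i' = i then 1 else 0)
    simp only [mul_ite, mul_one, mul_zero] at h
    rw [h, Finset.sum_eq_single i]
    · simp [hP.row]
    · intro i' _ hi'
      simp [hi']
    · intro h'
      exact absurd (Finset.mem_univ _) h'
  have hpc : ∀ k, ∑ q : τ, (if q.1.2 = k then w q else 0) = n k := by
    intro k
    have h := hsumτ (fun _ k' => if k' = k then 1 else 0)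
    simp only [mul_ite, mul_one, mul_zero] at h
    rw [h, Finset.sum_comm, Finset.sum_eq_single k]
    · simp [hP.col]
    · intro k' _ hk'
      simp [hk']
    · intro h'
      exact absurd (Finset.mem_univ _) h'
  -- glue data for the two injective families
  have hGy : IsGlueData (uniformProbOn K) R y m ψ (lagBary (uniformProbOn K) y ψ m) := by
    have h := glue_inj K hKc hKv hKi R hKR (fun _ => 0) (isPert_zero K) y hy m hm hsum ψ
      (by rw [rhoG_zero]; exact hψ)
    rwa [rhoG_zero] at h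
  have hGz : IsGlueData (rhoG K g) R z n χ1 (lagBary (rhoG K g) z χ1 n) :=
    glue_inj K hKc hKv hKi R hKR g hg z hz n hn hnsum χ1 hχ1
  -- the four endpoint inequalities
  have h1 : lagJ (uniformProbOn K) y m ψ ≤ lagJ (uniformProbOn K) u w ψ0a :=
    gti_endpoint_ge _ R y m ψ _ hGy u w (fun q => q.1.1) (fun q => rfl)
      (fun q => (hw q).le) hpa ψ0a
  have h2 : lagJ (rhoG K g) u w ψ1a ≤ lagJ (rhoG K g) y m ψ :=
    gti_endpoint_le _ R u w ψ1a b1a hG1a y m (fun q => q.1.1) (fun q => rfl)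
      (fun q => (hw q).le) hpa ψ
  have h3 : lagJ (uniformProbOn K) v w ψ0b ≤ lagJ (uniformProbOn K) z n χ1 :=
    gti_endpoint_le _ R v w ψ0b b0b hG0b z n (fun q => q.1.2) (fun q => rfl)
      (fun q => (hw q).le) hpc χ1
  have h4 : lagJ (rhoG K g) z n χ1 ≤ lagJ (rhoG K g) v w ψ1b :=
    gti_endpoint_ge _ R z n χ1 _ hGz v w (fun q => q.1.2) (fun q => rfl)
      (fun q => (hw q).le) hpc ψ1b
  -- the cost
  have hcost : ∑ q, w q * ‖v q - u q‖ ^ 2 = matCost y z P := by
    have h := hsumτ (fun i k => ‖z k - y i‖ ^ 2)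
    rw [h]
    unfold matCost
    simp_rw [norm_sub_rev]
  -- differences of dual values
  have e1 := gti_lagJ_sub K hKc hKi g hg z n χ1
  have e2 := gti_lagJ_sub K hKc hKi g hg y m ψ
  have hbd : ∀ᵐ x ∂(uniformProbOn K), ‖g x‖ ≤ 1 / 2 :=
    Eventually.of_forall fun x => by rw [Real.norm_eq_abs]; exact hg.bdd x
  have hi1 : Integrable (fun x => lagPot z χ1 x * g x) (uniformProbOn K) :=
    (gti_integrable_pot K hKc hKi z χ1).mul_bdd hg.meas.aestronglyMeasurable hbd
  have hi2 : Integrable (fun x => lagPot y ψ x * g x) (uniformProbOn K) :=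
    (gti_integrable_pot K hKc hKi y ψ).mul_bdd hg.meas.aestronglyMeasurable hbd
  have hI : ∫ x, (lagPot z χ1 x - lagPot y ψ x) * g x ∂(uniformProbOn K) =
      (∫ x, lagPot z χ1 x * g x ∂(uniformProbOn K)) -
        ∫ x, lagPot y ψ x * g x ∂(uniformProbOn K) := by
    rw [← integral_sub hi1 hi2]
    congr 1 with x
    ring
  have hnn : 0 ≤ 300 * R ^ 2 * ∫ x, g x ^ 2 ∂(uniformProbOn K) :=
    mul_nonneg (by positivity) (integral_nonneg fun x => sq_nonneg _)
  rw [hI, ← e1, ← e2, Real.sqrt_mul hnn]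
  rw [hcost] at hmain
  linarith

end Crest.Agent.S0109
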