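import Crest.Agent.S0109.PL

/-!
# Prékopa–Leindler inequality in dimension `n` (row 82, module PL-ND)

Induction on the dimension from the one-dimensional inequality `pl_real`
(Tonelli along the first coordinate), and transfer to `EuclideanSpace ℝ (Fin n)`.
-/

set_option autoImplicit false
open MeasureTheory
open scoped ENNReal NNReal

namespace Crest.Agent.S0109

/-- Prékopa–Leindler on `Fin n → ℝ` (proved from `pl_real`). -/
theorem pl_pi' (n : ℕ) (t : ℝ) (ht0 : 0 < t) (ht1 : t < 1) (f k h : (Fin n → ℝ) → ℝ≥0∞)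
    (hf : Measurable f) (hk : Measurable k) (hh : Measurable h)
    (H : ∀ x y, f x ^ (1 - t) * k y ^ t ≤ h ((1 - t) • x + t • y)) :
    (∫⁻ x, f x) ^ (1 - t) * (∫⁻ y, k y) ^ t ≤ ∫⁻ z, h z := by
  induction n with
  | zero =>
    have hv : (volume : Measure (Fin 0 → ℝ)) = Measure.dirac 0 := Measure.volume_pi_eq_dirac 0
    rw [hv, lintegral_dirac, lintegral_dirac, lintegral_dirac]
    have h0 := H 0 0
    simpa using h0
  | succ n ih =>
    let e := MeasurableEquiv.piFinSuccAbove (fun _ : Fin (n + 1) => ℝ) 0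
    have hmp : MeasurePreserving e volume volume :=
      volume_preserving_piFinSuccAbove (fun _ : Fin (n + 1) => ℝ) 0
    -- Tonelli along the first coordinate
    have key : ∀ g : (Fin (n + 1) → ℝ) → ℝ≥0∞, Measurable g →
        ∫⁻ x, g x = ∫⁻ s : ℝ, ∫⁻ x' : Fin n → ℝ, g (e.symm (s, x')) := by
      intro g hg
      have h1 : ∫⁻ x, g x = ∫⁻ p : ℝ × (Fin n → ℝ), g (e.symm p) :=
        (hmp.symm.lintegral_comp hg).symm
      rw [h1, Measure.volume_eq_prod]
      exact lintegral_prod (fun p => g (e.symm p)) (hg.comp e.symm.measurable).aemeasurable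
    -- linearity of `e.symm`
    have hlin : ∀ (s₀ s₁ : ℝ) (x' y' : Fin n → ℝ),
        (1 - t) • e.symm (s₀, x') + t • e.symm (s₁, y')
          = e.symm ((1 - t) * s₀ + t * s₁, (1 - t) • x' + t • y') := by
      intro s₀ s₁ x' y'
      apply e.injective
      rw [e.apply_symm_apply]
      have he : ∀ a : Fin (n + 1) → ℝ, e a = (a 0, fun j => a (Fin.succAbove 0 j)) := fun a => rfl
      have hs : ∀ p : ℝ × (Fin n → ℝ), (e.symm p 0, fun j => e.symm p (Fin.succAbove 0 j)) = p := by
        intro p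
        rw [← he, e.apply_symm_apply]
      have h0 := hs (s₀, x')
      have h1 := hs (s₁, y')
      rw [he]
      rw [Prod.ext_iff] at h0 h1 ⊢
      simp only at h0 h1
      refine ⟨?_, ?_⟩
      · simp only [Pi.add_apply, Pi.smul_apply, smul_eq_mul]
        rw [h0.1, h1.1]
      · funext j
        have h02 := congrFun h0.2 j
        have h12 := congrFun h1.2 j
        simp only [Pi.add_apply, Pi.smul_apply, smul_eq_mul]
        rw [h02, h12]
    set F : ℝ → ℝ≥0∞ := fun s => ∫⁻ x' : Fin n → ℝ, f (e.symm (s, x')) with hF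
    set G : ℝ → ℝ≥0∞ := fun s => ∫⁻ x' : Fin n → ℝ, k (e.symm (s, x')) with hG
    set Hh : ℝ → ℝ≥0∞ := fun s => ∫⁻ x' : Fin n → ℝ, h (e.symm (s, x')) with hHh
    have hFm : Measurable F := (hf.comp e.symm.measurable).lintegral_prod_right'
    have hGm : Measurable G := (hk.comp e.symm.measurable).lintegral_prod_right'
    have hHm : Measurable Hh := (hh.comp e.symm.measurable).lintegral_prod_right'
    have hsec : ∀ s₀ s₁ : ℝ, F s₀ ^ (1 - t) * G s₁ ^ t ≤ Hh ((1 - t) * s₀ + t * s₁) := by
      intro s₀ s₁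
      refine ih (fun x' => f (e.symm (s₀, x'))) (fun y' => k (e.symm (s₁, y')))
        (fun z' => h (e.symm ((1 - t) * s₀ + t * s₁, z'))) ?_ ?_ ?_ ?_
      · exact hf.comp (e.symm.measurable.comp measurable_prodMk_left)
      · exact hk.comp (e.symm.measurable.comp measurable_prodMk_left)
      · exact hh.comp (e.symm.measurable.comp measurable_prodMk_left)
      · intro x' y'
        have := H (e.symm (s₀, x')) (e.symm (s₁, y'))
        rwa [hlin] at this
    rw [key f hf, key k hk, key h hh]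
    exact pl_real t ht0 ht1 F G Hh hFm hGm hHm hsec

/-- Prékopa–Leindler on Euclidean space (proved from `pl_real`). -/
theorem pl_euclidean' (n : ℕ) (t : ℝ) (ht0 : 0 < t) (ht1 : t < 1)
    (f k h : EuclideanSpace ℝ (Fin n) → ℝ≥0∞)
    (hf : Measurable f) (hk : Measurable k) (hh : Measurable h)
    (H : ∀ x y, f x ^ (1 - t) * k y ^ t ≤ h ((1 - t) • x + t • y)) :
    (∫⁻ x, f x) ^ (1 - t) * (∫⁻ y, k y) ^ t ≤ ∫⁻ z, h z := by
  have hmp : MeasurePreserving (@WithLp.toLp 2 (Fin n → ℝ)) volume volume :=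
    PiLp.volume_preserving_toLp (Fin n)
  have key : ∀ g : EuclideanSpace ℝ (Fin n) → ℝ≥0∞, Measurable g →
      ∫⁻ x, g x = ∫⁻ x' : Fin n → ℝ, g (WithLp.toLp 2 x') := fun g hg =>
    (hmp.lintegral_comp hg).symm
  rw [key f hf, key k hk, key h hh]
  refine pl_pi' n t ht0 ht1 (fun x' => f (WithLp.toLp 2 x')) (fun x' => k (WithLp.toLp 2 x'))
    (fun x' => h (WithLp.toLp 2 x')) (hf.comp hmp.measurable) (hk.comp hmp.measurable)
    (hh.comp hmp.measurable) ?_
  intro x y
  have := H (WithLp.toLp 2 x) (WithLp.toLp 2 y)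
  simpa using this

end Crest.Agent.S0109
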