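import Mathlib

/-!
# Semi-discrete optimal transport, abstract form (row 82, helper module SDAbs)

Owner: helper37.  Everything in `namespace Crest.Agent.S0109.SDA` (no clash with the skeleton names).
Main results: `SDA.sd_exists` (existence), `SDA.sd_unique` (uniqueness modulo constants),
`SDA.sd_tendsto_mass` (continuity of cell masses), `SDA.sdJ_le_of_cells` (weak duality),
`SDA.sdCell_osc_le` (oscillation bound), `SDA.sdNoPlane_of_ac`.

Abstract setting: `E` a real inner product space with a finite Borel measure `ν` that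
* gives no mass to affine hyperplanes (`SdNoPlane ν`),
* is carried by a ball (`∀ᵐ x ∂ν, ‖x‖ ≤ R`).

For sites `y : ι → E` (injective, `ι` finite nonempty) and weights `m i > 0` with
`∑ m i = ν.real univ` there is a potential `ψ : ι → ℝ` all of whose strict Laguerre cells
`sdCell y ψ i = {x | ∀ k ≠ i, ⟪x, y k⟫ - ψ k < ⟪x, y i⟫ - ψ i}` have `ν`-mass `m i`.

Proof: minimise `J ψ = ∫ max_i (⟪x, y i⟫ - ψ i) dν + ∑ m i ψ i` (shift invariant, coercive modulo
constants); at a minimiser the one-sided test `J (ψ + h e_i) ≥ J ψ` gives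
`ν (sdCell y (ψ + h e_i) i) ≤ m i`, the cells increase to `sdCell y ψ i` as `h ↓ 0`, and the cells
cover `E` up to finitely many hyperplanes.
-/

set_option autoImplicit false
open MeasureTheory Set Filter Topology
open scoped ENNReal NNReal RealInnerProductSpace

namespace Crest.Agent.S0109.SDA

section defs

variable {E : Type*} [NormedAddCommGroup E] [InnerProductSpace ℝ E] {ι : Type*}

/-- The `i`-th affine function `x ↦ ⟪x, y i⟫ - ψ i`. -/
def sdAff (y : ι → E) (ψ : ι → ℝ) (i : ι) (x : E) : ℝ := inner ℝ x (y i) - ψ i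

/-- The strict Laguerre cell of the site `i`. -/
def sdCell (y : ι → E) (ψ : ι → ℝ) (i : ι) : Set E :=
  {x | ∀ k, k ≠ i → sdAff y ψ k x < sdAff y ψ i x}

/-- The potential `x ↦ max_i (⟪x, y i⟫ - ψ i)`. -/
noncomputable def sdPot [Fintype ι] [Nonempty ι] (y : ι → E) (ψ : ι → ℝ) (x : E) : ℝ :=
  Finset.univ.sup' Finset.univ_nonempty (fun i => sdAff y ψ i x)

/-- A measure that gives no mass to affine hyperplanes. -/
def SdNoPlane [MeasurableSpace E] (ν : Measure E) : Prop :=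
  ∀ v : E, v ≠ 0 → ∀ c : ℝ, ν {x | inner ℝ x v = c} = 0

lemma sdAff_continuous (y : ι → E) (ψ : ι → ℝ) (i : ι) : Continuous (sdAff y ψ i) := by
  unfold sdAff
  fun_prop

lemma sdAff_le_sdPot [Fintype ι] [Nonempty ι] (y : ι → E) (ψ : ι → ℝ) (i : ι) (x : E) :
    sdAff y ψ i x ≤ sdPot y ψ x :=
  Finset.le_sup' (fun i => sdAff y ψ i x) (Finset.mem_univ i)

lemma sdPot_le [Fintype ι] [Nonempty ι] (y : ι → E) (ψ : ι → ℝ) (x : E) (c : ℝ)
    (h : ∀ i, sdAff y ψ i x ≤ c) : sdPot y ψ x ≤ c :=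
  Finset.sup'_le _ _ (fun i _ => h i)

lemma sdPot_exists [Fintype ι] [Nonempty ι] (y : ι → E) (ψ : ι → ℝ) (x : E) :
    ∃ i, sdPot y ψ x = sdAff y ψ i x := by
  obtain ⟨i, -, hi⟩ := Finset.exists_mem_eq_sup' Finset.univ_nonempty (fun i => sdAff y ψ i x)
  exact ⟨i, hi⟩

lemma sdPot_continuous [Fintype ι] [Nonempty ι] (y : ι → E) (ψ : ι → ℝ) :
    Continuous (sdPot y ψ) := by
  unfold sdPot
  exact Continuous.finset_sup'_apply _ (fun i _ => sdAff_continuous y ψ i)

/-- On the cell of `i` the potential is the `i`-th affine function. -/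
lemma sdPot_eq_of_mem_sdCell [Fintype ι] [Nonempty ι] (y : ι → E) (ψ : ι → ℝ) (i : ι) (x : E)
    (hx : x ∈ sdCell y ψ i) : sdPot y ψ x = sdAff y ψ i x := by
  apply le_antisymm
  · apply sdPot_le
    intro k
    by_cases hk : k = i
    · rw [hk]
    · exact (hx k hk).le
  · exact sdAff_le_sdPot y ψ i x

lemma sdCell_isOpen [Finite ι] (y : ι → E) (ψ : ι → ℝ) (i : ι) : IsOpen (sdCell y ψ i) := by
  have : sdCell y ψ i = ⋂ k, ⋂ (_ : k ≠ i), {x | sdAff y ψ k x < sdAff y ψ i x} := by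
    ext x
    simp [sdCell]
  rw [this]
  refine isOpen_iInter_of_finite fun k => isOpen_iInter_of_finite fun _ => ?_
  exact isOpen_lt (sdAff_continuous y ψ k) (sdAff_continuous y ψ i)

lemma sdCell_disjoint (y : ι → E) (ψ : ι → ℝ) : Pairwise (Function.onFun Disjoint (sdCell y ψ)) := by
  intro i k hik
  rw [Function.onFun, Set.disjoint_left]
  intro x hxi hxk
  exact lt_asymm (hxi k (Ne.symm hik)) (hxk i hik)

lemma sdCell_convex (y : ι → E) (ψ : ι → ℝ) (i : ι) : Convex ℝ (sdCell y ψ i) := by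
  intro x hx z hz a b ha hb hab
  intro k hk
  have h1 := hx k hk
  have h2 := hz k hk
  simp only [sdAff, inner_add_left, inner_smul_left] at h1 h2 ⊢
  simp only [RCLike.conj_to_real]
  rcases eq_or_lt_of_le ha with rfl | ha'
  · have hb1 : b = 1 := by linarith
    subst hb1
    simpa using h2
  · have : a * (inner ℝ x (y k) - ψ k) < a * (inner ℝ x (y i) - ψ i) :=
      mul_lt_mul_of_pos_left h1 ha'
    have : b * (inner ℝ z (y k) - ψ k) ≤ b * (inner ℝ z (y i) - ψ i) :=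
      mul_le_mul_of_nonneg_left h2.le hb
    have hψk : ψ k = a * ψ k + b * ψ k := by rw [← add_mul, hab, one_mul]
    have hψi : ψ i = a * ψ i + b * ψ i := by rw [← add_mul, hab, one_mul]
    nlinarith

/-- Points outside all cells lie on a tie hyperplane. -/
lemma sdCell_compl_subset [Fintype ι] [Nonempty ι] (y : ι → E) (ψ : ι → ℝ) :
    (⋃ i, sdCell y ψ i)ᶜ ⊆
      ⋃ i, ⋃ k, ⋃ (_ : i ≠ k), {x | inner ℝ x (y i - y k) = ψ i - ψ k} := by
  intro x hx
  simp only [mem_compl_iff, mem_iUnion, not_exists] at hx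
  obtain ⟨i, hi⟩ := sdPot_exists y ψ x
  have hxi := hx i
  simp only [sdCell, mem_setOf_eq, not_forall] at hxi
  obtain ⟨k, hki, hk⟩ := hxi
  have h1 : sdAff y ψ k x ≤ sdAff y ψ i x := hi ▸ sdAff_le_sdPot y ψ k x
  have h2 : sdAff y ψ k x = sdAff y ψ i x := le_antisymm h1 (not_lt.mp hk)
  simp only [mem_iUnion, mem_setOf_eq]
  refine ⟨i, k, Ne.symm hki, ?_⟩
  simp only [sdAff] at h2
  rw [inner_sub_right]
  linarith

/-- The potential is `1`-Lipschitz in `ψ` for the sup norm. -/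
lemma sdPot_sub_le [Fintype ι] [Nonempty ι] (y : ι → E) (ψ ψ' : ι → ℝ) (x : E) :
    sdPot y ψ x - sdPot y ψ' x ≤ ‖ψ - ψ'‖ := by
  rw [sub_le_iff_le_add]
  apply sdPot_le
  intro i
  have h1 : sdAff y ψ' i x ≤ sdPot y ψ' x := sdAff_le_sdPot y ψ' i x
  have h2 : ‖(ψ - ψ') i‖ ≤ ‖ψ - ψ'‖ := norm_le_pi_norm (ψ - ψ') i
  rw [Real.norm_eq_abs, Pi.sub_apply] at h2
  have h3 := abs_le.mp h2
  simp only [sdAff] at h1 ⊢
  linarith [h3.1, h3.2]

lemma sdPot_abs_sub_le [Fintype ι] [Nonempty ι] (y : ι → E) (ψ ψ' : ι → ℝ) (x : E) :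
    |sdPot y ψ x - sdPot y ψ' x| ≤ ‖ψ - ψ'‖ := by
  rw [abs_le]
  constructor
  · have := sdPot_sub_le y ψ' ψ x
    rw [norm_sub_rev] at this
    linarith
  · exact sdPot_sub_le y ψ ψ' x

/-- Bound for the potential. -/
lemma sdPot_abs_le [Fintype ι] [Nonempty ι] (y : ι → E) (ψ : ι → ℝ) (x : E) (Y : ℝ)
    (hY : ∀ i, ‖y i‖ ≤ Y) : |sdPot y ψ x| ≤ ‖x‖ * Y + ‖ψ‖ := by
  have key : ∀ i, |sdAff y ψ i x| ≤ ‖x‖ * Y + ‖ψ‖ := by
    intro i
    have h1 : |inner ℝ x (y i)| ≤ ‖x‖ * ‖y i‖ := abs_real_inner_le_norm x (y i)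
    have h2 : ‖x‖ * ‖y i‖ ≤ ‖x‖ * Y := mul_le_mul_of_nonneg_left (hY i) (norm_nonneg x)
    have h3 : |ψ i| ≤ ‖ψ‖ := by
      have := norm_le_pi_norm ψ i
      rwa [Real.norm_eq_abs] at this
    unfold sdAff
    calc |inner ℝ x (y i) - ψ i| ≤ |inner ℝ x (y i)| + |ψ i| := abs_sub _ _
      _ ≤ ‖x‖ * Y + ‖ψ‖ := by linarith
  obtain ⟨i, hi⟩ := sdPot_exists y ψ x
  rw [hi]
  exact key i

/-- Shifting the potential by a constant. -/
lemma sdPot_add_const [Fintype ι] [Nonempty ι] (y : ι → E) (ψ : ι → ℝ) (c : ℝ) (x : E) :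
    sdPot y (fun i => ψ i + c) x = sdPot y ψ x - c := by
  apply le_antisymm
  · apply sdPot_le
    intro i
    have := sdAff_le_sdPot y ψ i x
    simp only [sdAff] at this ⊢
    linarith
  · rw [sub_le_iff_le_add]
    apply sdPot_le
    intro i
    have := sdAff_le_sdPot y (fun i => ψ i + c) i x
    simp only [sdAff] at this ⊢
    linarith

lemma sdCell_add_const (y : ι → E) (ψ : ι → ℝ) (c : ℝ) (i : ι) :
    sdCell y (fun i => ψ i + c) i = sdCell y ψ i := by
  ext x
  simp only [sdCell, sdAff, mem_setOf_eq]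
  constructor
  · intro h k hk
    have := h k hk
    linarith
  · intro h k hk
    have := h k hk
    linarith

lemma sdCell_closure_le (y : ι → E) (ψ : ι → ℝ) (i : ι) (x : E)
    (hx : x ∈ closure (sdCell y ψ i)) (k : ι) : sdAff y ψ k x ≤ sdAff y ψ i x := by
  have hcl : IsClosed {x | sdAff y ψ k x ≤ sdAff y ψ i x} :=
    isClosed_le (sdAff_continuous y ψ k) (sdAff_continuous y ψ i)
  have hsub : sdCell y ψ i ⊆ {x | sdAff y ψ k x ≤ sdAff y ψ i x} := by
    intro z hz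
    by_cases hk : k = i
    · simp [hk]
    · exact (hz k hk).le
  exact closure_minimal hsub hcl hx

end defs

section exist

variable {E : Type*} [NormedAddCommGroup E] [InnerProductSpace ℝ E] [MeasurableSpace E]
  [BorelSpace E] {ι : Type*} [Fintype ι] [Nonempty ι]

/-- The Kantorovich functional `J ψ = ∫ max_i (⟪x, y i⟫ - ψ i) dν + ∑ m i ψ i`. -/
noncomputable def sdJ (ν : Measure E) (y : ι → E) (m : ι → ℝ) (ψ : ι → ℝ) : ℝ :=
  ∫ x, sdPot y ψ x ∂ν + ∑ i, m i * ψ i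

lemma sdPot_integrable (ν : Measure E) [IsFiniteMeasure ν] (R : ℝ) (hR : ∀ᵐ x ∂ν, ‖x‖ ≤ R)
    (y : ι → E) (ψ : ι → ℝ) : Integrable (sdPot y ψ) ν := by
  obtain ⟨Y, hY⟩ : ∃ Y : ℝ, ∀ i, ‖y i‖ ≤ Y := by
    obtain ⟨i0, hi0⟩ := Finite.exists_max (fun i => ‖y i‖)
    exact ⟨‖y i0‖, hi0⟩
  have hY0 : 0 ≤ Y := le_trans (norm_nonneg _) (hY (Classical.arbitrary ι))
  refine Integrable.of_bound (sdPot_continuous y ψ).aestronglyMeasurable (|R| * Y + ‖ψ‖) ?_
  filter_upwards [hR] with x hx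
  rw [Real.norm_eq_abs]
  refine (sdPot_abs_le y ψ x Y hY).trans ?_
  have : ‖x‖ * Y ≤ |R| * Y := mul_le_mul_of_nonneg_right (hx.trans (le_abs_self R)) hY0
  linarith

lemma sdJ_shift (ν : Measure E) [IsFiniteMeasure ν] (R : ℝ) (hR : ∀ᵐ x ∂ν, ‖x‖ ≤ R)
    (y : ι → E) (m : ι → ℝ) (hsum : ∑ i, m i = ν.real univ) (ψ : ι → ℝ) (c : ℝ) :
    sdJ ν y m (fun i => ψ i + c) = sdJ ν y m ψ := by
  unfold sdJ
  have h1 : ∫ x, sdPot y (fun i => ψ i + c) x ∂ν = ∫ x, sdPot y ψ x ∂ν - ν.real univ * c := by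
    simp_rw [sdPot_add_const]
    rw [integral_sub (sdPot_integrable ν R hR y ψ) (integrable_const c), integral_const,
      smul_eq_mul]
  have h2 : ∑ i, m i * (ψ i + c) = ∑ i, m i * ψ i + (∑ i, m i) * c := by
    rw [Finset.sum_mul, ← Finset.sum_add_distrib]
    exact Finset.sum_congr rfl (fun i _ => by ring)
  rw [h1, h2, hsum]
  ring

lemma sdJ_abs_sub_le (ν : Measure E) [IsFiniteMeasure ν] (R : ℝ) (hR : ∀ᵐ x ∂ν, ‖x‖ ≤ R)
    (y : ι → E) (m : ι → ℝ) (ψ ψ' : ι → ℝ) :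
    |sdJ ν y m ψ - sdJ ν y m ψ'| ≤ (ν.real univ + ∑ i, |m i|) * ‖ψ - ψ'‖ := by
  unfold sdJ
  have h1 : |∫ x, sdPot y ψ x ∂ν - ∫ x, sdPot y ψ' x ∂ν| ≤ ν.real univ * ‖ψ - ψ'‖ := by
    rw [← integral_sub (sdPot_integrable ν R hR y ψ) (sdPot_integrable ν R hR y ψ')]
    have := norm_integral_le_of_norm_le_const (μ := ν) (f := fun x => sdPot y ψ x - sdPot y ψ' x)
      (C := ‖ψ - ψ'‖) (Eventually.of_forall (fun x => by
        rw [Real.norm_eq_abs]; exact sdPot_abs_sub_le y ψ ψ' x))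
    rw [Real.norm_eq_abs] at this
    linarith [this, mul_comm (ν.real univ) ‖ψ - ψ'‖]
  have h2 : |∑ i, m i * ψ i - ∑ i, m i * ψ' i| ≤ (∑ i, |m i|) * ‖ψ - ψ'‖ := by
    rw [← Finset.sum_sub_distrib, Finset.sum_mul]
    refine (Finset.abs_sum_le_sum_abs _ _).trans (Finset.sum_le_sum (fun i _ => ?_))
    rw [← mul_sub, abs_mul]
    have := norm_le_pi_norm (ψ - ψ') i
    rw [Real.norm_eq_abs, Pi.sub_apply] at this
    exact mul_le_mul_of_nonneg_left this (abs_nonneg _)
  have h3 : ∫ x, sdPot y ψ x ∂ν + ∑ i, m i * ψ i - (∫ x, sdPot y ψ' x ∂ν + ∑ i, m i * ψ' i)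
      = (∫ x, sdPot y ψ x ∂ν - ∫ x, sdPot y ψ' x ∂ν) + (∑ i, m i * ψ i - ∑ i, m i * ψ' i) := by
    ring
  rw [h3, add_mul]
  exact (abs_add_le _ _).trans (add_le_add h1 h2)

lemma sdJ_continuous (ν : Measure E) [IsFiniteMeasure ν] (R : ℝ) (hR : ∀ᵐ x ∂ν, ‖x‖ ≤ R)
    (y : ι → E) (m : ι → ℝ) : Continuous (sdJ ν y m) := by
  have hL : LipschitzWith (Real.toNNReal (ν.real univ + ∑ i, |m i|)) (sdJ ν y m) := by
    apply LipschitzWith.of_dist_le_mul
    intro ψ ψ'
    rw [Real.dist_eq, dist_eq_norm, Real.coe_toNNReal _ (by positivity)]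
    exact sdJ_abs_sub_le ν R hR y m ψ ψ'
  exact hL.continuous

/-- Coercivity: lower bound of `J` through the oscillation of `ψ`. -/
lemma sdJ_ge (ν : Measure E) [IsFiniteMeasure ν] (R : ℝ) (hR : ∀ᵐ x ∂ν, ‖x‖ ≤ R)
    (y : ι → E) (Y : ℝ) (hY : ∀ i, ‖y i‖ ≤ Y) (m : ι → ℝ) (hm : ∀ i, 0 < m i)
    (hsum : ∑ i, m i = ν.real univ) (ψ : ι → ℝ) (a b : ι) (ha : ∀ i, ψ a ≤ ψ i) :
    m b * (ψ b - ψ a) - |R| * Y * ν.real univ ≤ sdJ ν y m ψ := by
  have hY0 : 0 ≤ Y := le_trans (norm_nonneg _) (hY a)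
  unfold sdJ
  have h1 : ∫ x, (-(|R| * Y) - ψ a) ∂ν ≤ ∫ x, sdPot y ψ x ∂ν := by
    apply integral_mono_ae (integrable_const _) (sdPot_integrable ν R hR y ψ)
    filter_upwards [hR] with x hx
    have h := sdAff_le_sdPot y ψ a x
    have h' : |inner ℝ x (y a)| ≤ ‖x‖ * ‖y a‖ := abs_real_inner_le_norm x (y a)
    have h'' : ‖x‖ * ‖y a‖ ≤ |R| * Y :=
      mul_le_mul (hx.trans (le_abs_self R)) (hY a) (norm_nonneg _) (abs_nonneg R)
    have := (abs_le.mp h').1
    simp only [sdAff] at h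
    linarith
  rw [integral_const, smul_eq_mul] at h1
  have h2 : m b * (ψ b - ψ a) ≤ ∑ i, m i * (ψ i - ψ a) := by
    have := Finset.single_le_sum (f := fun i => m i * (ψ i - ψ a)) (s := Finset.univ)
      (fun i _ => mul_nonneg (hm i).le (sub_nonneg.mpr (ha i))) (Finset.mem_univ b)
    exact this
  have h3 : ∑ i, m i * (ψ i - ψ a) = ∑ i, m i * ψ i - ν.real univ * ψ a := by
    rw [← hsum, Finset.sum_mul, ← Finset.sum_sub_distrib]
    exact Finset.sum_congr rfl (fun i _ => by ring)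
  nlinarith [h1, h2, h3]

/-- Existence of a global minimiser of `J`. -/
lemma sdJ_exists_min (ν : Measure E) [IsFiniteMeasure ν] (R : ℝ) (hR : ∀ᵐ x ∂ν, ‖x‖ ≤ R)
    (y : ι → E) (m : ι → ℝ) (hm : ∀ i, 0 < m i) (hsum : ∑ i, m i = ν.real univ) :
    ∃ ψ₀ : ι → ℝ, ∀ ψ, sdJ ν y m ψ₀ ≤ sdJ ν y m ψ := by
  classical
  obtain ⟨Y, hY⟩ : ∃ Y : ℝ, ∀ i, ‖y i‖ ≤ Y := by
    obtain ⟨i0, hi0⟩ := Finite.exists_max (fun i => ‖y i‖)
    exact ⟨‖y i0‖, hi0⟩
  have hY0 : 0 ≤ Y := le_trans (norm_nonneg _) (hY (Classical.arbitrary ι))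
  obtain ⟨i1, hi1⟩ := Finite.exists_min m
  have hm1 : 0 < m i1 := hm i1
  set M := ν.real univ with hM
  have hM0 : 0 ≤ M := measureReal_nonneg
  set i0 : ι := Classical.arbitrary ι
  set B : ℝ := (2 * (|R| * Y * M) + 1) / m i1 with hB
  have hB0 : 0 ≤ B := by
    have : 0 ≤ |R| * Y * M := by positivity
    rw [hB]; positivity
  set S : Set (ι → ℝ) := {ψ | ψ i0 = 0} ∩ Metric.closedBall 0 B with hS
  have hScomp : IsCompact S := by
    refine (isCompact_closedBall (0 : ι → ℝ) B).inter_left ?_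
    exact isClosed_eq (continuous_apply i0) continuous_const
  have h0S : (0 : ι → ℝ) ∈ S := ⟨rfl, Metric.mem_closedBall_self hB0⟩
  obtain ⟨ψ₀, hψ₀S, hψ₀⟩ := hScomp.exists_isMinOn ⟨0, h0S⟩
    (sdJ_continuous ν R hR y m).continuousOn
  refine ⟨ψ₀, fun ψ => ?_⟩
  -- normalise `ψ`
  set ψ' : ι → ℝ := fun i => ψ i + (-ψ i0) with hψ'
  have hJ : sdJ ν y m ψ' = sdJ ν y m ψ := sdJ_shift ν R hR y m hsum ψ (-ψ i0)
  rw [← hJ]
  by_cases hn : ‖ψ'‖ ≤ B
  · have : ψ' ∈ S := ⟨by simp [hψ'], by simpa [Metric.mem_closedBall, dist_zero_right] using hn⟩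
    exact hψ₀ this
  · -- large oscillation
    rw [pi_norm_le_iff_of_nonneg hB0] at hn
    push Not at hn
    obtain ⟨b, hb⟩ := hn
    obtain ⟨a, ha⟩ := Finite.exists_min ψ'
    have hzero : ψ' i0 = 0 := by simp [hψ']
    have ha0 : ψ' a ≤ 0 := hzero ▸ ha i0
    -- there is an index with large gap above the minimum
    obtain ⟨b', hb'⟩ : ∃ b', B < ψ' b' - ψ' a := by
      rw [Real.norm_eq_abs] at hb
      rcases lt_abs.mp hb with h | h
      · exact ⟨b, by linarith⟩
      · exact ⟨i0, by have := ha b; linarith⟩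
    have h1 := sdJ_ge ν R hR y Y hY m hm hsum ψ' a b' ha
    have h2 : sdJ ν y m ψ₀ ≤ sdJ ν y m 0 := hψ₀ h0S
    have h3 : sdJ ν y m 0 ≤ |R| * Y * M := by
      unfold sdJ
      have : ∫ x, sdPot y (0 : ι → ℝ) x ∂ν ≤ ∫ x, (|R| * Y) ∂ν := by
        apply integral_mono_ae (sdPot_integrable ν R hR y 0) (integrable_const _)
        filter_upwards [hR] with x hx
        have h := sdPot_abs_le y (0 : ι → ℝ) x Y hY
        have h'' : ‖x‖ * Y ≤ |R| * Y :=
          mul_le_mul_of_nonneg_right (hx.trans (le_abs_self R)) hY0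
        rw [norm_zero, add_zero] at h
        exact (le_abs_self _).trans (h.trans h'')
      rw [integral_const, smul_eq_mul] at this
      simp only [Pi.zero_apply, mul_zero, Finset.sum_const_zero, add_zero]
      linarith [mul_comm M (|R| * Y)]
    have h4 : m i1 * B ≤ m b' * (ψ' b' - ψ' a) := by
      have : m i1 ≤ m b' := hi1 b'
      have hBpos : 0 ≤ ψ' b' - ψ' a := hB0.trans hb'.le
      calc m i1 * B ≤ m i1 * (ψ' b' - ψ' a) := mul_le_mul_of_nonneg_left hb'.le hm1.le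
        _ ≤ m b' * (ψ' b' - ψ' a) := mul_le_mul_of_nonneg_right this hBpos
    have h5 : m i1 * B = 2 * (|R| * Y * M) + 1 := by
      rw [hB]; field_simp
    linarith

/-- One-sided test at a minimiser. -/
lemma sdJ_min_cell_le (ν : Measure E) [IsFiniteMeasure ν] (R : ℝ) (hR : ∀ᵐ x ∂ν, ‖x‖ ≤ R)
    (y : ι → E) (m : ι → ℝ) (ψ₀ : ι → ℝ) (hmin : ∀ ψ, sdJ ν y m ψ₀ ≤ sdJ ν y m ψ) (i : ι) :
    ν.real (sdCell y ψ₀ i) ≤ m i := by
  classical
  -- perturbed potentials
  set P : ℝ → ι → ℝ := fun h k => ψ₀ k + (if k = i then h else 0) with hP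
  have haffi : ∀ h x, sdAff y (P h) i x = sdAff y ψ₀ i x - h := by
    intro h x; simp only [sdAff, hP, if_true]; ring
  have haffk : ∀ h k x, k ≠ i → sdAff y (P h) k x = sdAff y ψ₀ k x := by
    intro h k x hk; simp only [sdAff, hP, if_neg hk, add_zero]
  -- step 1: the perturbed cell has mass `≤ m i`
  have step1 : ∀ h : ℝ, 0 < h → ν.real (sdCell y (P h) i) ≤ m i := by
    intro h hh
    have hmeas : MeasurableSet (sdCell y (P h) i) := (sdCell_isOpen y (P h) i).measurableSet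
    have hpt : ∀ x, sdPot y (P h) x ≤
        sdPot y ψ₀ x - (sdCell y (P h) i).indicator (fun _ => h) x := by
      intro x
      by_cases hx : x ∈ sdCell y (P h) i
      · rw [indicator_of_mem hx, sdPot_eq_of_mem_sdCell y (P h) i x hx, haffi]
        have := sdAff_le_sdPot y ψ₀ i x
        linarith
      · rw [indicator_of_notMem hx, sub_zero]
        apply sdPot_le
        intro k
        by_cases hk : k = i
        · subst hk
          rw [haffi]
          have := sdAff_le_sdPot y ψ₀ k x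
          linarith
        · rw [haffk h k x hk]
          exact sdAff_le_sdPot y ψ₀ k x
    have hint : ∫ x, sdPot y (P h) x ∂ν ≤ ∫ x, sdPot y ψ₀ x ∂ν - ν.real (sdCell y (P h) i) * h := by
      have hI : Integrable (fun x => (sdCell y (P h) i).indicator (fun _ => h) x) ν :=
        (integrable_const h).indicator hmeas
      have h2 : ∫ x, (sdPot y ψ₀ x - (sdCell y (P h) i).indicator (fun _ => h) x) ∂ν
          = ∫ x, sdPot y ψ₀ x ∂ν - ν.real (sdCell y (P h) i) * h := by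
        rw [integral_sub (sdPot_integrable ν R hR y ψ₀) hI, integral_indicator_const h hmeas,
          smul_eq_mul]
      rw [← h2]
      exact integral_mono (sdPot_integrable ν R hR y (P h))
        ((sdPot_integrable ν R hR y ψ₀).sub hI) hpt
    have hsumP : ∑ k, m k * P h k = ∑ k, m k * ψ₀ k + m i * h := by
      simp only [hP, mul_add, Finset.sum_add_distrib, mul_ite, mul_zero,
        Finset.sum_ite_eq', Finset.mem_univ, if_true]
    have hJ := hmin (P h)
    unfold sdJ at hJ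
    rw [hsumP] at hJ
    have : ν.real (sdCell y (P h) i) * h ≤ m i * h := by linarith
    exact le_of_mul_le_mul_right this hh
  -- step 2: the cell is the increasing union of the perturbed cells
  set U : ℕ → Set E := fun n => sdCell y (P (1 / ((n : ℝ) + 1))) i with hU
  have hUmono : Monotone U := by
    intro n n' hnn' x hx k hk
    have h := hx k hk
    rw [haffi, haffk _ k x hk] at h ⊢
    have : 1 / ((n' : ℝ) + 1) ≤ 1 / ((n : ℝ) + 1) := by
      apply one_div_le_one_div_of_le (by positivity)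
      have : (n : ℝ) ≤ n' := Nat.cast_le.mpr hnn'
      linarith
    linarith
  have hUnion : sdCell y ψ₀ i = ⋃ n, U n := by
    ext x
    simp only [mem_iUnion]
    constructor
    · intro hx
      have hex : ∀ k, ∃ n : ℕ, k ≠ i → 1 / ((n : ℝ) + 1) < sdAff y ψ₀ i x - sdAff y ψ₀ k x := by
        intro k
        by_cases hk : k = i
        · exact ⟨0, fun h => absurd hk h⟩
        · obtain ⟨n, hn⟩ := exists_nat_one_div_lt (sub_pos.mpr (hx k hk))
          exact ⟨n, fun _ => hn⟩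
      choose N hN using hex
      refine ⟨Finset.univ.sup N, fun k hk => ?_⟩
      rw [haffi, haffk _ k x hk]
      have h1 : N k ≤ Finset.univ.sup N := Finset.le_sup (Finset.mem_univ k)
      have h2 : 1 / (((Finset.univ.sup N : ℕ) : ℝ) + 1) ≤ 1 / ((N k : ℝ) + 1) := by
        apply one_div_le_one_div_of_le (by positivity)
        have : (N k : ℝ) ≤ (Finset.univ.sup N : ℕ) := Nat.cast_le.mpr h1
        linarith
      have := hN k hk
      linarith
    · rintro ⟨n, hx⟩ k hk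
      have h := hx k hk
      rw [haffi, haffk _ k x hk] at h
      have : (0 : ℝ) < 1 / ((n : ℝ) + 1) := by positivity
      linarith
  have hle : ν (sdCell y ψ₀ i) ≤ ENNReal.ofReal (m i) := by
    rw [hUnion, hUmono.measure_iUnion]
    refine iSup_le fun n => ?_
    have h1 := step1 (1 / ((n : ℝ) + 1)) (by positivity)
    rw [← ENNReal.ofReal_toReal (measure_ne_top ν (U n))]
    exact ENNReal.ofReal_le_ofReal h1
  have hm0 : 0 ≤ m i := by
    have h1 := step1 1 one_pos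
    exact measureReal_nonneg.trans h1
  rw [measureReal_def]
  exact ENNReal.toReal_le_of_le_ofReal hm0 hle

/-- **Semi-discrete existence.**  For a finite measure `ν` carried by a ball and giving no mass
to hyperplanes, injective sites `y` and positive weights `m` with total mass `ν univ`, some
potential `ψ` has all its strict Laguerre cells of the prescribed masses. -/
theorem sd_exists (ν : Measure E) [IsFiniteMeasure ν] (hν : SdNoPlane ν) (R : ℝ)
    (hR : ∀ᵐ x ∂ν, ‖x‖ ≤ R) (y : ι → E) (hy : Function.Injective y) (m : ι → ℝ)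
    (hm : ∀ i, 0 < m i) (hsum : ∑ i, m i = ν.real univ) :
    ∃ ψ : ι → ℝ, (∀ i, ν (sdCell y ψ i) = ENNReal.ofReal (m i)) ∧
      ∀ ψ', sdJ ν y m ψ ≤ sdJ ν y m ψ' := by
  classical
  obtain ⟨ψ, hψ⟩ := sdJ_exists_min ν R hR y m hm hsum
  refine ⟨ψ, ?_, hψ⟩
  have hle : ∀ i, ν.real (sdCell y ψ i) ≤ m i := fun i => sdJ_min_cell_le ν R hR y m ψ hψ i
  -- the cells cover up to a null set
  have hnull : ν (⋃ i, sdCell y ψ i)ᶜ = 0 := by
    refine measure_mono_null (sdCell_compl_subset y ψ) ?_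
    refine (measure_iUnion_null_iff).mpr fun i => (measure_iUnion_null_iff).mpr fun k =>
      (measure_iUnion_null_iff).mpr fun hik => ?_
    exact hν (y i - y k) (sub_ne_zero.mpr (hy.ne hik)) (ψ i - ψ k)
  have hcover : ν (⋃ i, sdCell y ψ i) = ν univ := by
    apply le_antisymm (measure_mono (subset_univ _))
    calc ν univ = ν ((⋃ i, sdCell y ψ i) ∪ (⋃ i, sdCell y ψ i)ᶜ) := by rw [union_compl_self]
      _ ≤ ν (⋃ i, sdCell y ψ i) + ν (⋃ i, sdCell y ψ i)ᶜ := measure_union_le _ _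
      _ = ν (⋃ i, sdCell y ψ i) := by rw [hnull, add_zero]
  have hsumcells : ∑ i, ν.real (sdCell y ψ i) = ν.real univ := by
    have h1 : ν (⋃ i, sdCell y ψ i) = ∑ i, ν (sdCell y ψ i) := by
      rw [measure_iUnion (sdCell_disjoint y ψ) (fun i => (sdCell_isOpen y ψ i).measurableSet),
        tsum_fintype]
    simp only [measureReal_def]
    rw [← ENNReal.toReal_sum (fun i _ => measure_ne_top ν _), ← h1, hcover]
  have heq : ∀ i, ν.real (sdCell y ψ i) = m i := by
    have := (Finset.sum_eq_sum_iff_of_le (s := Finset.univ) (fun i _ => hle i)).mp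
      (hsumcells.trans hsum.symm)
    exact fun i => this i (Finset.mem_univ i)
  intro i
  rw [← heq i, measureReal_def, ENNReal.ofReal_toReal (measure_ne_top ν _)]

end exist

section dual

variable {E : Type*} [NormedAddCommGroup E] [InnerProductSpace ℝ E] [MeasurableSpace E]
  [BorelSpace E] {ι : Type*} [Fintype ι] [Nonempty ι]

omit [Nonempty ι] in
lemma sdCell_measurableSet (y : ι → E) (ψ : ι → ℝ) (i : ι) : MeasurableSet (sdCell y ψ i) :=
  (sdCell_isOpen y ψ i).measurableSet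

omit [BorelSpace E] in
/-- The cells cover the space up to a null set. -/
lemma sdCell_null_compl (ν : Measure E) (hν : SdNoPlane ν) (y : ι → E)
    (hy : Function.Injective y) (ψ : ι → ℝ) : ν (⋃ i, sdCell y ψ i)ᶜ = 0 := by
  refine measure_mono_null (sdCell_compl_subset y ψ) ?_
  refine (measure_iUnion_null_iff).mpr fun i => (measure_iUnion_null_iff).mpr fun k =>
    (measure_iUnion_null_iff).mpr fun hik => ?_
  exact hν (y i - y k) (sub_ne_zero.mpr (hy.ne hik)) (ψ i - ψ k)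

omit [BorelSpace E] in
/-- Almost every point lies in some cell. -/
lemma sdCell_ae_mem (ν : Measure E) (hν : SdNoPlane ν) (y : ι → E)
    (hy : Function.Injective y) (ψ : ι → ℝ) : ∀ᵐ x ∂ν, ∃ i, x ∈ sdCell y ψ i := by
  have := sdCell_null_compl ν hν y hy ψ
  rw [← mem_ae_iff] at this
  filter_upwards [this] with x hx
  simpa using hx

omit [Fintype ι] [Nonempty ι] in
lemma sdAff_integrable (ν : Measure E) [IsFiniteMeasure ν] (R : ℝ) (hR : ∀ᵐ x ∂ν, ‖x‖ ≤ R)
    (y : ι → E) (ψ : ι → ℝ) (i : ι) : Integrable (sdAff y ψ i) ν := by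
  refine Integrable.of_bound (sdAff_continuous y ψ i).aestronglyMeasurable
    (|R| * ‖y i‖ + |ψ i|) ?_
  filter_upwards [hR] with x hx
  rw [Real.norm_eq_abs]
  have h1 : |inner ℝ x (y i)| ≤ ‖x‖ * ‖y i‖ := abs_real_inner_le_norm x (y i)
  have h2 : ‖x‖ * ‖y i‖ ≤ |R| * ‖y i‖ :=
    mul_le_mul_of_nonneg_right (hx.trans (le_abs_self R)) (norm_nonneg _)
  unfold sdAff
  calc |inner ℝ x (y i) - ψ i| ≤ |inner ℝ x (y i)| + |ψ i| := abs_sub _ _
    _ ≤ |R| * ‖y i‖ + |ψ i| := by linarith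

lemma sd_inner_integrable (ν : Measure E) [IsFiniteMeasure ν] (R : ℝ) (hR : ∀ᵐ x ∂ν, ‖x‖ ≤ R)
    (v : E) : Integrable (fun x => inner ℝ x v) ν := by
  refine Integrable.of_bound (by fun_prop : Continuous fun x : E => inner ℝ x v).aestronglyMeasurable
    (|R| * ‖v‖) ?_
  filter_upwards [hR] with x hx
  rw [Real.norm_eq_abs]
  have h1 : |inner ℝ x v| ≤ ‖x‖ * ‖v‖ := abs_real_inner_le_norm x v
  have h2 : ‖x‖ * ‖v‖ ≤ |R| * ‖v‖ :=
    mul_le_mul_of_nonneg_right (hx.trans (le_abs_self R)) (norm_nonneg _)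
  linarith

/-- Integrals split along the cells. -/
lemma sd_integral_eq_sum (ν : Measure E) (hν : SdNoPlane ν) (y : ι → E)
    (hy : Function.Injective y) (ψ : ι → ℝ) (f : E → ℝ) (hf : Integrable f ν) :
    ∫ x, f x ∂ν = ∑ i, ∫ x in sdCell y ψ i, f x ∂ν := by
  rw [← integral_iUnion_fintype (fun i => sdCell_measurableSet y ψ i) (sdCell_disjoint y ψ)
    (fun i => hf.integrableOn)]
  have h : (⋃ i, sdCell y ψ i : Set E) =ᵐ[ν] univ := ae_eq_univ.mpr (sdCell_null_compl ν hν y hy ψ)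
  rw [setIntegral_congr_set h, setIntegral_univ]

/-- Decomposition of `J ψ'` along the cells of a potential `ψ` with cell masses `m`. -/
lemma sdJ_decomp (ν : Measure E) [IsFiniteMeasure ν] (hν : SdNoPlane ν) (R : ℝ)
    (hR : ∀ᵐ x ∂ν, ‖x‖ ≤ R) (y : ι → E) (hy : Function.Injective y) (m : ι → ℝ) (ψ : ι → ℝ)
    (hcell : ∀ i, ν.real (sdCell y ψ i) = m i) (ψ' : ι → ℝ) :
    sdJ ν y m ψ' = ∑ i, ∫ x in sdCell y ψ i, (sdPot y ψ' x - sdAff y ψ' i x) ∂ν
      + ∑ i, ∫ x in sdCell y ψ i, inner ℝ x (y i) ∂ν := by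
  unfold sdJ
  rw [sd_integral_eq_sum ν hν y hy ψ _ (sdPot_integrable ν R hR y ψ'), ← Finset.sum_add_distrib,
    ← Finset.sum_add_distrib]
  refine Finset.sum_congr rfl (fun i _ => ?_)
  have hP : IntegrableOn (sdPot y ψ') (sdCell y ψ i) ν := (sdPot_integrable ν R hR y ψ').integrableOn
  have hA : IntegrableOn (sdAff y ψ' i) (sdCell y ψ i) ν := (sdAff_integrable ν R hR y ψ' i).integrableOn
  have hI : IntegrableOn (fun x => inner ℝ x (y i)) (sdCell y ψ i) ν :=
    (sd_inner_integrable ν R hR (y i)).integrableOn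
  rw [integral_sub hP hA]
  have h2 : ∫ x in sdCell y ψ i, sdAff y ψ' i x ∂ν
      = ∫ x in sdCell y ψ i, inner ℝ x (y i) ∂ν - m i * ψ' i := by
    unfold sdAff
    rw [integral_sub hI (integrable_const _), integral_const, smul_eq_mul,
      measureReal_restrict_apply_univ, hcell i]
  rw [h2]
  ring

/-- Value of `J` at a potential with cell masses `m`. -/
lemma sdJ_eq_of_cells (ν : Measure E) [IsFiniteMeasure ν] (hν : SdNoPlane ν) (R : ℝ)
    (hR : ∀ᵐ x ∂ν, ‖x‖ ≤ R) (y : ι → E) (hy : Function.Injective y) (m : ι → ℝ) (ψ : ι → ℝ)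
    (hcell : ∀ i, ν.real (sdCell y ψ i) = m i) :
    sdJ ν y m ψ = ∑ i, ∫ x in sdCell y ψ i, inner ℝ x (y i) ∂ν := by
  rw [sdJ_decomp ν hν R hR y hy m ψ hcell ψ]
  have : ∑ i, ∫ x in sdCell y ψ i, (sdPot y ψ x - sdAff y ψ i x) ∂ν = 0 := by
    refine Finset.sum_eq_zero (fun i _ => ?_)
    have : ∀ x ∈ sdCell y ψ i, sdPot y ψ x - sdAff y ψ i x = 0 := fun x hx => by
      rw [sdPot_eq_of_mem_sdCell y ψ i x hx, sub_self]
    rw [setIntegral_congr_fun (sdCell_measurableSet y ψ i) this, integral_zero]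
  rw [this, zero_add]

/-- Weak duality: a potential with cell masses `m` minimises `J`. -/
lemma sdJ_le_of_cells (ν : Measure E) [IsFiniteMeasure ν] (hν : SdNoPlane ν) (R : ℝ)
    (hR : ∀ᵐ x ∂ν, ‖x‖ ≤ R) (y : ι → E) (hy : Function.Injective y) (m : ι → ℝ) (ψ : ι → ℝ)
    (hcell : ∀ i, ν.real (sdCell y ψ i) = m i) (ψ' : ι → ℝ) :
    sdJ ν y m ψ ≤ sdJ ν y m ψ' := by
  rw [sdJ_eq_of_cells ν hν R hR y hy m ψ hcell, sdJ_decomp ν hν R hR y hy m ψ hcell ψ']
  have : 0 ≤ ∑ i, ∫ x in sdCell y ψ i, (sdPot y ψ' x - sdAff y ψ' i x) ∂ν :=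
    Finset.sum_nonneg (fun i _ => setIntegral_nonneg (sdCell_measurableSet y ψ i)
      (fun x _ => sub_nonneg.mpr (sdAff_le_sdPot y ψ' i x)))
  linarith

/-- Equality case of weak duality. -/
lemma sdJ_eq_ae (ν : Measure E) [IsFiniteMeasure ν] (hν : SdNoPlane ν) (R : ℝ)
    (hR : ∀ᵐ x ∂ν, ‖x‖ ≤ R) (y : ι → E) (hy : Function.Injective y) (m : ι → ℝ) (ψ : ι → ℝ)
    (hcell : ∀ i, ν.real (sdCell y ψ i) = m i) (ψ' : ι → ℝ)
    (heq : sdJ ν y m ψ' = sdJ ν y m ψ) (i : ι) :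
    ∀ᵐ x ∂ν, x ∈ sdCell y ψ i → sdPot y ψ' x = sdAff y ψ' i x := by
  rw [sdJ_eq_of_cells ν hν R hR y hy m ψ hcell, sdJ_decomp ν hν R hR y hy m ψ hcell ψ'] at heq
  have h0 : ∑ i, ∫ x in sdCell y ψ i, (sdPot y ψ' x - sdAff y ψ' i x) ∂ν = 0 := by linarith
  have hnn : ∀ i ∈ Finset.univ, 0 ≤ ∫ x in sdCell y ψ i, (sdPot y ψ' x - sdAff y ψ' i x) ∂ν :=
    fun i _ => setIntegral_nonneg (sdCell_measurableSet y ψ i)
      (fun x _ => sub_nonneg.mpr (sdAff_le_sdPot y ψ' i x))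
  have hi := (Finset.sum_eq_zero_iff_of_nonneg hnn).mp h0 i (Finset.mem_univ i)
  have hint : IntegrableOn (fun x => sdPot y ψ' x - sdAff y ψ' i x) (sdCell y ψ i) ν :=
    ((sdPot_integrable ν R hR y ψ').sub (sdAff_integrable ν R hR y ψ' i)).integrableOn
  have hae := (setIntegral_eq_zero_iff_of_nonneg_ae
    (Eventually.of_forall (fun x => sub_nonneg.mpr (sdAff_le_sdPot y ψ' i x))) hint).mp hi
  rw [Filter.EventuallyEq, ae_restrict_iff' (sdCell_measurableSet y ψ i)] at hae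
  filter_upwards [hae] with x hx hxi
  have := hx hxi
  simp only [Pi.zero_apply] at this
  linarith

/-- Positivity of a measure on the nonempty open subsets of `Ω`. -/
def SdPosOn (ν : Measure E) (Ω : Set E) : Prop :=
  ∀ U : Set E, IsOpen U → U ⊆ Ω → U.Nonempty → 0 < ν U

/-- **Uniqueness modulo constants** of the potential with prescribed cell masses, for a measure
carried by a connected open set on whose open subsets it is positive. -/
theorem sd_unique (ν : Measure E) [IsFiniteMeasure ν] (hν : SdNoPlane ν) (R : ℝ)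
    (hR : ∀ᵐ x ∂ν, ‖x‖ ≤ R) (Ω : Set E) (hΩo : IsOpen Ω) (hΩc : IsPreconnected Ω)
    (hΩ : ν Ωᶜ = 0) (hpos : SdPosOn ν Ω) (y : ι → E) (hy : Function.Injective y) (m : ι → ℝ)
    (hm : ∀ i, 0 < m i) (ψ ψ' : ι → ℝ) (h : ∀ i, ν.real (sdCell y ψ i) = m i)
    (h' : ∀ i, ν.real (sdCell y ψ' i) = m i) : ∃ c : ℝ, ∀ i, ψ' i = ψ i + c := by
  classical
  -- both potentials are minimisers
  have heq : sdJ ν y m ψ' = sdJ ν y m ψ :=
    le_antisymm (sdJ_le_of_cells ν hν R hR y hy m ψ' h' ψ) (sdJ_le_of_cells ν hν R hR y hy m ψ h ψ')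
  -- on `Ω ∩ closure (cell i of ψ)`, `i` is an argmax for `ψ'` as well
  have hA : ∀ i, ∀ x ∈ Ω ∩ closure (sdCell y ψ i), ∀ k, sdAff y ψ' k x ≤ sdAff y ψ' i x := by
    intro i
    have hcl : IsClosed {x | ∀ k, sdAff y ψ' k x ≤ sdAff y ψ' i x} := by
      have : {x | ∀ k, sdAff y ψ' k x ≤ sdAff y ψ' i x}
          = ⋂ k, {x | sdAff y ψ' k x ≤ sdAff y ψ' i x} := by ext x; simp
      rw [this]
      exact isClosed_iInter fun k => isClosed_le (sdAff_continuous y ψ' k) (sdAff_continuous y ψ' i)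
    have hsub : Ω ∩ sdCell y ψ i ⊆ {x | ∀ k, sdAff y ψ' k x ≤ sdAff y ψ' i x} := by
      by_contra hne
      rw [not_subset] at hne
      obtain ⟨x0, hx0, hx0'⟩ := hne
      set U : Set E := (Ω ∩ sdCell y ψ i) ∩ {x | ∀ k, sdAff y ψ' k x ≤ sdAff y ψ' i x}ᶜ with hU
      have hUo : IsOpen U := (hΩo.inter (sdCell_isOpen y ψ i)).inter hcl.isOpen_compl
      have hUpos : 0 < ν U := hpos U hUo (fun x hx => hx.1.1) ⟨x0, hx0, hx0'⟩
      have hUnull : ν U = 0 := by
        have hae := sdJ_eq_ae ν hν R hR y hy m ψ h ψ' heq i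
        rw [← nonpos_iff_eq_zero]
        refine (measure_mono ?_).trans_eq (ae_iff.mp hae)
        intro x hx
        simp only [mem_setOf_eq, Classical.not_imp]
        refine ⟨hx.1.2, fun hcon => hx.2 ?_⟩
        intro k
        rw [← hcon]
        exact sdAff_le_sdPot y ψ' k x
      exact absurd hUnull hUpos.ne'
    intro x hx k
    have : x ∈ closure (Ω ∩ sdCell y ψ i) := hΩo.inter_closure hx
    exact closure_minimal hsub hcl this k
  -- cells whose closures meet inside `Ω` have the same shift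
  have hadj : ∀ i k, ∀ x ∈ Ω, x ∈ closure (sdCell y ψ i) → x ∈ closure (sdCell y ψ k) →
      ψ' i - ψ i = ψ' k - ψ k := by
    intro i k x hxΩ hxi hxk
    have e1 := sdCell_closure_le y ψ i x hxi k
    have e2 := sdCell_closure_le y ψ k x hxk i
    have e3 := hA i x ⟨hxΩ, hxi⟩ k
    have e4 := hA k x ⟨hxΩ, hxk⟩ i
    simp only [sdAff] at e1 e2 e3 e4
    linarith
  -- the closures of the cells cover `Ω`
  have hcover : Ω ⊆ ⋃ i, closure (sdCell y ψ i) := by
    rw [← closure_iUnion_of_finite]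
    intro x hxΩ
    by_contra hx
    set U : Set E := Ω ∩ (closure (⋃ i, sdCell y ψ i))ᶜ with hU
    have hUo : IsOpen U := hΩo.inter isClosed_closure.isOpen_compl
    have hUpos : 0 < ν U := hpos U hUo inter_subset_left ⟨x, hxΩ, hx⟩
    have hUnull : ν U = 0 := by
      refine measure_mono_null ?_ (sdCell_null_compl ν hν y hy ψ)
      intro z hz
      exact fun hz' => hz.2 (subset_closure hz')
    exact absurd hUnull hUpos.ne'
  -- every cell meets `Ω`
  have hmeet : ∀ i, (Ω ∩ sdCell y ψ i).Nonempty := by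
    intro i
    by_contra hne
    rw [not_nonempty_iff_eq_empty] at hne
    have : ν (sdCell y ψ i) = 0 := by
      refine measure_mono_null ?_ hΩ
      intro x hx hxΩ
      have : x ∈ Ω ∩ sdCell y ψ i := ⟨hxΩ, hx⟩
      rw [hne] at this
      exact this
    have h0 := h i
    rw [measureReal_def, this, ENNReal.toReal_zero] at h0
    exact absurd h0.symm (hm i).ne'
  -- connectedness
  set i0 : ι := Classical.arbitrary ι
  refine ⟨ψ' i0 - ψ i0, fun i => ?_⟩
  by_contra hi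
  set I : Set ι := {k | ψ' k - ψ k = ψ' i0 - ψ i0} with hI
  set t : Set E := ⋃ k ∈ I, closure (sdCell y ψ k) with ht
  set t' : Set E := ⋃ k ∈ Iᶜ, closure (sdCell y ψ k) with ht'
  have htc : IsClosed t := (Set.toFinite I).isClosed_biUnion fun k _ => isClosed_closure
  have htc' : IsClosed t' := (Set.toFinite Iᶜ).isClosed_biUnion fun k _ => isClosed_closure
  have hsub : Ω ⊆ t ∪ t' := by
    intro x hx
    obtain ⟨k, hk⟩ := mem_iUnion.mp (hcover hx)
    by_cases hkI : k ∈ I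
    · exact Or.inl (mem_biUnion hkI hk)
    · exact Or.inr (mem_biUnion (show k ∈ Iᶜ from hkI) hk)
  have hne1 : (Ω ∩ t).Nonempty := by
    obtain ⟨x, hxΩ, hx⟩ := hmeet i0
    exact ⟨x, hxΩ, mem_biUnion (show i0 ∈ I from rfl) (subset_closure hx)⟩
  have hne2 : (Ω ∩ t').Nonempty := by
    obtain ⟨x, hxΩ, hx⟩ := hmeet i
    have hiI : i ∈ Iᶜ := by
      intro hiI
      apply hi
      have : ψ' i - ψ i = ψ' i0 - ψ i0 := hiI
      linarith
    exact ⟨x, hxΩ, mem_biUnion hiI (subset_closure hx)⟩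
  obtain ⟨x, hxΩ, hxt, hxt'⟩ := isPreconnected_closed_iff.mp hΩc t t' htc htc' hsub hne1 hne2
  simp only [ht, ht', mem_iUnion, exists_prop] at hxt hxt'
  obtain ⟨k, hkI, hk⟩ := hxt
  obtain ⟨k', hkI', hk'⟩ := hxt'
  have := hadj k k' x hxΩ hk hk'
  apply hkI'
  show ψ' k' - ψ k' = ψ' i0 - ψ i0
  rw [← this]
  exact hkI

end dual

section more

variable {E : Type*} [NormedAddCommGroup E] [InnerProductSpace ℝ E] [MeasurableSpace E]
  [BorelSpace E] {ι : Type*}

omit [MeasurableSpace E] [BorelSpace E] in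
/-- Subgradient inequality: if `i` is an argmax at `x`, then `y i` is a subgradient at `x`. -/
lemma sdPot_subgradient [Fintype ι] [Nonempty ι] (y : ι → E) (ψ : ι → ℝ) (i : ι) (x x' : E)
    (hx : sdPot y ψ x = sdAff y ψ i x) :
    sdPot y ψ x + inner ℝ (x' - x) (y i) ≤ sdPot y ψ x' := by
  have h := sdAff_le_sdPot y ψ i x'
  rw [hx]
  simp only [sdAff, inner_sub_left] at h ⊢
  linarith

omit [BorelSpace E] in
/-- A cell of positive mass forces an oscillation bound on the potential. -/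
lemma sdCell_osc_le (ν : Measure E) (R : ℝ) (hR : ∀ᵐ x ∂ν, ‖x‖ ≤ R) (y : ι → E) (ψ : ι → ℝ)
    (i k : ι) (hi : ν (sdCell y ψ i) ≠ 0) : ψ i - ψ k ≤ R * ‖y i - y k‖ := by
  obtain ⟨x, hx, hxR⟩ : ∃ x ∈ sdCell y ψ i, ‖x‖ ≤ R := by
    by_contra hcon
    push Not at hcon
    apply hi
    refine measure_mono_null (fun x hx => ?_) (ae_iff.mp hR)
    exact not_le.mpr (hcon x hx)
  by_cases hk : k = i
  · subst hk
    simp
  · have h := hx k hk
    have h1 : inner ℝ x (y i - y k) ≤ ‖x‖ * ‖y i - y k‖ := real_inner_le_norm x (y i - y k)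
    have h2 : ‖x‖ * ‖y i - y k‖ ≤ R * ‖y i - y k‖ :=
      mul_le_mul_of_nonneg_right hxR (norm_nonneg _)
    simp only [sdAff] at h
    rw [inner_sub_right] at h1
    linarith

/-- Continuity of the cell masses in the potential. -/
theorem sd_tendsto_mass [Fintype ι] [Nonempty ι] {α : Type*} (l : Filter α)
    [l.IsCountablyGenerated] (ν : Measure E) [IsFiniteMeasure ν] (hν : SdNoPlane ν) (y : ι → E)
    (hy : Function.Injective y) (Ψ : α → ι → ℝ) (ψ : ι → ℝ) (hΨ : Tendsto Ψ l (𝓝 ψ)) (i : ι) :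
    Tendsto (fun a => ν (sdCell y (Ψ a) i)) l (𝓝 (ν (sdCell y ψ i))) := by
  apply tendsto_measure_of_ae_tendsto_indicator_of_isFiniteMeasure l
    (sdCell_measurableSet y ψ i) (fun a => sdCell_measurableSet y (Ψ a) i)
  filter_upwards [sdCell_ae_mem ν hν y hy ψ] with x hx
  obtain ⟨j, hj⟩ := hx
  have hlim : ∀ k, Tendsto (fun a => sdAff y (Ψ a) k x) l (𝓝 (sdAff y ψ k x)) := by
    intro k
    unfold sdAff
    exact tendsto_const_nhds.sub ((tendsto_pi_nhds.mp hΨ) k)
  have hev : ∀ᶠ a in l, x ∈ sdCell y (Ψ a) j := by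
    have : ∀ k, ∀ᶠ a in l, k ≠ j → sdAff y (Ψ a) k x < sdAff y (Ψ a) j x := by
      intro k
      by_cases hk : k = j
      · exact Eventually.of_forall (fun a h => absurd hk h)
      · have := (hlim k).eventually_lt (hlim j) (hj k hk)
        exact this.mono (fun a ha _ => ha)
    exact (eventually_all.mpr this)
  by_cases hji : j = i
  · subst hji
    exact hev.mono (fun a ha => ⟨fun _ => hj, fun _ => ha⟩)
  · have hd := sdCell_disjoint y ψ hji
    have hxi : x ∉ sdCell y ψ i := fun h => (Set.disjoint_left.mp hd) hj h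
    refine hev.mono (fun a ha => ⟨fun h => ?_, fun h => absurd h hxi⟩)
    exact absurd h (fun h' => (Set.disjoint_left.mp (sdCell_disjoint y (Ψ a) hji)) ha h')

/-- Absolutely continuous measures (w.r.t. a Haar measure) give no mass to hyperplanes. -/
lemma sdNoPlane_of_ac [FiniteDimensional ℝ E] (μ : Measure E) [μ.IsAddHaarMeasure]
    (ν : Measure E) (h : ν ≪ μ) : SdNoPlane ν := by
  intro v hv c
  apply h
  set x₀ : E := (c / ‖v‖ ^ 2) • v with hx₀
  have hv2 : ‖v‖ ^ 2 ≠ 0 := pow_ne_zero 2 (norm_ne_zero_iff.mpr hv)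
  have hx₀c : inner ℝ x₀ v = c := by
    rw [hx₀, real_inner_smul_left, real_inner_self_eq_norm_sq]
    field_simp
  set S : Submodule ℝ E := (ℝ ∙ v)ᗮ with hS
  have hset : {x | inner ℝ x v = c} = (fun z => z + (-x₀)) ⁻¹' (S : Set E) := by
    ext x
    simp only [mem_setOf_eq, mem_preimage, SetLike.mem_coe, hS,
      Submodule.mem_orthogonal_singleton_iff_inner_left, inner_add_left, inner_neg_left, hx₀c]
    constructor
    · intro hx; linarith
    · intro hx; linarith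
  rw [hset, measure_preimage_add_right]
  apply Measure.addHaar_submodule μ S
  intro htop
  have : v ∈ S := htop ▸ Submodule.mem_top
  rw [hS, Submodule.mem_orthogonal_singleton_iff_inner_left, real_inner_self_eq_norm_sq] at this
  exact hv2 this

omit [BorelSpace E] in
lemma SdNoPlane.of_ac {μ ν : Measure E} (hμ : SdNoPlane μ) (h : ν ≪ μ) : SdNoPlane ν :=
  fun v hv c => h (hμ v hv c)

omit [BorelSpace E] in
lemma SdPosOn.of_ac {μ ν : Measure E} {Ω : Set E} (hμ : SdPosOn μ Ω) (h : μ ≪ ν) :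
    SdPosOn ν Ω := by
  intro U hU hUΩ hne
  rw [pos_iff_ne_zero]
  intro h0
  exact (hμ U hU hUΩ hne).ne' (h h0)

/-- The restriction of an open-positive measure to `K` is positive on open subsets of the
interior of `K`. -/
lemma sdPosOn_restrict (μ : Measure E) [μ.IsOpenPosMeasure] (K : Set E) :
    SdPosOn (μ.restrict K) (interior K) := by
  intro U hU hUK hne
  rw [Measure.restrict_apply hU.measurableSet,
    inter_eq_left.mpr (hUK.trans interior_subset)]
  exact hU.measure_pos μ hne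

/-- The restriction of a Haar measure to a convex set is carried by the interior. -/
lemma sd_restrict_compl_interior [FiniteDimensional ℝ E] (μ : Measure E) [μ.IsAddHaarMeasure]
    (K : Set E) (hK : Convex ℝ K) : (μ.restrict K) (interior K)ᶜ = 0 := by
  rw [Measure.restrict_apply isOpen_interior.measurableSet.compl]
  refine measure_mono_null ?_ (hK.addHaar_frontier μ)
  intro x hx
  exact ⟨subset_closure hx.2, hx.1⟩

end more

end Crest.Agent.S0109.SDA

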