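import Crest.Agent.S0109.Defs
import Crest.Agent.S0109.SDAbs

/-!
# Row 82 (S0109): bridge from the abstract semi-discrete module `SDAbs` to the skeleton

The skeleton states the semi-discrete facts for the measures `uniformProbOn K` and `rhoG K g` on
`EuclideanSpace ℝ (Fin d)`.  This file proves the needed measure facts directly (independently of
`Cells*`) and specialises `SDA.sd_exists`, `SDA.sd_unique`, `SDA.sd_tendsto_mass` to exactly the
skeleton's hypotheses and conclusions: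

* `SDA.sd_exists_rhoG`  (= statement of `sd_exists`), `SDA.sd_exists_rhoG_min` (with minimality)
* `SDA.sd_unique_rhoG`  (= statement of `sd_unique`)
* `SDA.sd_stab_rhoG`    (= statement of `sd_stab`)

Owner: helper37.
-/

set_option autoImplicit false
open MeasureTheory Filter Set
open scoped ENNReal NNReal Topology
open Crest.AnalysisR.OT

namespace Crest.Agent.S0109.SDA

variable {d : ℕ} {ι : Type} [Fintype ι]

/-! ### Dictionary between the skeleton's definitions and `SDAbs` -/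

theorem lagCellS_eq_sdCell (y : ι → EuclideanSpace ℝ (Fin d)) (ψ : ι → ℝ) (i : ι) :
    lagCellS y ψ i = sdCell y ψ i := rfl

theorem lagPot_eq_sdPot [Nonempty ι] (y : ι → EuclideanSpace ℝ (Fin d)) (ψ : ι → ℝ) :
    lagPot y ψ = sdPot y ψ := by
  funext x
  unfold lagPot sdPot sdAff
  exact (Finset.sup'_univ_eq_ciSup _).symm

theorem lagJ_eq_sdJ [Nonempty ι] (ρ' : Measure (EuclideanSpace ℝ (Fin d)))
    (y : ι → EuclideanSpace ℝ (Fin d)) (m : ι → ℝ) (ψ : ι → ℝ) :
    lagJ ρ' y m ψ = sdJ ρ' y m ψ := by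
  unfold lagJ sdJ
  rw [lagPot_eq_sdPot]

theorem isLagOpt_iff (ρ' : Measure (EuclideanSpace ℝ (Fin d)))
    (y : ι → EuclideanSpace ℝ (Fin d)) (m : ι → ℝ) (ψ : ι → ℝ) :
    IsLagOpt ρ' y m ψ ↔ ∀ i, ρ' (sdCell y ψ i) = ENNReal.ofReal (m i) := Iff.rfl

/-! ### Measure facts for `uniformProbOn K` and `rhoG K g` -/

theorem br_vol_ne_zero (K : Set (EuclideanSpace ℝ (Fin d))) (hKi : (interior K).Nonempty) :
    (volume : Measure (EuclideanSpace ℝ (Fin d))) K ≠ 0 :=
  ((isOpen_interior.measure_pos volume hKi).trans_le (measure_mono interior_subset)).ne'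

theorem br_unif_isProb (K : Set (EuclideanSpace ℝ (Fin d))) (hKc : IsCompact K)
    (hKi : (interior K).Nonempty) : IsProbabilityMeasure (uniformProbOn K) := by
  constructor
  unfold uniformProbOn
  rw [Measure.smul_apply, Measure.restrict_apply_univ, smul_eq_mul]
  exact ENNReal.inv_mul_cancel (br_vol_ne_zero K hKi) hKc.measure_lt_top.ne

theorem br_unif_ac_restrict (K : Set (EuclideanSpace ℝ (Fin d))) :
    uniformProbOn K ≪ (volume : Measure (EuclideanSpace ℝ (Fin d))).restrict K :=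
  Measure.smul_absolutelyContinuous

theorem br_restrict_ac_unif (K : Set (EuclideanSpace ℝ (Fin d))) (hKc : IsCompact K) :
    (volume : Measure (EuclideanSpace ℝ (Fin d))).restrict K ≪ uniformProbOn K :=
  Measure.absolutelyContinuous_smul (ENNReal.inv_ne_zero.2 hKc.measure_lt_top.ne)

theorem br_rhoG_ac (K : Set (EuclideanSpace ℝ (Fin d))) (g : EuclideanSpace ℝ (Fin d) → ℝ) :
    rhoG K g ≪ uniformProbOn K :=
  withDensity_absolutelyContinuous _ _

theorem br_rhoG_ac_restrict (K : Set (EuclideanSpace ℝ (Fin d)))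
    (g : EuclideanSpace ℝ (Fin d) → ℝ) :
    rhoG K g ≪ (volume : Measure (EuclideanSpace ℝ (Fin d))).restrict K :=
  (br_rhoG_ac K g).trans (br_unif_ac_restrict K)

theorem br_unif_ac_rhoG (K : Set (EuclideanSpace ℝ (Fin d))) (g : EuclideanSpace ℝ (Fin d) → ℝ)
    (hg : IsPert K g) : uniformProbOn K ≪ rhoG K g := by
  unfold rhoG
  refine withDensity_absolutelyContinuous' ?_ (Eventually.of_forall fun x => ?_)
  · exact (ENNReal.measurable_ofReal.comp (measurable_const.add hg.meas)).aemeasurable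
  · have h := abs_le.1 (hg.bdd x)
    have hpos : 0 < 1 + g x := by linarith [h.1]
    exact (ENNReal.ofReal_pos.2 hpos).ne'

theorem br_restrict_ac_rhoG (K : Set (EuclideanSpace ℝ (Fin d))) (hKc : IsCompact K)
    (g : EuclideanSpace ℝ (Fin d) → ℝ) (hg : IsPert K g) :
    (volume : Measure (EuclideanSpace ℝ (Fin d))).restrict K ≪ rhoG K g :=
  (br_restrict_ac_unif K hKc).trans (br_unif_ac_rhoG K g hg)

theorem br_rhoG_isProb (K : Set (EuclideanSpace ℝ (Fin d))) (hKc : IsCompact K)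
    (hKi : (interior K).Nonempty) (g : EuclideanSpace ℝ (Fin d) → ℝ) (hg : IsPert K g) :
    IsProbabilityMeasure (rhoG K g) := by
  haveI := br_unif_isProb K hKc hKi
  have hg_int : Integrable g (uniformProbOn K) :=
    Integrable.of_bound hg.meas.aestronglyMeasurable (1 / 2)
      (Eventually.of_forall fun x => by rw [Real.norm_eq_abs]; exact hg.bdd x)
  have hint : Integrable (fun x => 1 + g x) (uniformProbOn K) :=
    (integrable_const (1 : ℝ)).add hg_int
  constructor
  unfold rhoG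
  rw [withDensity_apply _ MeasurableSet.univ, Measure.restrict_univ,
    ← ofReal_integral_eq_lintegral_ofReal hint (Eventually.of_forall fun x => ?_),
    integral_add (integrable_const _) hg_int, hg.mean]
  · simp
  · have h := abs_le.1 (hg.bdd x)
    show 0 ≤ 1 + g x
    linarith [h.1]

theorem br_ae_norm_le (K : Set (EuclideanSpace ℝ (Fin d))) (hKc : IsCompact K) (R : ℝ)
    (hR : K ⊆ Metric.closedBall (0 : EuclideanSpace ℝ (Fin d)) R)
    (ν : Measure (EuclideanSpace ℝ (Fin d)))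
    (hν : ν ≪ (volume : Measure (EuclideanSpace ℝ (Fin d))).restrict K) :
    ∀ᵐ x ∂ν, ‖x‖ ≤ R := by
  have h1 : ∀ᵐ x ∂((volume : Measure (EuclideanSpace ℝ (Fin d))).restrict K), x ∈ K :=
    ae_restrict_mem hKc.measurableSet
  filter_upwards [hν.ae_le h1] with x hx
  simpa using hR hx

theorem br_noPlane (K : Set (EuclideanSpace ℝ (Fin d))) (ν : Measure (EuclideanSpace ℝ (Fin d)))
    (hν : ν ≪ (volume : Measure (EuclideanSpace ℝ (Fin d))).restrict K) : SdNoPlane ν :=
  sdNoPlane_of_ac volume ν (hν.trans Measure.restrict_le_self.absolutelyContinuous)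

/-! ### Existence -/

/-- Existence of an optimal potential which moreover minimises the Kantorovich functional. -/
theorem sd_exists_rhoG_min [Nonempty ι] (K : Set (EuclideanSpace ℝ (Fin d))) (hKc : IsCompact K)
    (hKi : (interior K).Nonempty) (g : EuclideanSpace ℝ (Fin d) → ℝ)
    (hg : IsPert K g) (y : ι → EuclideanSpace ℝ (Fin d)) (hy : Function.Injective y)
    (m : ι → ℝ) (hm : ∀ i, 0 < m i) (hsum : ∑ i, m i = 1) :
    ∃ ψ : ι → ℝ, IsLagOpt (rhoG K g) y m ψ ∧
      ∀ ψ', lagJ (rhoG K g) y m ψ ≤ lagJ (rhoG K g) y m ψ' := by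
  haveI := br_rhoG_isProb K hKc hKi g hg
  obtain ⟨R, hR⟩ := hKc.isBounded.subset_closedBall (0 : EuclideanSpace ℝ (Fin d))
  have hac := br_rhoG_ac_restrict K g
  obtain ⟨ψ, hψ, hmin⟩ := sd_exists (rhoG K g) (br_noPlane K _ hac) R
    (br_ae_norm_le K hKc R hR _ hac) y hy m hm (by rw [hsum]; simp)
  refine ⟨ψ, hψ, fun ψ' => ?_⟩
  rw [lagJ_eq_sdJ, lagJ_eq_sdJ]
  exact hmin ψ'

/-- Statement of the skeleton's `sd_exists`. -/
theorem sd_exists_rhoG [Nonempty ι] (K : Set (EuclideanSpace ℝ (Fin d))) (hKc : IsCompact K)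
    (hKv : Convex ℝ K) (hKi : (interior K).Nonempty) (g : EuclideanSpace ℝ (Fin d) → ℝ)
    (hg : IsPert K g) (y : ι → EuclideanSpace ℝ (Fin d)) (hy : Function.Injective y)
    (m : ι → ℝ) (hm : ∀ i, 0 < m i) (hsum : ∑ i, m i = 1) :
    ∃ ψ : ι → ℝ, IsLagOpt (rhoG K g) y m ψ := by
  obtain ⟨ψ, hψ, -⟩ := sd_exists_rhoG_min K hKc hKi g hg y hy m hm hsum
  exact ⟨ψ, hψ⟩

/-! ### Uniqueness -/

/-- Uniqueness modulo constants for any finite measure equivalent to Lebesgue measure on `K`. -/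
theorem sd_unique_K [Nonempty ι] (K : Set (EuclideanSpace ℝ (Fin d))) (hKc : IsCompact K)
    (hKv : Convex ℝ K) (ν : Measure (EuclideanSpace ℝ (Fin d))) [IsFiniteMeasure ν]
    (h1 : ν ≪ (volume : Measure (EuclideanSpace ℝ (Fin d))).restrict K)
    (h2 : (volume : Measure (EuclideanSpace ℝ (Fin d))).restrict K ≪ ν)
    (y : ι → EuclideanSpace ℝ (Fin d)) (hy : Function.Injective y)
    (m : ι → ℝ) (hm : ∀ i, 0 < m i) (ψ ψ' : ι → ℝ)
    (h : ∀ i, ν (sdCell y ψ i) = ENNReal.ofReal (m i))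
    (h' : ∀ i, ν (sdCell y ψ' i) = ENNReal.ofReal (m i)) :
    ∃ c : ℝ, ∀ i, ψ' i = ψ i + c := by
  obtain ⟨R, hR⟩ := hKc.isBounded.subset_closedBall (0 : EuclideanSpace ℝ (Fin d))
  refine sd_unique ν (br_noPlane K ν h1) R (br_ae_norm_le K hKc R hR ν h1) (interior K)
    isOpen_interior hKv.interior.isPreconnected
    (h1 (sd_restrict_compl_interior volume K hKv))
    ((sdPosOn_restrict volume K).of_ac h2) y hy m hm ψ ψ' (fun i => ?_) (fun i => ?_)
  · rw [measureReal_def, h i, ENNReal.toReal_ofReal (hm i).le]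
  · rw [measureReal_def, h' i, ENNReal.toReal_ofReal (hm i).le]

/-- Statement of the skeleton's `sd_unique`. -/
theorem sd_unique_rhoG [Nonempty ι] (K : Set (EuclideanSpace ℝ (Fin d))) (hKc : IsCompact K)
    (hKv : Convex ℝ K) (hKi : (interior K).Nonempty) (g : EuclideanSpace ℝ (Fin d) → ℝ)
    (hg : IsPert K g) (y : ι → EuclideanSpace ℝ (Fin d)) (hy : Function.Injective y)
    (m : ι → ℝ) (hm : ∀ i, 0 < m i) (ψ ψ' : ι → ℝ)
    (h : IsLagOpt (rhoG K g) y m ψ) (h' : IsLagOpt (rhoG K g) y m ψ') :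
    ∃ c : ℝ, ∀ i, ψ' i = ψ i + c := by
  haveI := br_rhoG_isProb K hKc hKi g hg
  exact sd_unique_K K hKc hKv (rhoG K g) (br_rhoG_ac_restrict K g)
    (br_restrict_ac_rhoG K hKc g hg) y hy m hm ψ ψ' h h'

end Crest.Agent.S0109.SDA
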