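import Crest.Agent.S0109.Cells

/-!
Row 82 (S0109) job SD-UNIQ. Statement FROZEN; one owner.
-/

set_option autoImplicit false
open MeasureTheory Filter
open scoped ENNReal NNReal Topology
open Crest.AnalysisR.OT

namespace Crest.Agent.S0109

variable {d : ℕ} {ι : Type} [Fintype ι]

/-- Uniqueness modulo constants (job SD-UNIQ).
Proof: shift so that `min (ψ' - ψ) = 0`, attained exactly on `Z ⊆ ι`.  For `i ∈ Z`:
`lagCellS y ψ i ⊆ lagCellS y ψ' i`.  If `Z ≠ univ`, the continuous function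
`h = max_{k ∉ Z} (⟪x,y k⟫ - ψ k) - max_{i ∈ Z} (⟪x,y i⟫ - ψ i)` takes values `≤ 0` and `> 0` on the
convex set `interior K` (both kinds of cells have positive mass), hence `{0 < h < δ}` is a nonempty
open subset of `interior K`, of positive mass, contained in the `ψ'`-cells of `Z` but not in the
`ψ`-cells of `Z`: contradiction with equal masses. -/
theorem sd_unique [Nonempty ι] (K : Set (EuclideanSpace ℝ (Fin d))) (hKc : IsCompact K)
    (hKv : Convex ℝ K) (hKi : (interior K).Nonempty) (g : EuclideanSpace ℝ (Fin d) → ℝ)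
    (hg : IsPert K g) (y : ι → EuclideanSpace ℝ (Fin d)) (hy : Function.Injective y)
    (m : ι → ℝ) (hm : ∀ i, 0 < m i) (ψ ψ' : ι → ℝ)
    (h : IsLagOpt (rhoG K g) y m ψ) (h' : IsLagOpt (rhoG K g) y m ψ') :
    ∃ c : ℝ, ∀ i, ψ' i = ψ i + c := by
  classical
  set ρ : Measure (EuclideanSpace ℝ (Fin d)) := rhoG K g with hρ
  have : IsProbabilityMeasure ρ := rhoG_isProb K hKc hKi g hg
  have hac : ρ ≪ volume := (rhoG_ac K g).trans (uniformProbOn_ac K)
  have hint0 : ρ (interior K)ᶜ = 0 := rhoG_ac K g (uniformProbOn_interior K hKc hKv)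
  set δ : ι → ℝ := fun i => ψ' i - ψ i with hδ
  obtain ⟨i₀, -, hi₀⟩ := Finset.exists_min_image Finset.univ δ Finset.univ_nonempty
  set c : ℝ := δ i₀ with hc
  refine ⟨c, fun j => ?_⟩
  by_contra hne
  set Zs : Finset ι := Finset.univ.filter (fun i => δ i = c) with hZs
  set Ns : Finset ι := Finset.univ.filter (fun i => δ i ≠ c) with hNs
  have hi₀Z : i₀ ∈ Zs := by simp [hZs, hc]
  have hZne : Zs.Nonempty := ⟨i₀, hi₀Z⟩
  have hjN : j ∈ Ns := by
    simp only [hNs, Finset.mem_filter, Finset.mem_univ, true_and]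
    intro hj
    apply hne
    simp only [hδ] at hj
    linarith
  have hNne : Ns.Nonempty := ⟨j, hjN⟩
  obtain ⟨k₀, hk₀, hk₀min⟩ := Finset.exists_min_image Ns δ hNne
  set ε : ℝ := δ k₀ - c with hε
  have hεpos : 0 < ε := by
    have h1 : c ≤ δ k₀ := hi₀ k₀ (Finset.mem_univ _)
    have h2 : δ k₀ ≠ c := (Finset.mem_filter.1 hk₀).2
    have h3 : c < δ k₀ := lt_of_le_of_ne h1 (Ne.symm h2)
    simp only [hε]
    linarith
  have hδN : ∀ k ∈ Ns, c + ε ≤ δ k := fun k hk => by
    have := hk₀min k hk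
    simp only [hε]
    linarith
  have hδZ : ∀ i ∈ Zs, δ i = c := fun i hi => (Finset.mem_filter.1 hi).2
  have hδge : ∀ k, c ≤ δ k := fun k => hi₀ k (Finset.mem_univ _)
  have hZN : ∀ i ∈ Zs, ∀ k ∈ Ns, k ≠ i := by
    intro i hi k hk hki
    subst hki
    exact (Finset.mem_filter.1 hk).2 (hδZ _ hi)
  have hZorN : ∀ k, k ∈ Zs ∨ k ∈ Ns := by
    intro k
    by_cases hk : δ k = c
    · exact Or.inl (by simp [hZs, hk])
    · exact Or.inr (by simp [hNs, hk])
  -- the two partial maxima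
  set a : EuclideanSpace ℝ (Fin d) → ℝ :=
    fun x => Zs.sup' hZne (fun i => inner ℝ x (y i) - ψ i) with ha
  set b : EuclideanSpace ℝ (Fin d) → ℝ :=
    fun x => Ns.sup' hNne (fun k => inner ℝ x (y k) - ψ k) with hb
  have hac' : Continuous a :=
    Continuous.finset_sup'_apply hZne (fun i _ => by fun_prop)
  have hbc : Continuous b :=
    Continuous.finset_sup'_apply hNne (fun i _ => by fun_prop)
  set hf : EuclideanSpace ℝ (Fin d) → ℝ := fun x => b x - a x with hhf
  have hcont : Continuous hf := hbc.sub hac'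
  have hle_a : ∀ x, ∀ i ∈ Zs, inner ℝ x (y i) - ψ i ≤ a x := fun x i hi =>
    Finset.le_sup' (fun i => inner ℝ x (y i) - ψ i) hi
  have hle_b : ∀ x, ∀ k ∈ Ns, inner ℝ x (y k) - ψ k ≤ b x := fun x k hk =>
    Finset.le_sup' (fun k => inner ℝ x (y k) - ψ k) hk
  have hneg : ∀ i ∈ Zs, ∀ x ∈ lagCellS y ψ i, hf x < 0 := by
    intro i hi x hx
    have h1 := hle_a x i hi
    have h2 : b x < inner ℝ x (y i) - ψ i := by
      simp only [hb]
      rw [Finset.sup'_lt_iff]
      intro k hk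
      exact hx k (hZN i hi k hk)
    simp only [hhf]
    linarith
  have hpos : ∀ k ∈ Ns, ∀ x ∈ lagCellS y ψ k, 0 < hf x := by
    intro k hk x hx
    have h1 := hle_b x k hk
    have h2 : a x < inner ℝ x (y k) - ψ k := by
      simp only [ha]
      rw [Finset.sup'_lt_iff]
      intro i hi
      exact hx i (fun hik => hZN i hi k hk hik.symm)
    simp only [hhf]
    linarith
  -- every strict cell of `ψ` meets the interior of `K`
  have hpt : ∀ l, ∃ x, x ∈ lagCellS y ψ l ∩ interior K := by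
    intro l
    have hmass : ρ (lagCellS y ψ l) = ENNReal.ofReal (m l) := h l
    have hle : ρ (lagCellS y ψ l) ≤ ρ (lagCellS y ψ l ∩ interior K) + ρ (interior K)ᶜ := by
      refine (measure_mono ?_).trans (measure_union_le _ _)
      intro x hx
      by_cases hxK : x ∈ interior K
      · exact Or.inl ⟨hx, hxK⟩
      · exact Or.inr hxK
    rw [hint0, add_zero, hmass] at hle
    have hposm : 0 < ρ (lagCellS y ψ l ∩ interior K) :=
      lt_of_lt_of_le (ENNReal.ofReal_pos.2 (hm l)) hle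
    exact nonempty_of_measure_ne_zero hposm.ne'
  obtain ⟨p, hpC, hpK⟩ := hpt i₀
  obtain ⟨q, hqC, hqK⟩ := hpt k₀
  have hp0 : hf p < 0 := hneg i₀ hi₀Z p hpC
  have hq0 : 0 < hf q := hpos k₀ hk₀ q hqC
  -- intermediate value theorem on the convex set `interior K`
  set v : ℝ := min (ε / 2) (hf q) with hv
  have hv0 : 0 < v := lt_min (by linarith) hq0
  have hvε : v < ε := lt_of_le_of_lt (min_le_left _ _) (by linarith)
  have hconn : IsPreconnected (interior K) := hKv.interior.isPreconnected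
  obtain ⟨r, hrK, hrv⟩ := hconn.intermediate_value hpK hqK hcont.continuousOn
    (show v ∈ Set.Icc (hf p) (hf q) from ⟨by linarith, min_le_right _ _⟩)
  set W : Set (EuclideanSpace ℝ (Fin d)) := {x | 0 < hf x ∧ hf x < ε} with hW
  have hWo : IsOpen W :=
    (isOpen_lt continuous_const hcont).inter (isOpen_lt hcont continuous_const)
  have hWne : (W ∩ interior K).Nonempty :=
    ⟨r, ⟨by rw [hrv]; exact hv0, by rw [hrv]; exact hvε⟩, hrK⟩
  have hWpos : 0 < ρ W := by
    have h1 := uniformProbOn_pos_of_open K hKc hKi W hWo hWne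
    have h2 := (rhoG_measure_le K g hg W hWo.measurableSet).2
    rcases eq_or_ne (ρ W) 0 with h0 | h0
    · rw [hρ] at h0
      rw [h0, mul_zero] at h2
      exact absurd h1 (not_lt.2 h2)
    · exact pos_iff_ne_zero.2 h0
  -- `W` is covered by the closed `ψ'`-cells of `Zs`
  have hWsub : W ⊆ ⋃ i ∈ Zs, lagCell y ψ' i := by
    intro x hx
    obtain ⟨i, hi, hia⟩ := Finset.exists_mem_eq_sup' hZne (fun i => inner ℝ x (y i) - ψ i)
    have hia' : a x = inner ℝ x (y i) - ψ i := hia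
    refine Set.mem_biUnion hi ?_
    intro k
    have hδi : ψ' i - ψ i = c := hδZ i hi
    rcases hZorN k with hk | hk
    · have h1 := hle_a x k hk
      have h2 : ψ' k - ψ k = c := hδZ k hk
      linarith
    · have h1 := hle_b x k hk
      have h2 : c + ε ≤ ψ' k - ψ k := hδN k hk
      have h3 : b x - a x < ε := hx.2
      linarith
  -- the strict `ψ`-cells of `Zs` are contained in the closed `ψ'`-cells
  have hUsub : (⋃ i ∈ Zs, lagCellS y ψ i) ⊆ ⋃ i ∈ Zs, lagCell y ψ' i := by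
    intro x hx
    obtain ⟨i, hi, hxi⟩ := Set.mem_iUnion₂.1 hx
    refine Set.mem_biUnion hi ?_
    intro k
    have hδi : ψ' i - ψ i = c := hδZ i hi
    by_cases hki : k = i
    · subst hki; exact le_rfl
    · have h1 := hxi k hki
      have h2 : c ≤ ψ' k - ψ k := hδge k
      linarith
  have hWdisj : Disjoint W (⋃ i ∈ Zs, lagCellS y ψ i) := by
    rw [Set.disjoint_left]
    intro x hxW hxU
    obtain ⟨i, hi, hxi⟩ := Set.mem_iUnion₂.1 hxU
    have := hneg i hi x hxi
    have := hxW.1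
    linarith
  have hUmeas : MeasurableSet (⋃ i ∈ Zs, lagCellS y ψ i) :=
    Finset.measurableSet_biUnion _ fun i _ => lag_measurableSet_cellS y ψ i
  have hUmass : ρ (⋃ i ∈ Zs, lagCellS y ψ i) = ∑ i ∈ Zs, ENNReal.ofReal (m i) := by
    rw [measure_biUnion_finset
      (fun i _ k _ hik => lag_cellS_disjoint y ψ i k hik)
      (fun i _ => lag_measurableSet_cellS y ψ i)]
    exact Finset.sum_congr rfl fun i _ => h i
  have hU'mass : ρ (⋃ i ∈ Zs, lagCell y ψ' i) ≤ ∑ i ∈ Zs, ENNReal.ofReal (m i) := by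
    refine (measure_biUnion_finset_le Zs _).trans (le_of_eq ?_)
    refine Finset.sum_congr rfl fun i _ => ?_
    rw [lag_measure_cell_eq y hy ψ' ρ hac i]
    exact h' i
  have hsum : ρ W + ρ (⋃ i ∈ Zs, lagCellS y ψ i) ≤ ρ (⋃ i ∈ Zs, lagCellS y ψ i) := by
    rw [← measure_union hWdisj hUmeas]
    calc ρ (W ∪ ⋃ i ∈ Zs, lagCellS y ψ i) ≤ ρ (⋃ i ∈ Zs, lagCell y ψ' i) :=
          measure_mono (Set.union_subset hWsub hUsub)
      _ ≤ ∑ i ∈ Zs, ENNReal.ofReal (m i) := hU'mass
      _ = ρ (⋃ i ∈ Zs, lagCellS y ψ i) := hUmass.symm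
  have hfin : ρ (⋃ i ∈ Zs, lagCellS y ψ i) ≠ ⊤ := measure_ne_top _ _
  have hW0 : ρ W = 0 := by
    by_contra hW0
    have : ρ (⋃ i ∈ Zs, lagCellS y ψ i) < ρ W + ρ (⋃ i ∈ Zs, lagCellS y ψ i) := by
      conv_lhs => rw [← zero_add (ρ (⋃ i ∈ Zs, lagCellS y ψ i))]
      exact ENNReal.add_lt_add_right hfin (pos_iff_ne_zero.2 hW0)
    exact absurd hsum (not_le.2 this)
  exact absurd hWpos (by rw [hW0]; exact lt_irrefl _)

end Crest.Agent.S0109
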